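import Mathlib

/-! Affine spaces with coordinates, polynomial functions, Zariski closure, integral points. -/

namespace Vale.Agent.P002b

open Matrix

/-- A set with a family of coordinate functions with values in `K`. -/
class Aff (K : Type) (X : Type) where
  ι : Type
  co : ι → X → K

instance affK (K : Type) : Aff K K := ⟨Unit, fun _ x => x⟩

instance affProd (K X Y : Type) [Aff K X] [Aff K Y] : Aff K (X × Y) :=
  ⟨Aff.ι K X ⊕ Aff.ι K Y, Sum.elim (fun i x => Aff.co i x.1) (fun i x => Aff.co i x.2)⟩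

instance affPi (K σ Y : Type) [Aff K Y] : Aff K (σ → Y) :=
  ⟨σ × Aff.ι K Y, fun i x => Aff.co i.2 (x i.1)⟩

instance affMat (K m n : Type) : Aff K (Matrix m n K) := ⟨m × n, fun i A => A i.1 i.2⟩

section defs

variable (O K : Type) [CommRing O] [Field K] [Algebra O K]

/-- Polynomial functions. -/
def pol (X : Type) [Aff K X] : Subalgebra K (X → K) :=
  Algebra.adjoin K (Set.range (Aff.co : Aff.ι K X → X → K))

variable {X Y Z : Type} [Aff K X] [Aff K Y] [Aff K Z]

/-- Integral points: all coordinates come from `O`. -/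
def IsInt (x : X) : Prop := ∀ i : Aff.ι K X, Aff.co i x ∈ (algebraMap O K).range

/-- Zariski closure. -/
def cl (S : Set X) : Set X := {x | ∀ f ∈ pol K X, (∀ y ∈ S, f y = 0) → f x = 0}

/-- `x` lies in the closure of the integral points of `S`. -/
def Gd (S : Set X) (x : X) : Prop := x ∈ cl K {y | y ∈ S ∧ IsInt O K y}

/-- The integral points of `S` are dense in `S`. -/
def Dn (S : Set X) : Prop := ∀ x ∈ S, Gd O K S x

/-- Integral constants, found by instance search. -/
class IntC (x : X) : Prop where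
  out : IsInt O K x

/-- Polynomial maps. -/
@[fun_prop]
def IsP (f : X → Y) : Prop := ∀ i : Aff.ι K Y, (fun x => Aff.co i (f x)) ∈ pol K X

/-- Polynomial maps that send integral points to integral points. -/
@[fun_prop]
def PM (f : X → Y) : Prop := IsP K f ∧ ∀ x, IsInt O K x → IsInt O K (f x)

end defs

section basic

variable {O K : Type} [CommRing O] [Field K] [Algebra O K]
variable {X Y Z : Type} [Aff K X] [Aff K Y] [Aff K Z]

lemma isP_iff {f : X → K} : IsP K f ↔ f ∈ pol K X :=
  ⟨fun h => h (), fun h _ => h⟩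

lemma IsP.comp_pol {f : X → Y} (hf : IsP K f) {g : Y → K} (hg : g ∈ pol K Y) :
    (fun x => g (f x)) ∈ pol K X := by
  induction hg using Algebra.adjoin_induction with
  | mem g hg => obtain ⟨i, rfl⟩ := hg; exact hf i
  | algebraMap r => exact (pol K X).algebraMap_mem r
  | add g h _ _ a b => exact (pol K X).add_mem a b
  | mul g h _ _ a b => exact (pol K X).mul_mem a b

lemma co_mem_pol (i : Aff.ι K X) : (Aff.co i : X → K) ∈ pol K X :=
  Algebra.subset_adjoin ⟨i, rfl⟩

@[fun_prop] lemma IsP.id : IsP K (fun x : X => x) := fun i => co_mem_pol i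

@[fun_prop] lemma IsP.const (y : Y) : IsP K (fun _ : X => y) := fun i =>
  (pol K X).algebraMap_mem (Aff.co i y)

@[fun_prop] lemma IsP.comp {f : Y → Z} {g : X → Y} (hf : IsP K f) (hg : IsP K g) :
    IsP K (fun x => f (g x)) := fun i => hg.comp_pol (hf i)

@[fun_prop] lemma IsP.apply {σ : Type} (a : σ) : IsP K (fun x : σ → Y => x a) := fun i =>
  co_mem_pol (K := K) (X := σ → Y) (a, i)

@[fun_prop] lemma IsP.pi {σ : Type} {f : X → σ → Y} (hf : ∀ a, IsP K (fun x => f x a)) :
    IsP K (fun x a => f x a) := fun i => hf i.1 i.2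

@[fun_prop] lemma IsP.fst {f : X → Y × Z} (hf : IsP K f) : IsP K (fun x => (f x).1) :=
  fun i => hf (Sum.inl i)

@[fun_prop] lemma IsP.snd {f : X → Y × Z} (hf : IsP K f) : IsP K (fun x => (f x).2) :=
  fun i => hf (Sum.inr i)

@[fun_prop] lemma IsP.prodMk {f : X → Y} {g : X → Z} (hf : IsP K f) (hg : IsP K g) :
    IsP K (fun x => (f x, g x)) := fun i => by
  cases i with
  | inl i => exact hf i
  | inr i => exact hg i

@[fun_prop] lemma IsP.add {f g : X → K} (hf : IsP K f) (hg : IsP K g) :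
    IsP K (fun x => f x + g x) := isP_iff.2 ((pol K X).add_mem (isP_iff.1 hf) (isP_iff.1 hg))

@[fun_prop] lemma IsP.mul {f g : X → K} (hf : IsP K f) (hg : IsP K g) :
    IsP K (fun x => f x * g x) := isP_iff.2 ((pol K X).mul_mem (isP_iff.1 hf) (isP_iff.1 hg))

@[fun_prop] lemma IsP.neg {f : X → K} (hf : IsP K f) : IsP K (fun x => - f x) :=
  isP_iff.2 ((pol K X).neg_mem (isP_iff.1 hf))

@[fun_prop] lemma IsP.sub {f g : X → K} (hf : IsP K f) (hg : IsP K g) :
    IsP K (fun x => f x - g x) := isP_iff.2 ((pol K X).sub_mem (isP_iff.1 hf) (isP_iff.1 hg))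

@[fun_prop] lemma IsP.pow {f : X → K} (hf : IsP K f) (k : ℕ) : IsP K (fun x => f x ^ k) :=
  isP_iff.2 ((pol K X).pow_mem (isP_iff.1 hf) k)

@[fun_prop] lemma IsP.sum {α : Type} (s : Finset α) {f : α → X → K} (hf : ∀ a, IsP K (f a)) :
    IsP K (fun x => ∑ a ∈ s, f a x) := by
  have := (pol K X).sum_mem (t := s) fun a _ => isP_iff.1 (hf a)
  rw [isP_iff]
  have e : (fun x => ∑ a ∈ s, f a x) = ∑ a ∈ s, f a := by ext x; simp
  rw [e]; exact this

@[fun_prop] lemma IsP.prod {α : Type} (s : Finset α) {f : α → X → K} (hf : ∀ a, IsP K (f a)) :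
    IsP K (fun x => ∏ a ∈ s, f a x) := by
  have := (pol K X).prod_mem (t := s) fun a _ => isP_iff.1 (hf a)
  rw [isP_iff]
  have e : (fun x => ∏ a ∈ s, f a x) = ∏ a ∈ s, f a := by ext x; simp
  rw [e]; exact this

variable {l m n : Type}

lemma isP_mat {f : X → Matrix m n K} : IsP K f ↔ ∀ i j, IsP K (fun x => f x i j) :=
  ⟨fun h i j _ => h (i, j), fun h i => h i.1 i.2 ()⟩

lemma IsP.entry {f : X → Matrix m n K} (hf : IsP K f) (i : m) (j : n) :
    IsP K (fun x => f x i j) := isP_mat.1 hf i j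

@[fun_prop] lemma IsP.madd {f g : X → Matrix m n K} (hf : IsP K f) (hg : IsP K g) :
    IsP K (fun x => f x + g x) := isP_mat.2 fun i j => (hf.entry i j).add (hg.entry i j)

@[fun_prop] lemma IsP.msub {f g : X → Matrix m n K} (hf : IsP K f) (hg : IsP K g) :
    IsP K (fun x => f x - g x) := isP_mat.2 fun i j => (hf.entry i j).sub (hg.entry i j)

@[fun_prop] lemma IsP.mneg {f : X → Matrix m n K} (hf : IsP K f) :
    IsP K (fun x => - f x) := isP_mat.2 fun i j => (hf.entry i j).neg

@[fun_prop] lemma IsP.mmul [Fintype m] {f : X → Matrix l m K} {g : X → Matrix m n K}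
    (hf : IsP K f) (hg : IsP K g) : IsP K (fun x => f x * g x) :=
  isP_mat.2 fun i j => IsP.sum Finset.univ fun k => (hf.entry i k).mul (hg.entry k j)

@[fun_prop] lemma IsP.msmul {c : X → K} {f : X → Matrix m n K} (hc : IsP K c) (hf : IsP K f) :
    IsP K (fun x => c x • f x) := isP_mat.2 fun i j => hc.mul (hf.entry i j)

@[fun_prop] lemma IsP.det [Fintype n] [DecidableEq n] {f : X → Matrix n n K} (hf : IsP K f) :
    IsP K (fun x => (f x).det) := by
  simp only [Matrix.det_apply']
  exact IsP.sum _ fun s => (IsP.const _).mul (IsP.prod _ fun i => hf.entry _ _)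

@[fun_prop] lemma IsP.msum {α : Type} (s : Finset α) {f : α → X → Matrix m n K}
    (hf : ∀ a, IsP K (f a)) : IsP K (fun x => ∑ a ∈ s, f a x) :=
  isP_mat.2 fun i j => by
    simp only [Matrix.sum_apply]
    exact IsP.sum s fun a => (hf a).entry i j

@[fun_prop] lemma IsP.mpow [Fintype n] [DecidableEq n] {f : X → Matrix n n K} (hf : IsP K f)
    (k : ℕ) : IsP K (fun x => f x ^ k) := by
  induction k with
  | zero => simpa using IsP.const _
  | succ k ih => simpa only [pow_succ] using ih.mmul hf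

lemma IsP.list_prod [Fintype n] [DecidableEq n] {α : Type} (L : List α)
    {f : α → X → Matrix n n K} (hf : ∀ a ∈ L, IsP K (f a)) :
    IsP K (fun x => (L.map fun a => f a x).prod) := by
  induction L with
  | nil => simpa using IsP.const _
  | cons a L ih =>
    simpa only [List.map_cons, List.prod_cons] using
      (hf a (by simp)).mmul (ih fun b hb => hf b (by simp [hb]))

@[fun_prop] lemma IsP.ofFn_prod [Fintype n] [DecidableEq n] {k : ℕ}
    {f : Fin k → X → Matrix n n K} (hf : ∀ a, IsP K (f a)) :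
    IsP K (fun x => (List.ofFn fun a => f a x).prod) := by
  simpa only [List.ofFn_eq_map] using IsP.list_prod (List.finRange k) fun a _ => hf a

@[fun_prop] lemma IsP.submatrix {m' n' : Type} {f : X → Matrix m n K} (hf : IsP K f)
    (a : m' → m) (b : n' → n) : IsP K (fun x => (f x).submatrix a b) :=
  isP_mat.2 fun i j => hf.entry (a i) (b j)

@[fun_prop] lemma IsP.transpose {f : X → Matrix m n K} (hf : IsP K f) :
    IsP K (fun x => (f x)ᵀ) := isP_mat.2 fun i j => hf.entry j i

@[fun_prop] lemma IsP.diagonal [DecidableEq n] {f : X → n → K} (hf : IsP K f) :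
    IsP K (fun x => Matrix.diagonal (f x)) := isP_mat.2 fun i j => by
  by_cases h : i = j
  · subst h; simpa using (IsP.apply i).comp hf
  · simpa [Matrix.diagonal_apply_ne _ h] using IsP.const _

@[fun_prop] lemma IsP.fromBlocks {m' n' : Type} {a : X → Matrix m n K} {b : X → Matrix m n' K}
    {c : X → Matrix m' n K} {d : X → Matrix m' n' K} (ha : IsP K a) (hb : IsP K b)
    (hc : IsP K c) (hd : IsP K d) : IsP K (fun x => Matrix.fromBlocks (a x) (b x) (c x) (d x)) :=
  isP_mat.2 fun i j => by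
    rcases i with i | i <;> rcases j with j | j
    exacts [ha.entry i j, hb.entry i j, hc.entry i j, hd.entry i j]

@[fun_prop] lemma IsP.adjugate [Fintype n] [DecidableEq n] {f : X → Matrix n n K}
    (hf : IsP K f) : IsP K (fun x => (f x).adjugate) := isP_mat.2 fun i j => by
  simp only [Matrix.adjugate_apply]
  refine IsP.det (isP_mat.2 fun a b => ?_)
  by_cases h : a = j
  · simpa [Matrix.updateRow_apply, h] using IsP.const _
  · simpa [Matrix.updateRow_apply, h] using hf.entry a b

lemma IsP.ite {f g : X → Y} (p : Prop) [Decidable p] (hf : IsP K f) (hg : IsP K g) :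
    IsP K (fun x => if p then f x else g x) := by
  by_cases h : p <;> simpa [h]

@[fun_prop] lemma IsP.update {σ : Type} [DecidableEq σ] {f : X → σ → Y} {g : X → Y} (a : σ)
    (hf : IsP K f) (hg : IsP K g) : IsP K (fun x => Function.update (f x) a (g x)) :=
  IsP.pi fun b => by
    by_cases h : b = a
    · subst h; simpa using hg
    · simpa [Function.update_of_ne h] using (IsP.apply b).comp hf

@[fun_prop] lemma IsP.finCons {k : ℕ} {f : X → Y} {g : X → Fin k → Y} (hf : IsP K f)
    (hg : IsP K g) : IsP K (fun x => (Fin.cons (f x) (g x) : Fin (k + 1) → Y)) :=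
  IsP.pi fun b => by
    refine Fin.cases ?_ (fun b => ?_) b
    · simpa using hf
    · simpa using (IsP.apply b).comp hg

/-! ### Integral points -/

lemma isInt_K {x : K} : IsInt O K x ↔ x ∈ (algebraMap O K).range := ⟨fun h => h (), fun h _ => h⟩

lemma isInt_mat {A : Matrix m n K} : IsInt O K A ↔ ∀ i j, IsInt O K (A i j) :=
  ⟨fun h i j _ => h (i, j), fun h i => h i.1 i.2 ()⟩

lemma isInt_pi {σ : Type} {x : σ → Y} : IsInt O K x ↔ ∀ a, IsInt O K (x a) :=
  ⟨fun h a i => h (a, i), fun h i => h i.1 i.2⟩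

lemma isInt_prod {x : Y × Z} : IsInt O K x ↔ IsInt O K x.1 ∧ IsInt O K x.2 :=
  ⟨fun h => ⟨fun i => h (Sum.inl i), fun i => h (Sum.inr i)⟩, fun h i => by
    cases i with
    | inl i => exact h.1 i
    | inr i => exact h.2 i⟩

lemma isInt_mat_iff_map {A : Matrix m n K} :
    IsInt O K A ↔ ∃ B : Matrix m n O, B.map (algebraMap O K) = A := by
  constructor
  · intro h
    choose B hB using fun i j => isInt_K.1 (isInt_mat.1 h i j)
    exact ⟨Matrix.of B, by ext i j; simpa using hB i j⟩
  · rintro ⟨B, rfl⟩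
    exact isInt_mat.2 fun i j => isInt_K.2 ⟨B i j, rfl⟩

instance intC_algebraMap (c : O) : IntC O K (algebraMap O K c) := ⟨isInt_K.2 ⟨c, rfl⟩⟩
instance intC_zero : IntC O K (0 : K) := ⟨isInt_K.2 (zero_mem _)⟩
instance intC_one : IntC O K (1 : K) := ⟨isInt_K.2 (one_mem _)⟩
instance intC_mzero : IntC O K (0 : Matrix m n K) := ⟨isInt_mat.2 fun _ _ => intC_zero.out⟩
instance intC_mone [DecidableEq n] : IntC O K (1 : Matrix n n K) :=
  ⟨isInt_mat.2 fun i j => by
    rw [Matrix.one_apply]; split_ifs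
    exacts [intC_one.out, intC_zero.out]⟩

@[fun_prop] lemma PM.id : PM O K (fun x : X => x) := ⟨IsP.id, fun _ h => h⟩

@[fun_prop] lemma PM.const (y : Y) [hy : IntC O K y] : PM O K (fun _ : X => y) :=
  ⟨IsP.const y, fun _ _ => hy.out⟩

@[fun_prop] lemma PM.comp {f : Y → Z} {g : X → Y} (hf : PM O K f) (hg : PM O K g) :
    PM O K (fun x => f (g x)) := ⟨hf.1.comp hg.1, fun x h => hf.2 _ (hg.2 x h)⟩

@[fun_prop] lemma PM.apply {σ : Type} (a : σ) : PM O K (fun x : σ → Y => x a) :=
  ⟨IsP.apply a, fun _ h i => h (a, i)⟩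

@[fun_prop] lemma PM.pi {σ : Type} {f : X → σ → Y} (hf : ∀ a, PM O K (fun x => f x a)) :
    PM O K (fun x a => f x a) := ⟨IsP.pi fun a => (hf a).1, fun x h i => (hf i.1).2 x h i.2⟩

@[fun_prop] lemma PM.fst {f : X → Y × Z} (hf : PM O K f) : PM O K (fun x => (f x).1) :=
  ⟨hf.1.fst, fun x h => (isInt_prod.1 (hf.2 x h)).1⟩

@[fun_prop] lemma PM.snd {f : X → Y × Z} (hf : PM O K f) : PM O K (fun x => (f x).2) :=
  ⟨hf.1.snd, fun x h => (isInt_prod.1 (hf.2 x h)).2⟩

@[fun_prop] lemma PM.prodMk {f : X → Y} {g : X → Z} (hf : PM O K f) (hg : PM O K g) :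
    PM O K (fun x => (f x, g x)) :=
  ⟨hf.1.prodMk hg.1, fun x h => isInt_prod.2 ⟨hf.2 x h, hg.2 x h⟩⟩

@[fun_prop] lemma PM.add {f g : X → K} (hf : PM O K f) (hg : PM O K g) :
    PM O K (fun x => f x + g x) :=
  ⟨hf.1.add hg.1, fun x h => isInt_K.2 (add_mem (isInt_K.1 (hf.2 x h)) (isInt_K.1 (hg.2 x h)))⟩

@[fun_prop] lemma PM.mul {f g : X → K} (hf : PM O K f) (hg : PM O K g) :
    PM O K (fun x => f x * g x) :=
  ⟨hf.1.mul hg.1, fun x h => isInt_K.2 (mul_mem (isInt_K.1 (hf.2 x h)) (isInt_K.1 (hg.2 x h)))⟩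

@[fun_prop] lemma PM.neg {f : X → K} (hf : PM O K f) : PM O K (fun x => - f x) :=
  ⟨hf.1.neg, fun x h => isInt_K.2 (neg_mem (isInt_K.1 (hf.2 x h)))⟩

@[fun_prop] lemma PM.sub {f g : X → K} (hf : PM O K f) (hg : PM O K g) :
    PM O K (fun x => f x - g x) :=
  ⟨hf.1.sub hg.1, fun x h => isInt_K.2 (sub_mem (isInt_K.1 (hf.2 x h)) (isInt_K.1 (hg.2 x h)))⟩

@[fun_prop] lemma PM.pow {f : X → K} (hf : PM O K f) (k : ℕ) : PM O K (fun x => f x ^ k) :=
  ⟨hf.1.pow k, fun x h => isInt_K.2 (pow_mem (isInt_K.1 (hf.2 x h)) k)⟩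

@[fun_prop] lemma PM.sum {α : Type} (s : Finset α) {f : α → X → K} (hf : ∀ a, PM O K (f a)) :
    PM O K (fun x => ∑ a ∈ s, f a x) :=
  ⟨IsP.sum s fun a => (hf a).1, fun x h =>
    isInt_K.2 (sum_mem fun a _ => isInt_K.1 ((hf a).2 x h))⟩

@[fun_prop] lemma PM.prod {α : Type} (s : Finset α) {f : α → X → K} (hf : ∀ a, PM O K (f a)) :
    PM O K (fun x => ∏ a ∈ s, f a x) :=
  ⟨IsP.prod s fun a => (hf a).1, fun x h =>
    isInt_K.2 (prod_mem fun a _ => isInt_K.1 ((hf a).2 x h))⟩

lemma pm_mat {f : X → Matrix m n K} : PM O K f ↔ ∀ i j, PM O K (fun x => f x i j) :=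
  ⟨fun h i j => ⟨h.1.entry i j, fun x hx => isInt_mat.1 (h.2 x hx) i j⟩,
    fun h => ⟨isP_mat.2 fun i j => (h i j).1, fun x hx => isInt_mat.2 fun i j => (h i j).2 x hx⟩⟩

lemma PM.entry {f : X → Matrix m n K} (hf : PM O K f) (i : m) (j : n) :
    PM O K (fun x => f x i j) := pm_mat.1 hf i j

@[fun_prop] lemma PM.madd {f g : X → Matrix m n K} (hf : PM O K f) (hg : PM O K g) :
    PM O K (fun x => f x + g x) := pm_mat.2 fun i j => (hf.entry i j).add (hg.entry i j)

@[fun_prop] lemma PM.msub {f g : X → Matrix m n K} (hf : PM O K f) (hg : PM O K g) :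
    PM O K (fun x => f x - g x) := pm_mat.2 fun i j => (hf.entry i j).sub (hg.entry i j)

@[fun_prop] lemma PM.mneg {f : X → Matrix m n K} (hf : PM O K f) :
    PM O K (fun x => - f x) := pm_mat.2 fun i j => (hf.entry i j).neg

@[fun_prop] lemma PM.mmul [Fintype m] {f : X → Matrix l m K} {g : X → Matrix m n K}
    (hf : PM O K f) (hg : PM O K g) : PM O K (fun x => f x * g x) :=
  pm_mat.2 fun i j => PM.sum Finset.univ fun k => (hf.entry i k).mul (hg.entry k j)

@[fun_prop] lemma PM.msmul {c : X → K} {f : X → Matrix m n K} (hc : PM O K c) (hf : PM O K f) :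
    PM O K (fun x => c x • f x) := pm_mat.2 fun i j => hc.mul (hf.entry i j)

@[fun_prop] lemma PM.msum {α : Type} (s : Finset α) {f : α → X → Matrix m n K}
    (hf : ∀ a, PM O K (f a)) : PM O K (fun x => ∑ a ∈ s, f a x) :=
  pm_mat.2 fun i j => by
    simp only [Matrix.sum_apply]
    exact PM.sum s fun a => (hf a).entry i j

@[fun_prop] lemma PM.mpow [Fintype n] [DecidableEq n] {f : X → Matrix n n K} (hf : PM O K f)
    (k : ℕ) : PM O K (fun x => f x ^ k) := by
  induction k with
  | zero => simpa using PM.const _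
  | succ k ih => simpa only [pow_succ] using ih.mmul hf

lemma PM.list_prod [Fintype n] [DecidableEq n] {α : Type} (L : List α)
    {f : α → X → Matrix n n K} (hf : ∀ a ∈ L, PM O K (f a)) :
    PM O K (fun x => (L.map fun a => f a x).prod) := by
  induction L with
  | nil => simpa using PM.const _
  | cons a L ih =>
    simpa only [List.map_cons, List.prod_cons] using
      (hf a (by simp)).mmul (ih fun b hb => hf b (by simp [hb]))

@[fun_prop] lemma PM.ofFn_prod [Fintype n] [DecidableEq n] {k : ℕ}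
    {f : Fin k → X → Matrix n n K} (hf : ∀ a, PM O K (f a)) :
    PM O K (fun x => (List.ofFn fun a => f a x).prod) := by
  simpa only [List.ofFn_eq_map] using PM.list_prod (List.finRange k) fun a _ => hf a

@[fun_prop] lemma PM.det [Fintype n] [DecidableEq n] {f : X → Matrix n n K} (hf : PM O K f) :
    PM O K (fun x => (f x).det) := by
  simp only [Matrix.det_apply']
  refine PM.sum _ fun s => PM.mul ?_ (PM.prod _ fun i => hf.entry _ _)
  exact ⟨IsP.const _, fun _ _ => isInt_K.2 (intCast_mem _ _)⟩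

@[fun_prop] lemma PM.submatrix {m' n' : Type} {f : X → Matrix m n K} (hf : PM O K f)
    (a : m' → m) (b : n' → n) : PM O K (fun x => (f x).submatrix a b) :=
  pm_mat.2 fun i j => hf.entry (a i) (b j)

@[fun_prop] lemma PM.transpose {f : X → Matrix m n K} (hf : PM O K f) :
    PM O K (fun x => (f x)ᵀ) := pm_mat.2 fun i j => hf.entry j i

@[fun_prop] lemma PM.diagonal [DecidableEq n] {f : X → n → K} (hf : PM O K f) :
    PM O K (fun x => Matrix.diagonal (f x)) := pm_mat.2 fun i j => by
  by_cases h : i = j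
  · subst h; simpa using (PM.apply i).comp hf
  · simpa [Matrix.diagonal_apply_ne _ h] using PM.const _

@[fun_prop] lemma PM.fromBlocks {m' n' : Type} {a : X → Matrix m n K} {b : X → Matrix m n' K}
    {c : X → Matrix m' n K} {d : X → Matrix m' n' K} (ha : PM O K a) (hb : PM O K b)
    (hc : PM O K c) (hd : PM O K d) :
    PM O K (fun x => Matrix.fromBlocks (a x) (b x) (c x) (d x)) :=
  pm_mat.2 fun i j => by
    rcases i with i | i <;> rcases j with j | j
    exacts [ha.entry i j, hb.entry i j, hc.entry i j, hd.entry i j]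

@[fun_prop] lemma PM.adjugate [Fintype n] [DecidableEq n] {f : X → Matrix n n K}
    (hf : PM O K f) : PM O K (fun x => (f x).adjugate) := pm_mat.2 fun i j => by
  simp only [Matrix.adjugate_apply]
  refine PM.det (pm_mat.2 fun a b => ?_)
  by_cases h : a = j
  · by_cases h' : b = i
    · simpa [Matrix.updateRow_apply, h, h'] using PM.const _
    · simpa [Matrix.updateRow_apply, h, h'] using PM.const _
  · simpa [Matrix.updateRow_apply, h] using hf.entry a b

lemma PM.ite {f g : X → Y} (p : Prop) [Decidable p] (hf : PM O K f) (hg : PM O K g) :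
    PM O K (fun x => if p then f x else g x) := by
  by_cases h : p <;> simpa [h]

@[fun_prop] lemma PM.update {σ : Type} [DecidableEq σ] {f : X → σ → Y} {g : X → Y} (a : σ)
    (hf : PM O K f) (hg : PM O K g) : PM O K (fun x => Function.update (f x) a (g x)) :=
  PM.pi fun b => by
    by_cases h : b = a
    · subst h; simpa using hg
    · simpa [Function.update_of_ne h] using (PM.apply b).comp hf

@[fun_prop] lemma PM.finCons {k : ℕ} {f : X → Y} {g : X → Fin k → Y} (hf : PM O K f)
    (hg : PM O K g) : PM O K (fun x => (Fin.cons (f x) (g x) : Fin (k + 1) → Y)) :=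
  PM.pi fun b => by
    refine Fin.cases ?_ (fun b => ?_) b
    · simpa using hf
    · simpa using (PM.apply b).comp hg

end basic

end Vale.Agent.P002b
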