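import Vale.Agent.P002b.Defs
import Vale.Agent.P002.Closed

/-! Closed surfaces of genus at least two. -/

namespace Vale.Agent.P002b

open NumberField Matrix

namespace Big

variable {n : Type} [Fintype n] [DecidableEq n] {m γ : ℕ}

def al (i : Fin (γ + 2)) : P002.Ix (γ + 1) 1 := Fin.lastCases P002.iA (fun i => P002.ia i) i
def be (i : Fin (γ + 2)) : P002.Ix (γ + 1) 1 := Fin.lastCases P002.iB (fun i => P002.ib i) i

/-- from tuples of invertible matrices to quadruples -/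
def ps {R : Type} [CommRing R] (ε : n ≃ Fin m) (q : P002.Tup (γ + 1) 1 m R) :
    Fin (γ + 2) → Qd n R := fun i =>
  ((q (al i)).val.submatrix ε ε, (q (al i))⁻¹.val.submatrix ε ε,
    (q (be i)).val.submatrix ε ε, (q (be i))⁻¹.val.submatrix ε ε)

def coR {R : Type} (y : Fin (γ + 2) → Qd n R) : Aff.ι ℂ (Fin (γ + 2) → Qd n ℂ) → R
  | (i, .inl v) => (y i).1 v.1 v.2
  | (i, .inr (.inl v)) => (y i).2.1 v.1 v.2
  | (i, .inr (.inr (.inl v))) => (y i).2.2.1 v.1 v.2
  | (i, .inr (.inr (.inr v))) => (y i).2.2.2 v.1 v.2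

omit [Fintype n] [DecidableEq n] in
lemma co_eq (y : Fin (γ + 2) → Qd n ℂ) (v) : Aff.co v y = coR y v := by
  rcases v with ⟨i, v | v | v | v⟩ <;> rfl

omit [Fintype n] [DecidableEq n] in
lemma coR_map {R S : Type} [CommRing R] [CommRing S] (φ : R →+* S) (ε : n ≃ Fin m)
    (q : P002.Tup (γ + 1) 1 m R) (v) :
    coR (ps ε (GeneralLinearGroup.map φ ∘ q)) v = φ (coR (ps ε q) v) := by
  rcases v with ⟨i, v | v | v | v⟩ <;> rfl

/-- reindexing -/
def ph (ε : n ≃ Fin m) : GL (Fin m) ℂ →* Matrix n n ℂ :=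
  (reindexAlgEquiv ℂ ℂ ε.symm).toMonoidHom.comp (Units.coeHom _)

lemma ph_apply (ε : n ≃ Fin m) (g : GL (Fin m) ℂ) : ph ε g = g.val.submatrix ε ε := rfl

lemma ph_inj (ε : n ≃ Fin m) : Function.Injective (ph ε) := fun _ _ h =>
  Units.ext ((reindexAlgEquiv ℂ ℂ ε.symm).injective h)

lemma prod_ps (ε : n ≃ Fin m) (q : P002.Tup (γ + 1) 1 m ℂ) :
    (List.ofFn fun i => cm (ps ε q i)).prod =
      ph ε (P002.pr (P002.hf q) * P002.cm (q P002.iA) (q P002.iB)) := by
  have : ∀ i, cm (ps ε q i) = ph ε (P002.cm (q (al i)) (q (be i))) := fun i => by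
    simp only [P002.cm, map_mul]; rfl
  simp only [this]
  rw [List.ofFn_succ', List.prod_concat, map_mul, P002.pr, map_list_prod, List.map_ofFn]
  simp only [al, be, Fin.lastCases_last, Fin.lastCases_castSucc]
  rfl

lemma mem_surf (ε : n ≃ Fin m) (c : ℂˣ) (q : P002.Tup (γ + 1) 1 m ℂ) :
    ps ε q ∈ Surf n ℂ (γ + 2) c.val ↔ P002.Rel (fun _ => P002.Dg fun _ => c⁻¹) q := by
  have h1 : ∀ i, QInv (ps ε q i) := fun i =>
    ⟨show ph ε (q (al i)) * ph ε (q (al i))⁻¹ = 1 by rw [← map_mul, mul_inv_cancel, map_one],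
      show ph ε (q (be i)) * ph ε (q (be i))⁻¹ = 1 by rw [← map_mul, mul_inv_cancel, map_one]⟩
  have h2 : P002.pr (P002.pf (fun _ => P002.Dg fun _ => c⁻¹) q) = (P002.Dg fun _ => c)⁻¹ := by
    have : ∀ g : GL (Fin m) ℂ, g * (P002.Dg fun _ => c⁻¹) = (P002.Dg fun _ => c)⁻¹ * g :=
      fun g => by
        ext a b
        change (g.val * diagonal (fun _ => (c⁻¹).val) : Matrix _ _ ℂ) a b =
          (diagonal (fun _ => (c⁻¹).val) * g.val : Matrix _ _ ℂ) a b
        simp [mul_comm]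
    simp [P002.pr, P002.pf, this]
  have h3 : ph ε (P002.Dg fun _ => c) = c.val • (1 : Matrix n n ℂ) := by
    ext a b
    simp [ph_apply, P002.Dg, diagonal_apply, one_apply]
  rw [Surf, Set.mem_setOf_eq, and_iff_right h1, prod_ps, P002.Rel, P002.rel, h2, mul_inv_eq_one,
    ← h3, (ph_inj ε).eq_iff]

lemma exists_ps (ε : n ≃ Fin m) (x : Fin (γ + 2) → Qd n ℂ) (hx : ∀ i, QInv (x i)) :
    ∃ p : P002.Tup (γ + 1) 1 m ℂ, ps ε p = x := by
  have key : ∀ a a' : Matrix n n ℂ, a * a' = 1 → ∃ g : GL (Fin m) ℂ,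
      g.val.submatrix ε ε = a ∧ g⁻¹.val.submatrix ε ε = a' := fun a a' h =>
    ⟨⟨a.submatrix ε.symm ε.symm, a'.submatrix ε.symm ε.symm, by simp [h],
      by simp [mul_eq_one_comm.1 h]⟩, by simp, by simp⟩
  choose a ha ha' using fun i => key _ _ (hx i).1
  choose b hb hb' using fun i => key _ _ (hx i).2
  let p : P002.Tup (γ + 1) 1 m ℂ := Sum.elim (Sum.elim (fun i => a i.castSucc)
    (Sum.elim (fun i => b i.castSucc) 1)) fun t => if t then b (Fin.last _) else a (Fin.last _)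
  have h1 : ∀ i, p (al i) = a i := fun i => by
    refine Fin.lastCases ?_ (fun i => ?_) i <;> simp [al, p]
  have h2 : ∀ i, p (be i) = b i := fun i => by
    refine Fin.lastCases ?_ (fun i => ?_) i <;> simp [be, p]
  exact ⟨p, funext fun i => by simp only [ps, h1, h2, ha, ha', hb, hb']⟩

lemma dn_surf {O : Type} [CommRing O] [Algebra O ℂ] (hm : 2 ≤ m) (hU : P002.HU (P002.GO O m))
    (ω : Oˣ) (hω : IsPrimitiveRoot (algebraMap O ℂ ω) m) (ε : n ≃ Fin m) (c : ℂ) :
    Dn O ℂ (Surf n ℂ (γ + 2) c) := by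
  intro x hx f hf h0
  obtain ⟨p, rfl⟩ := exists_ps ε x hx.1
  have hc : c ^ m = 1 := by
    have h1 := congrArg det hx.2
    rw [prod_ps, det_smul, det_one, mul_one, ph_apply, det_submatrix_equiv_self,
      Fintype.card_congr ε, Fintype.card_fin] at h1
    have h2 := P002.det_rel (k := ℂ) (fun _ => 1) (by simp) p
    rw [P002.Jm_self, P002.rel] at h2
    rw [← h1, ← h2]
    simp [P002.pr, P002.pf]
  obtain ⟨c, rfl⟩ : IsUnit c := IsUnit.of_pow_eq_one hc (by omega)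
  obtain ⟨P, hP⟩ := pol_iff_mv.1 hf
  have key : ∀ q : P002.Tup (γ + 1) 1 m ℂ, P002.cl ℂ q
      (MvPolynomial.aeval (coR (ps ε (P002.up (γ + 1) 1 m ℂ))) P) = f (ps ε q) := by
    intro q
    rw [hP, ← AlgHom.comp_apply, MvPolynomial.comp_aeval, MvPolynomial.aeval_eq_eval]
    congr 2
    ext v
    rw [co_eq, ← P002.gm_cl_up (k := ℂ) q, P002.cl_gm_up]
    exact (coR_map _ ε _ v).symm
  rw [← key]
  refine P002.closed_core hm hU ω hω c⁻¹ (by rw [inv_pow, inv_eq_one]; exact Units.ext hc) 0 p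
    ((mem_surf ε c p).1 hx) _ fun q hq => ?_
  rw [key]
  refine h0 _ ⟨(mem_surf ε c q).2 hq.2, fun v => ?_⟩
  choose q0 hq0 using hq.1
  rw [co_eq, ← funext hq0]
  exact ⟨_, (coR_map _ ε q0 v).symm⟩

end Big

theorem exists_big (r : ℕ) : ∃ L : IntermediateField ℚ ℂ, FiniteDimensional ℚ L ∧
    ∀ L' : IntermediateField ℚ ℂ, L ≤ L' → FiniteDimensional ℚ L' → BigS (𝓞 L') ℂ r := by
  have hN : 8 * r.factorial ≠ 0 := by positivity
  have hζ := Complex.isPrimitiveRoot_exp _ hN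
  generalize Complex.exp _ = ζ at hζ
  have hi : IsIntegral ℤ ζ := hζ.isIntegral (Nat.pos_of_ne_zero hN)
  refine ⟨IntermediateField.adjoin ℚ {ζ},
    IntermediateField.adjoin.finiteDimensional hi.tower_top, fun L hL _ n _ _ h2 hr γ c => ?_⟩
  have : NumberField L := {}
  let z : L := ⟨ζ, hL (IntermediateField.mem_adjoin_simple_self ℚ ζ)⟩
  have hz : IsPrimitiveRoot z (8 * r.factorial) :=
    IsPrimitiveRoot.of_map_of_injective (f := algebraMap L ℂ) hζ (algebraMap L ℂ).injective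
  have h8 : IsPrimitiveRoot (z ^ r.factorial) 8 := hz.pow (Nat.pos_of_ne_zero hN) (mul_comm _ _)
  have h3 : 3 ≤ Module.finrank ℚ L := by
    have h4 := minpoly.natDegree_le (A := ℚ) (z ^ r.factorial)
    rw [← Polynomial.cyclotomic_eq_minpoly_rat h8 (by norm_num), Polynomial.natDegree_cyclotomic,
      show Nat.totient 8 = 4 by decide] at h4
    omega
  have h4 : ((z ^ r.factorial) ^ 2) ^ 2 = -1 := by
    rw [← pow_mul]
    exact (h8.pow (by norm_num) (show 8 = 2 * 2 * 2 by norm_num)).eq_neg_one_of_two_right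
  obtain ⟨d, hd⟩ : Fintype.card n ∣ 8 * r.factorial :=
    (Nat.dvd_factorial (by omega) hr).mul_left 8
  have h5 : IsPrimitiveRoot (z ^ d) (Fintype.card n) :=
    hz.pow (Nat.pos_of_ne_zero hN) (hd.trans (mul_comm _ _))
  have : NeZero (Fintype.card n) := ⟨by omega⟩
  have h6 : IsUnit h5.toInteger := h5.toInteger_isPrimitiveRoot.isUnit (by omega)
  exact Big.dn_surf h2 (P002.hu L _ h4 h3 _) h6.unit
    (h5.map_of_injective (algebraMap L ℂ).injective) (Fintype.equivFin n) c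

end Vale.Agent.P002b
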