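import Vale.Agent.P002b.Defs

/-! Block diagonal form for a pair of complementary subspaces. -/

namespace Vale.Agent.P002b

open Matrix Module

variable {K : Type} [Field K] {n : Type} [Fintype n] [DecidableEq n]

/-- The block diagonal matrix with blocks `A`, `B`, indexed through `e`. -/
def bd {R k l : Type} [CommRing R] (e : k ⊕ l ≃ n) (A : Matrix k k R) (B : Matrix l l R) :
    Matrix n n R := (Matrix.fromBlocks A 0 0 B).submatrix e.symm e.symm

section bd

variable {R k l : Type} [CommRing R] [Fintype k] [Fintype l] [DecidableEq k] [DecidableEq l]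
  (e : k ⊕ l ≃ n)

omit [DecidableEq n] [DecidableEq k] [DecidableEq l] in
lemma bd_mul (A A' : Matrix k k R) (B B' : Matrix l l R) :
    bd e A B * bd e A' B' = bd e (A * A') (B * B') := by
  simp [bd, Matrix.submatrix_mul_equiv, Matrix.fromBlocks_multiply]

omit [Fintype n] [Fintype k] [Fintype l] in
@[simp] lemma bd_one : bd e (1 : Matrix k k R) (1 : Matrix l l R) = 1 := by
  simp [bd, Matrix.fromBlocks_one]

omit [Fintype n] [DecidableEq n] [Fintype k] [Fintype l] [DecidableEq k] [DecidableEq l] in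
lemma bd_inj {A A' : Matrix k k R} {B B' : Matrix l l R} (h : bd e A B = bd e A' B') :
    A = A' ∧ B = B' := by
  constructor
  · ext i j; simpa [bd] using congrFun (congrFun h (e (.inl i))) (e (.inl j))
  · ext i j; simpa [bd] using congrFun (congrFun h (e (.inr i))) (e (.inr j))

lemma bd_list_prod {α : Type} (L : List α) (A : α → Matrix k k R) (B : α → Matrix l l R) :
    (L.map fun a => bd e (A a) (B a)).prod = bd e (L.map A).prod (L.map B).prod := by
  induction L with
  | nil => simp
  | cons a L ih => simp [ih, bd_mul]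

lemma charpoly_bd (A : Matrix k k R) (B : Matrix l l R) :
    (bd e A B).charpoly = A.charpoly * B.charpoly := by
  have := Matrix.charpoly_reindex e (Matrix.fromBlocks A 0 0 B)
  rw [Matrix.charpoly_fromBlocks_zero₂₁] at this
  exact this

omit [DecidableEq n] [DecidableEq k] [DecidableEq l] in
lemma bd_mulVec (A : Matrix k k R) (B : Matrix l l R) (v : n → R) :
    bd e A B *ᵥ v = Sum.elim (A *ᵥ fun i => v (e (.inl i))) (B *ᵥ fun j => v (e (.inr j))) ∘
      e.symm := by
  rw [bd, Matrix.submatrix_mulVec_equiv, Matrix.fromBlocks_mulVec]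
  simp [Function.comp_def]

end bd

omit [Fintype n] [DecidableEq n] in
@[fun_prop] lemma IsP.bd {X k l : Type} [Aff K X] (e : k ⊕ l ≃ n) {f : X → Matrix k k K}
    {g : X → Matrix l l K} (hf : IsP K f) (hg : IsP K g) : IsP K (fun x => bd e (f x) (g x)) := by
  unfold P002b.bd; fun_prop

omit [Fintype n] [DecidableEq n] in
@[fun_prop] lemma PM.bd {O X k l : Type} [CommRing O] [Algebra O K] [Aff K X] (e : k ⊕ l ≃ n)
    {f : X → Matrix k k K} {g : X → Matrix l l K} (hf : PM O K f) (hg : PM O K g) :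
    PM O K (fun x => bd e (f x) (g x)) := by
  unfold P002b.bd; fun_prop

/-- A basis adapted to a pair of complementary subspaces. -/
lemma exists_blocks {W W' : Submodule K (n → K)} (h : IsCompl W W') :
    ∃ (e : Fin (finrank K W) ⊕ Fin (finrank K W') ≃ n) (g g' : Matrix n n K), g * g' = 1 ∧
      (∀ v, g *ᵥ v ∈ W ↔ ∀ j, v (e (.inr j)) = 0) ∧ (∀ v, g *ᵥ v ∈ W' ↔ ∀ i, v (e (.inl i)) = 0) ∧
      ∀ A : Matrix n n K, (∀ v ∈ W, A *ᵥ v ∈ W) → (∀ v ∈ W', A *ᵥ v ∈ W') →
        ∃ A₁ A₂, A = g * bd e A₁ A₂ * g' := by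
  let b : Basis (Fin (finrank K W) ⊕ Fin (finrank K W')) K (n → K) :=
    ((finBasis K W).prod (finBasis K W')).map (Submodule.prodEquivOfIsCompl W W' h)
  let e : Fin (finrank K W) ⊕ Fin (finrank K W') ≃ n := b.indexEquiv (Pi.basisFun K n)
  let φ : (n → K) ≃ₗ[K] (n → K) := (b.reindex e).equivFun.symm
  have hφ : ∀ v, φ v = ((finBasis K W).equivFun.symm fun i => v (e (.inl i)) : W) +
      ((finBasis K W').equivFun.symm fun j => v (e (.inr j)) : W') := by
    intro v
    simp only [φ, Basis.equivFun_symm_apply, Basis.reindex_apply]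
    rw [← e.sum_comp]
    simp [b, Fintype.sum_sum_type]
  have hg : ∀ v, LinearMap.toMatrix' φ.toLinearMap *ᵥ v = φ v := fun v => by
    rw [← Matrix.toLin'_apply, Matrix.toLin'_toMatrix']; rfl
  have hgg : LinearMap.toMatrix' φ.toLinearMap * LinearMap.toMatrix' φ.symm.toLinearMap = 1 := by
    rw [← LinearMap.toMatrix'_comp]; simp
  have h1 : ∀ v, LinearMap.toMatrix' φ.toLinearMap *ᵥ v ∈ W ↔ ∀ j, v (e (.inr j)) = 0 := by
    intro v
    rw [hg, hφ, W.add_mem_iff_right (Submodule.coe_mem _)]
    constructor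
    · intro hv
      have := (Submodule.disjoint_def.1 h.disjoint) _ hv (Submodule.coe_mem _)
      rw [Submodule.coe_eq_zero, LinearEquiv.map_eq_zero_iff] at this
      exact congrFun this
    · intro hv
      rw [show (fun j => v (e (.inr j))) = 0 from funext hv]; simp
  have h2 : ∀ v, LinearMap.toMatrix' φ.toLinearMap *ᵥ v ∈ W' ↔ ∀ i, v (e (.inl i)) = 0 := by
    intro v
    rw [hg, hφ, W'.add_mem_iff_left (Submodule.coe_mem _)]
    constructor
    · intro hv
      have := (Submodule.disjoint_def.1 h.disjoint) _ (Submodule.coe_mem _) hv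
      rw [Submodule.coe_eq_zero, LinearEquiv.map_eq_zero_iff] at this
      exact congrFun this
    · intro hv
      rw [show (fun j => v (e (.inl j))) = 0 from funext hv]; simp
  refine ⟨e, _, _, hgg, h1, h2, fun A hA hA' => ?_⟩
  set g := LinearMap.toMatrix' φ.toLinearMap
  set g' := LinearMap.toMatrix' φ.symm.toLinearMap
  have key : ∀ v, g *ᵥ ((g' * A * g) *ᵥ v) = A *ᵥ (g *ᵥ v) := fun v => by
    rw [Matrix.mulVec_mulVec, Matrix.mulVec_mulVec, ← Matrix.mul_assoc, ← Matrix.mul_assoc, hgg,
      Matrix.one_mul]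
  refine ⟨(g' * A * g).submatrix (e ∘ .inl) (e ∘ .inl),
    (g' * A * g).submatrix (e ∘ .inr) (e ∘ .inr), ?_⟩
  have : g' * A * g = bd e ((g' * A * g).submatrix (e ∘ .inl) (e ∘ .inl))
      ((g' * A * g).submatrix (e ∘ .inr) (e ∘ .inr)) := by
    ext i j
    obtain ⟨i, rfl⟩ := e.surjective i
    obtain ⟨j, rfl⟩ := e.surjective j
    rcases i with i | i <;> rcases j with j | j
    · simp [bd]
    · have := (h2 _).1 (key _ ▸ hA' _ ((h2 (Pi.single (e (.inr j)) 1)).2 fun i => by simp)) i
      simpa [bd] using this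
    · have := (h1 _).1 (key _ ▸ hA _ ((h1 (Pi.single (e (.inl j)) 1)).2 fun i => by simp)) i
      simpa [bd] using this
    · simp [bd]
  rw [← this, ← Matrix.mul_assoc, ← Matrix.mul_assoc, hgg, Matrix.one_mul, Matrix.mul_assoc, hgg,
    Matrix.mul_one]

end Vale.Agent.P002b
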