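import Vale.Agent.P002b.ElimSeam

/-! A face with free letters only is a closed surface. -/

namespace Vale.Agent.P002b

open Matrix

variable {O K : Type} [CommRing O] [Field K] [CharZero K] [Algebra O K] [FaithfulSMul O K]
  {ι : Type} [Fintype ι] [DecidableEq ι]

/-- The product of the commutators of a list of pairs. -/
def handles (L : List (Hf ι × Hf ι)) : List (Lt ι) :=
  L.flatMap fun a => [.fr a.1, .fr a.2, .fr a.1.bar, .fr a.2.bar]

omit [Fintype ι] [DecidableEq ι] in
lemma ClosedNF.handles_cons (a : Hf ι × Hf ι) (L : List (Hf ι × Hf ι)) :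
    handles (a :: L) = .fr a.1 :: .fr a.2 :: .fr a.1.bar :: .fr a.2.bar :: handles L := rfl

omit [Fintype ι] [DecidableEq ι] in
lemma ClosedNF.handles_snoc (L : List (Hf ι × Hf ι)) (x y : Hf ι) :
    handles (L ++ [(x, y)]) = handles L ++ [.fr x, .fr y, .fr x.bar, .fr y.bar] := by
  simp [handles]

omit [Fintype ι] [DecidableEq ι] in
lemma ClosedNF.bar_mem (L : List (Hf ι × Hf ι)) :
    ∀ h ∈ usW (handles L), h.bar ∈ usW (handles L) := by
  induction L with
  | nil => intro h hh; simp [handles] at hh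
  | cons a L ih =>
    intro h hh
    simp only [ClosedNF.handles_cons, usW_cons, Lt.us_fr, Multiset.mem_add,
      Multiset.mem_singleton] at hh ⊢
    rcases hh with rfl | rfl | rfl | rfl | hh
    · simp
    · simp
    · simp
    · simp
    · exact Or.inr (Or.inr (Or.inr (Or.inr (ih h hh))))

omit [Fintype ι] [DecidableEq ι] in
lemma ClosedNF.types {p q : Finset ι} {L : List (Hf ι × Hf ι)} (h : Ty p (handles L) q) :
    ∀ a ∈ L, a.1.t = p ∧ a.1.s = p ∧ a.2.t = p ∧ a.2.s = p := by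
  induction L with
  | nil => simp
  | cons a L ih =>
    simp only [ClosedNF.handles_cons, ty_cons, Lt.hd_fr, Hf.bar_t, Hf.bar_s] at h
    obtain ⟨h1, h2, h3, h4, h5⟩ := h
    have e1 : a.2.s = p := h4.trans h1
    have e2 : a.1.s = p := h3.trans e1
    have e3 : a.2.t = p := h2.trans e2
    intro b hb
    rcases List.mem_cons.1 hb with rfl | hb
    · exact ⟨h1, e2, e3, e1⟩
    · exact ih (e3 ▸ h5) b hb

/-- Write a point of the surface system into an assignment. -/
noncomputable def ClosedNF.enc {κ : Type} [Fintype κ] (I : Matrix ι κ K) :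
    (L : List (Hf ι × Hf ι)) → (Fin L.length → Qd κ K) → Asg K ι → Asg K ι
  | [], _, Y => Y
  | a :: L, q, Y => upd (upd (ClosedNF.enc I L (fun i => q i.succ) Y) a.1
      (I * (q 0).1 * Iᵀ) (I * (q 0).2.1 * Iᵀ)) a.2 (I * (q 0).2.2.1 * Iᵀ) (I * (q 0).2.2.2 * Iᵀ)

omit [CharZero K] [FaithfulSMul O K] [Fintype ι] [DecidableEq ι] in
lemma ClosedNF.pm_enc {κ X : Type} [Fintype κ] [Aff K X] (I : Matrix ι κ K) [IntC O K I]
    (L : List (Hf ι × Hf ι)) {q : X → Fin L.length → Qd κ K} {Y : X → Asg K ι} (hq : PM O K q)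
    (hY : PM O K Y) : PM O K fun x => ClosedNF.enc I L (q x) (Y x) := by
  induction L with
  | nil => exact hY
  | cons a L ih =>
    have h0 : PM O K fun x => q x 0 := (PM.apply 0).comp hq
    have h1 := ih (q := fun x i => q x i.succ) (PM.pi fun i => (PM.apply i.succ).comp hq)
    unfold ClosedNF.enc
    exact PM.upd _ (PM.upd _ h1 (by fun_prop) (by fun_prop)) (by fun_prop) (by fun_prop)

omit [CharZero K] in
lemma ClosedNF.enc_spec {κ : Type} [Fintype κ] [DecidableEq κ] {I : Matrix ι κ K} {p : Finset ι}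
    (hI : Iᵀ * I = 1) (hI' : I * Iᵀ = E K p) (L : List (Hf ι × Hf ι))
    (hn : (usW (handles L)).Nodup)
    (ht : ∀ a ∈ L, a.1.t = p ∧ a.1.s = p ∧ a.2.t = p ∧ a.2.s = p) (q : Fin L.length → Qd κ K)
    (hq : ∀ i, QInv (q i)) (Y : Asg K ι) :
    (∀ l ∈ handles L, l.Ok (ClosedNF.enc I L q Y)) ∧
      pv (ClosedNF.enc I L q Y) (handles L) p = I * (List.ofFn fun i => cm (q i)).prod * Iᵀ := by
  induction L with
  | nil => simp [handles, hI']
  | cons a L ih =>
    simp only [ClosedNF.handles_cons, usW_cons, Lt.us_fr, Multiset.singleton_add,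
      Multiset.nodup_cons, Multiset.mem_cons, not_or] at hn
    obtain ⟨⟨n1, -, n2, n3⟩, ⟨n4, -, n5⟩, ⟨n6, n7⟩, n8, n9⟩ := hn
    obtain ⟨i1, i2⟩ := ih n9 (fun b hb => ht b (by simp [hb])) (fun i => q i.succ)
      fun i => hq i.succ
    obtain ⟨t1, t2, t3, t4⟩ := ht a (by simp)
    have ag : Agree (usW (handles L)) (ClosedNF.enc I L (fun i => q i.succ) Y)
        (ClosedNF.enc I (a :: L) q Y) :=
      (agree_upd_of n3 n7 _ _ _).trans (agree_upd_of n5 n8 _ _ _)
    have v1 : ClosedNF.enc I (a :: L) q Y a.1 = I * (q 0).1 * Iᵀ := by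
      rw [ClosedNF.enc, upd_of_ne _ _ _ n1 n2, upd_fst]
    have v2 : ClosedNF.enc I (a :: L) q Y a.1.bar = I * (q 0).2.1 * Iᵀ := by
      rw [ClosedNF.enc, upd_of_ne _ _ _ (Ne.symm n4) n6, upd_snd]
    have v3 : ClosedNF.enc I (a :: L) q Y a.2 = I * (q 0).2.2.1 * Iᵀ := by
      rw [ClosedNF.enc, upd_fst]
    have v4 : ClosedNF.enc I (a :: L) q Y a.2.bar = I * (q 0).2.2.2 * Iᵀ := by
      rw [ClosedNF.enc, upd_snd]
    have o1 : (Lt.fr a.1).Ok (ClosedNF.enc I (a :: L) q Y) := by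
      rw [Lt.ok_fr, v1, v2, t1, t2]
      exact GL.ti_of hI hI' hI hI' (hq 0).1
    have o2 : (Lt.fr a.2).Ok (ClosedNF.enc I (a :: L) q Y) := by
      rw [Lt.ok_fr, v3, v4, t3, t4]
      exact GL.ti_of hI hI' hI hI' (hq 0).2
    constructor
    · intro l hl
      simp only [ClosedNF.handles_cons, List.mem_cons] at hl
      rcases hl with rfl | rfl | rfl | rfl | hl
      · exact o1
      · exact o2
      · simpa using TI.symm o1
      · simpa using TI.symm o2
      · exact ok_congr i1 ag l hl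
    · have e : ∀ B : Matrix κ ι K, Iᵀ * (I * B) = B := fun B => by
        rw [← Matrix.mul_assoc, hI, Matrix.one_mul]
      simp only [ClosedNF.handles_cons, pv_cons, Lt.hd_fr, v1, v2, v3, v4, ← pv_congr ag, i2,
        List.length_cons, List.ofFn_succ, List.prod_cons, cm, Matrix.mul_assoc, e]

/-- Read a point of the surface system from an assignment. -/
def ClosedNF.dec {κ : Type} (I : Matrix ι κ K) (L : List (Hf ι × Hf ι)) (z : Asg K ι)
    (i : Fin L.length) : Qd κ K :=
  (Iᵀ * z (L.get i).1 * I, Iᵀ * z (L.get i).1.bar * I, Iᵀ * z (L.get i).2 * I,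
    Iᵀ * z (L.get i).2.bar * I)

omit [CharZero K] in
lemma ClosedNF.enc_dec {κ : Type} [Fintype κ] {I : Matrix ι κ K} {p : Finset ι}
    (hI' : I * Iᵀ = E K p) (L : List (Hf ι × Hf ι)) {z : Asg K ι}
    (hz : ∀ a ∈ L, TI p p (z a.1) (z a.1.bar) ∧ TI p p (z a.2) (z a.2.bar)) :
    ClosedNF.enc I L (ClosedNF.dec I L z) z = z := by
  have e : ∀ A : Matrix ι ι K, Sup p p A → I * (Iᵀ * A * I) * Iᵀ = A := fun A hA => by
    simp only [Matrix.mul_assoc]
    rw [hI', hA.r, ← Matrix.mul_assoc, hI', hA.l]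
  induction L with
  | nil => rfl
  | cons a L ih =>
    have h1 : ClosedNF.enc I L (fun i => ClosedNF.dec I (a :: L) z i.succ) z = z :=
      ih fun b hb => hz b (by simp [hb])
    obtain ⟨z1, z2⟩ := hz a (by simp)
    have h2 : upd z a.1 (I * (ClosedNF.dec I (a :: L) z 0).1 * Iᵀ)
        (I * (ClosedNF.dec I (a :: L) z 0).2.1 * Iᵀ) = z := upd_self (e _ z1.sup) (e _ z1.sup')
    rw [ClosedNF.enc, h1, h2]
    exact upd_self (e _ z2.sup) (e _ z2.sup')

lemma dn_handles (hU : HasUnit O) {d : ℕ} (hC : ClosedS O K d) {c : Oˣ} {p : Finset ι}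
    (hd : p.card = d) (L : List (Hf ι × Hf ι)) (hQ : Q (usW (handles L))) :
    Dn O K (Sol K [(⟨c, p, handles L⟩ : Fc O ι)]) := by
  have := hU.infinite
  intro x hx
  have hty := (mem_sol_cons.1 hx).1.ty
  have ht := ClosedNF.types hty
  have i1 : Function.Injective (fun k : p => (k : ι)) := Subtype.val_injective
  have hI := GL.inc_mul (K := K) i1
  have hI' := GL.mul_inc (K := K) i1 (s := p)
    fun i => ⟨fun hi => ⟨⟨i, hi⟩, rfl⟩, fun ⟨k, hk⟩ => hk ▸ k.2⟩
  have c1 := GL.intC_inc (O := O) (K := K) (fun k : p => (k : ι))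
  generalize GL.inc K (fun k : p => (k : ι)) = I at hI hI' c1
  refine Dn.of_surj (f := fun y : (Fin L.length → Qd p K) × Asg K ι => ClosedNF.enc I L y.1 y.2)
    (ClosedNF.pm_enc I L (by fun_prop) (by fun_prop))
    ((hC p (by simpa using hd) L.length c).prod dn_univ_pi_mat) (fun y hy => ?_) (fun z hz => ?_)
    x hx
  · obtain ⟨s1, s2⟩ := ClosedNF.enc_spec hI hI' L hQ.1 ht y.1 hy.1.1 y.2
    refine mem_sol_cons.2 ⟨⟨hty, s1, ?_⟩, mem_sol_nil⟩
    rw [s2, hy.1.2, Matrix.mul_smul, Matrix.mul_one, Matrix.smul_mul, hI']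
  · have hs := (mem_sol_cons.1 hz).1
    have hz' : ∀ a ∈ L, TI p p (z a.1) (z a.1.bar) ∧ TI p p (z a.2) (z a.2.bar) := by
      intro a ha
      obtain ⟨t1, t2, t3, t4⟩ := ht a ha
      have o1 : TI a.1.t a.1.s (z a.1) (z a.1.bar) :=
        hs.ok (.fr a.1) (List.mem_flatMap.2 ⟨a, ha, by simp⟩)
      have o2 : TI a.2.t a.2.s (z a.2) (z a.2.bar) :=
        hs.ok (.fr a.2) (List.mem_flatMap.2 ⟨a, ha, by simp⟩)
      rw [t1, t2] at o1
      rw [t3, t4] at o2
      exact ⟨o1, o2⟩
    have e : ∀ A A' : Matrix ι ι K, TI p p A A' → Iᵀ * A * I * (Iᵀ * A' * I) = 1 := by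
      intro A A' H
      simp only [Matrix.mul_assoc]
      rw [← Matrix.mul_assoc I, hI', ← Matrix.mul_assoc (E K p), H.sup'.l,
        ← Matrix.mul_assoc A, H.mul, ← hI', Matrix.mul_assoc, hI, Matrix.mul_one, hI]
    have hq : ∀ i, QInv (ClosedNF.dec I L z i) := fun i =>
      ⟨e _ _ (hz' _ (List.get_mem L i)).1, e _ _ (hz' _ (List.get_mem L i)).2⟩
    have h1 := ClosedNF.enc_dec hI' L hz'
    refine ⟨(ClosedNF.dec I L z, z), ⟨⟨hq, ?_⟩, trivial⟩, h1⟩
    have h2 := (ClosedNF.enc_spec hI hI' L hQ.1 ht _ hq z).2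
    have h3 : pv z (handles L) p = algebraMap O K c • E K p := hs.eq
    rw [h1, h3] at h2
    have h4 := congrArg (fun A => Iᵀ * A * I) h2
    simp only [Matrix.mul_assoc, hI, Matrix.mul_one] at h4
    rw [← Matrix.mul_assoc Iᵀ I, hI, Matrix.one_mul, ← hI', Matrix.smul_mul, Matrix.mul_smul,
      Matrix.mul_assoc, hI, Matrix.mul_one, hI] at h4
    exact h4.symm

/-- Density for the one face system with the word `w`. -/
def ClosedNF.D (K : Type) [Field K] [Algebra O K] (c : Oˣ) (p : Finset ι) (w : List (Lt ι)) :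
    Prop := Q (usW w) → Dn O K (Sol K [(⟨c, p, w⟩ : Fc O ι)])

section slides

variable {c : Oˣ} {p : Finset ι} {P A M B U W : List (Lt ι)} {x y : Hf ι}

omit [CharZero K] [FaithfulSMul O K] in
lemma ClosedNF.slide₁
    (H : ∀ y' : Hf ι, ClosedNF.D K c p (P ++ .fr y' :: (M ++ .fr y'.bar :: (A ++ B)))) :
    ClosedNF.D K c p (P ++ A ++ .fr y :: (M ++ .fr y.bar :: B)) := fun hQ =>
  dn_slide₁ (by simpa using hQ) fun y' hQ' => H y' (by simpa using hQ')

omit [CharZero K] [FaithfulSMul O K] in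
lemma ClosedNF.slide₂
    (H : ∀ y' : Hf ι, ClosedNF.D K c p (P ++ .fr y' :: (A ++ M ++ .fr y'.bar :: B))) :
    ClosedNF.D K c p (P ++ .fr y :: (M ++ A ++ .fr y.bar :: B)) := fun hQ =>
  dn_slide₂ (by simpa using hQ) fun y' hQ' => H y' (by simpa using hQ')

omit [CharZero K] [FaithfulSMul O K] in
lemma ClosedNF.stepA (H : ∀ x y : Hf ι, ClosedNF.D K c p
      (P ++ .fr x :: .fr y :: .fr x.bar :: (W ++ .fr y.bar :: (U ++ B)))) :
    ClosedNF.D K c p (P ++ .fr x :: .fr y :: (U ++ .fr x.bar :: (W ++ .fr y.bar :: B))) := by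
  have h := ClosedNF.slide₂ (K := K) (c := c) (p := p) (P := P) (y := x) (M := [.fr y]) (A := U)
    (B := W ++ .fr y.bar :: B) fun x' => by
      have h' := ClosedNF.slide₁ (K := K) (c := c) (p := p) (P := P ++ [.fr x']) (A := U) (y := y)
        (M := .fr x'.bar :: W) (B := B) fun y' => by simpa using H x' y'
      simpa using h'
  simpa using h

omit [CharZero K] [FaithfulSMul O K] in
lemma ClosedNF.stepB (H : ∀ x y : Hf ι, ClosedNF.D K c p
      (P ++ .fr x :: .fr y :: .fr x.bar :: .fr y.bar :: (W ++ B))) :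
    ClosedNF.D K c p (P ++ .fr x :: .fr y :: .fr x.bar :: (W ++ .fr y.bar :: B)) := by
  have h := ClosedNF.slide₂ (K := K) (c := c) (p := p) (P := P ++ [.fr x]) (y := y)
    (M := [.fr x.bar]) (A := W) (B := B) fun y' => by
      have h' := ClosedNF.stepA (K := K) (c := c) (p := p) (P := P) (x := x) (y := y') (W := [])
        (U := W) (B := B) fun x' y' => by simpa using H x' y'
      simpa using h'
  simpa using h

omit [CharZero K] [FaithfulSMul O K] in
lemma ClosedNF.stepC (H : ∀ x y : Hf ι, ClosedNF.D K c p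
      (P ++ .fr x :: .fr y :: .fr x.bar :: .fr y.bar :: (U ++ B))) :
    ClosedNF.D K c p (P ++ (U ++ .fr x :: .fr y :: .fr x.bar :: .fr y.bar :: B)) := by
  have h := ClosedNF.slide₁ (K := K) (c := c) (p := p) (P := P) (A := U) (y := x) (M := [.fr y])
    (B := .fr y.bar :: B) fun x' => by
      simpa using ClosedNF.stepB (x := x') (y := y) H
  simpa using h

end slides

lemma ClosedNF.main (hU : HasUnit O) {d : ℕ} (hC : ClosedS O K d) {c : Oˣ} {p : Finset ι}
    (hd : p.card = d) (n : ℕ) : ∀ (L : List (Hf ι × Hf ι)) (w : List (Lt ι)), w.length < n →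
      (∀ l ∈ w, ¬ l.IsTri) → ClosedNF.D K c p (handles L ++ w) := by
  induction n with
  | zero => exact fun _ _ h => absurd h (Nat.not_lt_zero _)
  | succ n ih =>
    intro L w hw hf hQ
    have hfr : ∀ l ∈ w, ∃ h, l = .fr h := by
      intro l hl
      cases l with
      | fr h => exact ⟨h, rfl⟩
      | tri h y z => exact absurd trivial (hf _ hl)
    rcases w.eq_nil_or_concat' with rfl | ⟨w0, l0, e0⟩
    · rw [List.append_nil] at hQ ⊢
      exact dn_handles hU hC hd L hQ
    have hQw : Q (usW w) := by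
      rw [usW_append, add_comm] at hQ
      exact hQ.left (ClosedNF.bar_mem L)
    obtain ⟨U₀, U, W, x, rfl, hk⟩ := exists_first_pair hQw.1 (fun h hh => by
      obtain ⟨l, hl, hl'⟩ := mem_usW.1 (hQw.2 h (mem_usW.2 ⟨_, hh, by simp⟩))
      obtain ⟨k, rfl⟩ := hfr l hl
      rw [Lt.us_fr, Multiset.mem_singleton] at hl'
      rwa [hl']) (by
      have hl : l0 ∈ w := by simp [e0]
      obtain ⟨k, rfl⟩ := hfr l0 hl
      exact ⟨k, hl⟩)
    clear e0
    cases U with
    | nil =>
      intro X hX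
      have e : handles L ++ (U₀ ++ .fr x :: ([] ++ .fr x.bar :: W)) =
          handles L ++ U₀ ++ [.fr x, .fr x.bar] ++ W := by simp
      rw [e] at hX hQ ⊢
      have hs := (mem_sol_cons.1 hX).1
      obtain ⟨_, t1, -⟩ := ty_append.1 hs.ty
      obtain ⟨q, t2, t3⟩ := ty_append.1 t1
      obtain rfl : x.t = q := t3.1
      have ox : TI x.t x.s (X x) (X x.bar) := hs.ok (.fr x) (by simp)
      obtain ⟨m1, m2⟩ := sol_pinch t2 (A := [.fr x, .fr x.bar]) (by simp) hX
        (by simp [ox.sup'.r, ox.mul])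
      have hQ' : Q (usW (handles L ++ (U₀ ++ W)) + ({x} + {x.bar})) := by
        have : usW (handles L ++ (U₀ ++ W)) + ({x} + {x.bar}) =
            usW (handles L ++ U₀ ++ [.fr x, .fr x.bar] ++ W) := by
          simp only [usW_append, usW_cons, Lt.us_fr, usW_nil]; abel
        rwa [this]
      have h2 := ih L (U₀ ++ W) (by simp at hw ⊢; omega)
        (fun l hl => hf l (by simp at hl ⊢; tauto)) (hQ'.left (by simp))
      rw [← List.append_assoc] at h2
      refine Gd.mono m2 (dn_append (S := [(⟨1, x.t, [.fr x, .fr x.bar]⟩ : Fc O ι)]) ?_ (by simp)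
        (dn_sphere hU x) h2 X m1)
      have : usS ([(⟨1, x.t, [.fr x, .fr x.bar]⟩ : Fc O ι)] ++ [⟨c, p, handles L ++ U₀ ++ W⟩]) =
          usW (handles L ++ U₀ ++ [.fr x, .fr x.bar] ++ W) := by
        simp only [usS_append, usS_cons, usS_nil, usW_append, usW_cons, Lt.us_fr, usW_nil]; abel
      rwa [this]
    | cons l U =>
      obtain ⟨y, rfl⟩ := hfr l (by simp)
      obtain ⟨W₁, W₂, rfl⟩ := List.append_of_mem (hk y (by simp))
      have h := ClosedNF.stepA (K := K) (c := c) (p := p) (P := handles L ++ U₀) (x := x) (y := y)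
        (W := W₁) (U := U) (B := W₂) fun x y => ClosedNF.stepB fun x y => by
          have h' := ClosedNF.stepC (K := K) (c := c) (p := p) (P := handles L) (U := U₀) (x := x)
            (y := y) (B := W₁ ++ (U ++ W₂)) fun x y => by
              have h2 := ih (L ++ [(x, y)]) (U₀ ++ (W₁ ++ (U ++ W₂))) (by simp at hw ⊢; omega)
                (fun l hl => hf l (by simp at hl ⊢; tauto))
              rw [ClosedNF.handles_snoc] at h2
              simpa using h2
          simpa using h'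
      simp only [List.append_assoc, List.cons_append] at h hQ ⊢
      exact h hQ

theorem dn_closed_face (hU : HasUnit O) {d : ℕ} (hC : ClosedS O K d) (φ : Fc O ι)
    (hd : φ.p.card = d) (hf : ∀ l ∈ φ.w, ¬ l.IsTri) (hQ : Q (usW φ.w)) :
    Dn O K (Sol K [φ]) := by
  exact ClosedNF.main hU hC hd _ [] φ.w (Nat.lt_succ_self _) hf hQ

end Vale.Agent.P002b
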