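import Vale.Agent.P002b.Defs

/-! Flags of kernels and conjugacy classes. -/

namespace Vale.Agent.P002b

open Matrix Polynomial Module

variable {K : Type} [Field K] {n : Type} [Fintype n] [DecidableEq n]

lemma flagAux_set {M : Type} [AddCommGroup M] [Module K M] (V : ℕ → Submodule K M)
    (hV : Monotone V) (h0 : V 0 = ⊥) (B : ℕ) : ∃ s : Set M, LinearIndepOn K id s ∧ s ⊆ V B ∧
      ∀ k ≤ B, V k ≤ Submodule.span K (s ∩ V k) := by
  induction B with
  | zero =>
    refine ⟨∅, linearIndepOn_empty K id, Set.empty_subset _, fun k hk => ?_⟩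
    rw [Nat.le_zero.1 hk, h0]
    exact bot_le
  | succ B ih =>
    obtain ⟨s, h1, h2, h3⟩ := ih
    obtain ⟨b, b1, b2, b3, b4⟩ := exists_linearIndepOn_id_extension h1
      (h2.trans (hV (Nat.le_succ B)))
    refine ⟨b, b4, b1, fun k hk => ?_⟩
    rcases hk.eq_or_lt with rfl | hk
    · rw [Set.inter_eq_left.2 b1]
      exact b3
    · exact (h3 k (Nat.lt_succ_iff.1 hk)).trans
        (Submodule.span_mono (Set.inter_subset_inter_left _ b2))

/-- A basis adapted to a chain of subspaces. -/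
lemma exists_adapted (V : ℕ → Submodule K (n → K)) (hV : Monotone V) (h0 : V 0 = ⊥) {B : ℕ}
    (hB : V B = ⊤) : ∃ (h h' : Matrix n n K) (ℓ : n → ℕ), h * h' = 1 ∧ (∀ i, ℓ i < B) ∧
      ∀ k v, h *ᵥ v ∈ V k ↔ ∀ i, k ≤ ℓ i → v i = 0 := by
  classical
  obtain ⟨s, h1, -, h3⟩ := flagAux_set V hV h0 B
  let b0 : Basis s K (n → K) := Basis.mk (v := Subtype.val) h1 (by
    have := h3 B le_rfl
    rw [hB] at this
    simpa using this)
  obtain ⟨b, hb⟩ : ∃ b : Basis n K (n → K), Set.range b = s :=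
    ⟨b0.reindex (b0.indexEquiv (Pi.basisFun K n)), by
      rw [Basis.range_reindex, show (b0 : s → n → K) = Subtype.val from Basis.coe_mk _ _,
        Subtype.range_coe]⟩
  have hb0 : ∀ i, b i ∉ V 0 := fun i => by rw [h0]; exact b.ne_zero i
  have hex : ∀ i, ∃ k, b i ∈ V (k + 1) := fun i => ⟨B, hV (Nat.le_succ B) (hB ▸ trivial)⟩
  have hl : ∀ i k, Nat.find (hex i) < k ↔ b i ∈ V k := fun i k => by
    refine ⟨fun h => hV h (Nat.find_spec (hex i)), fun h => ?_⟩
    cases k with
    | zero => exact absurd h (hb0 i)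
    | succ k => exact Nat.lt_succ_of_le (Nat.find_min' _ h)
  have hg : ∀ v, LinearMap.toMatrix' b.equivFun.symm.toLinearMap *ᵥ v = b.equivFun.symm v :=
    fun v => by rw [← Matrix.toLin'_apply, Matrix.toLin'_toMatrix']; rfl
  refine ⟨LinearMap.toMatrix' b.equivFun.symm.toLinearMap,
    LinearMap.toMatrix' b.equivFun.toLinearMap, fun i => Nat.find (hex i), ?_,
    fun i => (hl i B).2 (hB ▸ trivial), fun k v => ?_⟩
  · rw [← LinearMap.toMatrix'_comp]; simp
  rw [hg]
  constructor
  · intro hv i hi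
    rcases le_total k B with hk | hk
    · have : b.equivFun.symm v ∈ Submodule.span K (b '' {i | b i ∈ V k}) :=
        Submodule.span_mono (fun x hx => by
          obtain ⟨j, rfl⟩ := hb.symm ▸ hx.1
          exact ⟨j, hx.2, rfl⟩) (h3 k hk hv)
      rw [b.mem_span_image] at this
      by_contra hne
      refine absurd ((hl i k).2 (this ?_)) (not_lt.2 hi)
      rw [Finset.mem_coe, Finsupp.mem_support_iff, ← b.equivFun_apply,
        LinearEquiv.apply_symm_apply]
      exact hne
    · exact absurd ((hl i k).2 (hV hk (hB ▸ trivial))) (not_lt.2 hi)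
  · intro hv
    rw [b.equivFun_symm_apply]
    refine Submodule.sum_mem _ fun i _ => ?_
    by_cases hi : b i ∈ V k
    · exact Submodule.smul_mem _ _ hi
    · rw [hv i (not_lt.1 fun h => hi ((hl i k).1 h)), zero_smul]
      exact zero_mem _

lemma flagAux_succ {A : Type} [Ring A] [Algebra K A] (a : A) (μ : ℕ → K) (k : ℕ) :
    aeval a (np μ (k + 1)) = aeval a (np μ k) * (a - algebraMap K A (μ k)) := by
  simp [np, Finset.prod_range_succ]

lemma flagAux_succ' {A : Type} [Ring A] [Algebra K A] (a : A) (μ : ℕ → K) (k : ℕ) :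
    aeval a (np μ (k + 1)) =
      aeval a (np (fun j => μ (j + 1)) k) * (a - algebraMap K A (μ 0)) := by
  simp [np, Finset.prod_range_succ']

lemma flagAux_zero {A : Type} [Ring A] [Algebra K A] (a : A) (μ : ℕ → K) :
    aeval a (np μ 0) = 1 := by
  simp [np]

lemma flagAux_semi {A : Type} [Ring A] [Algebra K A] {h a b : A} (e : h * a = b * h) (μ : ℕ → K)
    (k : ℕ) : h * aeval a (np μ k) = aeval b (np μ k) * h := by
  induction k with
  | zero => simp [flagAux_zero]
  | succ k ih =>
    rw [flagAux_succ, flagAux_succ, ← mul_assoc, ih, mul_assoc, mul_assoc, mul_sub, sub_mul, e,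
      Algebra.commutes]

lemma flagAux_col {ℓ : n → ℕ} {μ : ℕ → K} {τ : Matrix n n K} (h : Exact ℓ μ τ) (c : n) :
    aeval τ (np μ (ℓ c + 1)) *ᵥ Pi.single c 1 = 0 :=
  (h _ _).2 fun i hi => Pi.single_eq_of_ne (by rintro rfl; omega) _

lemma Exact.mem_flag {ℓ : n → ℕ} {μ : ℕ → K} {τ : Matrix n n K} (h : Exact ℓ μ τ) :
    τ ∈ Flag ℓ μ := by
  intro i c hi
  have := flagAux_col h c
  rw [flagAux_succ, ← mulVec_mulVec] at this
  have := (h _ _).1 this i hi
  rw [mulVec_single_one, col_apply, Matrix.sub_apply, algebraMap_matrix_apply, sub_eq_zero] at this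
  simpa using this

lemma exists_flag (A : Matrix n n K) (μ : ℕ → K) {B : ℕ} (hA : aeval A (np μ B) = 0) :
    ∃ (h h' : Matrix n n K) (ℓ : n → ℕ), h * h' = 1 ∧ (∀ i, ℓ i < B) ∧ h' * A * h ∈ Flag ℓ μ ∧
      Exact ℓ μ (h' * A * h) ∧
      ∀ u, u * A = A * u → ∀ i k, ℓ k < ℓ i → (h' * u * h) i k = 0 := by
  obtain ⟨h, h', ℓ, h1, h2, h3⟩ := exists_adapted
    (fun k => LinearMap.ker (Matrix.toLin' (aeval A (np μ k))))
    (monotone_nat_of_le_succ fun k v hv => by
      rw [LinearMap.mem_ker, Matrix.toLin'_apply] at hv ⊢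
      rw [flagAux_succ, ← flagAux_semi (a := A) (by rw [sub_mul, mul_sub, Algebra.commutes]),
        ← mulVec_mulVec, hv, mulVec_zero])
    (by rw [flagAux_zero, Matrix.toLin'_one, LinearMap.ker_id]) (B := B)
    (by rw [hA, map_zero, LinearMap.ker_zero])
  have h1' : h' * h = 1 := mul_eq_one_comm.1 h1
  have hc : ∀ u : Matrix n n K, h * (h' * u * h) = u * h := fun u => by
    rw [← mul_assoc, ← mul_assoc, h1, one_mul]
  have he : Exact ℓ μ (h' * A * h) := fun k v => by
    rw [← h3, LinearMap.mem_ker, Matrix.toLin'_apply, mulVec_mulVec, ← flagAux_semi (hc A),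
      ← mulVec_mulVec]
    refine ⟨fun e => by rw [e, mulVec_zero], fun e => ?_⟩
    have := congrArg (h' *ᵥ ·) e
    simpa only [mulVec_mulVec, ← mul_assoc, h1', one_mul, mulVec_zero] using this
  refine ⟨h, h', ℓ, h1, h2, he.mem_flag, he, fun u hu i c hi => ?_⟩
  have e : (h' * u * h) * (h' * A * h) = (h' * A * h) * (h' * u * h) := by
    rw [mul_assoc (h' * u), hc, mul_assoc (h' * A), hc, mul_assoc, mul_assoc, ← mul_assoc u,
      ← mul_assoc A, hu]
  have := (he (ℓ c + 1) ((h' * u * h) *ᵥ Pi.single c 1)).1 (by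
    rw [mulVec_mulVec, ← flagAux_semi e, ← mulVec_mulVec, flagAux_col he, mulVec_zero]) i hi
  rwa [mulVec_single_one, col_apply] at this

lemma exists_np [IsAlgClosed K] (A : Matrix n n K) :
    ∃ μ : ℕ → K, (∀ j, j < Fintype.card n → A.charpoly.IsRoot (μ j)) ∧
      A.charpoly = np μ (Fintype.card n) ∧ aeval A (np μ (Fintype.card n)) = 0 := by
  have hs := IsAlgClosed.splits A.charpoly
  obtain ⟨L, hL⟩ : ∃ L : List K, (L : Multiset K) = A.charpoly.roots := ⟨_, Multiset.coe_toList _⟩
  have hl : L.length = Fintype.card n := by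
    rw [← Multiset.coe_card, hL, ← hs.natDegree_eq_card_roots, charpoly_natDegree_eq_dim]
  have e : A.charpoly = np (fun j => L.getD j 0) (Fintype.card n) := by
    rw [hs.eq_prod_roots_of_monic A.charpoly_monic, ← hL, np, ← hl, Multiset.map_coe,
      Multiset.prod_coe, ← Fin.prod_univ_eq_prod_range (fun j => X - C (L.getD j 0)),
      ← List.prod_ofFn]
    congr 1
    refine List.ext_getElem (by simp) fun i h1 h2 => ?_
    rw [List.length_map] at h1
    simp [h1]
  refine ⟨_, fun j hj => ?_, e, e ▸ A.aeval_self_charpoly⟩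
  rw [← mem_roots A.charpoly_monic.ne_zero, ← hL, Multiset.mem_coe,
    List.getD_eq_getElem _ _ (hl ▸ hj)]
  exact List.getElem_mem _

lemma flagAux_kill {ℓ : n → ℕ} {μ : ℕ → K} {τ : Matrix n n K} (h : τ ∈ Flag ℓ μ) (k : ℕ) :
    ∀ v : n → K, (∀ i, k ≤ ℓ i → v i = 0) → aeval τ (np μ k) *ᵥ v = 0 := by
  induction k with
  | zero =>
    intro v hv
    rw [show v = 0 from funext fun i => hv i (Nat.zero_le _), mulVec_zero]
  | succ k ih =>
    intro v hv
    rw [flagAux_succ, ← mulVec_mulVec]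
    refine ih _ fun i hi => Finset.sum_eq_zero fun c _ => ?_
    show (τ - algebraMap K _ (μ k)) i c * v c = 0
    by_cases hc : k + 1 ≤ ℓ c
    · rw [hv c hc, mul_zero]
    · rw [Matrix.sub_apply, h i c (by omega), algebraMap_matrix_apply]
      split_ifs with e
      · subst e
        rw [show ℓ i = k by omega]
        simp
      · simp

lemma flagAux_isP (μ : ℕ → K) (k : ℕ) : IsP K fun τ : Matrix n n K => aeval τ (np μ k) := by
  induction k with
  | zero => simpa only [flagAux_zero] using IsP.const _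
  | succ k ih =>
    simp only [flagAux_succ]
    exact ih.mmul (IsP.id.msub (IsP.const _))

lemma flag_open {ℓ : n → ℕ} {μ : ℕ → K} {τ₀ : Matrix n n K} (h₀ : τ₀ ∈ Flag ℓ μ)
    (he : Exact ℓ μ τ₀) :
    ∃ δ : Matrix n n K → K, IsP K δ ∧ δ τ₀ ≠ 0 ∧ ∀ τ ∈ Flag ℓ μ, δ τ ≠ 0 → Exact ℓ μ τ := by
  have hE : ∀ (k : ℕ) (v : n → K) (i : n),
      (E K (Finset.univ.filter fun i => ℓ i < k) *ᵥ v) i = if ℓ i < k then v i else 0 :=
    fun k v i => by simp [E, mulVec_diagonal]
  have key : ∀ k, ∃ R S : Matrix n n K,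
      R * aeval τ₀ (np μ k) + S * E K (Finset.univ.filter fun i => ℓ i < k) = 1 := by
    intro k
    obtain ⟨g, hg⟩ := LinearMap.exists_leftInverse_of_injective
      ((Matrix.toLin' (aeval τ₀ (np μ k))).prod
        (Matrix.toLin' (E K (Finset.univ.filter fun i => ℓ i < k))))
      (LinearMap.ker_eq_bot'.2 fun v hv => by
        have h1 := (he k v).1 (congrArg Prod.fst hv)
        have h2 : E K (Finset.univ.filter fun i => ℓ i < k) *ᵥ v = 0 := congrArg Prod.snd hv
        ext i
        have := congrFun h2 i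
        rw [hE] at this
        split_ifs at this with e
        exacts [this, h1 i (not_lt.1 e)])
    refine ⟨LinearMap.toMatrix' (g ∘ₗ LinearMap.inl K _ _),
      LinearMap.toMatrix' (g ∘ₗ LinearMap.inr K _ _), Matrix.ext_iff_mulVec.2 fun v => ?_⟩
    rw [add_mulVec, ← mulVec_mulVec, ← mulVec_mulVec, ← Matrix.toLin'_apply (LinearMap.toMatrix' _),
      ← Matrix.toLin'_apply (LinearMap.toMatrix' _), Matrix.toLin'_toMatrix',
      Matrix.toLin'_toMatrix', LinearMap.comp_apply, LinearMap.comp_apply, ← map_add, one_mulVec]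
    simpa using LinearMap.congr_fun hg v
  choose R S hRS using key
  refine ⟨fun τ => ∏ k ∈ Finset.range (Finset.univ.sup ℓ + 1),
    (R k * aeval τ (np μ k) + S k * E K (Finset.univ.filter fun i => ℓ i < k)).det,
    IsP.prod _ fun k => (((IsP.const _).mmul (flagAux_isP μ k)).madd (IsP.const _)).det,
    by simp [hRS], fun τ hτ hδ k v => ⟨fun hv i hi => ?_, flagAux_kill hτ k v⟩⟩
  have hk : k ∈ Finset.range (Finset.univ.sup ℓ + 1) :=
    Finset.mem_range.2 (Nat.lt_succ_of_le (hi.trans (Finset.le_sup (Finset.mem_univ i))))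
  have := Matrix.eq_zero_of_mulVec_eq_zero (Finset.prod_ne_zero_iff.1 hδ k hk)
    (v := v - E K (Finset.univ.filter fun i => ℓ i < k) *ᵥ v) (by
      rw [add_mulVec, ← mulVec_mulVec, ← mulVec_mulVec, mulVec_sub, hv,
        flagAux_kill hτ k _ fun j hj => by rw [hE, if_neg (not_lt.2 hj)], mulVec_sub (E K _),
        mulVec_mulVec _ (E K _), E_mul_self]
      simp)
  have := congrFun this i
  rwa [Pi.sub_apply, hE, if_neg (not_lt.2 hi), sub_zero] at this

section conj

variable {V V' : Type} [AddCommGroup V] [Module K V] [AddCommGroup V'] [Module K V']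

lemma flagAux_glue (U W : Submodule K V) (f : U →ₗ[K] V') (g : W →ₗ[K] V')
    (h : ∀ (x : U) (y : W), (x : V) = y → f x = g y) :
    ∃ d : V →ₗ[K] V', (∀ x : U, d x = f x) ∧ ∀ x : W, d x = g x := by
  obtain ⟨d, hd⟩ := (LinearPMap.sup ⟨U, f⟩ ⟨W, g⟩ h).toFun.exists_extend
  exact ⟨d, fun x => (LinearMap.congr_fun hd ⟨x, Submodule.mem_sup_left x.2⟩).trans
      ((LinearPMap.left_le_sup ⟨U, f⟩ ⟨W, g⟩ h).2 (x := x) rfl).symm,
    fun x => (LinearMap.congr_fun hd ⟨x, Submodule.mem_sup_right x.2⟩).trans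
      ((LinearPMap.right_le_sup ⟨U, f⟩ ⟨W, g⟩ h).2 (x := x) rfl).symm⟩

lemma flagAux_nat {f : V →ₗ[K] V'} {T : End K V} {T' : End K V'} (h : ∀ v, f (T v) = T' (f v))
    (μ : ℕ → K) (k : ℕ) : ∀ v, f (aeval T (np μ k) v) = aeval T' (np μ k) (f v) := by
  induction k with
  | zero => simp [flagAux_zero]
  | succ k ih => intro v; simp [flagAux_succ, ih, h]

variable [FiniteDimensional K V] [FiniteDimensional K V']

lemma flagAux_ext (hd : finrank K V = finrank K V') (U : Submodule K V) (f : U →ₗ[K] V')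
    (hf : Function.Injective f) : ∃ g : V ≃ₗ[K] V', ∀ u : U, g u = f u := by
  let e := LinearEquiv.ofFinrankEq V' V hd.symm
  obtain ⟨g, hg⟩ := Submodule.exists_linearEquiv_restrict_eq
    (LinearEquiv.ofInjective (e.toLinearMap ∘ₗ f) (e.injective.comp hf))
  exact ⟨g.trans e.symm, fun u => by simp [← hg]⟩

lemma flagAux_lift (S : End K V) (S' : End K V') (hd : finrank K V = finrank K V')
    (φ : LinearMap.range S ≃ₗ[K] LinearMap.range S')
    (hφ : ∀ w : LinearMap.range S, (φ (S.rangeRestrict w) : V') = S' (φ w)) :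
    ∃ e : V ≃ₗ[K] V', ∀ v, e (S v) = S' (e v) := by
  obtain ⟨σ, hσ⟩ := S'.rangeRestrict.exists_rightInverse_of_surjective S'.range_rangeRestrict
  have hσ' : ∀ w, S' (σ w) = w := fun w => congrArg Subtype.val (LinearMap.congr_fun hσ w)
  have hk : finrank K (LinearMap.ker S) = finrank K (LinearMap.ker S') := by
    have h1 := S.finrank_range_add_finrank_ker
    have h2 := S'.finrank_range_add_finrank_ker
    have h3 := φ.finrank_eq
    omega
  have h0 : ∀ v, S v = 0 → S.rangeRestrict v = 0 := fun v hv => Subtype.ext hv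
  obtain ⟨κ, hκ⟩ := flagAux_ext hk ((LinearMap.range S).comap (LinearMap.ker S).subtype)
    (LinearMap.codRestrict _ ((LinearMap.range S').subtype ∘ₗ φ.toLinearMap ∘ₗ
      (LinearMap.ker S).subtype.restrict fun _ h => h) fun u => by
        have := hφ ⟨u.1.1, u.2⟩
        rw [h0 _ u.1.2, map_zero] at this
        exact this.symm)
    fun u u' h => by
      have h2 := congrArg Subtype.val h
      have h3 := congrArg Subtype.val (φ.injective (Subtype.ext h2))
      exact Subtype.ext (Subtype.ext h3)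
  obtain ⟨d, d1, d2⟩ := flagAux_glue (V' := LinearMap.ker S') (LinearMap.range S) (LinearMap.ker S)
    (LinearMap.codRestrict _ ((LinearMap.range S').subtype ∘ₗ φ.toLinearMap -
      σ ∘ₗ φ.toLinearMap ∘ₗ S.rangeRestrict ∘ₗ (LinearMap.range S).subtype) fun w => by
        show S' (φ w - σ (φ (S.rangeRestrict w))) = 0
        rw [map_sub, hσ', hφ, sub_self]) κ.toLinearMap fun x y hxy => by
      refine Subtype.ext ?_
      have hy : S x = 0 := hxy ▸ y.2
      have := congrArg Subtype.val (hκ ⟨y, show (y : V) ∈ LinearMap.range S from hxy ▸ x.2⟩)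
      refine Eq.trans ?_ this.symm
      have e : x = ⟨y, hxy ▸ x.2⟩ := Subtype.ext hxy
      simp only [LinearMap.codRestrict_apply, LinearMap.sub_apply, LinearMap.comp_apply,
        Submodule.subtype_apply, h0 _ hy, map_zero, sub_zero]
      exact congrArg (fun w => (φ w : V')) e
  let e0 : V →ₗ[K] V' := σ ∘ₗ φ.toLinearMap ∘ₗ S.rangeRestrict + (LinearMap.ker S').subtype ∘ₗ d
  have e1 : ∀ v, S' (e0 v) = φ (S.rangeRestrict v) := fun v => by
    have : S' (d v) = 0 := (d v).2
    simp [e0, hσ', this]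
  have e2 : ∀ w : LinearMap.range S, e0 w = φ w := fun w => by
    show σ (φ (S.rangeRestrict w)) + d w = _
    rw [d1]
    exact add_sub_cancel _ _
  refine ⟨e0.linearEquivOfInjective (LinearMap.ker_eq_bot.1 (LinearMap.ker_eq_bot'.2
    fun v hv => ?_)) hd, fun v => (e2 (S.rangeRestrict v)).trans (e1 v).symm⟩
  have h1 : S.rangeRestrict v = 0 := by
    have := e1 v
    rw [hv, map_zero, eq_comm, Submodule.coe_eq_zero] at this
    exact φ.map_eq_zero_iff.1 this
  have h2 : v ∈ LinearMap.ker S := congrArg Subtype.val h1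
  have h3 : κ ⟨v, h2⟩ = 0 := by
    have := d2 ⟨v, h2⟩
    simp only [e0, LinearMap.add_apply, LinearMap.comp_apply, h1, map_zero, zero_add,
      Submodule.subtype_apply, Submodule.coe_eq_zero] at hv
    exact this.symm.trans hv
  exact congrArg Subtype.val (κ.map_eq_zero_iff.1 h3)

end conj

lemma flagAux_rank {V : Type} [AddCommGroup V] [Module K V] (T : End K V) (μ : ℕ → K)
    (h : ∀ x ∈ LinearMap.range (T - algebraMap K _ (μ 0)),
      T x ∈ LinearMap.range (T - algebraMap K _ (μ 0))) (k : ℕ) :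
    (LinearMap.range (aeval (T.restrict h) (np (fun j => μ (j + 1)) k))).map
      (Submodule.subtype _) = LinearMap.range (aeval T (np μ (k + 1))) := by
  have := flagAux_nat (f := Submodule.subtype _) (T := T.restrict h) (T' := T) (fun _ => rfl)
    (fun j => μ (j + 1)) k
  ext x
  rw [flagAux_succ']
  constructor
  · rintro ⟨_, ⟨⟨_, v, rfl⟩, rfl⟩, rfl⟩
    exact ⟨v, (this ⟨_, v, rfl⟩).symm⟩
  · rintro ⟨v, rfl⟩
    exact ⟨_, ⟨⟨_, v, rfl⟩, rfl⟩, this _⟩

lemma flagAux_inv {V : Type} [AddCommGroup V] [Module K V] (T : End K V) (c : K) :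
    ∀ x ∈ LinearMap.range (T - algebraMap K _ c), T x ∈ LinearMap.range (T - algebraMap K _ c) := by
  rintro _ ⟨v, rfl⟩
  exact ⟨T v, by simp⟩

lemma flagAux_conj (B : ℕ) : ∀ (μ : ℕ → K) (V V' : Type) [AddCommGroup V] [Module K V]
    [AddCommGroup V'] [Module K V'] [FiniteDimensional K V] [FiniteDimensional K V']
    (T : End K V) (T' : End K V'), (∀ k, finrank K (LinearMap.range (aeval T (np μ k))) =
      finrank K (LinearMap.range (aeval T' (np μ k)))) → aeval T (np μ B) = 0 →
    ∃ e : V ≃ₗ[K] V', ∀ v, e (T v) = T' (e v) := by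
  induction B with
  | zero =>
    intro μ V V' _ _ _ _ _ _ T T' h hB
    have h0 := h 0
    rw [flagAux_zero, flagAux_zero, End.one_eq_id, End.one_eq_id, LinearMap.range_id,
      LinearMap.range_id, finrank_top, finrank_top] at h0
    refine ⟨LinearEquiv.ofFinrankEq _ _ h0, fun v => ?_⟩
    have : v = 0 := by simpa [flagAux_zero] using LinearMap.congr_fun hB v
    simp [this]
  | succ B ih =>
    intro μ V V' _ _ _ _ _ _ T T' h hB
    have h0 := h 0
    rw [flagAux_zero, flagAux_zero, End.one_eq_id, End.one_eq_id, LinearMap.range_id,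
      LinearMap.range_id, finrank_top, finrank_top] at h0
    obtain ⟨φ, hφ⟩ := ih (fun j => μ (j + 1)) _ _ (T.restrict (flagAux_inv T (μ 0)))
      (T'.restrict (flagAux_inv T' (μ 0)))
      (fun k => by
        rw [← Submodule.finrank_map_subtype_eq, flagAux_rank, h, ← flagAux_rank T' μ,
          Submodule.finrank_map_subtype_eq])
      (by
        have := flagAux_rank T μ (flagAux_inv T (μ 0)) B
        rw [hB, LinearMap.range_zero] at this
        exact LinearMap.ext fun v => Subtype.ext (this.le ⟨_, ⟨v, rfl⟩, rfl⟩))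
    obtain ⟨e, he⟩ := flagAux_lift (T - algebraMap K _ (μ 0)) (T' - algebraMap K _ (μ 0)) h0 φ
      fun w => by
        have h1 : (T - algebraMap K _ (μ 0)).rangeRestrict w =
            T.restrict (flagAux_inv T (μ 0)) w - μ 0 • w := Subtype.ext (by simp)
        rw [h1, map_sub, hφ]
        simp
    exact ⟨e, fun v => by simpa using he v⟩

lemma conj_of_exact {ℓ : n → ℕ} {μ : ℕ → K} {τ τ' : Matrix n n K} (h : Exact ℓ μ τ)
    (h' : Exact ℓ μ τ') : Conj τ τ' := by
  obtain ⟨e, he⟩ := flagAux_conj (Finset.univ.sup ℓ + 1) μ _ _ (Matrix.toLinAlgEquiv' τ)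
    (Matrix.toLinAlgEquiv' τ') (fun k => by
      rw [aeval_algHom_apply, aeval_algHom_apply]
      have h1 := (Matrix.toLinAlgEquiv' (aeval τ (np μ k))).finrank_range_add_finrank_ker
      have h2 := (Matrix.toLinAlgEquiv' (aeval τ' (np μ k))).finrank_range_add_finrank_ker
      have h3 : LinearMap.ker (Matrix.toLinAlgEquiv' (aeval τ (np μ k))) =
          LinearMap.ker (Matrix.toLinAlgEquiv' (aeval τ' (np μ k))) :=
        Submodule.ext fun v => (h k v).trans (h' k v).symm
      rw [h3] at h1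
      omega)
    (by
      rw [aeval_algHom_apply]
      exact LinearMap.ext fun v => (h _ v).2 fun i hi =>
        absurd (Finset.le_sup (f := ℓ) (Finset.mem_univ i)) (by omega))
  have hh : LinearMap.toMatrix' e.toLinearMap * LinearMap.toMatrix' e.symm.toLinearMap = 1 := by
    rw [← LinearMap.toMatrix'_comp]; simp
  refine ⟨_, _, hh, ?_⟩
  have : LinearMap.toMatrix' e.toLinearMap * τ = τ' * LinearMap.toMatrix' e.toLinearMap :=
    Matrix.ext_iff_mulVec.2 fun v => by
      rw [← mulVec_mulVec, ← mulVec_mulVec, ← Matrix.toLin'_apply (LinearMap.toMatrix' _),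
        ← Matrix.toLin'_apply (LinearMap.toMatrix' _), Matrix.toLin'_toMatrix']
      exact he v
  rw [this, mul_assoc, hh, mul_one]

end Vale.Agent.P002b
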