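import Vale.Agent.P002b.Defs

/-! Density of integral points in tori, general linear groups and small surface systems. -/

namespace Vale.Agent.P002b

open Matrix

variable {O K : Type} [CommRing O] [Field K] [Algebra O K] [FaithfulSMul O K]
variable {n : Type} [Fintype n] [DecidableEq n]

lemma dn_units (hU : HasUnit O) : Dn O K {p : K × K | p.1 * p.2 = 1} := by
  obtain ⟨u, hu⟩ := hU
  have hfin : ¬ IsOfFinOrder u := fun e => by
    obtain ⟨k, hk, e⟩ := isOfFinOrder_iff_pow_eq_one.1 e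
    exact hu k hk e
  have hinj : Function.Injective fun k : ℕ => algebraMap O K ((u ^ k : Oˣ) : O) :=
    (FaithfulSMul.algebraMap_injective O K).comp
      (Units.val_injective.comp (injective_pow_iff_not_isOfFinOrder.2 hfin))
  rintro ⟨t, s⟩ hts F hF h0
  have hts' : t * s = 1 := hts
  obtain ⟨P, hP⟩ := pol_prod_K hF
  obtain ⟨k, q, hq, h⟩ := root_reduce (u := fun y : K => y) IsP.id one_pos P
  simp only [pow_one, Finset.sum_range_one, pow_zero, mul_one, ← hP] at h
  have h1 : q 0 t = 0 := by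
    refine (hq 0).eq_zero_of_cl ?_ (mem_cl_of_infinite (Set.infinite_range_of_injective hinj) t)
    rintro _ ⟨j, rfl⟩
    rw [← h _ _ (unit_inv_mul (u ^ j)), h0 _ ⟨unit_mul_inv (u ^ j),
      isInt_prod.2 ⟨(intC_algebraMap _).out, (intC_algebraMap _).out⟩⟩, mul_zero]
  have h2 := h t s (by rw [mul_comm, hts'])
  rw [h1] at h2
  exact (mul_eq_zero.1 h2).resolve_left (pow_ne_zero _ (left_ne_zero_of_mul_eq_one hts'))

omit [FaithfulSMul O K] [Fintype n] in
lemma GL.intC_single (i j : n) : IntC O K (Matrix.single i j (1 : K)) :=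
  ⟨isInt_mat.2 fun a b => by
    rw [Matrix.single_apply]; split_ifs
    exacts [intC_one.out, intC_zero.out]⟩

theorem dn_GL (hU : HasUnit O) : Dn O K (GLs n K) := by
  have := hU.infinite
  have key : ∀ M : Matrix n n K, M.det ≠ 0 → Gd O K (GLs n K) (M, M⁻¹) := by
    intro M hM
    refine Matrix.diagonal_transvection_induction_of_det_ne_zero
      (fun M => Gd O K (GLs n K) (M, M⁻¹)) M hM ?_ ?_ ?_
    · intro D hD
      rw [det_diagonal, Finset.prod_ne_zero_iff] at hD
      have h1 : Gd O K (Set.pi Set.univ fun _ : n => {p : K × K | p.1 * p.2 = 1})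
          (fun i => (D i, (D i)⁻¹)) :=
        Gd.pi fun i => dn_units hU _ (mul_inv_cancel₀ (hD i (Finset.mem_univ i)))
      have h2 := h1.map (T := GLs n K)
        (f := fun x : n → K × K => (diagonal fun i => (x i).1, diagonal fun i => (x i).2))
        (by fun_prop) (fun y hy => by
          change diagonal _ * diagonal _ = 1
          rw [diagonal_mul_diagonal, ← diagonal_one]
          exact congrArg diagonal (funext fun i => hy i trivial))
      have h3 : (diagonal D)⁻¹ = diagonal fun i => (D i)⁻¹ := by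
        refine Matrix.inv_eq_right_inv ?_
        rw [diagonal_mul_diagonal, ← diagonal_one]
        exact congrArg diagonal (funext fun i => mul_inv_cancel₀ (hD i (Finset.mem_univ i)))
      rw [h3]
      exact h2
    · rintro ⟨i, j, hij, c⟩
      have := GL.intC_single (O := O) (K := K) i j
      have e : ∀ c : K, (1 : Matrix n n K) + c • Matrix.single i j 1 = transvection i j c := by
        intro c
        simp [transvection]
      have h0 : ∀ c : K, transvection i j c * transvection i j (-c) = 1 := fun c => by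
        rw [transvection_mul_transvection_same i j hij, add_neg_cancel, transvection_zero]
      have h2 := (dn_univ_K (O := O) c trivial).map (T := GLs n K)
        (f := fun c : K => ((1 : Matrix n n K) + c • Matrix.single i j 1,
          (1 : Matrix n n K) + (-c) • Matrix.single i j 1))
        (by fun_prop) (fun y _ => by
          change _ * _ = 1
          simp only [e]
          exact h0 y)
      simp only [e] at h2
      rw [TransvectionStruct.toMatrix_mk, Matrix.inv_eq_right_inv (h0 c)]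
      exact h2
    · intro A B _ _ hA hB
      rw [Matrix.mul_inv_rev]
      refine (hA.prod hB).map (T := GLs n K)
        (f := fun p : (Matrix n n K × Matrix n n K) × (Matrix n n K × Matrix n n K) =>
          (p.1.1 * p.2.1, p.2.2 * p.1.2)) (by fun_prop) fun y hy => ?_
      have h1 : y.1.1 * y.1.2 = 1 := hy.1
      have h2 : y.2.1 * y.2.2 = 1 := hy.2
      change y.1.1 * y.2.1 * (y.2.2 * y.1.2) = 1
      rw [Matrix.mul_assoc, ← Matrix.mul_assoc y.2.1, h2, Matrix.one_mul, h1]
  rintro ⟨M, M'⟩ h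
  have h' : M * M' = 1 := h
  rw [← Matrix.inv_eq_right_inv h']
  exact key M (Matrix.det_ne_zero_of_right_inverse h')

/-- The matrix of the inclusion of coordinates given by `f`. -/
def GL.inc (K : Type) [Field K] {κ : Type} (f : κ → n) : Matrix n κ K :=
  Matrix.of fun i k => if i = f k then 1 else 0

omit [FaithfulSMul O K] [Fintype n] in
lemma GL.intC_inc {κ : Type} (f : κ → n) : IntC O K (GL.inc K f) :=
  ⟨isInt_mat.2 fun a b => by
    rw [GL.inc, Matrix.of_apply]; split_ifs
    exacts [intC_one.out, intC_zero.out]⟩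

lemma GL.inc_mul {κ : Type} [DecidableEq κ] {f : κ → n} (hf : Function.Injective f) :
    (GL.inc K f)ᵀ * GL.inc K f = 1 := by
  ext k l
  simp [GL.inc, Matrix.mul_apply, Matrix.one_apply, hf.eq_iff, eq_comm]

omit [Fintype n] in
lemma GL.mul_inc {κ : Type} [Fintype κ] {f : κ → n} (hf : Function.Injective f) {s : Finset n}
    (hs : ∀ i, i ∈ s ↔ ∃ k, f k = i) : GL.inc K f * (GL.inc K f)ᵀ = E K s := by
  ext i j
  rw [E_apply, Matrix.mul_apply]
  by_cases hi : i ∈ s
  · obtain ⟨k, rfl⟩ := (hs i).1 hi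
    rw [Finset.sum_eq_single k]
    · simp [GL.inc, hi, eq_comm]
    · intro l _ hl
      simp [GL.inc, hf.eq_iff, hl.symm]
    · simp
  · rw [if_neg (by tauto)]
    refine Finset.sum_eq_zero fun k _ => ?_
    have : i ≠ f k := fun e => hi ((hs i).2 ⟨k, e.symm⟩)
    simp [GL.inc, this]

lemma GL.ti_of {κ : Type} [Fintype κ] [DecidableEq κ] {I J : Matrix n κ K} {t s : Finset n}
    (hI : Iᵀ * I = 1) (hI' : I * Iᵀ = E K t) (hJ : Jᵀ * J = 1) (hJ' : J * Jᵀ = E K s)
    {A A' : Matrix κ κ K} (h : A * A' = 1) : TI t s (I * A * Jᵀ) (J * A' * Iᵀ) := by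
  have h' : A' * A = 1 := mul_eq_one_comm.1 h
  have a1 : E K t * I = I := by rw [← hI', Matrix.mul_assoc, hI, Matrix.mul_one]
  have a2 : E K s * J = J := by rw [← hJ', Matrix.mul_assoc, hJ, Matrix.mul_one]
  have a3 : Iᵀ * E K t = Iᵀ := by rw [← hI', ← Matrix.mul_assoc, hI, Matrix.one_mul]
  have a4 : Jᵀ * E K s = Jᵀ := by rw [← hJ', ← Matrix.mul_assoc, hJ, Matrix.one_mul]
  refine ⟨sup_of_eq ?_ ?_, sup_of_eq ?_ ?_, ?_, ?_⟩
  · rw [← Matrix.mul_assoc, ← Matrix.mul_assoc, a1]
  · rw [Matrix.mul_assoc, a4]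
  · rw [← Matrix.mul_assoc, ← Matrix.mul_assoc, a2]
  · rw [Matrix.mul_assoc, a3]
  · simp only [Matrix.mul_assoc]
    rw [← Matrix.mul_assoc Jᵀ, hJ, Matrix.one_mul, ← Matrix.mul_assoc A, h, Matrix.one_mul, hI']
  · simp only [Matrix.mul_assoc]
    rw [← Matrix.mul_assoc Iᵀ, hI, Matrix.one_mul, ← Matrix.mul_assoc A', h', Matrix.one_mul, hJ']

omit [FaithfulSMul O K] in
lemma GL.mem_sphere {h : Hf n} {X : Asg K n} :
    X ∈ Sol K [(⟨1, h.t, [.fr h, .fr h.bar]⟩ : Fc O n)] ↔ TI h.t h.s (X h) (X h.bar) := by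
  rw [mem_sol_cons]
  constructor
  · exact fun H => H.1.ok (.fr h) (by simp)
  · intro H
    refine ⟨⟨by simp, ?_, ?_⟩, mem_sol_nil⟩
    · intro l hl
      simp only [List.mem_cons, List.not_mem_nil, or_false] at hl
      rcases hl with rfl | rfl
      · exact H
      · simpa using H.symm
    · simp [H.sup'.r, H.mul]

/-- The sphere made of one face `h h⁻¹`. -/
lemma dn_sphere [CharZero K] (hU : HasUnit O) (h : Hf n) :
    Dn O K (Sol K [(⟨1, h.t, [.fr h, .fr h.bar]⟩ : Fc O n)]) := by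
  have := hU.infinite
  intro x hx
  have hc := (GL.mem_sphere.1 hx).card_eq
  let e : h.t ≃ h.s := Finset.equivOfCardEq hc
  have i1 : Function.Injective (fun k : h.t => (k : n)) := Subtype.val_injective
  have i2 : Function.Injective (fun k : h.t => (e k : n)) :=
    Subtype.val_injective.comp e.injective
  have hI := GL.inc_mul (K := K) i1
  have hJ := GL.inc_mul (K := K) i2
  have hI' := GL.mul_inc (K := K) i1 (s := h.t)
    fun i => ⟨fun hi => ⟨⟨i, hi⟩, rfl⟩, fun ⟨k, hk⟩ => hk ▸ k.2⟩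
  have hJ' := GL.mul_inc (K := K) i2 (s := h.s)
    fun i => ⟨fun hi => ⟨e.symm ⟨i, hi⟩, by simp⟩, fun ⟨k, hk⟩ => hk ▸ (e k).2⟩
  have c1 := GL.intC_inc (O := O) (K := K) (fun k : h.t => (k : n))
  have c2 := GL.intC_inc (O := O) (K := K) (fun k : h.t => (e k : n))
  set I := GL.inc K (fun k : h.t => (k : n))
  set J := GL.inc K (fun k : h.t => (e k : n))
  refine Dn.of_surj (f := fun p : (Matrix h.t h.t K × Matrix h.t h.t K) × Asg K n =>
    Function.update (Function.update p.2 h (I * p.1.1 * Jᵀ)) h.bar (J * p.1.2 * Iᵀ))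
    (by fun_prop) ((dn_GL hU).prod dn_univ_pi_mat) (fun y hy => ?_) (fun z hz => ?_) x hx
  · rw [GL.mem_sphere, Function.update_self, Function.update_of_ne h.ne_bar, Function.update_self]
    exact GL.ti_of hI hI' hJ hJ' hy.1
  · have H := GL.mem_sphere.1 hz
    refine ⟨((Iᵀ * z h * J, Jᵀ * z h.bar * I), z), ⟨?_, trivial⟩, ?_⟩
    · change Iᵀ * z h * J * (Jᵀ * z h.bar * I) = 1
      simp only [Matrix.mul_assoc]
      rw [← Matrix.mul_assoc J, hJ', ← Matrix.mul_assoc (E K h.s), H.sup'.l,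
        ← Matrix.mul_assoc (z h), H.mul, ← hI', Matrix.mul_assoc, hI, Matrix.mul_one, hI]
    · have e1 : I * (Iᵀ * z h * J) * Jᵀ = z h := by
        simp only [Matrix.mul_assoc]
        rw [hJ', H.sup.r, ← Matrix.mul_assoc, hI', H.sup.l]
      have e2 : J * (Jᵀ * z h.bar * I) * Iᵀ = z h.bar := by
        simp only [Matrix.mul_assoc]
        rw [hI', H.sup'.r, ← Matrix.mul_assoc, hJ', H.sup'.l]
      simp only [e1, e2, Function.update_eq_self]

/-- Simultaneous conjugation of a quadruple. -/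
def qconj {R : Type} [CommRing R] (g g' : Matrix n n R) (q : Qd n R) : Qd n R :=
  (g * q.1 * g', g * q.2.1 * g', g * q.2.2.1 * g', g * q.2.2.2 * g')

lemma GL.conj_mul {g g' : Matrix n n K} (hg : g * g' = 1) (a b : Matrix n n K) :
    g * a * g' * (g * b * g') = g * (a * b) * g' := by
  have h' : g' * g = 1 := mul_eq_one_comm.1 hg
  simp only [Matrix.mul_assoc]
  rw [← Matrix.mul_assoc g' g, h', Matrix.one_mul]

lemma GL.conj_prod {g g' : Matrix n n K} (hg : g * g' = 1) (L : List (Matrix n n K)) :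
    (L.map fun a => g * a * g').prod = g * L.prod * g' := by
  induction L with
  | nil => simp [hg]
  | cons a L ih => rw [List.map_cons, List.prod_cons, List.prod_cons, ih, GL.conj_mul hg]

omit [FaithfulSMul O K] in
lemma qconj_mem_surf {γ : ℕ} {c : K} {x : Fin γ → Qd n K} (hx : x ∈ Surf n K γ c)
    {g g' : Matrix n n K} (hg : g * g' = 1) : (fun i => qconj g g' (x i)) ∈ Surf n K γ c := by
  refine ⟨fun i => ⟨?_, ?_⟩, ?_⟩
  · simp only [qconj]
    rw [GL.conj_mul hg, (hx.1 i).1, Matrix.mul_one, hg]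
  · simp only [qconj]
    rw [GL.conj_mul hg, (hx.1 i).2, Matrix.mul_one, hg]
  · have e : ∀ q : Qd n K, cm (qconj g g' q) = g * cm q * g' := fun q => by
      simp only [cm, qconj, GL.conj_mul hg]
    have e2 : (List.ofFn fun i => cm (qconj g g' (x i))) =
        (List.ofFn fun i => cm (x i)).map fun a => g * a * g' := by
      rw [List.map_ofFn]
      exact congrArg List.ofFn (funext fun i => e _)
    rw [e2, GL.conj_prod hg, hx.2]
    simp [hg]

lemma gd_surf_conj (hU : HasUnit O) {γ : ℕ} {c : K} {x : Fin γ → Qd n K}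
    (hx : Gd O K (Surf n K γ c) x) {g g' : Matrix n n K} (hg : g * g' = 1) :
    Gd O K (Surf n K γ c) (fun i => qconj g g' (x i)) := by
  refine ((dn_GL hU (g, g') hg).prod hx).map
    (f := fun (p : (Matrix n n K × Matrix n n K) × (Fin γ → Qd n K)) i =>
      qconj p.1.1 p.1.2 (p.2 i)) ?_ fun y hy => qconj_mem_surf hy.2 hy.1
  unfold qconj
  fun_prop

omit [FaithfulSMul O K] in
lemma dn_surf_zero (c : K) : Dn O K (Surf n K 0 c) := by
  exact fun x hx => Gd.of_int hx (isInt_pi.2 fun i => i.elim0)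

lemma GL.prod_cm_small (hn : Fintype.card n ≤ 1) {γ : ℕ} {x : Fin γ → Qd n K}
    (hx : ∀ i, QInv (x i)) : (List.ofFn fun i => cm (x i)).prod = 1 := by
  have := Fintype.card_le_one_iff_subsingleton.1 hn
  have hc : ∀ a b : Matrix n n K, a * b = b * a := fun a b => by
    ext i j
    rw [Matrix.mul_apply, Matrix.mul_apply, Fintype.sum_subsingleton _ i,
      Fintype.sum_subsingleton _ i, Subsingleton.elim j i, mul_comm]
  refine List.prod_eq_one fun a ha => ?_
  obtain ⟨i, rfl⟩ := List.mem_ofFn.1 ha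
  rw [cm, Matrix.mul_assoc (x i).1, hc (x i).2.2.1, ← Matrix.mul_assoc, (hx i).1, Matrix.one_mul,
    (hx i).2]

lemma dn_surf_small (hU : HasUnit O) (hn : Fintype.card n ≤ 1) (γ : ℕ) (c : K) :
    Dn O K (Surf n K γ c) := by
  intro x hx
  have hc : (1 : Matrix n n K) = c • 1 := by rw [← hx.2, GL.prod_cm_small hn hx.1]
  refine Dn.of_surj
    (f := fun (y : Fin γ → (Matrix n n K × Matrix n n K) × (Matrix n n K × Matrix n n K)) i =>
      (((y i).1.1, (y i).1.2, (y i).2.1, (y i).2.2) : Qd n K)) (by fun_prop)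
    (Dn.pi fun _ => (dn_GL hU).prod (dn_GL hU)) (fun y hy => ?_) (fun z hz => ?_) x hx
  · have h : ∀ i, QInv (((y i).1.1, (y i).1.2, (y i).2.1, (y i).2.2) : Qd n K) :=
      fun i => hy i trivial
    exact ⟨h, by rw [GL.prod_cm_small hn h, ← hc]⟩
  · exact ⟨fun i => (((z i).1, (z i).2.1), ((z i).2.2.1, (z i).2.2.2)), fun i _ => hz.1 i, rfl⟩

omit [FaithfulSMul O K] in
lemma GL.det_flag (ℓ : n → ℕ) (ν : ℕ → Oˣ) : ∃ d : Oˣ, ∀ τ : Matrix n n K,
    τ ∈ Flag ℓ (fun k => algebraMap O K (ν k)) → τ.det = algebraMap O K d := by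
  refine ⟨∏ a ∈ Finset.univ.image ℓ, ν a ^ Fintype.card {i // ℓ i = a}, fun τ hτ => ?_⟩
  have h1 : τ.BlockTriangular ℓ := fun i j hij => by
    rw [hτ i j hij.le, if_neg]
    rintro rfl
    exact lt_irrefl _ hij
  rw [h1.det, Units.coe_prod, map_prod]
  refine Finset.prod_congr rfl fun a _ => ?_
  have : τ.toSquareBlock ℓ a = diagonal fun _ => algebraMap O K (ν a) := by
    ext ⟨i, hi⟩ ⟨j, hj⟩
    rw [Matrix.toSquareBlock_def, Matrix.of_apply, hτ i j (by rw [hi, hj]), diagonal_apply, hj]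
    simp
  rw [this, det_diagonal]
  simp

/-- Flagged matrices with their inverses. -/
lemma dn_flag [CharZero K] (hU : HasUnit O) (ℓ : n → ℕ) (ν : ℕ → Oˣ) :
    Dn O K {p : Matrix n n K × Matrix n n K |
      p.1 * p.2 = 1 ∧ p.1 ∈ Flag ℓ fun k => algebraMap O K (ν k)} := by
  have := hU.infinite
  obtain ⟨d, hd⟩ := GL.det_flag (K := K) ℓ ν
  let τ : Matrix n n K → Matrix n n K := fun A => Matrix.of fun i k =>
    if ℓ k ≤ ℓ i then (if i = k then algebraMap O K (ν (ℓ k)) else 0) else A i k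
  have h1 : PM O K τ := pm_mat.2 fun i k =>
    PM.ite _ (PM.ite _ (PM.const _) (PM.const _)) (PM.id.entry i k)
  have h2 : ∀ A, τ A ∈ Flag ℓ fun k => algebraMap O K (ν k) := fun A i k h => if_pos h
  have h3 : ∀ A : Matrix n n K, A ∈ (Flag ℓ fun k => algebraMap O K (ν k)) →
      A * (algebraMap O K (d⁻¹ : Oˣ) • A.adjugate) = 1 := fun A hA => by
    rw [Matrix.mul_smul, Matrix.mul_adjugate, hd A hA, smul_smul, unit_inv_mul, one_smul]
  refine Dn.of_surj (f := fun A => (τ A, algebraMap O K (d⁻¹ : Oˣ) • (τ A).adjugate))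
    (by fun_prop) dn_univ_mat (fun y _ => ⟨h3 _ (h2 y), h2 y⟩) ?_
  rintro ⟨A, A'⟩ ⟨hA, hF⟩
  have e : τ A = A := by
    ext i k
    by_cases h : ℓ k ≤ ℓ i
    · exact (if_pos h).trans (hF i k h).symm
    · exact if_neg h
  refine ⟨A, trivial, ?_⟩
  simp only [e]
  rw [Matrix.right_inv_eq_right_inv (h3 A hF) hA]

end Vale.Agent.P002b
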