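import Vale.Agent.P002b.Punc
import Vale.Agent.P002b.Flag
import Vale.Agent.P002b.GL

/-! Representations with prescribed boundary classes. -/

namespace Vale.Agent.P002b

open Matrix

variable {O K : Type} [CommRing O] [Field K] [IsAlgClosed K] [CharZero K] [Algebra O K]
  [FaithfulSMul O K] {n : Type} [Fintype n] [DecidableEq n]

omit [IsAlgClosed K] [CharZero K] in
@[fun_prop] lemma PM.rel {X : Type} [Aff K X] {g s : ℕ} {f : X → Tup (Gen g s) n K}
    (hf : PM O K f) : PM O K (fun x => rel (f x)) := by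
  have h1 : ∀ γ, PM O K fun x => (f x γ).1 := fun γ => ((PM.apply γ).comp hf).fst
  have h2 : ∀ γ, PM O K fun x => (f x γ).2 := fun γ => ((PM.apply γ).comp hf).snd
  exact (PM.ofFn_prod fun i => (((h1 _).mmul (h1 _)).mmul (h2 _)).mmul (h2 _)).mmul
    (PM.ofFn_prod fun j => h1 _)

omit [IsAlgClosed K] [CharZero K] in
lemma clsAux_trans {A B C : Matrix n n K} (h : Conj A B) (h' : Conj B C) : Conj A C := by
  obtain ⟨a, a', ha, rfl⟩ := h
  obtain ⟨b, b', hb, rfl⟩ := h'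
  refine ⟨b * a, a' * b', ?_, by simp only [mul_assoc]⟩
  rw [mul_assoc, ← mul_assoc a, ha, one_mul, hb]

omit [CharZero K] [FaithfulSMul O K] in
lemma clsAux_local {C c : Matrix n n K} (hC : EigU O C) (hc : Conj C c) :
    ∃ (h h' : Matrix n n K) (ℓ : n → ℕ) (ν : ℕ → Oˣ) (δ : Matrix n n K → K), h * h' = 1 ∧
      h' * c * h ∈ Flag ℓ (fun k => algebraMap O K (ν k)) ∧ IsP K δ ∧ δ (h' * c * h) ≠ 0 ∧
      ∀ τ ∈ Flag ℓ (fun k => algebraMap O K (ν k)), δ τ ≠ 0 → Conj C τ := by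
  obtain ⟨μ, h1, -, h2⟩ := exists_np C
  have : ∀ k, ∃ u : Oˣ, k < Fintype.card n → algebraMap O K u = μ k := fun k => by
    by_cases hk : k < Fintype.card n
    · obtain ⟨u, hu⟩ := hC _ (h1 k hk)
      exact ⟨u, fun _ => hu⟩
    · exact ⟨1, fun h => absurd h hk⟩
  choose ν hν using this
  have e : np μ (Fintype.card n) = np (fun k => algebraMap O K (ν k)) (Fintype.card n) :=
    Finset.prod_congr rfl fun k hk => by rw [← hν k (Finset.mem_range.1 hk)]
  obtain ⟨k, k', ℓ, k1, -, k2, k3, -⟩ := exists_flag C _ (e ▸ h2)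
  obtain ⟨δ, d1, d2, d3⟩ := flag_open k2 k3
  obtain ⟨a, a', ha, rfl⟩ := hc
  have ha' : a' * a = 1 := mul_eq_one_comm.1 ha
  have e2 : k' * a' * (a * C * a') * (a * k) = k' * C * k := by
    simp only [mul_assoc]
    rw [← mul_assoc a' a, ← mul_assoc a' a, ha', one_mul, one_mul]
  refine ⟨a * k, k' * a', ℓ, ν, δ, ?_, e2 ▸ k2, d1, e2 ▸ d2, fun τ h3 h4 =>
    clsAux_trans ⟨k', k, mul_eq_one_comm.1 k1, rfl⟩ (conj_of_exact k3 (d3 τ h3 h4))⟩
  rw [mul_assoc, ← mul_assoc k, k1, one_mul, ha]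

omit [IsAlgClosed K] [CharZero K] in
lemma clsAux_back {h h' : Matrix n n K} (hh : h * h' = 1) (c : Matrix n n K) :
    h * (h' * c * h) * h' = c := by
  rw [← mul_assoc, ← mul_assoc, hh, one_mul, mul_assoc, hh, mul_one]

lemma clsAux_class (hU : HasUnit O) {C : Matrix n n K} (hC : EigU O C) :
    Dn O K {p : Matrix n n K × Matrix n n K | p.1 * p.2 = 1 ∧ Conj C p.1} := by
  rintro ⟨c, c'⟩ ⟨h1, h2⟩
  obtain ⟨h, h', ℓ, ν, δ, e1, e2, e3, e4, e5⟩ := clsAux_local hC h2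
  have := (((dn_GL hU (h, h') e1).prod (dn_flag hU ℓ ν (h' * c * h, h' * c' * h)
    ⟨by rw [GL.conj_mul (mul_eq_one_comm.1 e1), h1, mul_one, mul_eq_one_comm.1 e1], e2⟩)).open
    (δ := fun y => δ y.2.1) (by fun_prop) e4).map
    (f := fun y => (y.1.1 * y.2.1 * y.1.2, y.1.1 * y.2.2 * y.1.2))
    (T := {p : Matrix n n K × Matrix n n K | p.1 * p.2 = 1 ∧ Conj C p.1}) (by fun_prop)
    fun y hy => ⟨by
      show y.1.1 * y.2.1 * y.1.2 * (y.1.1 * y.2.2 * y.1.2) = 1
      rw [GL.conj_mul hy.1.1, hy.1.2.1, mul_one, hy.1.1],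
      clsAux_trans (e5 _ hy.1.2.2 hy.2) ⟨_, _, hy.1.1, rfl⟩⟩
  simpa only [clsAux_back e1] using this

omit [FaithfulSMul O K] in
lemma clsAux_univ [FaithfulSMul O K] (hP : PFoam O K n (Fintype.card n + 1)) (g : ℕ) {s : ℕ}
    (C : Fin s → Matrix n n K) (hC : ∀ j, EigU O (C j)) : Dn O K (Cls g Set.univ C) := by
  rintro x ⟨h1, h2, h3⟩
  choose h h' ℓ ν δ e1 e2 e3 e4 e5 using fun j => clsAux_local (hC j) (h3 j trivial)
  have := ((dn_punc hP g s ℓ ν 1
    (fun i => ((x (.inl i)).1, (x (.inl i)).2, (x (.inr (.inl i))).1, (x (.inr (.inl i))).2),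
      fun j => (h j, h' j, h' j * (x (.inr (.inr j))).1 * h j, h' j * (x (.inr (.inr j))).2 * h j))
    ⟨fun i => ⟨h1 _, h1 _⟩, fun j => ⟨⟨e1 j, by
      show h' j * _ * h j * (h' j * _ * h j) = 1
      rw [GL.conj_mul (mul_eq_one_comm.1 (e1 j)), h1, mul_one, mul_eq_one_comm.1 (e1 j)]⟩, e2 j⟩,
      by simpa only [cm, pc, clsAux_back (e1 _), Units.val_one, map_one, one_smul] using! h2⟩).open
    (δ := fun y => ∏ j, δ j (y.2 j).2.2.1)
    (IsP.prod _ fun j => (e3 j).comp ((IsP.apply j).comp IsP.id.snd).snd.snd.fst)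
    (Finset.prod_ne_zero_iff.2 fun j _ => e4 j)).map
    (f := fun y => (Sum.elim (fun i => ((y.1 i).1, (y.1 i).2.1))
      (Sum.elim (fun i => ((y.1 i).2.2.1, (y.1 i).2.2.2))
        fun j => (pc (y.2 j), (y.2 j).1 * (y.2 j).2.2.2 * (y.2 j).2.1)) : Tup (Gen g s) n K))
    (T := Cls g Set.univ C) (PM.pi fun γ => by
      rcases γ with i | i | j
      · simp only [Sum.elim_inl]; fun_prop
      · simp only [Sum.elim_inl, Sum.elim_inr]; fun_prop
      · simp only [Sum.elim_inr]; fun_prop)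
    fun y hy => ⟨fun γ => by
      rcases γ with i | i | j
      · exact (hy.1.1 i).1
      · exact (hy.1.1 i).2
      · show (y.2 j).1 * _ * _ * ((y.2 j).1 * _ * _) = 1
        rw [GL.conj_mul (hy.1.2.1 j).1.1, (hy.1.2.1 j).1.2, mul_one, (hy.1.2.1 j).1.1],
      by simpa only [Units.val_one, map_one, one_smul] using! hy.1.2.2,
      fun j _ => clsAux_trans (e5 j _ (hy.1.2.1 j).2
        (Finset.prod_ne_zero_iff.1 hy.2 j (Finset.mem_univ j))) ⟨_, _, (hy.1.2.1 j).1.1, rfl⟩⟩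
  have e : ∀ z : Tup (Gen g s) n K, (∀ γ, z γ = x γ) → Gd O K (Cls g Set.univ C) z →
      Gd O K (Cls g Set.univ C) x := fun z hz h => funext hz ▸ h
  refine e _ (fun γ => ?_) this
  rcases γ with i | i | j
  · rfl
  · rfl
  · exact Prod.ext (clsAux_back (e1 j) _) (clsAux_back (e1 j) _)

variable (O) in
/-- Integral polynomial matrices with an integral polynomial inverse on `S`. -/
def ClsInv {X : Type} [Aff K X] (S : Set X) (P : X → Matrix n n K) : Prop :=
  PM O K P ∧ ∃ P' : X → Matrix n n K, PM O K P' ∧ ∀ y ∈ S, P y * P' y = 1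

omit [IsAlgClosed K] [CharZero K] [FaithfulSMul O K] in
lemma ClsInv.mul {X : Type} [Aff K X] {S : Set X} {P Q : X → Matrix n n K} (hP : ClsInv O S P)
    (hQ : ClsInv O S Q) : ClsInv O S fun y => P y * Q y := by
  obtain ⟨h1, P', h2, h3⟩ := hP
  obtain ⟨h4, Q', h5, h6⟩ := hQ
  refine ⟨h1.mmul h4, fun y => Q' y * P' y, h5.mmul h2, fun y hy => ?_⟩
  rw [mul_assoc, ← mul_assoc (Q y), h6 y hy, one_mul, h3 y hy]

omit [IsAlgClosed K] [CharZero K] [FaithfulSMul O K] in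
lemma ClsInv.list {X α : Type} [Aff K X] {S : Set X} (L : List α) {P : α → X → Matrix n n K}
    (hP : ∀ a, ClsInv O S (P a)) : ClsInv O S fun y => (L.map fun a => P a y).prod := by
  induction L with
  | nil => exact ⟨PM.const 1, fun _ => 1, PM.const 1, fun _ _ => mul_one _⟩
  | cons a L ih => simpa only [List.map_cons, List.prod_cons] using (hP a).mul ih

theorem dn_cls (hU : HasUnit O) (hP : PFoam O K n (Fintype.card n + 1)) (g : ℕ) {s : ℕ}
    (T : Set (Fin s)) (C : Fin s → Matrix n n K) (hC : ∀ j ∈ T, EigU O (C j)) :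
    Dn O K (Cls g T C) := by
  classical
  by_cases hT : T = Set.univ
  · subst hT
    exact clsAux_univ hP g C fun j => hC j trivial
  obtain ⟨j₀, hj₀⟩ := (Set.ne_univ_iff_exists_notMem T).1 hT
  obtain ⟨l₁, l₂, hl⟩ := List.append_of_mem (List.mem_finRange j₀)
  have hn := List.nodup_finRange s
  rw [hl, List.nodup_middle, List.nodup_cons, List.mem_append, not_or] at hn
  let S : Set (Tup (Gen g s) n K) := Set.pi Set.univ fun γ =>
    {p | p.1 * p.2 = 1 ∧ ∀ j ∈ T, γ = .inr (.inr j) → Conj (C j) p.1}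
  have hS : Dn O K S := Dn.pi fun γ => by
    by_cases h : ∃ j ∈ T, γ = .inr (.inr j)
    · obtain ⟨j, hj, rfl⟩ := h
      refine fun p hp => Gd.mono (fun q hq => ?_) (clsAux_class hU (hC j hj) p ⟨hp.1, hp.2 j hj rfl⟩)
      exact ⟨hq.1, fun j' _ e => by cases e; exact hq.2⟩
    · refine fun p hp => Gd.mono (fun q hq => ?_) (dn_GL hU p hp.1)
      exact ⟨hq, fun j hj e => absurd ⟨j, hj, e⟩ h⟩
  have i1 : ∀ γ, ClsInv O S fun y => (y γ).1 := fun γ =>
    ⟨(PM.apply γ).fst, _, (PM.apply γ).snd, fun y hy => (hy γ trivial).1⟩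
  have i2 : ∀ γ, ClsInv O S fun y => (y γ).2 := fun γ =>
    ⟨(PM.apply γ).snd, _, (PM.apply γ).fst, fun y hy => mul_eq_one_comm.1 (hy γ trivial).1⟩
  obtain ⟨P, Q, ⟨p1, P', p2, p3⟩, ⟨q1, Q', q2, q3⟩, hr⟩ :
      ∃ P Q : Tup (Gen g s) n K → Matrix n n K, ClsInv O S P ∧ ClsInv O S Q ∧
        ∀ y p, rel (Function.update y (.inr (.inr j₀)) p) = P y * p.1 * Q y := by
    refine ⟨_, _, (ClsInv.list (List.finRange g) fun i => (((i1 (.inl i)).mul
      (i1 (.inr (.inl i)))).mul (i2 (.inl i))).mul (i2 (.inr (.inl i)))).mul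
      (ClsInv.list l₁ fun j => i1 (.inr (.inr j))), ClsInv.list l₂ fun j => i1 (.inr (.inr j)),
      fun y p => ?_⟩
    have e : ∀ l : List (Fin s), j₀ ∉ l →
        (l.map fun j => (Function.update y (.inr (.inr j₀)) p (.inr (.inr j))).1) =
          l.map fun j => (y (.inr (.inr j))).1 := fun l h =>
      List.map_congr_left fun j hj => by
        rw [Function.update_of_ne fun e => h (by cases e; exact hj)]
    rw [rel, List.ofFn_eq_map, List.ofFn_eq_map, hl, List.map_append, List.map_cons, e _ hn.1.1,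
      e _ hn.1.2]
    simp [mul_assoc]
  refine Dn.of_surj (f := fun y : Tup (Gen g s) n K =>
      Function.update y (.inr (.inr j₀)) (P' y * Q' y, Q y * P y))
    (PM.update _ PM.id ((p2.mmul q2).prodMk (q1.mmul p1))) hS (fun y hy => ⟨fun γ => ?_, ?_,
      fun j hj => ?_⟩) fun x hx => ?_
  · by_cases h : γ = .inr (.inr j₀)
    · rw [h, Function.update_self, mul_assoc, ← mul_assoc (Q' y), mul_eq_one_comm.1 (q3 y hy),
        one_mul, mul_eq_one_comm.1 (p3 y hy)]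
    · rw [Function.update_of_ne h]
      exact (hy γ trivial).1
  · rw [hr, ← mul_assoc, p3 y hy, one_mul, mul_eq_one_comm.1 (q3 y hy)]
  · rw [Function.update_of_ne fun e => hj₀ (by cases e; exact hj)]
    exact (hy _ trivial).2 j hj rfl
  · have hx' : x ∈ S := fun γ _ => ⟨hx.1 γ, fun j hj e => e ▸ hx.2.2 j hj⟩
    have e := hr x (x (.inr (.inr j₀)))
    rw [Function.update_eq_self, hx.2.1] at e
    have e1 : P' x * Q' x = (x (.inr (.inr j₀))).1 := by
      rw [← mul_one (P' x), e, ← mul_assoc, ← mul_assoc, mul_eq_one_comm.1 (p3 x hx'), one_mul,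
        mul_assoc, q3 x hx', mul_one]
    refine ⟨x, hx', Function.update_eq_self_iff.2 (Prod.ext e1 ?_)⟩
    show Q x * P x = _
    rw [← mul_one (Q x * P x), ← hx.1 (.inr (.inr j₀)), ← mul_assoc, mul_assoc (Q x),
      mul_eq_one_comm.1 e.symm, one_mul]

end Vale.Agent.P002b
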