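import Vale.Agent.P002b.Defs

/-! Diagonalization and the discriminant. -/

namespace Vale.Agent.P002b

open Matrix Polynomial

variable {K : Type} [Field K] {n : Type} [Fintype n] [DecidableEq n]

lemma Diag.exists_eigen {A : Matrix n n K} {μ : K} (h : A.charpoly.IsRoot μ) :
    ∃ v : n → K, v ≠ 0 ∧ A *ᵥ v = μ • v := by
  rw [IsRoot, Matrix.eval_charpoly, ← Matrix.exists_mulVec_eq_zero_iff] at h
  obtain ⟨v, hv, e⟩ := h
  refine ⟨v, hv, ?_⟩
  rw [Matrix.sub_mulVec, sub_eq_zero] at e
  rw [← e]
  ext i
  simp [Matrix.mulVec_diagonal]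

lemma diag_of_charpoly (A : Matrix n n K) (t : n → K) (ht : Function.Injective t)
    (h : A.charpoly = ∏ i, (X - C (t i))) :
    ∃ g g' : Matrix n n K, g * g' = 1 ∧ A = g * diagonal t * g' := by
  have h1 : ∀ i, A.charpoly.IsRoot (t i) := fun i => by
    rw [h, IsRoot, eval_prod]
    exact Finset.prod_eq_zero (Finset.mem_univ i) (by simp)
  choose v hv0 hv using fun i => Diag.exists_eigen (h1 i)
  have h2 : LinearIndependent K v :=
    Module.End.eigenvectors_linearIndependent' (Matrix.toLin' A) t ht v fun i =>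
      ⟨Module.End.mem_eigenspace_iff.2 (hv i), hv0 i⟩
  have h3 : IsUnit (Matrix.of v)ᵀ := Matrix.linearIndependent_cols_iff_isUnit.1 h2
  have h4 : (Matrix.of v)ᵀ * ((Matrix.of v)ᵀ)⁻¹ = 1 :=
    Matrix.mul_nonsing_inv _ ((Matrix.isUnit_iff_isUnit_det _).1 h3)
  have h5 : A * (Matrix.of v)ᵀ = (Matrix.of v)ᵀ * diagonal t := by
    ext i j
    have := congrFun (hv j) i
    rw [Matrix.mul_diagonal, mul_comm]
    exact this
  exact ⟨_, _, h4, by rw [← h5, Matrix.mul_assoc, h4, Matrix.mul_one]⟩

lemma exists_roots_of_separable [IsAlgClosed K] (A : Matrix n n K) (h : A.charpoly.Separable) :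
    ∃ t : n → K, Function.Injective t ∧ A.charpoly = ∏ i, (X - C (t i)) := by
  classical
  have hs := IsAlgClosed.splits A.charpoly
  have hn := nodup_roots h
  have hc : Fintype.card n = Fintype.card A.charpoly.roots.toFinset := by
    rw [Fintype.card_coe, Multiset.toFinset_card_of_nodup hn, ← hs.natDegree_eq_card_roots,
      Matrix.charpoly_natDegree_eq_dim]
  let e := Fintype.equivOfCardEq hc
  refine ⟨fun i => e i, Subtype.val_injective.comp e.injective, ?_⟩
  rw [e.prod_comp fun r => X - C (r : K),
    Finset.prod_coe_sort A.charpoly.roots.toFinset fun r => X - C r, Finset.prod,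
    Multiset.toFinset_val, hn.dedup]
  exact hs.eq_prod_roots_of_monic A.charpoly_monic

lemma separable_of_diag {g g' : Matrix n n K} (hg : g * g' = 1) {t : n → K}
    (ht : Function.Injective t) : (g * diagonal t * g').charpoly.Separable := by
  rw [Matrix.charpoly_mul_comm, ← Matrix.mul_assoc, mul_eq_one_comm.1 hg, Matrix.one_mul,
    Matrix.charpoly_diagonal]
  exact separable_prod_X_sub_C_iff.2 ht

lemma IsP.charpoly_coeff {X : Type} [Aff K X] {f : X → Matrix n n K} (hf : IsP K f) (k : ℕ) :
    IsP K (fun x => (f x).charpoly.coeff k) := by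
  let F : Matrix n n (pol K X) := Matrix.of fun i j => ⟨fun x => f x i j, isP_iff.1 (hf.entry i j)⟩
  have e : (fun x => (f x).charpoly.coeff k) = (F.charpoly.coeff k : X → K) := by
    funext x
    let ev : pol K X →+* K := (Pi.evalRingHom (fun _ => K) x).comp (pol K X).val.toRingHom
    have h : f x = F.map ev := rfl
    rw [h, Matrix.charpoly_map, coeff_map]
    rfl
  rw [isP_iff, e]
  exact (F.charpoly.coeff k).2

/-- Separability of the characteristic polynomial is a polynomial condition. -/
lemma exists_disc [IsAlgClosed K] :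
    ∃ δ : Matrix n n K → K, IsP K δ ∧ ∀ b, δ b ≠ 0 ↔ b.charpoly.Separable := by
  refine ⟨fun b => (aeval b (derivative b.charpoly)).det, IsP.det ?_, fun b => ⟨?_, ?_⟩⟩
  · have e : (fun b : Matrix n n K => aeval b (derivative b.charpoly)) = fun b =>
        ∑ i ∈ Finset.range (Fintype.card n + 1),
          (b.charpoly.coeff (i + 1) * ((i : K) + 1)) • b ^ i := by
      funext b
      rw [aeval_eq_sum_range' (n := Fintype.card n + 1)]
      · simp only [coeff_derivative]
      · refine Nat.lt_succ_of_le ((natDegree_derivative_le _).trans ?_)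
        rw [Matrix.charpoly_natDegree_eq_dim]
        exact Nat.sub_le _ _
    rw [e]
    exact IsP.msum _ fun i =>
      ((IsP.id.charpoly_coeff (i + 1)).mul (IsP.const _)).msmul (IsP.id.mpow i)
  · intro h
    rw [separable_def, Polynomial.isCoprime_iff_aeval_ne_zero_of_isAlgClosed K K]
    intro μ
    by_contra h'
    rw [not_or, not_not, not_not, coe_aeval_eq_eval] at h'
    have h1 := spectrum.subset_polynomial_aeval b (derivative b.charpoly)
      ⟨μ, Matrix.mem_spectrum_iff_isRoot_charpoly.2 h'.1, h'.2⟩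
    rw [spectrum.zero_mem_iff, Matrix.isUnit_iff_isUnit_det, isUnit_iff_ne_zero] at h1
    exact h1 h
  · rintro ⟨p, q, h⟩
    have h1 := congrArg (aeval b) h
    rw [map_add, map_mul, map_mul, Matrix.aeval_self_charpoly, mul_zero, zero_add, map_one] at h1
    exact Matrix.det_ne_zero_of_left_inverse h1

end Vale.Agent.P002b
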