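import Vale.Agent.P002b.GL
import Vale.Agent.P002b.Diag
import Vale.Agent.P002b.Block

/-! Commuting pairs of invertible matrices (Motzkin and Taussky). -/

namespace Vale.Agent.P002b

open Matrix

variable {O K : Type} [CommRing O] [Field K] [IsAlgClosed K] [CharZero K] [Algebra O K]
  [FaithfulSMul O K]

/-- Commuting pairs with their inverses. -/
def Com (n R : Type) [Fintype n] [DecidableEq n] [CommRing R] : Set (Qd n R) :=
  {q | QInv q ∧ q.1 * q.2.2.1 = q.2.2.1 * q.1}

/-- The pair is a good point of `Com` as soon as it is invertible. -/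
def Comm.G (O : Type) {K n : Type} [CommRing O] [Field K] [Algebra O K] [Fintype n]
    [DecidableEq n] (a b : Matrix n n K) : Prop :=
  ∀ a' b', a * a' = 1 → b * b' = 1 → Gd O K (Com n K) (a, a', b, b')

section aux

variable {n : Type} [Fintype n] [DecidableEq n]

omit [IsAlgClosed K] [CharZero K] in
lemma Comm.conj (hU : HasUnit O) {a b g g' : Matrix n n K} (hg : g * g' = 1) (h : Comm.G O a b) :
    Comm.G O (g * a * g') (g * b * g') := by
  have hg' : g' * g = 1 := mul_eq_one_comm.1 hg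
  have e1 : ∀ x : Matrix n n K, g * (g' * x * g) * g' = x := fun x => by
    simp only [Matrix.mul_assoc]
    rw [hg, Matrix.mul_one, ← Matrix.mul_assoc, hg, Matrix.one_mul]
  have e2 : ∀ x x' : Matrix n n K, g * x * g' * x' = 1 → x * (g' * x' * g) = 1 := fun x x' e => by
    have : x * (g' * x' * g) = g' * (g * x * g' * x') * g := by
      simp only [← Matrix.mul_assoc]
      rw [hg', Matrix.one_mul]
    rw [this, e, Matrix.mul_one, hg']
  intro a' b' ha hb
  have h1 := ((dn_GL hU (g, g') hg).prod (h _ _ (e2 _ _ ha) (e2 _ _ hb))).map (T := Com n K)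
    (f := fun p : (Matrix n n K × Matrix n n K) × Qd n K => qconj p.1.1 p.1.2 p.2)
    (by unfold qconj; fun_prop) (fun y hy => by
      have h0 : y.1.1 * y.1.2 = 1 := hy.1
      refine ⟨⟨?_, ?_⟩, ?_⟩ <;> simp only [qconj, GL.conj_mul h0]
      · rw [hy.2.1.1, Matrix.mul_one, h0]
      · rw [hy.2.1.2, Matrix.mul_one, h0]
      · rw [hy.2.2])
  simp only [qconj, e1] at h1
  exact h1

omit [IsAlgClosed K] [CharZero K] in
lemma Comm.diag (hU : HasUnit O) (s t : n → K) : Comm.G O (diagonal s) (diagonal t) := by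
  have key : ∀ (s : n → K) (a' : Matrix n n K), diagonal s * a' = 1 →
      (∀ i, s i * (s i)⁻¹ = 1) ∧ a' = diagonal fun i => (s i)⁻¹ := by
    intro s a' h
    have h1 := Matrix.det_ne_zero_of_right_inverse h
    rw [det_diagonal, Finset.prod_ne_zero_iff] at h1
    have h2 : ∀ i, s i * (s i)⁻¹ = 1 := fun i => mul_inv_cancel₀ (h1 i (Finset.mem_univ i))
    refine ⟨h2, Matrix.right_inv_eq_right_inv h ?_⟩
    rw [diagonal_mul_diagonal, ← diagonal_one]
    exact congrArg diagonal (funext h2)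
  intro a' b' ha hb
  obtain ⟨hs, rfl⟩ := key s a' ha
  obtain ⟨ht, rfl⟩ := key t b' hb
  have h1 : Gd O K (Set.pi Set.univ fun _ : n =>
      {p : K × K | p.1 * p.2 = 1} ×ˢ {p : K × K | p.1 * p.2 = 1})
      (fun i => ((s i, (s i)⁻¹), (t i, (t i)⁻¹))) :=
    Gd.pi fun i => (dn_units hU _ (hs i)).prod (dn_units hU _ (ht i))
  refine h1.map (T := Com n K) (f := fun x : n → (K × K) × (K × K) =>
    ((diagonal fun i => (x i).1.1, diagonal fun i => (x i).1.2, diagonal fun i => (x i).2.1,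
      diagonal fun i => (x i).2.2) : Qd n K)) (by fun_prop) fun y hy => ⟨⟨?_, ?_⟩, ?_⟩
  · change diagonal _ * diagonal _ = 1
    rw [diagonal_mul_diagonal, ← diagonal_one]
    exact congrArg diagonal (funext fun i => (hy i trivial).1)
  · change diagonal _ * diagonal _ = 1
    rw [diagonal_mul_diagonal, ← diagonal_one]
    exact congrArg diagonal (funext fun i => (hy i trivial).2)
  · change diagonal _ * diagonal _ = diagonal _ * diagonal _
    rw [diagonal_mul_diagonal, diagonal_mul_diagonal]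
    exact congrArg diagonal (funext fun i => mul_comm _ _)

omit [IsAlgClosed K] [CharZero K] [FaithfulSMul O K] in
lemma Comm.block {k l : Type} [Fintype k] [Fintype l] [DecidableEq k] [DecidableEq l]
    (e : k ⊕ l ≃ n) {a₁ b₁ : Matrix k k K} {a₂ b₂ : Matrix l l K} (h₁ : Comm.G O a₁ b₁)
    (h₂ : Comm.G O a₂ b₂) : Comm.G O (bd e a₁ a₂) (bd e b₁ b₂) := by
  have key : ∀ (a₁ : Matrix k k K) (a₂ : Matrix l l K) (a' : Matrix n n K), bd e a₁ a₂ * a' = 1 →
      a₁ * a₁⁻¹ = 1 ∧ a₂ * a₂⁻¹ = 1 ∧ a' = bd e a₁⁻¹ a₂⁻¹ := by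
    intro a₁ a₂ a' h
    have h1 := Matrix.det_ne_zero_of_right_inverse h
    rw [bd, det_submatrix_equiv_self, det_fromBlocks_zero₂₁, mul_ne_zero_iff] at h1
    have h2 := Matrix.mul_nonsing_inv a₁ (isUnit_iff_ne_zero.2 h1.1)
    have h3 := Matrix.mul_nonsing_inv a₂ (isUnit_iff_ne_zero.2 h1.2)
    exact ⟨h2, h3, Matrix.right_inv_eq_right_inv h (by rw [bd_mul, h2, h3, bd_one])⟩
  intro a' b' ha hb
  obtain ⟨p1, p2, rfl⟩ := key _ _ a' ha
  obtain ⟨q1, q2, rfl⟩ := key _ _ b' hb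
  refine ((h₁ _ _ p1 q1).prod (h₂ _ _ p2 q2)).map (T := Com n K)
    (f := fun p : Qd k K × Qd l K => ((bd e p.1.1 p.2.1, bd e p.1.2.1 p.2.2.1,
      bd e p.1.2.2.1 p.2.2.2.1, bd e p.1.2.2.2 p.2.2.2.2) : Qd n K)) (by fun_prop)
    fun y hy => ⟨⟨?_, ?_⟩, ?_⟩ <;> simp only [bd_mul]
  · rw [hy.1.1.1, hy.2.1.1, bd_one]
  · rw [hy.1.1.2, hy.2.1.2, bd_one]
  · rw [hy.1.2, hy.2.2]

omit [FaithfulSMul O K] in
lemma Comm.line {α β : K → Matrix n n K} (hα : IsP K α) (hβ : IsP K β) {T : Set K}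
    (hT : T.Infinite) (h : ∀ t ∈ T, Comm.G O (α t) (β t)) (t₀ : K) : Comm.G O (α t₀) (β t₀) := by
  have key : ∀ (a b : Matrix n n K) (s : K), s * (a.det * b.det) = 1 →
      a * ((s * b.det) • a.adjugate) = 1 ∧ b * ((s * a.det) • b.adjugate) = 1 := by
    intro a b s hs
    constructor
    · rw [Matrix.mul_smul, Matrix.mul_adjugate, smul_smul, mul_assoc, mul_comm b.det, hs, one_smul]
    · rw [Matrix.mul_smul, Matrix.mul_adjugate, smul_smul, mul_assoc, hs, one_smul]
  intro a' b' ha hb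
  have h0 : (α t₀).det * (β t₀).det ≠ 0 :=
    mul_ne_zero (Matrix.det_ne_zero_of_right_inverse ha) (Matrix.det_ne_zero_of_right_inverse hb)
  have h1 := mem_cl_inv (u := fun t => (α t).det * (β t).det) (by fun_prop)
    (mem_cl_of_infinite hT t₀) h0
  have h2 := IsP.mem_cl (T := {y | y ∈ Com n K ∧ IsInt O K y})
    (f := fun p : K × K => ((α p.1, (p.2 * (β p.1).det) • (α p.1).adjugate, β p.1,
      (p.2 * (α p.1).det) • (β p.1).adjugate) : Qd n K)) (by fun_prop)
    (fun y hy => h y.1 hy.1 _ _ (key _ _ _ hy.2).1 (key _ _ _ hy.2).2) h1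
  obtain ⟨k1, k2⟩ := key _ _ _ (inv_mul_cancel₀ h0)
  rw [Matrix.right_inv_eq_right_inv ha k1, Matrix.right_inv_eq_right_inv hb k2]
  exact h2

omit [IsAlgClosed K] [CharZero K] in
lemma Comm.split (hU : HasUnit O)
    (IH : ∀ m < Fintype.card n, ∀ a b : Matrix (Fin m) (Fin m) K, a * b = b * a → Comm.G O a b)
    {a b y : Matrix n n K} (hab : a * b = b * a) (ha : a * y = y * a) (hb : b * y = y * b)
    (h0 : y.det = 0) (hn : ¬ IsNilpotent y) : Comm.G O a b := by
  obtain ⟨k, hk, hk1⟩ := ((Matrix.toLin' y).eventually_isCompl_ker_pow_range_pow.and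
    (Filter.eventually_gt_atTop 0)).exists
  rw [← Matrix.toLin'_pow] at hk
  have hW : LinearMap.ker (Matrix.toLin' (y ^ k)) ≠ ⊤ := fun e =>
    hn ⟨k, Matrix.toLin'.map_eq_zero_iff.1 (LinearMap.ker_eq_top.1 e)⟩
  have hW' : LinearMap.range (Matrix.toLin' (y ^ k)) ≠ ⊤ := fun e => by
    rw [e] at hk
    have h1 : (y ^ k).det = 0 := by rw [det_pow, h0, zero_pow hk1.ne']
    obtain ⟨v, hv, h2⟩ := Matrix.exists_mulVec_eq_zero_iff.2 h1
    have h3 : v ∈ LinearMap.ker (Matrix.toLin' (y ^ k)) := h2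
    rw [eq_bot_of_isCompl_top hk] at h3
    exact hv h3
  obtain ⟨e, g, g', hg, -, -, H⟩ := exists_blocks hk
  have key : ∀ c : Matrix n n K, c * y = y * c → ∃ c₁ c₂, c = g * bd e c₁ c₂ * g' := by
    intro c hc
    have hc' : c * y ^ k = y ^ k * c := (Commute.pow_right hc k).eq
    refine H c (fun v hv => ?_) ?_
    · have h1 : y ^ k *ᵥ v = 0 := hv
      change y ^ k *ᵥ (c *ᵥ v) = 0
      rw [mulVec_mulVec, ← hc', ← mulVec_mulVec, h1, mulVec_zero]
    · rintro _ ⟨w, rfl⟩
      refine ⟨c *ᵥ w, ?_⟩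
      simp only [Matrix.toLin'_apply, mulVec_mulVec, hc']
  obtain ⟨a₁, a₂, rfl⟩ := key a ha
  obtain ⟨b₁, b₂, rfl⟩ := key b hb
  rw [GL.conj_mul hg, GL.conj_mul hg, bd_mul, bd_mul] at hab
  have hg' : g' * g = 1 := mul_eq_one_comm.1 hg
  have h1 := congrArg (fun x => g' * x * g) hab
  simp only [Matrix.mul_assoc, hg', Matrix.mul_one] at h1
  simp only [← Matrix.mul_assoc, hg', Matrix.one_mul] at h1
  obtain ⟨h2, h3⟩ := bd_inj e h1
  have f1 := Submodule.finrank_lt hW
  have f2 := Submodule.finrank_lt hW'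
  rw [Module.finrank_fintype_fun_eq_card] at f1 f2
  exact Comm.conj hU hg (Comm.block e (IH _ f1 _ _ h2) (IH _ f2 _ _ h3))

omit [CharZero K] in
lemma Comm.exists_root [Nonempty n] (z : Matrix n n K) : ∃ μ : K, (z - μ • 1).det = 0 := by
  obtain ⟨μ, hμ⟩ := IsAlgClosed.exists_root z.charpoly (by
    rw [Matrix.charpoly_degree_eq_dim]
    exact_mod_cast Fintype.card_ne_zero)
  obtain ⟨v, hv, e⟩ := Diag.exists_eigen hμ
  refine ⟨μ, Matrix.exists_mulVec_eq_zero_iff.1 ⟨v, hv, ?_⟩⟩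
  rw [sub_mulVec, smul_mulVec, one_mulVec, e, sub_self]

omit [IsAlgClosed K] [CharZero K] in
lemma Comm.nil_eq {z : Matrix n n K} {μ : K} (h : IsNilpotent (z - μ • 1)) :
    ((Fintype.card n : K) • z - z.trace • 1) ^ Fintype.card n = 0 := by
  have h1 := (Matrix.isNilpotent_trace_of_isNilpotent h).eq_zero
  rw [trace_sub, trace_smul, trace_one, sub_eq_zero] at h1
  have h2 := (Matrix.isNilpotent_charpoly_sub_pow_of_isNilpotent h).eq_zero
  have h3 := Matrix.aeval_self_charpoly (z - μ • 1)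
  rw [sub_eq_zero.1 h2, map_pow, Polynomial.aeval_X] at h3
  rw [h1, smul_eq_mul, mul_comm, mul_smul, ← smul_sub, _root_.smul_pow, h3, smul_zero]

omit [IsAlgClosed K] [CharZero K] in
lemma Comm.pow_mulVec {A : Matrix n n K} {c : K} {v : n → K} (h : A *ᵥ v = c • v) (k : ℕ) :
    A ^ k *ᵥ v = c ^ k • v := by
  induction k with
  | zero => simp
  | succ k ih => rw [pow_succ', ← mulVec_mulVec, ih, mulVec_smul, h, smul_smul, pow_succ]

omit [IsAlgClosed K] in
lemma Comm.two_eigen [Nonempty n] {z : Matrix n n K} {u x : n → K} (hu : u ≠ 0) (hx : x ≠ 0)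
    (h1 : z *ᵥ u = u) (h0 : z *ᵥ x = 0) :
    ((Fintype.card n : K) • z - z.trace • 1) ^ Fintype.card n ≠ 0 := by
  intro h
  have e1 : ((Fintype.card n : K) • z - z.trace • 1) *ᵥ u =
      ((Fintype.card n : K) - z.trace) • u := by
    rw [sub_mulVec, smul_mulVec, smul_mulVec, one_mulVec, h1, sub_smul]
  have e0 : ((Fintype.card n : K) • z - z.trace • 1) *ᵥ x = (-z.trace) • x := by
    rw [sub_mulVec, smul_mulVec, smul_mulVec, one_mulVec, h0, smul_zero, zero_sub, neg_smul]
  have f1 := Comm.pow_mulVec e1 (Fintype.card n)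
  have f0 := Comm.pow_mulVec e0 (Fintype.card n)
  rw [h, zero_mulVec, eq_comm, smul_eq_zero] at f1 f0
  have g1 := pow_eq_zero_iff Fintype.card_ne_zero |>.1 (f1.resolve_right hu)
  have g0 := pow_eq_zero_iff Fintype.card_ne_zero |>.1 (f0.resolve_right hx)
  rw [neg_eq_zero.1 g0, sub_zero] at g1
  exact Fintype.card_ne_zero (Nat.cast_eq_zero.1 g1)

omit [IsAlgClosed K] [CharZero K] in
/-- A nilpotent matrix is cyclic or commutes with a matrix with eigenvalues 0 and 1. -/
lemma Comm.dich [Nonempty n] {N b : Matrix n n K} (hN : IsNilpotent N) (hb : N * b = b * N) :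
    (∃ (k : ℕ) (c : Fin k → K), b = ∑ j, c j • N ^ (j : ℕ)) ∨
    ∃ (z : Matrix n n K) (u x : n → K), N * z = z * N ∧ u ≠ 0 ∧ x ≠ 0 ∧ z *ᵥ u = u ∧
      z *ᵥ x = 0 := by
  classical
  obtain ⟨k, hk, hk0⟩ : ∃ k, N ^ k ≠ 0 ∧ N ^ (k + 1) = 0 := by
    have h1 := Nat.find_spec hN
    have h2 : Nat.find hN ≠ 0 := fun e => by
      rw [e, pow_zero] at h1
      exact one_ne_zero h1
    obtain ⟨k, hk⟩ := Nat.exists_eq_succ_of_ne_zero h2
    exact ⟨k, Nat.find_min hN (by omega), by rw [← h1, hk]⟩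
  obtain ⟨i₀, j₀, hij⟩ : ∃ i j, (N ^ k) i j ≠ 0 := by
    by_contra h
    push Not at h
    exact hk (Matrix.ext h)
  set v : n → K := Pi.single j₀ 1 with hv
  set w : n → K := Pi.single i₀ ((N ^ k) i₀ j₀)⁻¹ with hw
  have hwv : w ⬝ᵥ (N ^ k *ᵥ v) = 1 := by
    rw [hw, hv, single_dotProduct, mulVec_single_one]
    exact inv_mul_cancel₀ hij
  let φ : Matrix n n K → (n → K) →ₗ[K] K := fun A =>
    (dotProductBilin K K w).comp (Matrix.toLin' A)
  have hφ : ∀ A x, φ A x = w ⬝ᵥ (A *ᵥ x) := fun _ _ => rfl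
  let L : (n → K) →ₗ[K] (Fin (k + 1) → K) := LinearMap.pi fun j => φ (N ^ (j : ℕ))
  have hL : ∀ x j, L x j = w ⬝ᵥ (N ^ (j : ℕ) *ᵥ x) := fun _ _ => rfl
  by_cases hinj : LinearMap.ker L = ⊥
  · left
    obtain ⟨g, hg⟩ := L.exists_leftInverse_of_injective hinj
    let c : Fin (k + 1) → K := fun j => φ b (g fun i => if j = i then 1 else 0)
    have hc : ∀ x, w ⬝ᵥ (b *ᵥ x) = ∑ j, c j * (w ⬝ᵥ (N ^ (j : ℕ) *ᵥ x)) := by
      intro x
      have h1 : g (L x) = x := LinearMap.congr_fun hg x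
      have h2 := LinearMap.pi_apply_eq_sum_univ ((φ b).comp g) (L x)
      rw [LinearMap.comp_apply, h1, hφ] at h2
      rw [h2]
      exact Finset.sum_congr rfl fun j _ => mul_comm _ _
    refine ⟨k + 1, c, ?_⟩
    rw [← sub_eq_zero]
    refine Matrix.toLin'.injective (LinearMap.ext fun x => ?_)
    rw [map_zero, LinearMap.zero_apply, Matrix.toLin'_apply, ← Submodule.mem_bot K, ← hinj,
      LinearMap.mem_ker]
    funext i
    have h3 : N ^ (i : ℕ) * b = b * N ^ (i : ℕ) := (Commute.pow_left hb i).eq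
    rw [hL, sub_mulVec, mulVec_sub, dotProduct_sub, mulVec_mulVec, h3, ← mulVec_mulVec, hc,
      sum_mulVec, mulVec_sum, dotProduct_sum, Pi.zero_apply, sub_eq_zero]
    refine Finset.sum_congr rfl fun j _ => ?_
    rw [smul_mulVec, mulVec_smul, dotProduct_smul, mulVec_mulVec, mulVec_mulVec, ← pow_add,
      ← pow_add, add_comm, smul_eq_mul]
  · right
    obtain ⟨x, hx, hx0⟩ := Submodule.exists_mem_ne_zero_of_ne_bot hinj
    have hz : ∀ y, (∑ j ∈ Finset.range (k + 1), N ^ j * vecMulVec v w * N ^ (k - j)) *ᵥ y =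
        ∑ j ∈ Finset.range (k + 1), (w ⬝ᵥ (N ^ (k - j) *ᵥ y)) • (N ^ j *ᵥ v) := by
      intro y
      rw [sum_mulVec]
      refine Finset.sum_congr rfl fun j _ => ?_
      rw [← mulVec_mulVec, ← mulVec_mulVec, vecMulVec_mulVec, op_smul_eq_smul, mulVec_smul]
    refine ⟨∑ j ∈ Finset.range (k + 1), N ^ j * vecMulVec v w * N ^ (k - j), N ^ k *ᵥ v, x, ?_,
      fun e => by simp [e] at hwv, hx0, ?_, ?_⟩
    · rw [Finset.mul_sum, Finset.sum_mul, Finset.sum_range_succ, Finset.sum_range_succ']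
      have e1 : N * (N ^ k * vecMulVec v w * N ^ (k - k)) = 0 := by
        rw [← Matrix.mul_assoc, ← Matrix.mul_assoc, ← pow_succ', hk0]
        simp
      have e2 : N ^ 0 * vecMulVec v w * N ^ (k - 0) * N = 0 := by
        rw [Matrix.mul_assoc, ← pow_succ, Nat.sub_zero, hk0]
        simp
      rw [e1, e2, add_zero, add_zero]
      refine Finset.sum_congr rfl fun j hj => ?_
      have e3 : k - j = k - (j + 1) + 1 := by
        have := Finset.mem_range.1 hj
        omega
      rw [← Matrix.mul_assoc, ← Matrix.mul_assoc, ← pow_succ', e3, pow_succ N (k - (j + 1)),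
        ← Matrix.mul_assoc]
    · rw [hz, Finset.sum_range_succ, Finset.sum_eq_zero, Nat.sub_self, pow_zero, one_mulVec, hwv,
        one_smul, zero_add]
      intro j hj
      have := Finset.mem_range.1 hj
      rw [mulVec_mulVec, ← pow_add, pow_eq_zero_of_le (by omega) hk0]
      simp
    · rw [hz]
      refine Finset.sum_eq_zero fun j _ => ?_
      have h1 : w ⬝ᵥ (N ^ (k - j) *ᵥ x) = 0 :=
        congrFun (LinearMap.mem_ker.1 hx) ⟨k - j, by omega⟩
      rw [h1, zero_smul]

omit [IsAlgClosed K] [CharZero K] in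
lemma Comm.conj_pow {g g' : Matrix n n K} (hg : g * g' = 1) (a : Matrix n n K) (k : ℕ) :
    (g * a * g') ^ k = g * a ^ k * g' := by
  induction k with
  | zero => simp [hg]
  | succ k ih => rw [pow_succ, ih, GL.conj_mul hg, pow_succ]

lemma Comm.cyclic (hU : HasUnit O) (a : Matrix n n K) (μ : K) {k : ℕ} (c : Fin k → K) :
    Comm.G O a (∑ j, c j • (a - μ • 1) ^ (j : ℕ)) := by
  obtain ⟨δ, hδ, H⟩ := exists_disc (K := K) (n := n)
  let s : n → K := fun i => ((Fintype.equivFin n i : ℕ) : K)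
  have hs : Function.Injective s :=
    Nat.cast_injective.comp (Fin.val_injective.comp (Fintype.equivFin n).injective)
  let α : K → Matrix n n K := fun t => a + t • (diagonal s - a)
  have hα : IsP K α := by fun_prop
  have h1 : δ (α 1) ≠ 0 := by
    have := separable_of_diag (Matrix.one_mul (1 : Matrix n n K)) hs
    rw [H]
    simpa [α] using this
  have h2 := Comm.line (O := O) hα (β := fun t => ∑ j, c j • (α t - μ • 1) ^ (j : ℕ))
    (by fun_prop) ((hδ.comp hα).infinite_ne h1) (fun t ht => ?_) 0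
  · simpa [α] using h2
  · obtain ⟨r, hr, e⟩ := exists_roots_of_separable _ ((H _).1 ht)
    obtain ⟨g, g', hg, e'⟩ := diag_of_charpoly _ r hr e
    have e2 : ∑ j, c j • (α t - μ • 1) ^ (j : ℕ) =
        g * diagonal (fun i => ∑ j, c j * (r i - μ) ^ (j : ℕ)) * g' := by
      have e3 : α t - μ • 1 = g * diagonal (fun i => r i - μ) * g' := by
        have : diagonal (fun i => r i - μ) = diagonal r - μ • (1 : Matrix n n K) := by
          ext i j
          by_cases h : i = j <;> simp [h]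
        rw [this, Matrix.mul_sub, Matrix.sub_mul, ← e']
        simp [hg]
      have e4 : diagonal (fun i => ∑ j, c j * (r i - μ) ^ (j : ℕ)) =
          ∑ j, c j • diagonal (fun i => r i - μ) ^ (j : ℕ) := by
        ext i j
        by_cases h : i = j <;> simp [h, Matrix.sum_apply, diagonal_pow]
      rw [e3, e4, Finset.mul_sum, Finset.sum_mul]
      refine Finset.sum_congr rfl fun j _ => ?_
      rw [Comm.conj_pow hg, Matrix.mul_smul, Matrix.smul_mul]
    change Comm.G O (α t) (∑ j, c j • (α t - μ • 1) ^ (j : ℕ))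
    rw [e2, e']
    exact Comm.conj hU hg (Comm.diag hU _ _)

lemma Comm.step (hU : HasUnit O)
    (IH : ∀ m < Fintype.card n, ∀ a b : Matrix (Fin m) (Fin m) K, a * b = b * a → Comm.G O a b)
    {a b : Matrix n n K} (hab : a * b = b * a) : Comm.G O a b := by
  cases isEmpty_or_nonempty n with
  | inl h =>
    rw [Subsingleton.elim a (diagonal 0), Subsingleton.elim b (diagonal 0)]
    exact Comm.diag hU _ _
  | inr h =>
    have sc : ∀ (x y : Matrix n n K) (μ : K), x * y = y * x →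
        x * (y - μ • 1) = (y - μ • 1) * x := fun x y μ e => by
      simp [Matrix.mul_sub, Matrix.sub_mul, e]
    obtain ⟨μ, hμ⟩ := Comm.exists_root a
    by_cases hN : IsNilpotent (a - μ • 1)
    swap
    · exact Comm.split hU IH hab (sc _ _ _ rfl) (sc _ _ _ hab.symm) hμ hN
    rcases Comm.dich hN (sc _ _ μ hab.symm).symm with ⟨k, c, rfl⟩ | ⟨z, u, x, hz, hu, hx, h1, h0⟩
    · exact Comm.cyclic hU a μ c
    have haz : a * z = z * a := by simpa [Matrix.mul_sub, Matrix.sub_mul] using hz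
    obtain ⟨i, j, hij⟩ : ∃ i j,
        (((Fintype.card n : K) • z - z.trace • 1) ^ Fintype.card n) i j ≠ 0 := by
      by_contra h
      push Not at h
      exact Comm.two_eigen hu hx h1 h0 (Matrix.ext h)
    let β : K → Matrix n n K := fun t => z + t • (b - z)
    have hβ : IsP K β := by fun_prop
    have htr : IsP K fun t => (β t).trace := IsP.sum _ fun i => hβ.entry i i
    have hf : IsP K fun t =>
        (((Fintype.card n : K) • β t - (β t).trace • 1) ^ Fintype.card n) i j :=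
      IsP.entry (by fun_prop) i j
    have h2 := Comm.line (O := O) (IsP.const a) hβ
      (hf.infinite_ne (t₀ := 0) (by simpa [β] using hij)) (fun t ht => ?_) 1
    · simpa [β] using h2
    · have h3 : a * β t = β t * a := by
        simp [β, Matrix.mul_add, Matrix.add_mul, Matrix.mul_sub, Matrix.sub_mul, haz, hab]
      obtain ⟨ν, hν⟩ := Comm.exists_root (β t)
      refine Comm.split hU IH h3 (sc _ _ _ h3) (sc _ _ _ rfl) hν fun hn => ht ?_
      rw [Comm.nil_eq hn]
      rfl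

end aux

lemma Comm.all (hU : HasUnit O) (m : ℕ) :
    ∀ a b : Matrix (Fin m) (Fin m) K, a * b = b * a → Comm.G O a b := by
  induction m using Nat.strong_induction_on with
  | _ m ih => exact fun a b h => Comm.step hU (fun k hk => ih k (by simpa using hk)) h

theorem dn_com (hU : HasUnit O) (n : Type) [Fintype n] [DecidableEq n] : Dn O K (Com n K) := by
  rintro ⟨a, a', b, b'⟩ ⟨⟨ha, hb⟩, hab⟩
  exact Comm.step hU (fun m _ => Comm.all hU m) hab a' b' ha hb

end Vale.Agent.P002b
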