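import Vale.Agent.P002b.ElimTri
import Vale.Agent.P002b.GL

/-! Elimination of a face with a triangular letter, and the induction step on the thickness. -/

namespace Vale.Agent.P002b

open Matrix

variable {O K : Type} [CommRing O] [Field K] [CharZero K] [Algebra O K] [FaithfulSMul O K]
  {ι : Type} [Fintype ι] [DecidableEq ι]

section comb

omit [Fintype ι] [DecidableEq ι]

lemma first_pair_aux (w₂ w₁ : List (Lt ι)) (h1 : ∀ k, Lt.fr k ∈ w₁ → Lt.fr k.bar ∉ w₁)
    (h0 : ∃ h, Lt.fr h ∈ w₁ ++ w₂ ∧ Lt.fr h.bar ∈ w₁ ++ w₂) :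
    ∃ (V W : List (Lt ι)) (h : Hf ι), w₁ ++ w₂ = V ++ .fr h.bar :: W ∧ Lt.fr h ∈ V ∧
      ∀ k, Lt.fr k ∈ V → Lt.fr k.bar ∉ V := by
  induction w₂ generalizing w₁ with
  | nil =>
    obtain ⟨h, a, b⟩ := h0
    rw [List.append_nil] at a b
    exact absurd b (h1 h a)
  | cons l w₂ ih =>
    by_cases hl : ∃ k, l = Lt.fr k.bar ∧ Lt.fr k ∈ w₁
    · obtain ⟨k, rfl, hk⟩ := hl
      exact ⟨w₁, w₂, k, rfl, hk, h1⟩
    · have := ih (w₁ ++ [l]) (fun k a b => ?_) (by simpa using h0)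
      · simpa using this
      · rw [List.mem_append, List.mem_singleton] at a b
        rcases a with a | a <;> rcases b with b | b
        · exact h1 k a b
        · exact hl ⟨k, b.symm, a⟩
        · exact hl ⟨k.bar, by simp [a], b⟩
        · rw [← a, Lt.fr.injEq] at b; exact Hf.bar_ne k b

/-- The first letter that closes a pair. -/
lemma exists_first_pair {w : List (Lt ι)} (hn : (usW w).Nodup)
    (hw : ∀ h, Lt.fr h ∈ w → Lt.fr h.bar ∈ w) (h0 : ∃ h, Lt.fr h ∈ w) :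
    ∃ (U₀ U W : List (Lt ι)) (h : Hf ι), w = U₀ ++ .fr h :: (U ++ .fr h.bar :: W) ∧
      ∀ k, Lt.fr k ∈ U → Lt.fr k.bar ∈ W := by
  obtain ⟨h₀, h0⟩ := h0
  obtain ⟨V, W, h, e, hV, hc⟩ := first_pair_aux w [] (by simp) ⟨h₀, h0, hw h₀ h0⟩
  rw [List.nil_append] at e
  obtain ⟨U₀, U, rfl⟩ := List.append_of_mem hV
  refine ⟨U₀, U, W, h, by simp [e], fun k hk => ?_⟩
  have h1 := hw k (by simp [e, hk])
  rw [e, List.mem_append, List.mem_cons] at h1
  rcases h1 with h1 | h1 | h1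
  · exact absurd h1 (hc k (by simp [hk]))
  · rw [Lt.fr.injEq, Hf.bar_inj] at h1
    subst h1
    rw [e] at hn
    simp only [usW_append, usW_cons, Lt.us_fr, Multiset.nodup_add, Multiset.singleton_disjoint]
      at hn
    exact absurd (mem_usW.2 ⟨_, hk, by simp⟩) hn.1.2.1.2.2
  · exact h1

/-- The free variable of a letter. -/
def Lt.fs : Lt ι → Multiset (Hf ι)
  | .fr h => {h}
  | .tri _ _ _ => 0

/-- The free variables of a word. -/
def fs (w : List (Lt ι)) : Multiset (Hf ι) := (w.map Lt.fs).sum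

@[simp] lemma fs_nil : fs ([] : List (Lt ι)) = 0 := rfl
@[simp] lemma fs_fr (h : Hf ι) (w) : fs (.fr h :: w) = {h} + fs w := by simp [fs, Lt.fs]
@[simp] lemma fs_tri (h y z : Hf ι) (w) : fs (.tri h y z :: w) = fs w := by simp [fs, Lt.fs]
@[simp] lemma fs_append (v w : List (Lt ι)) : fs (v ++ w) = fs v + fs w := by simp [fs]

lemma mem_fs {h : Hf ι} {w : List (Lt ι)} : h ∈ fs w ↔ Lt.fr h ∈ w := by
  induction w with
  | nil => simp
  | cons l w ih => cases l <;> simp [ih]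

lemma fs_le (w : List (Lt ι)) : fs w ≤ usW w := by
  induction w with
  | nil => simp
  | cons l w ih =>
    cases l with
    | fr h => simpa using ih
    | tri h y z => rw [fs_tri, usW_cons]; exact ih.trans le_add_self

/-- A multiset invariant under inversion. -/
def Cl (m : Multiset (Hf ι)) : Prop := m.map Hf.bar = m

lemma cl_add_pair {m : Multiset (Hf ι)} (h : Hf ι) : Cl (m + ({h} + {h.bar})) ↔ Cl m := by
  simp only [Cl, Multiset.map_add, Multiset.map_singleton, Hf.bar_bar]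
  rw [add_comm ({h.bar} : Multiset (Hf ι)), add_left_inj]

lemma Cl.mem {w : List (Lt ι)} (hc : Cl (fs w)) (h : Hf ι) (hh : Lt.fr h ∈ w) :
    Lt.fr h.bar ∈ w := by
  rw [← mem_fs, ← hc]; exact Multiset.mem_map_of_mem _ (mem_fs.2 hh)

lemma cl_of {w : List (Lt ι)} (hn : (usW w).Nodup) (hw : ∀ h, Lt.fr h ∈ w → Lt.fr h.bar ∈ w) :
    Cl (fs w) := by
  have n := Multiset.nodup_of_le (fs_le w) hn
  refine (Multiset.Nodup.ext (n.map fun _ _ => Hf.bar_inj.1) n).2 fun k => ?_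
  simp only [Multiset.mem_map, mem_fs]
  exact ⟨fun ⟨a, ha, e⟩ => e ▸ hw a ha, fun hk => ⟨k.bar, hw k hk, by simp⟩⟩

end comb

/-- The word `w` can be eliminated at every base point of size `d`. -/
def EW (K : Type) [Field K] [Algebra O K] (d : ℕ) (c : Oˣ) (w : List (Lt ι)) : Prop :=
  ∀ p : Finset ι, p.card = d → Elim K d (⟨c, p, w⟩ : Fc O ι)

/-- All words with free variables `m` can be eliminated. -/
def EM (O K : Type) [CommRing O] [Field K] [Algebra O K] (d : ℕ) (m : Multiset (Hf ι)) : Prop :=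
  ∀ (c : Oˣ) (w : List (Lt ι)), fs w = m → (∃ l ∈ w, l.IsTri) → (∀ l ∈ w, l.Proper) → EW K d c w

variable {d : ℕ} {c : Oˣ} {A B M P U₀ U₁ U₂ W : List (Lt ι)} {h y z h' y' z' k : Hf ι}

omit [FaithfulSMul O K] in
lemma EW.rot (H : EW K d c (B ++ A)) : EW K d c (A ++ B) := by
  intro p hp R hQ H' x hx
  have sx := (mem_sol_cons.1 hx).1
  obtain ⟨q, tA, tB⟩ := ty_append.1 sx.ty
  have cq : p.card = q.card := tA.card_eq (X := x) fun l hl => sx.ok l (by simp [hl])
  rw [sol_rot tA tB] at hx ⊢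
  refine H q (cq ▸ hp) R ((congrArg Q ?_).mp hQ) H' x hx
  simp only [usS_cons, usW_append]; abel

omit [FaithfulSMul O K] [CharZero K] in
lemma EW.slide₁ (H : ∀ y', EW K d c (P ++ .fr y' :: (M ++ .fr y'.bar :: (A ++ B)))) :
    EW K d c (P ++ A ++ .fr y :: (M ++ .fr y.bar :: B)) :=
  fun p hp R hQ H' => dn_slide₁ hQ fun y' hQ' => H y' p hp R hQ' H'

omit [FaithfulSMul O K] [CharZero K] in
lemma EW.slide₂ (H : ∀ y', EW K d c (P ++ .fr y' :: (A ++ M ++ .fr y'.bar :: B))) :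
    EW K d c (P ++ .fr y :: (M ++ A ++ .fr y.bar :: B)) :=
  fun p hp R hQ H' => dn_slide₂ hQ fun y' hQ' => H y' p hp R hQ' H'

omit [FaithfulSMul O K] [CharZero K] in
lemma Elim.cont {φ : Fc O ι} (H : Elim K d φ) {T R : List (Fc O ι)} (hT : Thin d T)
    (hQ : Q (usS (φ :: (T ++ R))))
    (H' : ∀ T : List (Fc O ι), Thin d T → Q (usS (T ++ R)) → Dn O K (Sol K (T ++ R))) :
    Dn O K (Sol K (φ :: (T ++ R))) :=
  H (T ++ R) hQ fun T' hT' hQ' => by
    rw [← List.append_assoc] at hQ' ⊢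
    exact H' _ (fun ψ hψ => (List.mem_append.1 hψ).elim (hT' ψ) (hT ψ)) hQ'

omit [FaithfulSMul O K] in
lemma EW.sub (hp : (Lt.tri h y z).Proper)
    (H : ∀ ha ya za hb yb zb, (Lt.tri ha ya za).Proper → (Lt.tri hb yb zb).Proper →
      EW K d c (.tri ha ya za :: .tri hb yb zb :: B)) : EW K d c (.tri h y z :: B) := by
  intro p hd R hQ H' x hx
  have o : (Lt.tri h y z).Ok x := (mem_sol_cons.1 hx).1.ok _ (by simp)
  refine gd_sub (P := []) hp hQ hx (TI.refl h.s) (TM.suby' o) (mp_E Finset.inter_subset_right)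
    (mp_E Finset.inter_subset_right) ?_
  intro ha ya za hb yb zb T x' _ _ _ _ _ _ _ _ pa pb th hQ' hx' _ _ _ _ _
  exact (H _ _ _ _ _ _ pa pb p hd).cont (hd ▸ th) hQ' H' x' hx'

/-- A cancelling pair is removed. -/
lemma dn_cancel (hU : HasUnit O) {p : Finset ι} {R : List (Fc O ι)}
    (hQ : Q (usS ((⟨c, p, P ++ .fr k :: .fr k.bar :: B⟩ : Fc O ι) :: R)))
    (H : Q (usS ((⟨c, p, P ++ B⟩ : Fc O ι) :: R)) → Dn O K (Sol K (⟨c, p, P ++ B⟩ :: R))) :
    Dn O K (Sol K ((⟨c, p, P ++ .fr k :: .fr k.bar :: B⟩ : Fc O ι) :: R)) := by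
  intro x hx
  have sx := (mem_sol_cons.1 hx).1
  obtain ⟨_, tP, rfl, -⟩ := ty_append.1 sx.ty
  have o : TI k.t k.s (x k) (x k.bar) := sx.ok (.fr k) (by simp)
  have e : P ++ Lt.fr k :: Lt.fr k.bar :: B = P ++ [Lt.fr k, Lt.fr k.bar] ++ B := by simp
  rw [e] at hx ⊢
  have pin := sol_pinch (q := k.t) tP (by simp) hx (by simp [o.sup'.r, o.mul])
  have hu : usS ((⟨c, p, P ++ .fr k :: .fr k.bar :: B⟩ : Fc O ι) :: R) =
      usS ((⟨c, p, P ++ B⟩ : Fc O ι) :: R) + ({k} + {k.bar}) := by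
    simp only [usS_cons, usW_append, usW_cons, Lt.us_fr]; abel
  rw [hu] at hQ
  refine (dn_append (S := [⟨1, k.t, [.fr k, .fr k.bar]⟩]) ((congrArg Q ?_).mp hQ) (by simp)
    (dn_sphere hU k) (H (hQ.left (by simp))) x pin.1).mono pin.2
  simp only [usS_cons, usS_append, usS_nil, usW_append, usW_cons, usW_nil, Lt.us_fr]; abel

lemma EW.cancel (hU : HasUnit O) (H : EW K d c (P ++ B)) :
    EW K d c (P ++ .fr k :: .fr k.bar :: B) :=
  fun p hp R hQ H' => dn_cancel hU hQ fun hQ' => H p hp R hQ' H'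

omit [FaithfulSMul O K] in
/-- Cut between two triangular letters separating a pair, and glue along the pair. -/
lemma EW.cut (H : EM O K d (fs U₀ + fs U₁ + fs U₂ + fs W))
    (hp : ∀ l ∈ Lt.tri h y z :: (U₀ ++ .fr k :: U₁ ++ .tri h' y' z' :: (U₂ ++ .fr k.bar :: W)),
      l.Proper) :
    EW K d c (.tri h y z :: (U₀ ++ .fr k :: U₁ ++ .tri h' y' z' :: (U₂ ++ .fr k.bar :: W))) := by
  intro p hd R hQ H' x hx
  have sx := (mem_sol_cons.1 hx).1
  have o : (Lt.tri h y z).Ok x := sx.ok _ (by simp)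
  have o' : (Lt.tri h' y' z').Ok x := sx.ok _ (by simp)
  obtain ⟨_, tA, rfl, -⟩ := ty_append.1 sx.ty.2
  have iA := ti_pv tA (X := x) fun l hl => sx.ok l (List.mem_cons_of_mem _
    (List.mem_append_left _ hl))
  obtain ⟨g, g', S', hg, m1, m2, hS, m3, m4⟩ := bruhat₂ iA (TM.suby' o) (TM.suby o')
  refine gd_cut (P := []) (hp _ (by simp)) (hp _ (by simp)) hQ hx hg m1 m2 hS m3 m4 ?_
  intro ha ya za hb yb zb ha' ya' za' hb' yb' zb' T x' _ _ _ _ _ _ _ _ pa pb pa' pb' th _ hQ' hx'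
    _ _ _ _ _
  have e₁ : [] ++ Lt.tri ha ya za :: Lt.tri hb' yb' zb' :: (U₂ ++ .fr k.bar :: W) =
    (Lt.tri ha ya za :: Lt.tri hb' yb' zb' :: U₂) ++ .fr k.bar :: W := by simp
  have e₂ : Lt.tri hb yb zb :: (U₀ ++ .fr k :: U₁ ++ [Lt.tri ha' ya' za']) =
    (Lt.tri hb yb zb :: U₀) ++ .fr k.bar.bar :: (U₁ ++ [Lt.tri ha' ya' za']) := by simp
  rw [e₁, e₂] at hQ' hx' ⊢
  obtain ⟨q1, q2, q3⟩ := gd_merge hQ' hx'
  refine q3 ((H _ _ ?_ ⟨.tri ha ya za, by simp, trivial⟩ ?_ p hd).cont (hd ▸ th) q1 H' x' q2)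
  · simp only [fs_append, fs_tri, fs_nil]; abel
  · intro l hl
    simp only [List.mem_append, List.mem_cons, List.not_mem_nil, or_false] at hl
    rcases hl with (((rfl | rfl | hl) | hl | rfl) | rfl | hl) | hl
    exacts [pa, pb', hp l (by simp [hl]), hp l (by simp [hl]), pa', pb, hp l (by simp [hl]),
      hp l (by simp [hl])]

lemma em_all (hU : HasUnit O) (m : Multiset (Hf ι)) (hm : Cl m) : EM O K d m := by
  induction hn : Multiset.card m using Nat.strong_induction_on generalizing m with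
  | _ n ih =>
  have ih' : ∀ (m' : Multiset (Hf ι)) (k : Hf ι), Multiset.card m' + 2 = Multiset.card m →
      Cl (m' + ({k} + {k.bar})) → EM O K d m' := fun m' k e hc =>
    ih _ (by omega) m' ((cl_add_pair k).1 hc) rfl
  rintro c w rfl ⟨l, hl, ht⟩ hp
  obtain ⟨A, B, rfl⟩ := List.append_of_mem hl
  refine EW.rot ?_
  cases l with
  | fr _ => exact ht.elim
  | tri h y z =>
  have hp' : ∀ l ∈ Lt.tri h y z :: (B ++ A), l.Proper := fun l hl => hp l (by
    simp only [List.mem_append, List.mem_cons] at hl ⊢; tauto)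
  have e : fs (A ++ Lt.tri h y z :: B) = fs (B ++ A) := by simp [add_comm]
  rw [e] at hm ih'
  rw [List.cons_append]
  generalize B ++ A = L at hp' hm ih'
  clear hp hl e hn ih
  by_cases h0 : ∃ k, Lt.fr k ∈ L
  swap
  · refine fun p hd => elim_tri hd (by simp) fun l hl => ⟨?_, hp' l hl⟩
    cases l with
    | fr k => exact h0 ⟨k, by simpa using hl⟩
    | tri _ _ _ => trivial
  intro p hd R hQ
  have nd : (usW L).Nodup := by
    have := hQ.1
    simp only [usS_cons, usW_cons, Multiset.nodup_add] at this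
    exact this.1.2.1
  revert p R
  obtain ⟨U₀, U, W, k, rfl, hk⟩ := exists_first_pair nd hm.mem h0
  rcases U with _ | ⟨l, U⟩
  · refine EW.cancel (P := .tri h y z :: U₀) hU (ih' _ k ?_ ?_ c _ rfl
      ⟨.tri h y z, by simp, trivial⟩ fun l hl => hp' l ?_)
    · simp only [fs_append, fs_fr, fs_tri, fs_nil, Multiset.card_add, Multiset.card_singleton,
        Multiset.card_zero]
      omega
    · refine (congrArg Cl ?_).mp hm
      simp only [fs_append, fs_fr, fs_tri, fs_nil]; abel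
    · simp only [List.mem_append, List.mem_cons] at hl ⊢; tauto
  cases l with
  | tri h' y' z' =>
    have e₀ : U₀ ++ .fr k :: (.tri h' y' z' :: U ++ .fr k.bar :: W) =
      U₀ ++ .fr k :: [] ++ .tri h' y' z' :: (U ++ .fr k.bar :: W) := by simp
    rw [e₀] at hp' ⊢
    refine EW.cut (ih' _ k ?_ ?_) hp'
    · simp; omega
    refine (congrArg Cl ?_).mp hm
    simp only [fs_append, fs_fr, fs_tri, fs_nil]; abel
  | fr j =>
    obtain ⟨W₁, W₂, rfl⟩ := List.append_of_mem (hk j (by simp))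
    refine EW.sub (hp' _ (by simp)) fun ha ya za hb yb zb pa pb => ?_
    refine EW.slide₁ (P := [.tri ha ya za]) (A := .tri hb yb zb :: U₀) fun k' => ?_
    have e₁ : [Lt.tri ha ya za] ++ .fr k' :: ((.fr j :: U) ++ .fr k'.bar ::
        ((.tri hb yb zb :: U₀) ++ (W₁ ++ .fr j.bar :: W₂))) = [Lt.tri ha ya za, .fr k'] ++ .fr j ::
        ((U ++ [.fr k'.bar]) ++ (.tri hb yb zb :: (U₀ ++ W₁)) ++ .fr j.bar :: W₂) := by simp
    rw [e₁]
    refine EW.slide₂ fun j' => ?_
    have e₂ : [Lt.tri ha ya za, .fr k'] ++ .fr j' :: ((.tri hb yb zb :: (U₀ ++ W₁)) ++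
        (U ++ [.fr k'.bar]) ++ .fr j'.bar :: W₂) = Lt.tri ha ya za :: ([] ++ .fr k' :: [.fr j'] ++
        .tri hb yb zb :: ((U₀ ++ W₁ ++ U) ++ .fr k'.bar :: (.fr j'.bar :: W₂))) := by simp
    rw [e₂]
    have c1 : Cl (fs U₀ + fs W₁ + fs U + fs W₂) := by
      rw [← cl_add_pair j, ← cl_add_pair k]
      refine (congrArg Cl ?_).mp hm
      simp only [fs_append, fs_fr]; abel
    refine EW.cut (ih' _ k (by simp; omega) ?_) fun l hl => ?_
    · rw [cl_add_pair]
      refine (congrArg Cl ?_).mp ((cl_add_pair j').2 c1)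
      simp only [fs_append, fs_fr, fs_nil]; abel
    · simp only [List.mem_append, List.mem_cons, List.not_mem_nil, or_false, false_or] at hl
      rcases hl with rfl | (rfl | rfl) | rfl | ((hl | hl) | hl) | rfl | rfl | hl
      exacts [pa, trivial, trivial, pb, hp' l (by simp [hl]), hp' l (by simp [hl]),
        hp' l (by simp [hl]), trivial, trivial, hp' l (by simp [hl])]

theorem elim_seam (hU : HasUnit O) {d : ℕ} {c : Oˣ} {p : Finset ι} {w : List (Lt ι)}
    (hd : p.card = d) (ht : ∃ l ∈ w, l.IsTri) (hp : ∀ l ∈ w, l.Proper)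
    (hw : ∀ h, Lt.fr h ∈ w → Lt.fr h.bar ∈ w) : Elim K d (⟨c, p, w⟩ : Fc O ι) := by
  intro R hQ
  have nd : (usW w).Nodup := by
    have := hQ.1
    simp only [usS_cons, Multiset.nodup_add] at this
    exact this.1
  exact em_all hU _ (cl_of nd hw) c w rfl ht hp p hd R hQ

omit [CharZero K] in
theorem foam_zero (hU : HasUnit O) : PFoam O K ι 0 := by
  have := hU.infinite
  intro S _ hS
  obtain rfl : S = [] := List.eq_nil_iff_forall_not_mem.2 fun φ hφ => Nat.not_lt_zero _ (hS φ hφ)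
  exact fun x _ => (dn_univ_pi_mat x trivial).mono fun _ _ => mem_sol_nil

omit [FaithfulSMul O K] in
/-- The inverse of a free letter of a top face is a free letter of a top face. -/
lemma foam_partner {φ : Fc O ι} {R : List (Fc O ι)} {x : Asg K ι} (hQ : Q (usS (φ :: R)))
    (hx : x ∈ Sol K (φ :: R)) (hS : Thin (d + 1) (φ :: R))
    (hp : ∀ ψ ∈ φ :: R, ψ.p.card = d → ∀ l ∈ ψ.w, l.Proper) (hd : φ.p.card = d)
    (hk : Lt.fr k ∈ φ.w) : ∃ ψ ∈ φ :: R, ψ.p.card = d ∧ Lt.fr k.bar ∈ ψ.w := by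
  have cd : ∀ ψ ∈ φ :: R, ∀ l ∈ ψ.w, l.hd.t.card = ψ.p.card ∧ l.hd.s.card = ψ.p.card := by
    intro ψ hψ l hl
    have s := hx ψ hψ
    obtain ⟨P, B, e⟩ := List.append_of_mem hl
    have t := s.ty
    have o := s.ok
    rw [e] at t o
    obtain ⟨_, tP, rfl, -⟩ := ty_append.1 t
    have := tP.card_eq (X := x) fun l hl => o l (by simp [hl])
    exact ⟨this.symm, (o l (by simp)).iso.card_eq.symm.trans this.symm⟩
  have ck := (cd φ (by simp) _ hk).2
  rw [Lt.hd_fr, hd] at ck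
  obtain ⟨ψ, hψ, h1⟩ := mem_usS.1 (hQ.2 k (mem_usS.2 ⟨φ, by simp, mem_usW.2 ⟨_, hk, by simp⟩⟩))
  obtain ⟨l, hl, h2⟩ := mem_usW.1 h1
  have cl := cd ψ hψ l hl
  cases l with
  | fr j =>
    obtain rfl : k.bar = j := by simpa using h2
    exact ⟨ψ, hψ, cl.1.symm.trans ck, hl⟩
  | tri h y z =>
    exfalso
    have o : (Lt.tri h y z).Ok x := (hx ψ hψ).ok _ hl
    have le := Nat.lt_succ_iff.1 (hS ψ hψ)
    rw [Lt.hd_tri] at cl
    have lt : y.t.card < d ∧ z.t.card < d := by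
      rcases le.eq_or_lt with e | e
      · have p := hp ψ hψ e _ hl
        have := TM.card_lt o p.1 p.2
        omega
      · have a := Finset.card_le_card (TM.suby o)
        have b : z.t.card ≤ h.t.card :=
          Finset.card_le_card (TM.ut o ▸ Finset.subset_union_right)
        omega
    have dup : k ∉ (Lt.tri h y z).us := fun e => by
      obtain ⟨P, B, e1⟩ := List.append_of_mem hk
      have n := hQ.1
      rw [usS_cons, e1] at n
      simp only [usW_append, usW_cons, Lt.us_fr, Multiset.nodup_add, Multiset.disjoint_add_left,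
        Multiset.singleton_disjoint, Multiset.disjoint_add_right,
        Multiset.disjoint_singleton] at n
      rcases List.mem_cons.1 hψ with rfl | hψ
      · rw [e1] at hl
        simp only [List.mem_append, List.mem_cons, reduceCtorEq, false_or] at hl
        rcases hl with hl | hl
        · exact n.1.2.2.1 (mem_usW.2 ⟨_, hl, e⟩)
        · exact n.1.2.1.2.2 (mem_usW.2 ⟨_, hl, e⟩)
      · exact n.2.2.2.1 (mem_usS.2 ⟨ψ, hψ, mem_usW.2 ⟨_, hl, e⟩⟩)
    simp only [Lt.us_tri, Multiset.mem_add, Multiset.mem_singleton] at h2 dup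
    rcases h2 with ((h2 | h2) | h2) | h2
    · exact dup (by simp [← h2])
    · exact dup (by simp [Hf.bar_inj.1 h2])
    · rw [← h2, Hf.bar_t] at lt; omega
    · rw [← h2, Hf.bar_t] at lt; omega

lemma foam_top (hU : HasUnit O) (hP : PFoam O K ι d)
    (hC : ∀ φ : Fc O ι, φ.p.card = d → (∀ l ∈ φ.w, ¬ l.IsTri) → Q (usW φ.w) →
      Dn O K (Sol K [φ])) (n : ℕ) : ∀ S : List (Fc O ι), S.countP (fun φ => φ.p.card = d) = n →
      Q (usS S) → Thin (d + 1) S → (∀ φ ∈ S, φ.p.card = d → ∀ l ∈ φ.w, l.Proper) →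
      Dn O K (Sol K S) := by
  induction n with
  | zero =>
    intro S hn hQ hS _
    refine hP S hQ fun φ hφ => lt_of_le_of_ne (Nat.lt_succ_iff.1 (hS φ hφ)) ?_
    simpa using List.countP_eq_zero.1 hn φ hφ
  | succ n ih =>
    intro S hn hQ hS hp
    obtain ⟨φ, hφ, hd⟩ := List.countP_pos_iff.1 ((Nat.succ_pos n).trans_eq hn.symm)
    replace hd : φ.p.card = d := by simpa using hd
    obtain ⟨R, pm⟩ : ∃ R, S.Perm (φ :: R) := by
      obtain ⟨S₁, S₂, rfl⟩ := List.append_of_mem hφ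
      exact ⟨_, List.perm_middle⟩
    rw [sol_perm pm]
    rw [usS_perm pm] at hQ
    rw [pm.countP_eq] at hn
    replace hS : Thin (d + 1) (φ :: R) := fun ψ hψ => hS ψ (pm.mem_iff.2 hψ)
    replace hp : ∀ ψ ∈ φ :: R, ψ.p.card = d → ∀ l ∈ ψ.w, l.Proper :=
      fun ψ hψ => hp ψ (pm.mem_iff.2 hψ)
    clear hφ pm S
    have hn' : R.countP (fun φ => φ.p.card = d) = n := by
      rw [List.countP_cons_of_pos (by simpa using hd)] at hn; omega
    have key : ∀ T : List (Fc O ι), Thin d T → Q (usS (T ++ R)) → Dn O K (Sol K (T ++ R)) := by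
      intro T hT hQ'
      refine ih _ ?_ hQ' (fun ψ hψ => ?_) fun ψ hψ e => ?_
      · rw [List.countP_append, hn', List.countP_eq_zero.2 fun ψ hψ => by
          simpa using (hT ψ hψ).ne, zero_add]
      · exact (List.mem_append.1 hψ).elim (fun h => (hT ψ h).trans d.lt_succ_self)
          fun h => hS ψ (List.mem_cons_of_mem _ h)
      · exact (List.mem_append.1 hψ).elim (fun h => absurd e (hT ψ h).ne)
          fun h => hp ψ (List.mem_cons_of_mem _ h) e
    by_cases hw : ∀ h, Lt.fr h ∈ φ.w → Lt.fr h.bar ∈ φ.w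
    · by_cases ht : ∃ l ∈ φ.w, l.IsTri
      · exact elim_seam hU hd ht (hp φ (by simp) hd) hw R hQ key
      push Not at ht
      have cl : ∀ k ∈ usW φ.w, k.bar ∈ usW φ.w := fun k hk => by
        obtain ⟨l, hl, e⟩ := mem_usW.1 hk
        cases l with
        | fr j =>
          obtain rfl : k = j := by simpa using e
          exact mem_usW.2 ⟨_, hw k hl, by simp⟩
        | tri _ _ _ => exact (ht _ hl trivial).elim
      have q := hQ
      rw [usS_cons, add_comm] at q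
      exact dn_append (S := [φ]) hQ (by simpa using cl)
        (hC φ hd ht ⟨(Multiset.nodup_add.1 q.1).2.1, cl⟩)
        (key [] (by simp [Thin]) (q.left cl))
    push Not at hw
    obtain ⟨k, hk, hk'⟩ := hw
    intro x hx
    obtain ⟨ψ, hψ, cψ, hψk⟩ := foam_partner hQ hx hS hp hd hk
    rcases List.mem_cons.1 hψ with rfl | hψ'
    · exact absurd hψk hk'
    obtain ⟨R', pm⟩ : ∃ R', R.Perm (ψ :: R') := by
      obtain ⟨S₁, S₂, rfl⟩ := List.append_of_mem hψ'
      exact ⟨_, List.perm_middle⟩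
    have pm' := pm.cons φ
    rw [sol_perm pm'] at hx ⊢
    rw [usS_perm pm'] at hQ
    rw [pm.countP_eq] at hn'
    have pφ := hp φ (by simp) hd
    have pψ := hp ψ hψ cψ
    obtain ⟨c₁, p₁, w₁⟩ := φ
    obtain ⟨c₂, p₂, w₂⟩ := ψ
    obtain ⟨P₁, R₁, rfl⟩ := List.append_of_mem hk
    obtain ⟨P₂, R₂, rfl⟩ := List.append_of_mem hψk
    obtain ⟨q1, q2, q3⟩ := gd_merge hQ hx
    refine q3 (ih _ ?_ q1 (fun χ hχ => ?_) (fun χ hχ e => ?_) x q2)
    · rw [List.countP_cons_of_pos (by simpa using cψ)] at hn'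
      rwa [List.countP_cons_of_pos (by simpa using hd)]
    · rcases List.mem_cons.1 hχ with rfl | hχ
      · exact hS ⟨c₁, p₁, _⟩ List.mem_cons_self
      · exact hS χ (pm'.mem_iff.2 (by simp [hχ]))
    · rcases List.mem_cons.1 hχ with rfl | hχ
      · intro l hl
        simp only [List.mem_append] at hl
        rcases hl with ((hl | hl) | hl) | hl
        exacts [pφ l (by simp [hl]), pψ l (by simp [hl]), pψ l (by simp [hl]), pφ l (by simp [hl])]
      · exact hp χ (pm'.mem_iff.2 (by simp [hχ])) e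

theorem foam_step (hU : HasUnit O) {d : ℕ} (hP : PFoam O K ι d)
    (hC : ∀ φ : Fc O ι, φ.p.card = d → (∀ l ∈ φ.w, ¬ l.IsTri) → Q (usW φ.w) →
      Dn O K (Sol K [φ])) : PFoam O K ι (d + 1) := by
  intro S hQ hS
  induction hn : Multiset.card (usS S) using Nat.strong_induction_on generalizing S with
  | _ n ih =>
  by_cases hp : ∀ φ ∈ S, φ.p.card = d → ∀ l ∈ φ.w, l.Proper
  · exact foam_top hU hP hC _ S rfl hQ hS hp
  push Not at hp
  obtain ⟨⟨c, p, w⟩, hφ, -, l, hl, hp⟩ := hp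
  obtain ⟨S₁, S₂, rfl⟩ := List.append_of_mem hφ
  obtain ⟨P, B, rfl⟩ := List.append_of_mem hl
  rw [sol_perm List.perm_middle]
  rw [usS_perm List.perm_middle] at hQ hn
  have th : ∀ (w' w'' : List (Lt ι)),
      Thin (d + 1) ((⟨c, p, w'⟩ : Fc O ι) :: ⟨1, ∅, w''⟩ :: (S₁ ++ S₂)) := by
    intro w' w'' ψ hψ
    simp only [List.mem_cons] at hψ
    rcases hψ with rfl | rfl | hψ
    exacts [(hS _ hφ :), Nat.succ_pos d, hS ψ (by
      simp only [List.mem_append, List.mem_cons] at hψ ⊢; tauto)]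
  cases l with
  | fr _ => exact (hp trivial).elim
  | tri h y z =>
  intro x hx
  simp only [Lt.Proper, not_and_or, Finset.not_nonempty_iff_eq_empty] at hp
  rcases hp with hp | hp
  · obtain ⟨q1, q2, q3⟩ := gd_deg₁ hp hQ hx
    exact q3 (ih _ (by rw [← hn]; simp) _ q1 (th _ _) rfl x q2)
  · obtain ⟨q1, q2, q3⟩ := gd_deg₂ hp hQ hx
    exact q3 (ih _ (by rw [← hn]; simp) _ q1 (th _ _) rfl x q2)

end Vale.Agent.P002b
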