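import Vale.Agent.P002b.Moves

/-! The hexagon move and bases adapted to pairs of subspaces. -/

namespace Vale.Agent.P002b

open Matrix

variable {O K : Type} [CommRing O] [Field K] [Algebra O K] {ι : Type} [Fintype ι]
  [DecidableEq ι]

omit [Fintype ι] in
lemma Hex.four {a a' : Finset ι} (da : Disjoint a a') {A B C D : Matrix ι ι K} (hA : Sup a a A)
    (hB : Sup a a' B) (hC : Sup a' a C) (hD : Sup a' a' D) {c : K}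
    (e : A + B + C + D = c • E K (a ∪ a')) :
    A = c • E K a ∧ B = 0 ∧ C = 0 ∧ D = c • E K a' := by
  have da' := Finset.disjoint_left.1 da
  have key : ∀ i j, A i j + B i j + C i j + D i j =
      c * if i = j ∧ i ∈ a ∪ a' then 1 else 0 := fun i j => by
    have := congrFun (congrFun e i) j
    simpa only [Matrix.add_apply, Matrix.smul_apply, E_apply, smul_eq_mul] using this
  refine ⟨?_, ?_, ?_, ?_⟩ <;> ext i j <;> have k := key i j <;> have h1 := hA i j <;>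
    have h2 := hB i j <;> have h3 := hC i j <;> have h4 := hD i j <;>
    have h5 := @da' i <;> have h6 := @da' j <;>
    simp only [Matrix.smul_apply, E_apply, smul_eq_mul, Matrix.zero_apply, Finset.mem_union] at k ⊢ <;>
    by_cases e1 : i ∈ a <;> by_cases e2 : j ∈ a <;> by_cases e3 : i ∈ a' <;>
    by_cases e4 : j ∈ a' <;> by_cases e5 : i = j <;> simp_all

lemma Hex.alg {a a' b b' d d' : Finset ι} (da : Disjoint a a') (db : Disjoint b b')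
    (dd : Disjoint d d') {y₁ y₁' z₁ z₁' y₂ y₂' z₂ z₂' y₃ y₃' z₃ z₃' n₁ n₂ n₃ : Matrix ι ι K}
    (i₁ : TI a b y₁ y₁') (j₁ : TI a' b' z₁ z₁') (i₂ : TI b' d y₂ y₂') (j₂ : TI b d' z₂ z₂')
    (i₃ : TI d' a' y₃ y₃') (j₃ : TI d a z₃ z₃') (s₁ : Sup a b' n₁) (s₂ : Sup b' d' n₂)
    (s₃ : Sup d' a n₃) {c c' : K} (hc : c * c' = 1) :
    (y₁ + z₁ + n₁) * ((y₂ + z₂ + n₂) * (y₃ + z₃ + n₃)) = c • E K (a ∪ a') ↔
      n₁ = c • (z₃' * y₂') ∧ n₂ = c • (z₁' * y₃') ∧ n₃ = (-c') • (y₃ * (z₁ * (y₂ * z₃))) ∧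
        y₁ * (z₂ * (y₃ * (z₁ * (y₂ * z₃)))) = (-(c * c)) • E K a := by
  have hc' : c' * c = 1 := by rw [mul_comm, hc]
  have ex : (y₁ + z₁ + n₁) * ((y₂ + z₂ + n₂) * (y₃ + z₃ + n₃)) =
      ((y₁ * z₂ + n₁ * n₂) * n₃ + n₁ * (y₂ * z₃)) + (y₁ * z₂ + n₁ * n₂) * y₃ +
        z₁ * (y₂ * z₃ + n₂ * n₃) + z₁ * (n₂ * y₃) := by
    have a1 : y₁ * y₂ = 0 := i₁.sup.mul_eq_zero i₂.sup db
    have a2 : y₁ * n₂ = 0 := i₁.sup.mul_eq_zero s₂ db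
    have a3 : z₁ * z₂ = 0 := j₁.sup.mul_eq_zero j₂.sup db.symm
    have a4 : n₁ * z₂ = 0 := s₁.mul_eq_zero j₂.sup db.symm
    have b1 : y₂ * y₃ = 0 := i₂.sup.mul_eq_zero i₃.sup dd
    have b2 : y₂ * n₃ = 0 := i₂.sup.mul_eq_zero s₃ dd
    have b3 : z₂ * z₃ = 0 := j₂.sup.mul_eq_zero j₃.sup dd.symm
    have b4 : n₂ * z₃ = 0 := s₂.mul_eq_zero j₃.sup dd.symm
    have e1 : (y₂ + z₂ + n₂) * (y₃ + z₃ + n₃) =
        y₂ * z₃ + z₂ * y₃ + z₂ * n₃ + n₂ * y₃ + n₂ * n₃ := by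
      simp only [Matrix.add_mul, Matrix.mul_add, b1, b2, b3, b4]; abel
    rw [e1]
    simp only [Matrix.add_mul, Matrix.mul_add, ← Matrix.mul_assoc, a1, a2, a3, a4,
      Matrix.zero_mul]
    abel
  have sP : Sup a d' (y₁ * z₂ + n₁ * n₂) := (i₁.sup.mul j₂.sup).add (s₁.mul s₂)
  have iA := i₂.trans j₃
  have iB := i₃.trans j₁
  have iC := i₃.trans (j₁.trans iA)
  rw [ex]
  constructor
  · intro e
    obtain ⟨e1, e2, e3, e4⟩ := Hex.four da ((sP.mul s₃).add (s₁.mul iA.sup)) (sP.mul i₃.sup)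
      (j₁.sup.mul (iA.sup.add (s₂.mul s₃))) (j₁.sup.mul (s₂.mul i₃.sup)) e
    have p0 : y₁ * z₂ + n₁ * n₂ = 0 := by
      rw [← sP.r, ← i₃.mul, ← Matrix.mul_assoc, e2, Matrix.zero_mul]
    rw [p0, Matrix.zero_mul, zero_add] at e1
    have f1 : n₁ = c • (z₃' * y₂') := by
      rw [← s₁.r, ← iA.mul, ← Matrix.mul_assoc, e1, Matrix.smul_mul, iA.sup'.l]
    have f2 : n₂ = c • (z₁' * y₃') := by
      rw [← s₂.r, ← i₃.mul, ← Matrix.mul_assoc, ← (s₂.mul i₃.sup).l, ← j₁.mul',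
        Matrix.mul_assoc z₁', e4, Matrix.mul_smul, j₁.sup'.r, Matrix.smul_mul]
    have f3 : n₂ * n₃ = -(y₂ * z₃) := by
      rw [eq_neg_iff_add_eq_zero, add_comm, ← (iA.sup.add (s₂.mul s₃)).l, ← j₁.mul',
        Matrix.mul_assoc, e3, Matrix.mul_zero]
    refine ⟨f1, f2, ?_, ?_⟩
    · have : y₃ * z₁ * (n₂ * n₃) = c • n₃ := by
        rw [f2, Matrix.smul_mul, Matrix.mul_smul, ← Matrix.mul_assoc, iB.mul, s₃.l]
      rw [f3, Matrix.mul_neg, Matrix.mul_assoc] at this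
      rw [neg_smul, ← smul_neg, this, smul_smul, hc', one_smul]
    · rw [← Matrix.mul_assoc, eq_neg_of_add_eq_zero_left p0, f1, f2, Matrix.smul_mul,
        Matrix.mul_smul, smul_smul, Matrix.neg_mul, Matrix.smul_mul, neg_smul,
        ← Matrix.mul_assoc _ z₁', iC.mul']
  · rintro ⟨f1, f2, f3, f4⟩
    have p0 : y₁ * z₂ + n₁ * n₂ = 0 := by
      rw [← (i₁.sup.mul j₂.sup).r, ← iC.mul, ← Matrix.mul_assoc, Matrix.mul_assoc y₁, f4, f1, f2,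
        Matrix.smul_mul, iC.sup'.l, Matrix.smul_mul, Matrix.mul_smul, smul_smul,
        ← Matrix.mul_assoc _ z₁', neg_smul, neg_add_cancel]
    have p1 : n₁ * (y₂ * z₃) = c • E K a := by rw [f1, Matrix.smul_mul, iA.mul']
    have p2 : y₂ * z₃ + n₂ * n₃ = 0 := by
      rw [f2, f3, Matrix.smul_mul, Matrix.mul_smul, smul_smul, ← Matrix.mul_assoc y₃,
        ← Matrix.mul_assoc (z₁' * y₃'), iB.mul', iA.sup.l, mul_neg, hc, neg_smul, one_smul,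
        add_neg_cancel]
    have p3 : z₁ * (n₂ * y₃) = c • E K a' := by
      rw [f2, Matrix.smul_mul, Matrix.mul_smul, Matrix.mul_assoc, i₃.mul', j₁.sup'.r, j₁.mul]
    rw [p0, p1, p2, p3, E_union da, smul_add]
    simp


/-- Three pairwise complementary subspaces. -/
lemma gd_hex [CharZero K] {c : Oˣ} {p : Finset ι} {R : List (Fc O ι)} {x : Asg K ι}
    {h₁ y₁ z₁ h₂ y₂ z₂ h₃ y₃ z₃ : Hf ι}
    (hp : ∀ l ∈ [Lt.tri h₁ y₁ z₁, .tri h₂ y₂ z₂, .tri h₃ y₃ z₃], l.Proper)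
    (hQ : Q (usS ((⟨c, p, [.tri h₁ y₁ z₁, .tri h₂ y₂ z₂, .tri h₃ y₃ z₃]⟩ : Fc O ι) :: R)))
    (hx : x ∈ Sol K ((⟨c, p, [.tri h₁ y₁ z₁, .tri h₂ y₂ z₂, .tri h₃ y₃ z₃]⟩ : Fc O ι) :: R))
    (c₀ : p \ y₁.t = y₃.s) (c₁ : h₁.s \ y₁.s = y₂.t) (c₂ : h₂.s \ y₂.s = y₃.t)
    (H : ∀ T : List (Fc O ι), Thin p.card T → Q (usS (T ++ R)) → Dn O K (Sol K (T ++ R))) :
    Gd O K (Sol K ((⟨c, p, [.tri h₁ y₁ z₁, .tri h₂ y₂ z₂, .tri h₃ y₃ z₃]⟩ : Fc O ι) :: R)) x := by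
  let φ : Fc O ι := ⟨-(c * c), y₁.t, [.fr y₁, .fr z₂, .fr y₃, .fr z₁, .fr y₂, .fr z₃]⟩
  have hu : usS ((⟨c, p, [.tri h₁ y₁ z₁, .tri h₂ y₂ z₂, .tri h₃ y₃ z₃]⟩ : Fc O ι) :: R) =
      usS (φ :: R) + ({h₁} + {h₁.bar}) + ({h₂} + {h₂.bar}) + ({h₃} + {h₃.bar}) := by
    simp only [φ, usS_cons, usW_cons, Lt.us_fr, Lt.us_tri, usW_nil]; abel
  rw [hu] at hQ
  have hQ₂ := hQ.left (by simp)
  have hQ₁ := hQ₂.left (by simp)
  have hQ₀ := hQ₁.left (by simp)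
  rw [mem_sol_cons] at hx
  obtain ⟨⟨t, o, e⟩, hR⟩ := hx
  dsimp only at t o e
  have o₁ : TM h₁.t h₁.s y₁.t y₁.s z₁.t z₁.s (x h₁) (x h₁.bar) (x y₁) (x y₁.bar) (x z₁)
    (x z₁.bar) := o (.tri h₁ y₁ z₁) (by simp)
  have o₂ : TM h₂.t h₂.s y₂.t y₂.s z₂.t z₂.s (x h₂) (x h₂.bar) (x y₂) (x y₂.bar) (x z₂)
    (x z₂.bar) := o (.tri h₂ y₂ z₂) (by simp)
  have o₃ : TM h₃.t h₃.s y₃.t y₃.s z₃.t z₃.s (x h₃) (x h₃.bar) (x y₃) (x y₃.bar) (x z₃)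
    (x z₃.bar) := o (.tri h₃ y₃ z₃) (by simp)
  obtain ⟨t₁, t₂, t₃, t₄⟩ : h₁.t = p ∧ h₂.t = h₁.s ∧ h₃.t = h₂.s ∧ h₃.s = p := t
  have u₁ : y₃.s = z₁.t := by rw [o₁.tz_eq, t₁, c₀]
  have u₂ : y₂.t = z₁.s := by rw [o₁.sz_eq, c₁]
  have u₃ : y₃.t = z₂.s := by rw [o₂.sz_eq, c₂]
  have u₄ : z₃.s = y₁.t := by
    rw [o₃.sz_eq, t₄, ← c₀, Finset.sdiff_sdiff_eq_self (t₁ ▸ o₁.suby)]
  have u₅ : z₂.t = y₁.s := by
    rw [o₂.tz_eq, t₂, ← c₁, Finset.sdiff_sdiff_eq_self o₁.suby']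
  have u₆ : z₃.t = y₂.s := by
    rw [o₃.tz_eq, t₃, ← c₂, Finset.sdiff_sdiff_eq_self o₂.suby']
  have hc := unit_mul_inv (K := K) c
  have up : p = y₁.t ∪ z₁.t := t₁ ▸ o₁.ut
  have cc : algebraMap O K (-(c * c) : Oˣ) = -(algebraMap O K c * algebraMap O K c) := by
    rw [Units.val_neg, Units.val_mul, map_neg, map_mul]
  have tφ : Ty y₁.t φ.w y₁.t := by simp [φ, u₁, u₂, u₃, u₄, u₅, u₆]
  have e' := e
  rw [pv_cons, pv_cons, pv_cons, pv_nil, Lt.hd_tri, Lt.hd_tri, Lt.hd_tri, ← t₄, o₃.iso.sup.r,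
    t₄, o₁.eq_add, o₂.eq_add, o₃.eq_add, up] at e'
  obtain ⟨f₁, f₂, f₃, f₄⟩ := (Hex.alg o₁.dt o₁.ds o₂.ds o₁.isoy o₁.isoz (u₂ ▸ o₂.isoy)
    (u₅ ▸ o₂.isoz) (u₁ ▸ u₃ ▸ o₃.isoy) (u₄ ▸ u₆ ▸ o₃.isoz) sup_blk (u₂ ▸ sup_blk)
    (u₄ ▸ u₃ ▸ sup_blk) hc).1 e'
  have hxφ : x ∈ Sol K (φ :: R) := by
    refine mem_sol_cons.2 ⟨⟨tφ, ?_, ?_⟩, hR⟩
    · simpa [φ] using ⟨o₁.isoy, o₂.isoz, o₃.isoy, o₁.isoz, o₂.isoy, o₃.isoz⟩
    · simp only [φ, pv_cons, pv_nil, Lt.hd_fr, cc]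
      rw [← f₄, ← u₄, o₃.isoz.sup.r]
  have thin : Thin p.card [φ] := by
    intro ψ hψ
    rw [List.mem_singleton.1 hψ, up, Finset.card_union_of_disjoint o₁.dt]
    have := (hp (.tri h₁ y₁ z₁) (by simp)).2.card_pos
    simp only [φ]; omega
  have hg : Gd O K (Sol K (φ :: R)) x := H [φ] thin hQ₀ x hxφ
  let n₁ : Asg K ι → Matrix ι ι K := fun Y => algebraMap O K c • (Y z₃.bar * Y y₂.bar)
  let n₂ : Asg K ι → Matrix ι ι K := fun Y => algebraMap O K c • (Y z₁.bar * Y y₃.bar)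
  let n₃ : Asg K ι → Matrix ι ι K := fun Y =>
    algebraMap O K (-c⁻¹ : Oˣ) • (Y y₃ * (Y z₁ * (Y y₂ * Y z₃)))
  have cn : algebraMap O K (-c⁻¹ : Oˣ) = -algebraMap O K (c⁻¹ : Oˣ) := by
    rw [Units.val_neg, map_neg]
  have := hg.map (T := Sol K ((⟨c, p, [.tri h₁ y₁ z₁, .tri h₂ y₂ z₂, .tri h₃ y₃ z₃]⟩ :
      Fc O ι) :: R))
    (f := fun Y => upd (upd (upd Y
      h₁ (Y y₁ + Y z₁ + n₁ Y) (Y y₁.bar + Y z₁.bar - Y y₁.bar * n₁ Y * Y z₁.bar))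
      h₂ (Y y₂ + Y z₂ + n₂ Y) (Y y₂.bar + Y z₂.bar - Y y₂.bar * n₂ Y * Y z₂.bar))
      h₃ (Y y₃ + Y z₃ + n₃ Y) (Y y₃.bar + Y z₃.bar - Y y₃.bar * n₃ Y * Y z₃.bar))
    (by simp only [n₁, n₂, n₃]; fun_prop) fun Y hY => ?_
  · have g₁ : n₁ x = blk y₁.t z₁.s (x h₁) := f₁.symm
    have g₂ : n₂ x = blk y₂.t z₂.s (x h₂) := f₂.symm
    have g₃ : n₃ x = blk y₃.t z₃.s (x h₃) := by rw [f₃, ← cn]
    rwa [g₁, g₂, g₃, upd_self o₁.eq_add.symm o₁.inv_eq.symm,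
      upd_self o₂.eq_add.symm o₂.inv_eq.symm, upd_self o₃.eq_add.symm o₃.inv_eq.symm] at this
  have oY := (mem_sol_cons.1 hY).1.ok
  have i₁ : TI y₁.t y₁.s (Y y₁) (Y y₁.bar) := oY (.fr y₁) (by simp [φ])
  have j₁ : TI z₁.t z₁.s (Y z₁) (Y z₁.bar) := oY (.fr z₁) (by simp [φ])
  have i₂ : TI y₂.t y₂.s (Y y₂) (Y y₂.bar) := oY (.fr y₂) (by simp [φ])
  have j₂ : TI z₂.t z₂.s (Y z₂) (Y z₂.bar) := oY (.fr z₂) (by simp [φ])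
  have i₃ : TI y₃.t y₃.s (Y y₃) (Y y₃.bar) := oY (.fr y₃) (by simp [φ])
  have j₃ : TI z₃.t z₃.s (Y z₃) (Y z₃.bar) := oY (.fr z₃) (by simp [φ])
  have s₁ : Sup y₁.t z₁.s (n₁ Y) := u₄ ▸ u₂ ▸ (j₃.sup'.mul i₂.sup').smul _
  have s₂ : Sup y₂.t z₂.s (n₂ Y) := u₂ ▸ u₃ ▸ (j₁.sup'.mul i₃.sup').smul _
  have s₃ : Sup y₃.t z₃.s (n₃ Y) := (i₃.sup.mul (j₁.sup.mul (i₂.sup.mul j₃.sup))).smul _
  have m₁ := TM.mk' i₁ j₁ o₁.dt o₁.ds s₁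
  have m₂ := TM.mk' i₂ j₂ o₂.dt o₂.ds s₂
  have m₃ := TM.mk' i₃ j₃ o₃.dt o₃.ds s₃
  rw [← o₁.ut, ← o₁.us] at m₁
  rw [← o₂.ut, ← o₂.us] at m₂
  rw [← o₃.ut, ← o₃.us] at m₃
  have eY := (mem_sol_cons.1 hY).1.eq
  simp only [φ, pv_cons, pv_nil, Lt.hd_fr, cc] at eY
  rw [← u₄, j₃.sup.r, u₄] at eY
  have ev := (Hex.alg o₁.dt o₁.ds o₂.ds i₁ j₁ (u₂ ▸ i₂) (u₅ ▸ j₂) (u₁ ▸ u₃ ▸ i₃)
    (u₄ ▸ u₆ ▸ j₃) s₁ (u₂ ▸ s₂) (u₄ ▸ u₃ ▸ s₃) hc).2 ⟨rfl, rfl, by rw [← cn], eY⟩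
  rw [← up] at ev
  generalize Y y₁ + Y z₁ + n₁ Y = V₁ at m₁ ev ⊢
  generalize Y y₂ + Y z₂ + n₂ Y = V₂ at m₂ ev ⊢
  generalize Y y₃ + Y z₃ + n₃ Y = V₃ at m₃ ev ⊢
  generalize Y y₁.bar + Y z₁.bar - Y y₁.bar * n₁ Y * Y z₁.bar = W₁ at m₁ ⊢
  generalize Y y₂.bar + Y z₂.bar - Y y₂.bar * n₂ Y * Y z₂.bar = W₂ at m₂ ⊢
  generalize Y y₃.bar + Y z₃.bar - Y y₃.bar * n₃ Y * Y z₃.bar = W₃ at m₃ ⊢
  have a₁ := agree_upd hQ₁ Y V₁ W₁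
  have a₂ := agree_upd hQ₂ (upd Y h₁ V₁ W₁) V₂ W₂
  have a₃ := agree_upd hQ (upd (upd Y h₁ V₁ W₁) h₂ V₂ W₂) V₃ W₃
  have ag := a₁.trans ((a₂.trans (a₃.mono fun k hk => Multiset.mem_add.2 (Or.inl hk))).mono
    fun k hk => Multiset.mem_add.2 (Or.inl hk))
  have b₁ := (a₂.trans (a₃.mono fun k hk => Multiset.mem_add.2 (Or.inl hk))) h₁ (by simp)
  have b₂ := a₃ h₂ (by simp)
  have b₃ := upd_fst (upd (upd Y h₁ V₁ W₁) h₂ V₂ W₂) h₃ V₃ W₃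
  have b₄ := upd_snd (upd (upd Y h₁ V₁ W₁) h₂ V₂ W₂) h₃ V₃ W₃
  rw [upd_fst, upd_snd] at b₁ b₂
  generalize upd (upd (upd Y h₁ V₁ W₁) h₂ V₂ W₂) h₃ V₃ W₃ = Z at ag b₁ b₂ b₃ b₄ ⊢
  have k₁ := ag y₁ (by simp [φ])
  have k₂ := ag y₂ (by simp [φ])
  have k₃ := ag y₃ (by simp [φ])
  have l₁ := ag z₁ (by simp [φ])
  have l₂ := ag z₂ (by simp [φ])
  have l₃ := ag z₃ (by simp [φ])
  rw [b₁.1, b₁.2, k₁.1, k₁.2, l₁.1, l₁.2] at m₁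
  rw [b₂.1, b₂.2, k₂.1, k₂.2, l₂.1, l₂.2] at m₂
  rw [← b₃, ← b₄, k₃.1, k₃.2, l₃.1, l₃.2] at m₃
  refine mem_sol_cons.2 ⟨⟨⟨t₁, t₂, t₃, t₄⟩, by simpa using ⟨m₁, m₂, m₃⟩, ?_⟩,
    (mem_sol_cons.1 (sol_congr hY ag)).2⟩
  simp only [pv_cons, pv_nil, Lt.hd_tri]
  rw [← ev, b₁.1, b₂.1, ← b₃, ← t₄, m₃.iso.sup.r]

lemma Hex.E_mulVec_apply (s : Finset ι) (v : ι → K) (i : ι) :
    (E K s *ᵥ v) i = if i ∈ s then v i else 0 := by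
  simp [E, Matrix.mulVec_diagonal]

lemma Hex.E_mulVec {s : Finset ι} {v : ι → K} (hv : ∀ i, i ∉ s → v i = 0) : E K s *ᵥ v = v := by
  ext i; rw [Hex.E_mulVec_apply]; split_ifs with e
  exacts [rfl, (hv i e).symm]

omit [DecidableEq ι] in
lemma Hex.mp_mulVec {t s : Finset ι} {A : Matrix ι ι K} (h : Mp t s A) {v : ι → K}
    (hv : ∀ i, i ∉ s → v i = 0) (i : ι) (hi : i ∉ t) : (A *ᵥ v) i = 0 := by
  refine Finset.sum_eq_zero fun j _ => ?_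
  by_cases hj : j ∈ s
  · simp [h i j hi hj]
  · simp [hv j hj]

lemma Hex.mp_of_mulVec {t s : Finset ι} {A : Matrix ι ι K}
    (h : ∀ v : ι → K, (∀ i, i ∉ s → v i = 0) → ∀ i, i ∉ t → (A *ᵥ v) i = 0) : Mp t s A := by
  intro i j hi hj
  have := h (Pi.single j 1) (fun a ha => Pi.single_eq_of_ne (fun e : a = j => ha (e ▸ hj)) _) i hi
  simpa using this

/-- The elementary matrix sending the `i`-th basis vector to `w`. -/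
lemma Hex.elem {p : Finset ι} {w : ι → K} (hw : ∀ a, a ∉ p → w a = 0) {i : ι} (hi : w i ≠ 0) :
    ∃ k k' : Matrix ι ι K, TI p p k k' ∧
      (∀ T : Finset ι, (i ∈ T → ∀ a, a ∉ T → w a = 0) → Mp T T k ∧ Mp T T k') ∧
      ∀ v : ι → K, (∀ a, a ∉ p → v a = 0) → k *ᵥ v = (v - v i • Pi.single i 1) + v i • w := by
  have hip : i ∈ p := by by_contra h; exact hi (hw i h)
  set N : Matrix ι ι K := vecMulVec (w - Pi.single i 1) (Pi.single i 1) with hN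
  have sN : Sup p p N := by
    rintro a b (h | h)
    · have : a ≠ i := fun e => h (e ▸ hip)
      simp [hN, vecMulVec_apply, hw a h, this]
    · have : b ≠ i := fun e => h (e ▸ hip)
      simp [hN, vecMulVec_apply, this]
  have NN : N * N = (w i - 1) • N := by
    rw [hN, vecMulVec_mul_vecMulVec, vecMulVec_smul]
    simp
  have e1 : (E K p + N) * (E K p - (w i)⁻¹ • N) = E K p := by
    rw [Matrix.add_mul, Matrix.mul_sub, Matrix.mul_sub, Matrix.mul_smul, Matrix.mul_smul,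
      E_mul_self, sN.l, sN.r, NN, smul_smul, mul_sub, inv_mul_cancel₀ hi, mul_one, sub_smul,
      one_smul]
    abel
  have e2 : (E K p - (w i)⁻¹ • N) * (E K p + N) = E K p := by
    rw [Matrix.mul_add, Matrix.sub_mul, Matrix.sub_mul, Matrix.smul_mul, Matrix.smul_mul,
      E_mul_self, sN.l, sN.r, NN, smul_smul, mul_sub, inv_mul_cancel₀ hi, mul_one, sub_smul,
      one_smul]
    abel
  refine ⟨E K p + N, E K p - (w i)⁻¹ • N, ⟨sup_E.add sN, sup_E.sub (sN.smul _), e1, e2⟩,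
    fun T hT => ?_, fun v hv => ?_⟩
  · have mN : Mp T T N := fun a b ha hb => by
      by_cases e : b = i
      · have : a ≠ i := fun e' => ha (e' ▸ e ▸ hb)
        simp [hN, vecMulVec_apply, hT (e ▸ hb) a ha, this]
      · simp [hN, vecMulVec_apply, e]
    have mE : Mp T T (E K p) := mp_E Finset.inter_subset_right
    exact ⟨fun a b ha hb => by simp [mN a b ha hb, mE a b ha hb],
      fun a b ha hb => by simp [mN a b ha hb, mE a b ha hb]⟩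
  · rw [Matrix.add_mulVec, Hex.E_mulVec hv, hN, vecMulVec_mulVec]
    ext a
    simp [mul_comm]
    ring

lemma Hex.bru_aux {p S₁ S₂ : Finset ι} (U : Submodule K (ι → K))
    (hU : ∀ v ∈ U, ∀ i, i ∉ p → v i = 0) (n : ℕ) : ∀ (S₀ : Finset ι) (g g' : Matrix ι ι K),
    p.card ≤ S₀.card + n → TI p p g g' → Mp S₁ S₁ g → Mp S₁ S₁ g' → Mp S₂ S₂ g → Mp S₂ S₂ g' →
    S₀ ⊆ p → (∀ v : ι → K, (∀ i, i ∉ S₀ → v i = 0) → g *ᵥ v ∈ U) →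
    (S₁ ⊆ S₀ ∨ ∀ v ∈ U, ∀ i, i ∉ S₁ → v i = 0) →
    ∃ (g g' : Matrix ι ι K) (S' : Finset ι), TI p p g g' ∧ Mp S₁ S₁ g ∧ Mp S₁ S₁ g' ∧
      Mp S₂ S₂ g ∧ Mp S₂ S₂ g' ∧ S' ⊆ p ∧
      ∀ v : ι → K, (∀ i, i ∉ p → v i = 0) → (v ∈ U ↔ ∀ i, i ∉ S' → (g' *ᵥ v) i = 0) := by
  have fin : ∀ (S₀ : Finset ι) (g g' : Matrix ι ι K), TI p p g g' →
      (∀ v : ι → K, (∀ i, i ∉ S₀ → v i = 0) → g *ᵥ v ∈ U) →
      (∀ u ∈ U, ∀ i, i ∉ S₀ → (g' *ᵥ u) i = 0) →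
      ∀ v : ι → K, (∀ i, i ∉ p → v i = 0) → (v ∈ U ↔ ∀ i, i ∉ S₀ → (g' *ᵥ v) i = 0) := by
    intro S₀ g g' hg h0 h1 v hv
    refine ⟨h1 v, fun h => ?_⟩
    have := h0 _ h
    rwa [Matrix.mulVec_mulVec, hg.mul, Hex.E_mulVec hv] at this
  induction n with
  | zero =>
    intro S₀ g g' hc hg a1 a2 a3 a4 hS h0 _
    obtain rfl := Finset.eq_of_subset_of_card_le hS hc
    exact ⟨g, g', S₀, hg, a1, a2, a3, a4, hS,
      fin S₀ g g' hg h0 fun u hu => Hex.mp_mulVec hg.sup'.mp (hU u hu)⟩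
  | succ n ih =>
    intro S₀ g g' hc hg a1 a2 a3 a4 hS h0 hn
    by_cases h1 : ∀ u ∈ U, ∀ i, i ∉ S₀ → (g' *ᵥ u) i = 0
    · exact ⟨g, g', S₀, hg, a1, a2, a3, a4, hS, fin S₀ g g' hg h0 h1⟩
    push Not at h1
    obtain ⟨u, hu, i₀, hi₀, hne⟩ := h1
    obtain ⟨w, hw⟩ : ∃ w, w = g' *ᵥ u - E K S₀ *ᵥ (g' *ᵥ u) := ⟨_, rfl⟩
    have wa : ∀ a, w a = if a ∈ S₀ then 0 else (g' *ᵥ u) a := fun a => by
      rw [hw, Pi.sub_apply, Hex.E_mulVec_apply]; split_ifs <;> simp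
    have wp : ∀ a, a ∉ p → w a = 0 := fun a ha => by
      rw [wa, Hex.mp_mulVec hg.sup'.mp (hU u hu) a ha, ite_self]
    have gw : g *ᵥ w ∈ U := by
      rw [hw, Matrix.mulVec_sub, Matrix.mulVec_mulVec, hg.mul, Hex.E_mulVec (hU u hu)]
      exact U.sub_mem hu (h0 _ fun i hi => by rw [Hex.E_mulVec_apply, if_neg hi])
    obtain ⟨i, hi, hi₂⟩ : ∃ i, w i ≠ 0 ∧ (i ∈ S₂ → ∀ a, a ∉ S₂ → w a = 0) := by
      by_cases h : ∀ a, a ∉ S₂ → w a = 0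
      · exact ⟨i₀, by rwa [wa, if_neg hi₀], fun _ => h⟩
      · push Not at h
        obtain ⟨a, ha, ha'⟩ := h
        exact ⟨a, ha', fun e => (ha e).elim⟩
    have hiS : i ∉ S₀ := fun e => hi (by rw [wa, if_pos e])
    have hip : i ∈ p := by by_contra h; exact hi (wp i h)
    have hi₁ : i ∈ S₁ → ∀ a, a ∉ S₁ → w a = 0 := fun e a ha => by
      rcases hn with hn | hn
      · exact (hiS (hn e)).elim
      · rw [wa, Hex.mp_mulVec a2 (hn u hu) a ha, ite_self]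
    obtain ⟨k, k', hk, mk, vk⟩ := Hex.elem wp hi
    refine ih (insert i S₀) (g * k) (k' * g') (by rw [Finset.card_insert_of_notMem hiS]; omega)
      (hg.trans hk) (a1.mul (mk _ hi₁).1) ((mk _ hi₁).2.mul a2) (a3.mul (mk _ hi₂).1)
      ((mk _ hi₂).2.mul a4) (Finset.insert_subset hip hS) (fun v hv => ?_)
      (hn.imp_left fun h => h.trans (Finset.subset_insert _ _))
    rw [← Matrix.mulVec_mulVec, vk v fun a ha => hv a fun e => ha (Finset.insert_subset hip hS e),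
      Matrix.mulVec_add, Matrix.mulVec_smul]
    refine U.add_mem (h0 _ fun a ha => ?_) (U.smul_mem _ gw)
    by_cases e : a = i
    · simp [e]
    · simp [e, hv a (by simp [e, ha])]

lemma Hex.bru {p S₁ S₂ : Finset ι} (h₁ : S₁ ⊆ p) (U : Submodule K (ι → K))
    (hU : ∀ v ∈ U, ∀ i, i ∉ p → v i = 0)
    (hn : (∀ v : ι → K, (∀ i, i ∉ S₁ → v i = 0) → v ∈ U) ∨ ∀ v ∈ U, ∀ i, i ∉ S₁ → v i = 0) :
    ∃ (g g' : Matrix ι ι K) (S' : Finset ι), TI p p g g' ∧ Mp S₁ S₁ g ∧ Mp S₁ S₁ g' ∧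
      Mp S₂ S₂ g ∧ Mp S₂ S₂ g' ∧ S' ⊆ p ∧
      ∀ v : ι → K, (∀ i, i ∉ p → v i = 0) → (v ∈ U ↔ ∀ i, i ∉ S' → (g' *ᵥ v) i = 0) := by
  have mE : ∀ T : Finset ι, Mp T T (E K p) := fun T => mp_E Finset.inter_subset_right
  rcases hn with hn | hn
  · refine Hex.bru_aux U hU p.card S₁ _ _ (by omega) (TI.refl p) (mE _) (mE _) (mE _) (mE _) h₁
      (fun v hv => ?_) (Or.inl le_rfl)
    rw [Hex.E_mulVec fun i hi => hv i fun e => hi (h₁ e)]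
    exact hn v hv
  · refine Hex.bru_aux U hU p.card ∅ _ _ (by omega) (TI.refl p) (mE _) (mE _) (mE _) (mE _)
      (Finset.empty_subset _) (fun v hv => ?_) (Or.inr hn)
    rw [show v = 0 from funext fun i => hv i (by simp), Matrix.mulVec_zero]
    exact U.zero_mem

/-- A basis of the coordinate space of `p` adapted to the coordinates `S` and a subspace `U`. -/
lemma bruhat {p S : Finset ι} (hS : S ⊆ p) (U : Submodule K (ι → K))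
    (hU : ∀ v ∈ U, ∀ i, i ∉ p → v i = 0) :
    ∃ (g g' : Matrix ι ι K) (S' : Finset ι), TI p p g g' ∧ Mp S S g ∧ Mp S S g' ∧ S' ⊆ p ∧
      ∀ v : ι → K, (∀ i, i ∉ p → v i = 0) → (v ∈ U ↔ ∀ i, i ∉ S' → (g' *ᵥ v) i = 0) := by
  have _ := hS
  obtain ⟨g, g', S', a, -, -, b, c, d, e⟩ := Hex.bru (S₂ := S) (Finset.empty_subset p) U hU
    (Or.inl fun v hv => by rw [show v = 0 from funext fun i => hv i (by simp)]; exact U.zero_mem)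
  exact ⟨g, g', S', a, b, c, d, e⟩

/-- The vectors of the coordinate space of `p` which `A'` sends to that of `B`. -/
def Hex.pre (p B : Finset ι) (A' : Matrix ι ι K) : Submodule K (ι → K) where
  carrier := {v | (∀ i, i ∉ p → v i = 0) ∧ ∀ i, i ∉ B → (A' *ᵥ v) i = 0}
  add_mem' := fun ha hb => ⟨fun i hi => by simp [ha.1 i hi, hb.1 i hi],
    fun i hi => by simp [Matrix.mulVec_add, ha.2 i hi, hb.2 i hi]⟩
  zero_mem' := ⟨fun _ _ => rfl, fun _ _ => by simp⟩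
  smul_mem' := fun c v hv => ⟨fun i hi => by simp [hv.1 i hi],
    fun i hi => by simp [Matrix.mulVec_smul, hv.2 i hi]⟩

lemma Hex.pre_spec {p q B B' : Finset ι} {A A' g g' : Matrix ι ι K} (hA : TI p q A A')
    (hB : B ⊆ q) (hg : TI p p g g') (hB' : B' ⊆ p) (e : ∀ v : ι → K, (∀ i, i ∉ p → v i = 0) →
      (v ∈ Hex.pre p B A' ↔ ∀ i, i ∉ B' → (g' *ᵥ v) i = 0)) :
    Mp B B' (A' * g) ∧ Mp B' B (g' * A) := by
  refine ⟨Hex.mp_of_mulVec fun v hv => ?_, Hex.mp_of_mulVec fun v hv => ?_⟩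
  · rw [← Matrix.mulVec_mulVec]
    refine ((e _ (Hex.mp_mulVec hg.sup.mp hv)).2 ?_).2
    rwa [Matrix.mulVec_mulVec, hg.mul', Hex.E_mulVec fun i hi => hv i fun h => hi (hB' h)]
  · rw [← Matrix.mulVec_mulVec]
    refine (e _ (Hex.mp_mulVec hA.sup.mp hv)).1 ⟨Hex.mp_mulVec hA.sup.mp hv, ?_⟩
    rwa [Matrix.mulVec_mulVec, hA.mul', Hex.E_mulVec fun i hi => hv i fun h => hi (hB h)]

lemma bruhat₂ {p q S R : Finset ι} {A A' : Matrix ι ι K} (hA : TI p q A A') (hS : S ⊆ p)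
    (hR : R ⊆ q) :
    ∃ (g g' : Matrix ι ι K) (S' : Finset ι), TI p p g g' ∧ Mp S S g ∧ Mp S S g' ∧ S' ⊆ p ∧
      Mp R S' (A' * g) ∧ Mp S' R (g' * A) := by
  obtain ⟨g, g', S', a, b, c, d, e⟩ := bruhat hS (Hex.pre p R A') fun v hv => hv.1
  exact ⟨g, g', S', a, b, c, d, Hex.pre_spec hA hR a d e⟩

lemma bruhat₃ {p q S₁ S₂ R₀ B : Finset ι} {A A' : Matrix ι ι K} (hA : TI p q A A')
    (h₁ : S₁ ⊆ p) (h₂ : S₂ ⊆ p) (hR : R₀ ⊆ q) (hB : B ⊆ q) (m : Mp S₁ R₀ A) (m' : Mp R₀ S₁ A')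
    (hn : B ⊆ R₀ ∨ R₀ ⊆ B) :
    ∃ (g g' : Matrix ι ι K) (B' : Finset ι), TI p p g g' ∧ Mp S₁ S₁ g ∧ Mp S₁ S₁ g' ∧
      Mp S₂ S₂ g ∧ Mp S₂ S₂ g' ∧ B' ⊆ p ∧ Mp B B' (A' * g) ∧ Mp B' B (g' * A) := by
  have _ := h₂
  have _ := hR
  obtain ⟨g, g', S', a, b, c, b', c', d, e⟩ := Hex.bru (S₂ := S₂) h₁ (Hex.pre p B A')
    (fun v hv => hv.1) (by
      rcases hn with hn | hn
      · refine Or.inr fun v hv i hi => ?_
        have := Hex.mp_mulVec m (fun j hj => hv.2 j fun h => hj (hn h)) i hi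
        rwa [Matrix.mulVec_mulVec, hA.mul, Hex.E_mulVec hv.1] at this
      · exact Or.inl fun v hv => ⟨fun i hi => hv i fun h => hi (h₁ h),
          fun i hi => Hex.mp_mulVec m' hv i fun h => hi (hn h)⟩)
  exact ⟨g, g', S', a, b, c, b', c', d, Hex.pre_spec hA hB a d e⟩

end Vale.Agent.P002b
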