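import Vale.Agent.P002b.Sub

/-! Splitting a triangle along an invariant subspace. -/

namespace Vale.Agent.P002b

open Matrix

variable {O K : Type} [CommRing O] [Field K] [CharZero K] [Algebra O K] {ι : Type} [Fintype ι]
  [DecidableEq ι]
variable {c : Oˣ} {p : Finset ι} {R : List (Fc O ι)} {x : Asg K ι}
  {h₁ y₁ z₁ h₂ y₂ z₂ h₃ y₃ z₃ : Hf ι}

section mat

variable {t s ty sy tz sz a b a₁ a₂ b₁ b₂ bt bs : Finset ι}
  {T T' y y' z z' u u' v v' m₁ m₁' m₂ m₂' m₃ m₃' m₄ m₄' : Matrix ι ι K}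

omit [CharZero K] in
lemma blk_blk (ha : a₁ ⊆ a) (hb : b₁ ⊆ b) : blk a₁ b₁ (blk a b T) = blk a₁ b₁ T := by
  ext i j
  simp only [blk_apply]
  split_ifs with h1 h2
  exacts [rfl, absurd ⟨ha h1.1, hb h1.2⟩ h2, rfl]

omit [CharZero K] in
lemma TM.of_blk (h : TI a b (blk a b T) (blk b a T')) (ea : a = a₁ ∪ a₂) (da : Disjoint a₁ a₂)
    (eb : b = b₁ ∪ b₂) (db : Disjoint b₁ b₂) (h1 : ∀ i ∈ a₂, ∀ j ∈ b₁, T i j = 0)
    (h2 : ∀ i ∈ b₂, ∀ j ∈ a₁, T' i j = 0) :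
    TM a b a₁ b₁ a₂ b₂ (blk a b T) (blk b a T') (blk a₁ b₁ T) (blk b₁ a₁ T') (blk a₂ b₂ T)
      (blk b₂ a₂ T') := by
  have sa₁ : a₁ ⊆ a := ea ▸ Finset.subset_union_left
  have sa₂ : a₂ ⊆ a := ea ▸ Finset.subset_union_right
  have sb₁ : b₁ ⊆ b := eb ▸ Finset.subset_union_left
  have sb₂ : b₂ ⊆ b := eb ▸ Finset.subset_union_right
  have := TM.of_TI h sa₁ sb₁ (fun i j hi hj => ?_) (fun i j hi hj => ?_)
  · have e1 : a \ a₁ = a₂ := by rw [ea, Finset.union_sdiff_cancel_left da]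
    have e2 : b \ b₁ = b₂ := by rw [eb, Finset.union_sdiff_cancel_left db]
    rwa [e1, e2, blk_blk sa₁ sb₁, blk_blk sb₁ sa₁, blk_blk sa₂ sb₂, blk_blk sb₂ sa₂] at this
  · rw [blk_apply]; split_ifs with e
    · exact h1 i ((Finset.mem_union.1 (ea ▸ e.1)).resolve_left hi) j hj
    · rfl
  · rw [blk_apply]; split_ifs with e
    · exact h2 i ((Finset.mem_union.1 (eb ▸ e.1)).resolve_left hi) j hj
    · rfl

omit [Fintype ι] in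
lemma split_sets (ut : t = ty ∪ tz) (dt : Disjoint ty tz) (hb : bt ⊆ t) :
    (ty = ty ∩ bt ∪ ty \ bt ∧ Disjoint (ty ∩ bt) (ty \ bt)) ∧
    (tz = tz ∩ bt ∪ tz \ bt ∧ Disjoint (tz ∩ bt) (tz \ bt)) ∧
    (bt = ty ∩ bt ∪ tz ∩ bt ∧ Disjoint (ty ∩ bt) (tz ∩ bt)) ∧
    (t \ bt = ty \ bt ∪ tz \ bt ∧ Disjoint (ty \ bt) (tz \ bt)) := by
  have k : ∀ a : Finset ι, a = a ∩ bt ∪ a \ bt ∧ Disjoint (a ∩ bt) (a \ bt) := fun a =>
    ⟨by ext i; by_cases h : i ∈ bt <;> simp [h],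
      Finset.disjoint_sdiff.mono_left Finset.inter_subset_right⟩
  refine ⟨k ty, k tz, ⟨?_, dt.mono Finset.inter_subset_left Finset.inter_subset_left⟩,
    by rw [ut, Finset.union_sdiff_distrib], dt.mono Finset.sdiff_subset Finset.sdiff_subset⟩
  rw [← Finset.union_inter_distrib_right, ← ut, Finset.inter_eq_right.2 hb]

omit [CharZero K] in
lemma split_dec (h : TM t s ty sy tz sz T T' y y' z z') (hbt : bt ⊆ t) (hbs : bs ⊆ s)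
    (h1 : Mp bt bs T) (h2 : Mp bs bt T') :
    TM ty sy (ty ∩ bt) (sy ∩ bs) (ty \ bt) (sy \ bs) y y' (blk (ty ∩ bt) (sy ∩ bs) T)
      (blk (sy ∩ bs) (ty ∩ bt) T') (blk (ty \ bt) (sy \ bs) T) (blk (sy \ bs) (ty \ bt) T') ∧
    TM tz sz (tz ∩ bt) (sz ∩ bs) (tz \ bt) (sz \ bs) z z' (blk (tz ∩ bt) (sz ∩ bs) T)
      (blk (sz ∩ bs) (tz ∩ bt) T') (blk (tz \ bt) (sz \ bs) T) (blk (sz \ bs) (tz \ bt) T') ∧
    TM bt bs (ty ∩ bt) (sy ∩ bs) (tz ∩ bt) (sz ∩ bs) (blk bt bs T) (blk bs bt T')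
      (blk (ty ∩ bt) (sy ∩ bs) T) (blk (sy ∩ bs) (ty ∩ bt) T') (blk (tz ∩ bt) (sz ∩ bs) T)
      (blk (sz ∩ bs) (tz ∩ bt) T') ∧
    TM (t \ bt) (s \ bs) (ty \ bt) (sy \ bs) (tz \ bt) (sz \ bs) (blk (t \ bt) (s \ bs) T)
      (blk (s \ bs) (t \ bt) T') (blk (ty \ bt) (sy \ bs) T) (blk (sy \ bs) (ty \ bt) T')
      (blk (tz \ bt) (sz \ bs) T) (blk (sz \ bs) (tz \ bt) T') ∧
    y + z + (blk (ty ∩ bt) (sz ∩ bs) T + blk (ty \ bt) (sz \ bs) T + blk (ty ∩ bt) (sz \ bs) T)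
      = T := by
  obtain ⟨⟨a1, a2⟩, ⟨a3, a4⟩, ⟨a5, a6⟩, a7, a8⟩ := split_sets h.ut h.dt hbt
  obtain ⟨⟨b1, b2⟩, ⟨b3, b4⟩, ⟨b5, b6⟩, b7, b8⟩ := split_sets h.us h.ds hbs
  have hB := TM.of_TI h.iso hbt hbs h1 h2
  have dt : ∀ i, i ∈ tz → i ∉ ty := fun i e => Finset.disjoint_right.1 h.dt e
  have ds : ∀ i, i ∈ sz → i ∉ sy := fun i e => Finset.disjoint_right.1 h.ds e
  have iy := h.isoy
  have iz := h.isoz
  rw [← h.by', ← h.symm.by'] at iy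
  rw [← h.bz, ← h.symm.bz] at iz
  refine ⟨?_, ?_, ?_, ?_, ?_⟩
  · rw [← h.by', ← h.symm.by']
    exact TM.of_blk iy a1 a2 b1 b2
      (fun i hi j hj => h1 i j (Finset.mem_sdiff.1 hi).2 (Finset.mem_inter.1 hj).2)
      fun i hi j hj => h2 i j (Finset.mem_sdiff.1 hi).2 (Finset.mem_inter.1 hj).2
  · rw [← h.bz, ← h.symm.bz]
    exact TM.of_blk iz a3 a4 b3 b4
      (fun i hi j hj => h1 i j (Finset.mem_sdiff.1 hi).2 (Finset.mem_inter.1 hj).2)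
      fun i hi j hj => h2 i j (Finset.mem_sdiff.1 hi).2 (Finset.mem_inter.1 hj).2
  · exact TM.of_blk hB.isoy a5 a6 b5 b6
      (fun i hi j hj => h.mp i j (dt i (Finset.mem_inter.1 hi).1) (Finset.mem_inter.1 hj).1)
      fun i hi j hj => h.symm.mp i j (ds i (Finset.mem_inter.1 hi).1) (Finset.mem_inter.1 hj).1
  · exact TM.of_blk hB.isoz a7 a8 b7 b8
      (fun i hi j hj => h.mp i j (dt i (Finset.mem_sdiff.1 hi).1) (Finset.mem_sdiff.1 hj).1)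
      fun i hi j hj => h.symm.mp i j (ds i (Finset.mem_sdiff.1 hi).1) (Finset.mem_sdiff.1 hj).1
  · refine Eq.trans ?_ h.eq_add.symm
    congr 1
    ext i j
    have := h1 i j
    simp only [Matrix.add_apply, blk_apply, Finset.mem_inter, Finset.mem_sdiff]
    by_cases c2 : i ∈ bt <;> by_cases c4 : j ∈ bs <;> by_cases c1 : i ∈ ty <;>
      by_cases c3 : j ∈ sz <;> simp [c1, c2, c3, c4]
    exact (this c2 c4).symm

/-- The inverse of a block triangular matrix. -/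
def tinv (ty sz : Finset ι) (T y' z' : Matrix ι ι K) : Matrix ι ι K :=
  y' + z' - y' * blk ty sz T * z'

omit [CharZero K] in
@[fun_prop] lemma PM.tinv {X : Type} [Aff K X] (ty sz : Finset ι) {f g k : X → Matrix ι ι K}
    (hf : PM O K f) (hg : PM O K g) (hk : PM O K k) :
    PM O K (fun x => tinv ty sz (f x) (g x) (k x)) := by
  unfold P002b.tinv; fun_prop

omit [CharZero K] in
lemma TM.tinv (h : TM t s ty sy tz sz T T' y y' z z') :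
    TM t s ty sy tz sz T (tinv ty sz T y' z') y y' z z' := by
  rw [P002b.tinv, ← h.inv_eq]; exact h

omit [CharZero K] in
lemma split_comp (ut : t = ty ∪ tz) (dt : Disjoint ty tz) (us : s = sy ∪ sz) (ds : Disjoint sy sz)
    (hbt : bt ⊆ t) (hbs : bs ⊆ s)
    (ha : TM ty sy (ty ∩ bt) (sy ∩ bs) (ty \ bt) (sy \ bs) y y' m₁ m₁' m₂ m₂')
    (hb : TM tz sz (tz ∩ bt) (sz ∩ bs) (tz \ bt) (sz \ bs) z z' m₃ m₃' m₄ m₄')
    (hc : TM bt bs (ty ∩ bt) (sy ∩ bs) (tz ∩ bt) (sz ∩ bs) u u' m₁ m₁' m₃ m₃')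
    (hd : TM (t \ bt) (s \ bs) (ty \ bt) (sy \ bs) (tz \ bt) (sz \ bs) v v' m₂ m₂' m₄ m₄')
    (W : Matrix ι ι K) {T : Matrix ι ι K} (hT : T = y + z + (blk (ty ∩ bt) (sz ∩ bs) u +
      blk (ty \ bt) (sz \ bs) v + blk (ty ∩ bt) (sz \ bs) W)) :
    ∃ T', TM t s ty sy tz sz T T' y y' z z' ∧ TM t s bt bs (t \ bt) (s \ bs) T T' u u' v v' := by
  have h1 := TM.mk' ha.iso hb.iso dt ds (N := blk (ty ∩ bt) (sz ∩ bs) u +
      blk (ty \ bt) (sz \ bs) v + blk (ty ∩ bt) (sz \ bs) W)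
    (((sup_blk.mono Finset.inter_subset_left Finset.inter_subset_left).add
      (sup_blk.mono Finset.sdiff_subset Finset.sdiff_subset)).add
      (sup_blk.mono Finset.inter_subset_left Finset.sdiff_subset))
  have sy' : sy \ bs ⊆ s \ bs :=
    Finset.sdiff_subset_sdiff (us ▸ Finset.subset_union_left) le_rfl
  have sz' : sz \ bs ⊆ s \ bs :=
    Finset.sdiff_subset_sdiff (us ▸ Finset.subset_union_right) le_rfl
  have h2 := TM.mk' hc.iso hd.iso Finset.disjoint_sdiff Finset.disjoint_sdiff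
    (N := blk (ty ∩ bt) (sy \ bs) y + blk (tz ∩ bt) (sz \ bs) z + blk (ty ∩ bt) (sz \ bs) W)
    (((sup_blk.mono Finset.inter_subset_right sy').add
      (sup_blk.mono Finset.inter_subset_right sz')).add
      (sup_blk.mono Finset.inter_subset_right sz'))
  have e : u + v + (blk (ty ∩ bt) (sy \ bs) y + blk (tz ∩ bt) (sz \ bs) z +
      blk (ty ∩ bt) (sz \ bs) W) = T := by
    have e1 := ha.eq_add
    have e2 := hb.eq_add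
    have e3 := hc.eq_add
    have e4 := hd.eq_add
    rw [hT]
    generalize blk (ty ∩ bt) (sy \ bs) y = n1 at e1 ⊢
    generalize blk (tz ∩ bt) (sz \ bs) z = n2 at e2 ⊢
    generalize blk (ty ∩ bt) (sz ∩ bs) u = n3 at e3 ⊢
    generalize blk (ty \ bt) (sz \ bs) v = n4 at e4 ⊢
    rw [e1, e2, e3, e4]; abel
  rw [← ut, ← us, ← hT] at h1
  rw [Finset.union_sdiff_of_subset hbt, Finset.union_sdiff_of_subset hbs, e] at h2
  refine ⟨_, h1, ?_⟩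
  rw [← h1.iso.unique h2.iso]; exact h2

omit [CharZero K] in
/-- The corner correction. -/
lemma split_fix {p B S₁ S₃ : Finset ι} {M D : Matrix ι ι K} {a a' : K} (ha : a' * a = 1)
    (hM : M = a • E K p + D) (hD : Sup B (p \ B) D) (hB : B ⊆ p)
    (cov : ∀ i ∈ B, ∀ j ∈ p, j ∉ B → (i ∈ S₁ ∧ j ∉ S₁) ∨ (i ∈ S₃ ∧ j ∉ S₃)) :
    Sup S₃ (p \ S₃) (D - blk S₁ (p \ S₁) D) ∧
    (E K p + -a' • blk S₁ (p \ S₁) D) * M * (E K p + -a' • (D - blk S₁ (p \ S₁) D)) =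
      a • E K p := by
  have s1 : Sup B (p \ B) (blk S₁ (p \ S₁) D) := fun i j e => by
    rw [blk_apply, hD i j e, ite_self]
  constructor
  · intro i j e
    rw [Matrix.sub_apply, blk_apply]
    split_ifs with e'
    · exact sub_self _
    · rw [sub_zero]
      by_contra h0
      have hi : i ∈ B := by by_contra hi; exact h0 (hD i j (Or.inl hi))
      have hj : j ∈ p \ B := by by_contra hj; exact h0 (hD i j (Or.inr hj))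
      rw [Finset.mem_sdiff] at hj e e'
      have := cov i hi j hj.1 hj.2
      tauto
  · generalize blk S₁ (p \ S₁) D = D₁ at s1
    have z : ∀ {X Y : Matrix ι ι K}, Sup B (p \ B) X → Sup B (p \ B) Y → X * Y = 0 :=
      fun hX hY => hX.mul_eq_zero hY Finset.sdiff_disjoint
    have l : ∀ {X : Matrix ι ι K}, Sup B (p \ B) X → E K p * X = X :=
      fun hX => (hX.mono hB le_rfl).l
    have r : ∀ {X : Matrix ι ι K}, Sup B (p \ B) X → X * E K p = X :=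
      fun hX => (hX.mono le_rfl Finset.sdiff_subset).r
    simp only [hM, Matrix.add_mul, Matrix.mul_add, Matrix.mul_sub, Matrix.smul_mul,
      Matrix.mul_smul, E_mul_self, l hD, l s1, r hD, r s1, z hD hD, z hD s1, z s1 hD, z s1 s1,
      smul_smul, smul_sub, smul_zero, neg_mul, mul_neg, ha, mul_comm a a', neg_smul, one_smul,
      Matrix.zero_mul, smul_neg, smul_add]
    abel

omit [CharZero K] in
lemma TM.uni {p S S' : Finset ι} {N : Matrix ι ι K} (e : p = S ∪ S') (d : Disjoint S S')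
    (hN : Sup S S' N) :
    ∃ M', TM p p S S S' S' (E K p + N) M' (E K S) (E K S) (E K S') (E K S') := by
  have := TM.mk' (TI.refl (K := K) S) (TI.refl S') d d hN
  rw [← E_union d, ← e] at this
  exact ⟨_, this⟩

omit [CharZero K] in
lemma split_tri {p q r B ty₁ sy₁ tz₁ sz₁ ty₃ sy₃ tz₃ sz₃ : Finset ι}
    {T₁ T₁' T₂ T₃ T₃' y₁ y₁' z₁ z₁' y₃ y₃' z₃ z₃' M' U' V' D : Matrix ι ι K} {a a' : K}
    (h1 : TM p q ty₁ sy₁ tz₁ sz₁ T₁ T₁' y₁ y₁' z₁ z₁')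
    (h3 : TM r p ty₃ sy₃ tz₃ sz₃ T₃ T₃' y₃ y₃' z₃ z₃')
    (k : TM p p B B (p \ B) (p \ B) (T₁ * (T₂ * T₃)) M' (a • E K B) U' (a • E K (p \ B)) V')
    (ha : a' * a = 1)
    (cov : ∀ i ∈ B, ∀ j ∈ p, j ∉ B → (i ∈ ty₁ ∧ j ∉ ty₁) ∨ (i ∈ sy₃ ∧ j ∉ sy₃))
    (hD : D = T₁ * (T₂ * T₃) - a • E K p) :
    (∃ S', TM p q ty₁ sy₁ tz₁ sz₁ ((E K p + -a' • blk ty₁ (p \ ty₁) D) * T₁) S' y₁ y₁' z₁ z₁') ∧
    (∃ S', TM r p ty₃ sy₃ tz₃ sz₃ (T₃ * (E K p + -a' • (D - blk ty₁ (p \ ty₁) D))) S'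
      y₃ y₃' z₃ z₃') ∧
    (E K p + -a' • blk ty₁ (p \ ty₁) D) * T₁ *
      (T₂ * (T₃ * (E K p + -a' • (D - blk ty₁ (p \ ty₁) D)) * E K p)) = a • E K p := by
  have hB : B ⊆ p := k.suby
  have e := k.eq_add
  rw [← smul_add, ← E_union k.dt, ← k.ut] at e
  have sD : Sup B (p \ B) D := by
    rw [hD, sub_eq_of_eq_add' e]; exact sup_blk
  obtain ⟨f1, f2⟩ := split_fix ha (M := T₁ * (T₂ * T₃)) (by rw [hD]; abel) sD hB cov
  obtain ⟨M₁, u1⟩ := TM.uni h1.ut h1.dt (N := -a' • blk ty₁ (p \ ty₁) D)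
    (by rw [h1.tz_eq]; exact sup_blk.smul _)
  obtain ⟨M₃, u3⟩ := TM.uni h3.us h3.ds (N := -a' • (D - blk ty₁ (p \ ty₁) D))
    (by rw [h3.sz_eq]; exact f1.smul _)
  have g1 := u1.trans h1
  have g3 := h3.trans u3
  rw [h1.isoy.sup.l, h1.isoy.sup'.r, h1.isoz.sup.l, h1.isoz.sup'.r] at g1
  rw [h3.isoy.sup.r, h3.isoy.sup'.l, h3.isoz.sup.r, h3.isoz.sup'.l] at g3
  refine ⟨⟨_, g1⟩, ⟨_, g3⟩, ?_⟩
  rw [g3.iso.sup.r, ← f2]
  simp only [Matrix.mul_assoc]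

end mat

/-- A triangular letter with the two invariant coordinate sets. -/
structure SD (ι : Type) where
  h : Hf ι
  y : Hf ι
  z : Hf ι
  bt : Finset ι
  bs : Finset ι

namespace SD

variable (a : SD ι) (N j : ℕ)

def m1 : Hf ι := nw N (j + 0) (a.y.t ∩ a.bt) (a.y.s ∩ a.bs)
def m2 : Hf ι := nw N (j + 1) (a.y.t \ a.bt) (a.y.s \ a.bs)
def m3 : Hf ι := nw N (j + 2) (a.z.t ∩ a.bt) (a.z.s ∩ a.bs)
def m4 : Hf ι := nw N (j + 3) (a.z.t \ a.bt) (a.z.s \ a.bs)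
def ky : Hf ι := nw N (j + 4) a.y.s a.y.t
def kz : Hf ι := nw N (j + 5) a.z.s a.z.t
def u : Hf ι := nw N (j + 6) a.bt a.bs
def v : Hf ι := nw N (j + 7) (a.h.t \ a.bt) (a.h.s \ a.bs)

def names : List (ℕ × Finset ι × Finset ι) :=
  [(j + 0, a.y.t ∩ a.bt, a.y.s ∩ a.bs), (j + 1, a.y.t \ a.bt, a.y.s \ a.bs),
    (j + 2, a.z.t ∩ a.bt, a.z.s ∩ a.bs), (j + 3, a.z.t \ a.bt, a.z.s \ a.bs),
    (j + 4, a.y.s, a.y.t), (j + 5, a.z.s, a.z.t), (j + 6, a.bt, a.bs),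
    (j + 7, a.h.t \ a.bt, a.h.s \ a.bs)]

def faces (O : Type) [CommRing O] : List (Fc O ι) :=
  [⟨1, a.y.t, [.fr a.y, .tri (a.ky N j) (a.m1 N j).bar (a.m2 N j).bar]⟩,
    ⟨1, a.z.t, [.fr a.z, .tri (a.kz N j) (a.m3 N j).bar (a.m4 N j).bar]⟩]

def lu : Lt ι := .tri (a.u N j) (a.m1 N j) (a.m3 N j)
def lv : Lt ι := .tri (a.v N j) (a.m2 N j) (a.m4 N j)

omit [Fintype ι] in
lemma us_eq : usS (a.faces N j O) + (a.lu N j).us + (a.lv N j).us =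
    {a.y} + {a.z} + nws N (a.names j) := by
  simp only [faces, lu, lv, names, usS_cons, usS_nil, usW_cons, usW_nil, Lt.us_fr, Lt.us_tri,
    nws_cons, nws_nil, m1, m2, m3, m4, ky, kz, u, v]
  abel

def t0 (Y : Asg K ι) : Matrix ι ι K :=
  Y a.y + Y a.z + (blk (a.y.t ∩ a.bt) (a.z.s ∩ a.bs) (Y (a.u N j)) +
    blk (a.y.t \ a.bt) (a.z.s \ a.bs) (Y (a.v N j)) + blk (a.y.t ∩ a.bt) (a.z.s \ a.bs) (Y a.h))

omit [CharZero K] in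
@[fun_prop] lemma pm_t0 : PM O K (fun Y : Asg K ι => a.t0 N j Y) := by
  unfold t0; fun_prop

def val (x : Asg K ι) : ℕ → Matrix ι ι K
  | 0 => blk (a.y.t ∩ a.bt) (a.y.s ∩ a.bs) (x a.h)
  | 1 => blk (a.y.t \ a.bt) (a.y.s \ a.bs) (x a.h)
  | 2 => blk (a.z.t ∩ a.bt) (a.z.s ∩ a.bs) (x a.h)
  | 3 => blk (a.z.t \ a.bt) (a.z.s \ a.bs) (x a.h)
  | 4 => x a.y.bar
  | 5 => x a.z.bar
  | 6 => blk a.bt a.bs (x a.h)
  | _ => blk (a.h.t \ a.bt) (a.h.s \ a.bs) (x a.h)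

def val' (x : Asg K ι) : ℕ → Matrix ι ι K
  | 0 => blk (a.y.s ∩ a.bs) (a.y.t ∩ a.bt) (x a.h.bar)
  | 1 => blk (a.y.s \ a.bs) (a.y.t \ a.bt) (x a.h.bar)
  | 2 => blk (a.z.s ∩ a.bs) (a.z.t ∩ a.bt) (x a.h.bar)
  | 3 => blk (a.z.s \ a.bs) (a.z.t \ a.bt) (x a.h.bar)
  | 4 => x a.y
  | 5 => x a.z
  | 6 => blk a.bs a.bt (x a.h.bar)
  | _ => blk (a.h.s \ a.bs) (a.h.t \ a.bt) (x a.h.bar)

variable {a N j}

omit [CharZero K] in
lemma lift {x x' : Asg K ι} (o : (Lt.tri a.h a.y a.z).Ok x) (hbt : a.bt ⊆ a.h.t)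
    (hbs : a.bs ⊆ a.h.s) (h1 : Mp a.bt a.bs (x a.h)) (h2 : Mp a.bs a.bt (x a.h.bar))
    (ag : Agree (Lt.tri a.h a.y a.z).us x x')
    (hv : ∀ r, r < 8 → ∀ t s, x' (nw N (j + r) t s) = a.val x r ∧
      x' (nw N (j + r) t s).bar = a.val' x r) :
    x' ∈ Sol K (a.faces N j O) ∧ (a.lu N j).Ok x' ∧ (a.lv N j).Ok x' ∧
      x' (a.u N j) = blk a.bt a.bs (x a.h) ∧
      x' (a.v N j) = blk (a.h.t \ a.bt) (a.h.s \ a.bs) (x a.h) ∧ a.t0 N j x' = x a.h := by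
  obtain ⟨d1, d2, d3, d4, d5⟩ := split_dec o hbt hbs h1 h2
  have e := fun r hr t s => (hv r hr t s).1
  have e' := fun r hr t s => (hv r hr t s).2
  have gy := ag a.y (by simp)
  have gz := ag a.z (by simp)
  have gh := ag a.h (by simp)
  refine ⟨?_, ?_, ?_, e 6 (by omega) _ _, e 7 (by omega) _ _, ?_⟩
  · simp only [faces, mem_sol_cons, mem_sol_nil, and_true]
    refine ⟨⟨by simp [ky], ?_, ?_⟩, ⟨by simp [kz], ?_, ?_⟩⟩
    · simp only [List.forall_mem_cons, Lt.ok_fr, Lt.ok_tri, ky, m1, m2, Hf.bar_bar, Hf.bar_t,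
        Hf.bar_s, nw_t, nw_s, e 0, e 1, e 4, e' 0, e' 1, e' 4, ← gy.1, ← gy.2, Nat.reduceLT]
      exact ⟨d1.iso, d1.symm, by simp⟩
    · simp only [pv_cons, pv_nil, Lt.hd_fr, Lt.hd_tri, ky, e 4 (by omega), ← gy.1, val,
        d1.iso.sup'.r, d1.iso.mul, Units.val_one, map_one, one_smul]
    · simp only [List.forall_mem_cons, Lt.ok_fr, Lt.ok_tri, kz, m3, m4, Hf.bar_bar, Hf.bar_t,
        Hf.bar_s, nw_t, nw_s, e 2, e 3, e 5, e' 2, e' 3, e' 5, ← gz.1, ← gz.2, Nat.reduceLT]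
      exact ⟨d2.iso, d2.symm, by simp⟩
    · simp only [pv_cons, pv_nil, Lt.hd_fr, Lt.hd_tri, kz, e 5 (by omega), ← gz.1, val,
        d2.iso.sup'.r, d2.iso.mul, Units.val_one, map_one, one_smul]
  · simp only [lu, Lt.ok_tri, u, m1, m3, nw_t, nw_s, e 0, e 2, e 6, e' 0, e' 2, e' 6, Nat.reduceLT]
    exact d3
  · simp only [lv, Lt.ok_tri, v, m2, m4, nw_t, nw_s, e 1, e 3, e 7, e' 1, e' 3, e' 7, Nat.reduceLT]
    exact d4
  · rw [t0, u, v, e 6 (by omega), e 7 (by omega), ← gy.1, ← gz.1, ← gh.1, val, val,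
      blk_blk Finset.inter_subset_right Finset.inter_subset_right,
      blk_blk (Finset.sdiff_subset_sdiff (TM.suby o) le_rfl)
        (Finset.sdiff_subset_sdiff ((TM.us o) ▸ Finset.subset_union_right) le_rfl), d5]
    all_goals omega

omit [CharZero K] in
lemma desc {x Y : Asg K ι} (o : (Lt.tri a.h a.y a.z).Ok x) (hbt : a.bt ⊆ a.h.t)
    (hbs : a.bs ⊆ a.h.s) (hf : Y ∈ Sol K (a.faces N j O)) (hu : (a.lu N j).Ok Y)
    (hv : (a.lv N j).Ok Y) :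
    ∃ T', TM a.h.t a.h.s a.y.t a.y.s a.z.t a.z.s (a.t0 N j Y) T' (Y a.y) (Y a.y.bar) (Y a.z)
      (Y a.z.bar) ∧ TM a.h.t a.h.s a.bt a.bs (a.h.t \ a.bt) (a.h.s \ a.bs) (a.t0 N j Y) T'
      (Y (a.u N j)) (Y (a.u N j).bar) (Y (a.v N j)) (Y (a.v N j).bar) := by
  simp only [faces, mem_sol_cons, mem_sol_nil, and_true] at hf
  obtain ⟨⟨-, oy, ey⟩, ⟨-, oz, ez⟩⟩ := hf
  simp only [List.forall_mem_cons, Lt.ok_fr, Lt.ok_tri, Hf.bar_bar] at oy oz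
  have iy := oy.1
  have iz := oz.1
  have ty := oy.2.1.symm
  have tz := oz.2.1.symm
  simp only [pv_cons, pv_nil, Lt.hd_fr, Lt.hd_tri, Units.val_one, map_one, one_smul] at ey ez
  have sy : Sup a.y.s a.y.t (Y (a.ky N j)) := ty.iso.sup'
  have sz : Sup a.z.s a.z.t (Y (a.kz N j)) := tz.iso.sup'
  rw [sy.r] at ey
  rw [sz.r] at ez
  have y1 := iy.eq_inv sy.l ey
  have z1 := iz.eq_inv sz.l ez
  rw [y1] at ty
  rw [z1] at tz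
  rw [iy.symm.unique ty.iso.symm] at ty
  rw [iz.symm.unique tz.iso.symm] at tz
  exact split_comp (TM.ut o) (TM.dt o) (TM.us o) (TM.ds o) hbt hbs ty tz hu hv (Y a.h) rfl

end SD

omit [Fintype ι] [DecidableEq ι] in
lemma nws_append (N : ℕ) (L L' : List (ℕ × Finset ι × Finset ι)) :
    nws N (L ++ L') = nws N L + nws N L' := by simp [nws]

omit [Field K] [CharZero K] [Fintype ι] [DecidableEq ι] in
lemma upd3 {h₁ h₂ h₃ : Hf ι} (nd : ({h₁} + {h₁.bar} + ({h₂} + {h₂.bar}) + ({h₃} + {h₃.bar}) :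
    Multiset (Hf ι)).Nodup) (Y : Asg K ι) (A A' B B' C C' : Matrix ι ι K) {Z : Asg K ι}
    (hZ : Z = upd (upd (upd Y h₁ A A') h₂ B B') h₃ C C') :
    Z h₁ = A ∧ Z h₁.bar = A' ∧ Z h₂ = B ∧ Z h₂.bar = B' ∧ Z h₃ = C ∧ Z h₃.bar = C' := by
  simp only [Multiset.nodup_add, Multiset.disjoint_add_left, Multiset.disjoint_add_right,
    Multiset.singleton_disjoint, Multiset.mem_singleton] at nd
  obtain ⟨⟨-, -, ⟨a1, a2⟩, a3, a4⟩, -, ⟨⟨b1, b2⟩, b3, b4⟩, ⟨b5, b6⟩, b7, b8⟩ := nd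
  subst hZ
  refine ⟨?_, ?_, ?_, ?_, upd_fst .., upd_snd ..⟩
  · rw [upd_of_ne _ _ _ b1 b5, upd_of_ne _ _ _ a1 a3, upd_fst]
  · rw [upd_of_ne _ _ _ b2 b6, upd_of_ne _ _ _ a2 a4, upd_snd]
  · rw [upd_of_ne _ _ _ b3 b7, upd_fst]
  · rw [upd_of_ne _ _ _ b4 b8, upd_snd]

lemma gd_split
    (hp : ∀ l ∈ [Lt.tri h₁ y₁ z₁, .tri h₂ y₂ z₂, .tri h₃ y₃ z₃], l.Proper)
    (hQ : Q (usS ((⟨c, p, [.tri h₁ y₁ z₁, .tri h₂ y₂ z₂, .tri h₃ y₃ z₃]⟩ : Fc O ι) :: R)))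
    (hx : x ∈ Sol K ((⟨c, p, [.tri h₁ y₁ z₁, .tri h₂ y₂ z₂, .tri h₃ y₃ z₃]⟩ : Fc O ι) :: R))
    {B₀ B₁ B₂ : Finset ι} (s₀ : B₀ ⊆ p) (s₁ : B₁ ⊆ h₁.s) (s₂ : B₂ ⊆ h₂.s) (ne : B₀.Nonempty)
    (ne' : B₀ ≠ p) (m₁ : Mp B₀ B₁ (x h₁)) (m₁' : Mp B₁ B₀ (x h₁.bar)) (m₂ : Mp B₁ B₂ (x h₂))
    (m₂' : Mp B₂ B₁ (x h₂.bar)) (m₃ : Mp B₂ B₀ (x h₃)) (m₃' : Mp B₀ B₂ (x h₃.bar))
    (cov : ∀ i ∈ B₀, ∀ j ∈ p, j ∉ B₀ → (i ∈ y₁.t ∧ j ∉ y₁.t) ∨ (i ∈ y₃.s ∧ j ∉ y₃.s))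
    (H : ∀ T : List (Fc O ι), Thin p.card T → Q (usS (T ++ R)) → Dn O K (Sol K (T ++ R))) :
    Gd O K (Sol K ((⟨c, p, [.tri h₁ y₁ z₁, .tri h₂ y₂ z₂, .tri h₃ y₃ z₃]⟩ : Fc O ι) :: R)) x := by
  have hu : usS ((⟨c, p, [.tri h₁ y₁ z₁, .tri h₂ y₂ z₂, .tri h₃ y₃ z₃]⟩ : Fc O ι) :: R) =
      ({y₁} + {z₁} + ({y₂} + {z₂}) + ({y₃} + {z₃}) + usS R) +
        ({h₁} + {h₁.bar} + ({h₂} + {h₂.bar}) + ({h₃} + {h₃.bar})) := by
    simp only [usS_cons, usW_nil, usW_cons, Lt.us_tri]; abel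
  have hx0 := hx
  rw [mem_sol_cons] at hx
  obtain ⟨⟨t, o, e⟩, hR⟩ := hx
  dsimp only at t o e
  have t' := t
  simp only [ty_cons, ty_nil, Lt.hd_tri] at t'
  obtain ⟨rfl, t₂, t₃, t₄⟩ := t'
  have o₁ : (Lt.tri h₁ y₁ z₁).Ok x := o _ (by simp)
  have o₂ : (Lt.tri h₂ y₂ z₂).Ok x := o _ (by simp)
  have o₃ : (Lt.tri h₃ y₃ z₃).Ok x := o _ (by simp)
  have p₁ : (Lt.tri h₁ y₁ z₁).Proper := hp _ (by simp)
  have p₂ : (Lt.tri h₂ y₂ z₂).Proper := hp _ (by simp)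
  have p₃ : (Lt.tri h₃ y₃ z₃).Proper := hp _ (by simp)
  have c₁ := (TM.iso o₁).card_eq
  have c₂ := (TM.iso o₂).card_eq
  have th₁ := TM.card_lt o₁ p₁.1 p₁.2
  have th₂ := TM.card_lt o₂ p₂.1 p₂.2
  have th₃ := TM.card_lt o₃ p₃.1 p₃.2
  rw [t₂, ← c₁] at th₂
  rw [t₃, ← c₂, t₂, ← c₁] at th₃
  have s₁' : B₁ ⊆ h₂.t := t₂ ▸ s₁
  have s₂' : B₂ ⊆ h₃.t := t₃ ▸ s₂
  have s₀' : B₀ ⊆ h₃.s := t₄ ▸ s₀
  refine gd_of_move fun N₀ => ?_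
  obtain ⟨N, hN₀, hN⟩ := exists_bound
    (usS ((⟨c, h₁.t, [.tri h₁ y₁ z₁, .tri h₂ y₂ z₂, .tri h₃ y₃ z₃]⟩ : Fc O ι) :: R)) N₀
  let a₁ : SD ι := ⟨h₁, y₁, z₁, B₀, B₁⟩
  let a₂ : SD ι := ⟨h₂, y₂, z₂, B₁, B₂⟩
  let a₃ : SD ι := ⟨h₃, y₃, z₃, B₂, B₀⟩
  let T : List (Fc O ι) := a₁.faces N 0 O ++ a₂.faces N 8 O ++ a₃.faces N 16 O ++
    [⟨c, B₀, [a₁.lu N 0, a₂.lu N 8, a₃.lu N 16]⟩,
      ⟨c, h₁.t \ B₀, [a₁.lv N 0, a₂.lv N 8, a₃.lv N 16]⟩]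
  have hu' : usS (T ++ R) = ({y₁} + {z₁} + ({y₂} + {z₂}) + ({y₃} + {z₃}) + usS R) +
      nws N (a₁.names 0 ++ a₂.names 8 ++ a₃.names 16) := by
    have e1 := a₁.us_eq (O := O) N 0
    have e2 := a₂.us_eq (O := O) N 8
    have e3 := a₃.us_eq (O := O) N 16
    simp only [T, usS_append, usS_cons, usS_nil, usW_cons, usW_nil, nws_append]
    calc _ = (usS (a₁.faces N 0 O) + (a₁.lu N 0).us + (a₁.lv N 0).us) +
        (usS (a₂.faces N 8 O) + (a₂.lu N 8).us + (a₂.lv N 8).us) +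
        (usS (a₃.faces N 16 O) + (a₃.lu N 16).us + (a₃.lv N 16).us) + usS R := by abel
      _ = _ := by rw [e1, e2, e3]; abel
  rw [hu] at hQ
  have hQ' : Q (usS (T ++ R)) := by
    rw [hu']
    exact hQ.step (by simp) (fun k hk => hN k (hu ▸ Multiset.mem_add.2 (Or.inl hk)))
      (by simp [SD.names])
  have thin : Thin h₁.t.card T := by
    intro φ hφ
    simp only [T, SD.faces, List.cons_append, List.nil_append, List.mem_cons, List.not_mem_nil,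
      or_false] at hφ
    rcases hφ with rfl | rfl | rfl | rfl | rfl | rfl | rfl | rfl
    exacts [th₁.1, th₁.2, th₂.1, th₂.2, th₃.1, th₃.2,
      Finset.card_lt_card (Finset.ssubset_iff_subset_ne.2 ⟨s₀, ne'⟩),
      Finset.card_lt_card (Finset.sdiff_ssubset s₀ ne)]
  have tu : Ty B₀ [a₁.lu N 0, a₂.lu N 8, a₃.lu N 16] B₀ := by simp [SD.lu, SD.u, a₁, a₂, a₃]
  have tv : Ty (h₁.t \ B₀) [a₁.lv N 0, a₂.lv N 8, a₃.lv N 16] (h₁.t \ B₀) := by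
    simp [SD.lv, SD.v, a₁, a₂, a₃, t₂, t₃, t₄]
  let V : ℕ → Matrix ι ι K := fun k =>
    if k < 8 then a₁.val x k else if k < 16 then a₂.val x (k - 8) else a₃.val x (k - 16)
  let V' : ℕ → Matrix ι ι K := fun k =>
    if k < 8 then a₁.val' x k else if k < 16 then a₂.val' x (k - 8) else a₃.val' x (k - 16)
  have ag := agree_ext x V V' hN
  have l₁ := SD.lift (O := O) (a := a₁) (N := N) (j := 0) o₁ s₀ s₁ m₁ m₁'
    (ag.mono fun k hk => by simp only [usS_cons, usW_cons, Multiset.mem_add]; tauto)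
    fun r hr t s => by simp [V, V', hr]
  have l₂ := SD.lift (O := O) (a := a₂) (N := N) (j := 8) o₂ s₁' s₂ m₂ m₂'
    (ag.mono fun k hk => by simp only [usS_cons, usW_cons, Multiset.mem_add]; tauto)
    fun r hr t s => by simp [V, V', show 8 + r < 16 by omega]
  have l₃ := SD.lift (O := O) (a := a₃) (N := N) (j := 16) o₃ s₂' s₀' m₃ m₃'
    (ag.mono fun k hk => by simp only [usS_cons, usW_cons, Multiset.mem_add]; tauto)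
    fun r hr t s => by simp [V, V', show ¬ 16 + r < 8 by omega]
  have lt : ∀ k : Hf ι, k.nm.1 < N₀ → ext x N V V' k = x k := fun k hk =>
    ext_of_lt _ _ _ (hk.trans_le hN₀)
  generalize ext x N V V' = x' at ag l₁ l₂ l₃ lt
  let D : Asg K ι → Matrix ι ι K := fun Y =>
    a₁.t0 N 0 Y * (a₂.t0 N 8 Y * a₃.t0 N 16 Y) - algebraMap O K c • E K h₁.t
  let T₁ : Asg K ι → Matrix ι ι K := fun Y =>
    (E K h₁.t + -algebraMap O K (c⁻¹ : Oˣ) • blk y₁.t (h₁.t \ y₁.t) (D Y)) * a₁.t0 N 0 Y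
  let T₃ : Asg K ι → Matrix ι ι K := fun Y => a₃.t0 N 16 Y *
    (E K h₁.t + -algebraMap O K (c⁻¹ : Oˣ) • (D Y - blk y₁.t (h₁.t \ y₁.t) (D Y)))
  have e' : x h₁ * (x h₂ * x h₃) = algebraMap O K c • E K h₁.t := by
    rw [← e, pv_cons, pv_cons, pv_cons, pv_nil, ← t₄]
    simp only [Lt.hd_tri, (TM.iso o₃).sup.r]
  have hx' : x' ∈ Sol K (T ++ R) := by
    have k₁ := TM.of_TI (TM.iso o₁) s₀ s₁ m₁ m₁'
    have k₂ := TM.of_TI (TM.iso o₂) s₁' s₂ m₂ m₂'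
    have k₃ := TM.of_TI (TM.iso o₃) s₂' s₀' m₃ m₃'
    rw [t₂] at k₂
    rw [t₃, t₄] at k₃
    have k := k₁.trans (k₂.trans k₃)
    have b1 := k.by'
    have b2 := k.bz
    rw [e'] at b1 b2
    simp only [T, mem_sol_append, mem_sol_cons, mem_sol_nil, and_true]
    refine ⟨⟨⟨⟨l₁.1, l₂.1⟩, l₃.1⟩, ⟨tu, ?_, ?_⟩, ⟨tv, ?_, ?_⟩⟩,
      sol_congr hR (ag.mono fun k hk => by simp [hk])⟩
    · simpa using ⟨l₁.2.1, l₂.2.1, l₃.2.1⟩
    · simp only [pv_cons, pv_nil, SD.lu, Lt.hd_tri, l₁.2.2.2.1, l₂.2.2.2.1, l₃.2.2.2.1]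
      rw [sup_blk.r, ← b1, blk, Matrix.mul_smul, Matrix.smul_mul, E_mul_E,
        Finset.inter_eq_left.2 s₀, E_mul_self]
    · simpa using ⟨l₁.2.2.1, l₂.2.2.1, l₃.2.2.1⟩
    · simp only [pv_cons, pv_nil, SD.lv, Lt.hd_tri, l₁.2.2.2.2.1, l₂.2.2.2.2.1, l₃.2.2.2.2.1,
        a₁, a₂, a₃, t₂, t₃, t₄]
      rw [sup_blk.r, ← b2, blk, Matrix.mul_smul, Matrix.smul_mul, E_mul_E,
        Finset.inter_eq_left.2 Finset.sdiff_subset, E_mul_self]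
  refine ⟨_, x', fun Y => upd (upd (upd Y h₁ (T₁ Y) (tinv y₁.t z₁.s (T₁ Y) (Y y₁.bar) (Y z₁.bar)))
    h₂ (a₂.t0 N 8 Y) (tinv y₂.t z₂.s (a₂.t0 N 8 Y) (Y y₂.bar) (Y z₂.bar)))
    h₃ (T₃ Y) (tinv y₃.t z₃.s (T₃ Y) (Y y₃.bar) (Y z₃.bar)), by fun_prop,
    fun Y hY => ?_, fun k hk => ?_, H T thin hQ' x' hx'⟩
  · have nm : ∀ k ∈ ({h₁} + {h₁.bar} + ({h₂} + {h₂.bar}) + ({h₃} + {h₃.bar}) : Multiset (Hf ι)),
        k ∉ usS (T ++ R) := fun k hk =>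
      hu' ▸ not_mem_step hQ (by simp) hk (hN k (hu ▸ Multiset.mem_add.2 (Or.inr hk)))
    simp only [T, mem_sol_append, mem_sol_cons, mem_sol_nil, and_true] at hY
    obtain ⟨⟨⟨⟨f₁, f₂⟩, f₃⟩, ⟨-, ou, eu⟩, ⟨-, ov, ev⟩⟩, hR'⟩ := hY
    obtain ⟨S₁, d₁, d₁'⟩ := SD.desc (a := a₁) o₁ s₀ s₁ f₁ (ou _ (by simp)) (ov _ (by simp))
    obtain ⟨S₂, d₂, d₂'⟩ := SD.desc (a := a₂) o₂ s₁' s₂ f₂ (ou _ (by simp)) (ov _ (by simp))
    obtain ⟨S₃, d₃, d₃'⟩ := SD.desc (a := a₃) o₃ s₂' s₀' f₃ (ou _ (by simp)) (ov _ (by simp))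
    dsimp only [a₁, a₂, a₃] at d₁ d₂ d₃ d₁' d₂' d₃'
    rw [t₂] at d₂'
    rw [t₃, t₄] at d₃'
    have k := d₁'.trans (d₂'.trans d₃')
    simp only [pv_cons, pv_nil, SD.lu, SD.lv, Lt.hd_tri] at eu ev
    rw [d₃'.isoy.sup.r] at eu
    rw [d₃'.isoz.sup.r] at ev
    rw [eu, ev] at k
    rw [t₄] at d₃
    obtain ⟨⟨_, g₁⟩, ⟨_, g₃⟩, g⟩ := split_tri d₁ d₃ k (unit_inv_mul c) cov (D := D Y) rfl
    rw [← t₄] at d₃
    dsimp only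
    generalize hZ : upd (upd (upd Y h₁ _ _) h₂ _ _) h₃ _ _ = Z
    obtain ⟨w₁, w₁', w₂, w₂', w₃, w₃'⟩ := upd3 (Multiset.nodup_add.1 hQ.1).2.1 Y _ _ _ _ _ _ hZ.symm
    have agZ : Agree (usS (T ++ R)) Y Z := hZ ▸
      ((agree_upd_of (nm _ (by simp)) (nm _ (by simp)) Y _ _).trans
        (agree_upd_of (nm _ (by simp)) (nm _ (by simp)) _ _ _)).trans
        (agree_upd_of (nm _ (by simp)) (nm _ (by simp)) _ _ _)
    rw [hu'] at agZ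
    refine mem_sol_cons.2 ⟨⟨t, ?_, ?_⟩, sol_congr hR' (agZ.mono fun k hk => by simp [hk])⟩
    · simp only [List.forall_mem_cons, Lt.ok_tri, w₁, w₁', w₂, w₂', w₃, w₃',
        ← (agZ y₁ (by simp)).1, ← (agZ y₁ (by simp)).2, ← (agZ z₁ (by simp)).1,
        ← (agZ z₁ (by simp)).2, ← (agZ y₂ (by simp)).1, ← (agZ y₂ (by simp)).2,
        ← (agZ z₂ (by simp)).1, ← (agZ z₂ (by simp)).2, ← (agZ y₃ (by simp)).1,
        ← (agZ y₃ (by simp)).2, ← (agZ z₃ (by simp)).1, ← (agZ z₃ (by simp)).2]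
      exact ⟨g₁.tinv, d₂.tinv, t₄ ▸ g₃.tinv, by simp⟩
    · simp only [pv_cons, pv_nil, Lt.hd_tri, w₁, w₂, w₃]
      exact g
  · have q₁ := l₁.2.2.2.2.2
    have q₂ := l₂.2.2.2.2.2
    have q₃ := l₃.2.2.2.2.2
    have hD : D x' = 0 := by simp only [D, q₁, q₂, q₃]; exact sub_eq_zero.2 e'
    have b0 : ∀ t s : Finset ι, blk t s (0 : Matrix ι ι K) = 0 := fun t s => by simp [blk]
    have r₁ : T₁ x' = x h₁ := by
      simp only [T₁, hD, b0, smul_zero, add_zero, q₁]; exact (TM.iso o₁).sup.l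
    have r₃ : T₃ x' = x h₃ := by
      simp only [T₃, hD, b0, smul_zero, add_zero, q₃, sub_zero, ← t₄]; exact (TM.iso o₃).sup.r
    dsimp only
    rw [r₁, show a₂.t0 N 8 x' = x h₂ from q₂, r₃, tinv, tinv, tinv, ← (ag y₁ (by simp)).2, ← (ag z₁ (by simp)).2, ← (ag y₂ (by simp)).2,
      ← (ag z₂ (by simp)).2, ← (ag y₃ (by simp)).2, ← (ag z₃ (by simp)).2,
      upd_self (Y := x') (ag h₁ (by simp)).1 ((TM.inv_eq o₁).symm.trans (ag h₁ (by simp)).2),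
      upd_self (Y := x') (ag h₂ (by simp)).1 ((TM.inv_eq o₂).symm.trans (ag h₂ (by simp)).2),
      upd_self (Y := x') (ag h₃ (by simp)).1 ((TM.inv_eq o₃).symm.trans (ag h₃ (by simp)).2),
      lt k hk]

end Vale.Agent.P002b
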