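import Vale.Agent.P002b.Sub
import Vale.Agent.P002b.Split
import Vale.Agent.P002b.Hex

/-! Elimination of a face all of whose letters are proper triangular letters. -/

namespace Vale.Agent.P002b

open Matrix

variable {O K : Type} [CommRing O] [Field K] [CharZero K] [Algebra O K] {ι : Type} [Fintype ι]
  [DecidableEq ι]

namespace ElimTri

variable {d : ℕ} {c : Oˣ} {p : Finset ι} {R T : List (Fc O ι)} {x : Asg K ι}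
  {h₁ y₁ z₁ h₂ y₂ z₂ h₃ y₃ z₃ : Hf ι}

/-- The system `R` together with any thin system has dense integral points. -/
def Cont (K : Type) [Field K] [Algebra O K] (d : ℕ) (R : List (Fc O ι)) : Prop :=
  ∀ T : List (Fc O ι), Thin d T → Q (usS (T ++ R)) → Dn O K (Sol K (T ++ R))

omit [CharZero K] in
lemma Cont.append (h : Cont K d R) (hT : Thin d T) : Cont K d (T ++ R) := fun S hS hQ => by
  rw [← List.append_assoc] at hQ ⊢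
  exact h _ (fun φ hφ => (List.mem_append.1 hφ).elim (hS φ) (hT φ)) hQ

omit [CharZero K] in
lemma Cont.cons {φ : Fc O ι} (hφ : Elim K d φ) (h : Cont K d R) : Cont K d (φ :: R) :=
  fun S hS hQ => by
    have pm : (S ++ φ :: R).Perm (φ :: (S ++ R)) := List.perm_middle
    rw [usS_perm pm] at hQ
    rw [sol_perm pm]
    exact hφ _ hQ (h.append hS)

lemma rot {A B : List (Lt ι)} (hd : p.card = d)
    (h : ∀ q : Finset ι, q.card = d → Elim K d (⟨c, q, B ++ A⟩ : Fc O ι)) :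
    Elim K d (⟨c, p, A ++ B⟩ : Fc O ι) := by
  intro R hQ H x hx
  have hx1 := (mem_sol_cons.1 hx).1
  obtain ⟨q, tA, tB⟩ := ty_append.1 hx1.ty
  have cq : p.card = q.card := tA.card_eq (X := x) fun l hl => hx1.ok l (by simp [hl])
  rw [sol_rot tA tB] at hx ⊢
  refine h q (cq ▸ hd) R ?_ H x hx
  refine (congrArg Q ?_).mp hQ
  simp only [usS_cons, usW_append]; abel

omit [CharZero K] in
lemma tri_data
    (hx : x ∈ Sol K ((⟨c, p, [.tri h₁ y₁ z₁, .tri h₂ y₂ z₂, .tri h₃ y₃ z₃]⟩ : Fc O ι) :: R)) :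
    (h₁.t = p ∧ h₂.t = h₁.s ∧ h₃.t = h₂.s ∧ h₃.s = p) ∧
    TM h₁.t h₁.s y₁.t y₁.s z₁.t z₁.s (x h₁) (x h₁.bar) (x y₁) (x y₁.bar) (x z₁) (x z₁.bar) ∧
    TM h₂.t h₂.s y₂.t y₂.s z₂.t z₂.s (x h₂) (x h₂.bar) (x y₂) (x y₂.bar) (x z₂) (x z₂.bar) ∧
    TM h₃.t h₃.s y₃.t y₃.s z₃.t z₃.s (x h₃) (x h₃.bar) (x y₃) (x y₃.bar) (x z₃) (x z₃.bar) :=
  have h := (mem_sol_cons.1 hx).1
  ⟨h.ty, h.ok (.tri h₁ y₁ z₁) (by simp), h.ok (.tri h₂ y₂ z₂) (by simp),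
    h.ok (.tri h₃ y₃ z₃) (by simp)⟩

/-- Splitting a triangle: the conditions on the middle letter are automatic. -/
lemma split (hp : ∀ l ∈ [Lt.tri h₁ y₁ z₁, .tri h₂ y₂ z₂, .tri h₃ y₃ z₃], l.Proper)
    (hQ : Q (usS ((⟨c, p, [.tri h₁ y₁ z₁, .tri h₂ y₂ z₂, .tri h₃ y₃ z₃]⟩ : Fc O ι) :: R)))
    (hx : x ∈ Sol K ((⟨c, p, [.tri h₁ y₁ z₁, .tri h₂ y₂ z₂, .tri h₃ y₃ z₃]⟩ : Fc O ι) :: R))
    {B₀ B₁ B₂ : Finset ι} (s₀ : B₀ ⊆ p) (s₁ : B₁ ⊆ h₁.s) (s₂ : B₂ ⊆ h₂.s) (ne : B₀.Nonempty)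
    (ne' : B₀ ≠ p) (m₁ : Mp B₀ B₁ (x h₁)) (m₁' : Mp B₁ B₀ (x h₁.bar))
    (m₃ : Mp B₂ B₀ (x h₃)) (m₃' : Mp B₀ B₂ (x h₃.bar))
    (cov : ∀ i ∈ B₀, ∀ j ∈ p, j ∉ B₀ → (i ∈ y₁.t ∧ j ∉ y₁.t) ∨ (i ∈ y₃.s ∧ j ∉ y₃.s))
    (H : Cont K p.card R) :
    Gd O K (Sol K ((⟨c, p, [.tri h₁ y₁ z₁, .tri h₂ y₂ z₂, .tri h₃ y₃ z₃]⟩ : Fc O ι) :: R)) x := by
  obtain ⟨⟨t₁, t₂, t₃, t₄⟩, o₁, o₂, o₃⟩ := tri_data hx
  have e := (mem_sol_cons.1 hx).1.eq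
  simp only [pv_cons, pv_nil, Lt.hd_tri] at e
  have i₁ := o₁.iso
  have i₂ := o₂.iso
  have i₃ := o₃.iso
  rw [t₁] at i₁
  rw [t₂] at i₂
  rw [t₃, t₄] at i₃
  have v : x h₂ = algebraMap O K c • (x h₁.bar * x h₃.bar) := by
    rw [← i₂.sup.l, ← i₁.mul', ← i₂.sup.r, ← i₃.mul, ← i₃.sup.r, Matrix.mul_assoc,
      ← Matrix.mul_assoc (x h₂), ← Matrix.mul_assoc (x h₁), e, Matrix.smul_mul, i₃.sup'.l,
      Matrix.mul_smul]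
  have v' : x h₂.bar = algebraMap O K (c⁻¹ : Oˣ) • (x h₃ * x h₁) := by
    have := (i₁.symm.trans i₃.symm).smul (unit_mul_inv (K := K) c)
    rw [← v] at this
    exact this.unique i₂
  exact gd_split hp hQ hx s₀ s₁ s₂ ne ne' m₁ m₁' (v ▸ (m₁'.mul m₃').smul _)
    (v' ▸ (m₃.mul m₁).smul _) m₃ m₃' cov H

omit [CharZero K] in
lemma ne_of_tm {t s ty sy tz sz : Finset ι} {U U' a a' b b' : Matrix ι ι K}
    (h : TM t s ty sy tz sz U U' a a' b b') (h2 : tz.Nonempty) : ty ≠ t := fun e => by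
  rw [h.tz_eq, e] at h2; simp at h2

lemma bigon (hd : p.card = d) (p₁ : (Lt.tri h₁ y₁ z₁).Proper) (p₂ : (Lt.tri h₂ y₂ z₂).Proper) :
    Elim K d (⟨c, p, [.tri h₁ y₁ z₁, .tri h₂ y₂ z₂]⟩ : Fc O ι) := by
  subst hd
  intro R hQ H x hx
  have o₂ : TM h₂.t h₂.s y₂.t y₂.s z₂.t z₂.s (x h₂) (x h₂.bar) (x y₂) (x y₂.bar) (x z₂)
    (x z₂.bar) := (mem_sol_cons.1 hx).1.ok (.tri h₂ y₂ z₂) (by simp)
  have mE : ∀ S : Finset ι, Mp S S (E K h₂.s) := fun S => mp_E Finset.inter_subset_right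
  refine gd_sub (P := [.tri h₁ y₁ z₁]) (B := []) p₂ hQ hx (TI.refl h₂.s) o₂.suby' (mE _) (mE _) ?_
  intro ha ya za hb yb zb T x' _ _ s0 _ t3 _ _ _ pa pb th hQ' hx' _ _ _ a3 a3'
  obtain ⟨⟨t₁, -, t₃, t₄⟩, o₁, -, o₃⟩ := tri_data hx'
  have es : ha.s = p := by
    have := (mem_sol_cons.1 hx).1.ty
    exact s0.trans this.2.2
  exact split (B₂ := y₁.t) (by simpa using ⟨p₁, pa, pb⟩) hQ' hx' (t₁ ▸ o₁.suby) o₁.suby'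
    (es ▸ t₁ ▸ o₁.suby) p₁.1 (t₁ ▸ ne_of_tm o₁ p₁.2) o₁.mp o₁.symm.mp (a3 ▸ mE _) (a3' ▸ mE _)
    (fun i hi j _ hj => Or.inl ⟨hi, hj⟩) (Cont.append H th)

lemma monogon (hd : p.card = d) (p₁ : (Lt.tri h₁ y₁ z₁).Proper) :
    Elim K d (⟨c, p, [.tri h₁ y₁ z₁]⟩ : Fc O ι) := by
  subst hd
  intro R hQ H x hx
  have o₁ : TM h₁.t h₁.s y₁.t y₁.s z₁.t z₁.s (x h₁) (x h₁.bar) (x y₁) (x y₁.bar) (x z₁)
    (x z₁.bar) := (mem_sol_cons.1 hx).1.ok (.tri h₁ y₁ z₁) (by simp)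
  have mE : ∀ S : Finset ι, Mp S S (E K h₁.s) := fun S => mp_E Finset.inter_subset_right
  refine gd_sub (P := []) (B := []) p₁ hQ hx (TI.refl h₁.s) o₁.suby' (mE _) (mE _) ?_
  intro ha ya za hb yb zb T x' _ _ _ _ _ _ _ _ pa pb th hQ' hx' _ _ _ _ _
  exact bigon rfl pa pb _ hQ' (Cont.append H th) x' hx'

/-- The second cut of a triangle. -/
lemma stageB (p₁ : (Lt.tri h₁ y₁ z₁).Proper) (p₂ : (Lt.tri h₂ y₂ z₂).Proper)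
    (p₃ : (Lt.tri h₃ y₃ z₃).Proper)
    (hQ : Q (usS ((⟨c, p, [.tri h₁ y₁ z₁, .tri h₂ y₂ z₂, .tri h₃ y₃ z₃]⟩ : Fc O ι) :: R)))
    (hx : x ∈ Sol K ((⟨c, p, [.tri h₁ y₁ z₁, .tri h₂ y₂ z₂, .tri h₃ y₃ z₃]⟩ : Fc O ι) :: R))
    {B₀ B₁ : Finset ι} (s₀ : B₀ ⊆ p) (s₁ : B₁ ⊆ h₁.s) (ne : B₀.Nonempty)
    (ne' : B₀ ≠ p) (m₁ : Mp B₀ B₁ (x h₁)) (m₁' : Mp B₁ B₀ (x h₁.bar))
    (hn : B₀ ⊆ y₃.s ∨ y₃.s ⊆ B₀)
    (cov : ∀ i ∈ B₀, ∀ j ∈ p, j ∉ B₀ → (i ∈ y₁.t ∧ j ∉ y₁.t) ∨ (i ∈ y₃.s ∧ j ∉ y₃.s))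
    (H : Cont K p.card R) :
    Gd O K (Sol K ((⟨c, p, [.tri h₁ y₁ z₁, .tri h₂ y₂ z₂, .tri h₃ y₃ z₃]⟩ : Fc O ι) :: R)) x := by
  obtain ⟨⟨t₁, t₂, t₃, t₄⟩, o₁, o₂, o₃⟩ := tri_data hx
  obtain ⟨g, g', B₂, hg, a1, a2, a3, a4, s₂, b1, b2⟩ := bruhat₃ (S₂ := y₂.s) o₃.iso o₃.suby
    (t₃ ▸ o₂.suby') o₃.suby' (t₄ ▸ s₀) o₃.mp o₃.symm.mp hn
  refine gd_cut (P := [.tri h₁ y₁ z₁]) (A := []) (B := []) (S' := y₃.t) p₂ p₃ hQ hx (t₃ ▸ hg)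
    a3 a4 (t₃ ▸ o₃.suby) (by rwa [pw_nil, hg.sup.l]) (by rwa [pv_nil, hg.sup'.r]) ?_
  intro ha ya za hb yb zb ha' ya' za' hb' yb' zb' T x' _ _ e3 _ _ _ _ e8 pa pb pa' pb' th cp hQ'
    hx' ag _ _ v v'
  have g₁ := ag h₁ (by simp)
  rw [pv_nil, hg.sup'.r] at v
  rw [pw_nil, o₃.iso.sup'.r] at v'
  exact split (B₂ := B₂) (by simpa using ⟨p₁, pa, pb'⟩) hQ' hx' s₀ s₁ (e3 ▸ t₃ ▸ s₂) ne ne'
    (g₁.1 ▸ m₁) (g₁.2 ▸ m₁') (v ▸ b2) (v' ▸ b1) (e8 ▸ cov)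
    (Cont.cons (bigon cp pb pa') (H.append th))

/-- A triangle whose two subspaces at the base vertex are not complementary. -/
lemma triN (hd : p.card = d) (p₁ : (Lt.tri h₁ y₁ z₁).Proper) (p₂ : (Lt.tri h₂ y₂ z₂).Proper)
    (p₃ : (Lt.tri h₃ y₃ z₃).Proper) (hn : h₁.t \ y₁.t ≠ y₃.s) :
    Elim K d (⟨c, p, [.tri h₁ y₁ z₁, .tri h₂ y₂ z₂, .tri h₃ y₃ z₃]⟩ : Fc O ι) := by
  subst hd
  intro R hQ H x hx
  obtain ⟨⟨t₁, t₂, t₃, t₄⟩, o₁, o₂, o₃⟩ := tri_data hx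
  have u₁ : y₁.t ⊆ p := t₁ ▸ o₁.suby
  have u₃ : y₃.s ⊆ p := t₄ ▸ o₃.suby'
  obtain ⟨B₀, s₀, ne, ne', n₁, n₃, cov⟩ : ∃ B₀ : Finset ι, B₀ ⊆ p ∧ B₀.Nonempty ∧ B₀ ≠ p ∧
      (B₀ ⊆ y₁.t ∨ y₁.t ⊆ B₀) ∧ (B₀ ⊆ y₃.s ∨ y₃.s ⊆ B₀) ∧
      ∀ i ∈ B₀, ∀ j ∈ p, j ∉ B₀ → (i ∈ y₁.t ∧ j ∉ y₁.t) ∨ (i ∈ y₃.s ∧ j ∉ y₃.s) := by
    by_cases h : (y₁.t ∩ y₃.s).Nonempty
    · refine ⟨y₁.t ∩ y₃.s, Finset.inter_subset_left.trans u₁, h, fun e => ?_,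
        Or.inl Finset.inter_subset_left, Or.inl Finset.inter_subset_right, fun i hi j _ hj => ?_⟩
      · exact (t₁ ▸ ne_of_tm o₁ p₁.2 : y₁.t ≠ p)
          (Finset.Subset.antisymm u₁ (e ▸ Finset.inter_subset_left))
      · simp only [Finset.mem_inter] at hi hj; tauto
    · refine ⟨y₁.t ∪ y₃.s, Finset.union_subset u₁ u₃, p₁.1.mono Finset.subset_union_left,
        fun e => hn ?_, Or.inr Finset.subset_union_left, Or.inr Finset.subset_union_right,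
        fun i hi j _ hj => ?_⟩
      · rw [t₁, ← e, Finset.union_sdiff_cancel_left
          (Finset.disjoint_iff_inter_eq_empty.2 (Finset.not_nonempty_iff_eq_empty.1 h))]
      · simp only [Finset.mem_union] at hi hj; tauto
  obtain ⟨g, g', B₁, hg, a1, a2, a3, a4, s₁, b1, b2⟩ := bruhat₃ (S₂ := y₂.t) o₁.iso.symm o₁.suby'
    (t₂ ▸ o₂.suby) o₁.suby (t₁ ▸ s₀) o₁.symm.mp o₁.mp n₁
  refine gd_cut (P := []) (A := []) (B := [.tri h₃ y₃ z₃]) (S' := y₂.t) p₁ p₂ hQ hx hg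
    a1 a2 (t₂ ▸ o₂.suby) (by rwa [pw_nil, t₂, hg.sup.l]) (by rwa [pv_nil, t₂, hg.sup'.r]) ?_
  intro ha ya za hb yb zb ha' ya' za' hb' yb' zb' T x' _ e2 e3 _ _ _ _ _ pa pb pa' pb' th cp hQ'
    hx' _ v v' _ _
  exact stageB (B₁ := B₁) pa pb' p₃ hQ' hx' s₀ (e3 ▸ s₁) ne ne' (v ▸ b1) (v' ▸ b2) n₃ (e2 ▸ cov)
    (Cont.cons (bigon cp pb pa') (Cont.append H th))

lemma triangle (hd : p.card = d) (p₁ : (Lt.tri h₁ y₁ z₁).Proper) (p₂ : (Lt.tri h₂ y₂ z₂).Proper)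
    (p₃ : (Lt.tri h₃ y₃ z₃).Proper) :
    Elim K d (⟨c, p, [.tri h₁ y₁ z₁, .tri h₂ y₂ z₂, .tri h₃ y₃ z₃]⟩ : Fc O ι) := by
  by_cases c₀ : h₁.t \ y₁.t = y₃.s
  swap
  · exact triN hd p₁ p₂ p₃ c₀
  by_cases c₁ : h₂.t \ y₂.t = y₁.s
  swap
  · exact rot (A := [.tri h₁ y₁ z₁]) (B := [.tri h₂ y₂ z₂, .tri h₃ y₃ z₃]) hd
      fun q hq => triN hq p₂ p₃ p₁ c₁
  by_cases c₂ : h₃.t \ y₃.t = y₂.s
  swap
  · exact rot (A := [.tri h₁ y₁ z₁, .tri h₂ y₂ z₂]) (B := [.tri h₃ y₃ z₃]) hd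
      fun q hq => triN hq p₃ p₁ p₂ c₂
  subst hd
  intro R hQ H x hx
  obtain ⟨⟨t₁, t₂, t₃, t₄⟩, o₁, o₂, o₃⟩ := tri_data hx
  refine gd_hex (by simpa using ⟨p₁, p₂, p₃⟩) hQ hx (t₁ ▸ c₀) ?_ ?_ H
  · rw [← c₁, ← t₂, Finset.sdiff_sdiff_eq_self o₂.suby]
  · rw [← c₂, ← t₃, Finset.sdiff_sdiff_eq_self o₃.suby]

omit [Fintype ι] [DecidableEq ι] in
lemma exists_tri {l : Lt ι} (h : l.IsTri) : ∃ h y z, l = .tri h y z := by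
  cases l with
  | fr _ => exact h.elim
  | tri k y z => exact ⟨k, y, z, rfl⟩

lemma main (n : ℕ) : ∀ (c : Oˣ) (p : Finset ι) (w : List (Lt ι)), w.length = n + 1 → p.card = d →
    (∀ l ∈ w, l.IsTri ∧ l.Proper) → Elim K d (⟨c, p, w⟩ : Fc O ι) := by
  induction n with
  | zero =>
    intro c p w hw hd ht
    obtain ⟨l, rfl⟩ := List.length_eq_one_iff.1 hw
    obtain ⟨h₁, y₁, z₁, rfl⟩ := exists_tri (ht l (by simp)).1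
    exact monogon hd (ht _ (by simp)).2
  | succ n ih =>
    intro c p w hw hd ht
    obtain ⟨l₁, w, rfl⟩ := List.exists_cons_of_length_eq_add_one hw
    obtain ⟨l₂, w, rfl⟩ := List.exists_cons_of_length_eq_add_one (Nat.succ_injective hw)
    obtain ⟨h₁, y₁, z₁, rfl⟩ := exists_tri (ht l₁ (by simp)).1
    obtain ⟨h₂, y₂, z₂, rfl⟩ := exists_tri (ht l₂ (by simp)).1
    have p₁ := (ht (.tri h₁ y₁ z₁) (by simp)).2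
    have p₂ := (ht (.tri h₂ y₂ z₂) (by simp)).2
    cases w with
    | nil => exact bigon hd p₁ p₂
    | cons l₃ B =>
    obtain ⟨h₃, y₃, z₃, rfl⟩ := exists_tri (ht l₃ (by simp)).1
    have p₃ := (ht (.tri h₃ y₃ z₃) (by simp)).2
    subst hd
    intro R hQ H x hx
    have hx1 := (mem_sol_cons.1 hx).1
    have o₁ : TM h₁.t h₁.s y₁.t y₁.s z₁.t z₁.s (x h₁) (x h₁.bar) (x y₁) (x y₁.bar) (x z₁)
      (x z₁.bar) := hx1.ok (.tri h₁ y₁ z₁) (by simp)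
    have o₃ : TM h₃.t h₃.s y₃.t y₃.s z₃.t z₃.s (x h₃) (x h₃.bar) (x y₃) (x y₃.bar) (x z₃)
      (x z₃.bar) := hx1.ok (.tri h₃ y₃ z₃) (by simp)
    have tA : Ty h₁.s [.tri h₂ y₂ z₂] h₃.t := ⟨hx1.ty.2.1, hx1.ty.2.2.1.symm⟩
    obtain ⟨g, g', S', hg, a1, a2, s, b1, b2⟩ := bruhat₂
      (ti_pv tA (X := x) fun l hl => hx1.ok l (by simp [List.mem_singleton.1 hl])) o₁.suby' o₃.suby
    refine gd_cut (P := []) (A := [.tri h₂ y₂ z₂]) p₁ p₃ hQ hx hg a1 a2 s b1 b2 ?_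
    intro ha ya za hb yb zb ha' ya' za' hb' yb' zb' T x' _ _ _ _ _ _ _ _ pa pb pa' pb' th cp hQ'
      hx' _ _ _ _ _
    refine ih c p (.tri ha ya za :: .tri hb' yb' zb' :: B) (by simpa using hw) rfl
      (fun l hl => ?_) _ hQ' (Cont.cons (triangle cp pb p₂ pa') (Cont.append H th)) x' hx'
    simp only [List.mem_cons] at hl
    rcases hl with rfl | rfl | hl
    exacts [⟨trivial, pa⟩, ⟨trivial, pb'⟩, ht l (by simp [hl])]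

end ElimTri

theorem elim_tri {d : ℕ} {c : Oˣ} {p : Finset ι} {w : List (Lt ι)} (hd : p.card = d)
    (hw : w ≠ []) (ht : ∀ l ∈ w, l.IsTri ∧ l.Proper) : Elim K d (⟨c, p, w⟩ : Fc O ι) :=
  ElimTri.main (w.length - 1) c p w (by have := List.length_pos_iff.2 hw; omega) hd ht

end Vale.Agent.P002b
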