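import Vale.Agent.P002b.Defs

/-! Construction of the number fields. -/

namespace Vale.Agent.P002b

open NumberField


lemma Field.mem_range {L : IntermediateField ℚ ℂ} {z : ℂ} (hz : z ∈ L) (hi : IsIntegral ℤ z) :
    z ∈ (algebraMap (𝓞 L) ℂ).range :=
  ⟨⟨⟨z, hz⟩, (isIntegral_algebraMap_iff (algebraMap L ℂ).injective).1 hi⟩, rfl⟩

lemma Field.integral {L : IntermediateField ℚ ℂ} (a : 𝓞 L) :
    algebraMap (𝓞 L) ℂ a ∈ L ∧ IsIntegral ℤ (algebraMap (𝓞 L) ℂ a) :=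
  ⟨(a : L).2, (RingOfIntegers.isIntegral a).map (algebraMap (𝓞 L) ℂ).toIntAlgHom⟩

lemma Field.unit {L : IntermediateField ℚ ℂ} {z w : ℂ} (hz : z ∈ L) (hi : IsIntegral ℤ z)
    (hw : w ∈ L) (hi' : IsIntegral ℤ w) (h : z * w = 1) :
    ∃ u : (𝓞 L)ˣ, algebraMap (𝓞 L) ℂ u = z := by
  obtain ⟨a, ha⟩ := Field.mem_range hz hi
  obtain ⟨b, hb⟩ := Field.mem_range hw hi'
  have hinj : Function.Injective (algebraMap (𝓞 L) ℂ) :=
    (algebraMap L ℂ).injective.comp (RingOfIntegers.coe_injective (K := L))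
  exact ⟨Units.mkOfMulEqOne a b (hinj (by rw [map_mul, ha, hb, h, map_one])), ha⟩

lemma Field.root_integral {L : IntermediateField ℚ ℂ} {r : ℕ} (hr : 0 < r) (u : (𝓞 L)ˣ) {μ : ℂ}
    (h : μ ^ r * algebraMap (𝓞 L) ℂ u = 1) :
    μ ^ r = algebraMap (𝓞 L) ℂ (u⁻¹ : (𝓞 L)ˣ) ∧ IsIntegral ℤ μ := by
  have h1 : μ ^ r = algebraMap (𝓞 L) ℂ (u⁻¹ : (𝓞 L)ˣ) := by
    have : algebraMap (𝓞 L) ℂ u * algebraMap (𝓞 L) ℂ (u⁻¹ : (𝓞 L)ˣ) = 1 := by
      rw [← map_mul, Units.mul_inv, map_one]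
    rw [← mul_one (μ ^ r), ← this, ← mul_assoc, h, one_mul]
  exact ⟨h1, IsIntegral.of_pow hr (h1 ▸ (Field.integral _).2)⟩



theorem exists_fields (r : ℕ) (hr : 0 < r) (Z : Set ℂ) (hZ : Z.Finite)
    (hZ' : ∀ z ∈ Z, ∃ k : ℕ, 0 < k ∧ z ^ k = 1) (L₁ : IntermediateField ℚ ℂ)
    (h₁ : FiniteDimensional ℚ L₁) :
    ∃ (L₀ L : IntermediateField ℚ ℂ), L₁ ≤ L₀ ∧ FiniteDimensional ℚ L₀ ∧ FiniteDimensional ℚ L ∧
      HasUnit (𝓞 L₀) ∧ (∀ z ∈ Z, ∃ u : (𝓞 L₀)ˣ, algebraMap (𝓞 L₀) ℂ u = z) ∧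
      (∀ a : 𝓞 L₀, algebraMap (𝓞 L₀) ℂ a ∈ (algebraMap (𝓞 L) ℂ).range) ∧
      ∀ (u : (𝓞 L₀)ˣ) (μ : ℂ), μ ^ r * algebraMap (𝓞 L₀) ℂ u = 1 →
        μ ∈ (algebraMap (𝓞 L) ℂ).range := by
  have hs : ((√2 : ℝ) : ℂ) ^ 2 = 2 := by
    rw [← Complex.ofReal_pow, Real.sq_sqrt zero_le_two]
    rfl
  have hsi : IsIntegral ℤ ((√2 : ℝ) : ℂ) :=
    IsIntegral.of_pow two_pos (hs ▸ isIntegral_algebraMap (R := ℤ) (x := 2))
  have hZi : ∀ z ∈ Z, IsIntegral ℤ z := fun z hz => by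
    obtain ⟨k, hk, e⟩ := hZ' z hz
    exact IsIntegral.of_pow hk (e ▸ isIntegral_one)
  have : Finite (insert ((√2 : ℝ) : ℂ) Z : Set ℂ) := (hZ.insert _).to_subtype
  have f1 : FiniteDimensional ℚ (IntermediateField.adjoin ℚ (insert ((√2 : ℝ) : ℂ) Z)) :=
    IntermediateField.finiteDimensional_adjoin fun z hz => by
      rcases hz with rfl | hz
      exacts [hsi.tower_top, (hZi z hz).tower_top]
  set L₀ := L₁ ⊔ IntermediateField.adjoin ℚ (insert ((√2 : ℝ) : ℂ) Z) with hL₀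
  have f0 : FiniteDimensional ℚ L₀ := IntermediateField.finiteDimensional_sup _ _
  have m0 : ∀ z ∈ insert ((√2 : ℝ) : ℂ) Z, z ∈ L₀ := fun z hz =>
    (le_sup_right : _ ≤ L₀) (IntermediateField.subset_adjoin _ _ hz)
  have : NumberField L₀ := ⟨⟩
  obtain ⟨S, hS, hSf⟩ := (Submonoid.fg_iff _).1 (Monoid.FG.fg_top (M := (𝓞 L₀)ˣ))
  set A : Set ℂ := ⋃ u ∈ insert 1 S, {μ | μ ^ r * algebraMap (𝓞 L₀) ℂ (u : (𝓞 L₀)ˣ) = 1} with hA
  have hAf : A.Finite := (hSf.insert 1).biUnion fun u _ =>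
    (Polynomial.nthRoots r (algebraMap (𝓞 L₀) ℂ (u⁻¹ : (𝓞 L₀)ˣ))).finite_toSet.subset
      fun μ hμ => (Polynomial.mem_nthRoots hr).2 (Field.root_integral hr u hμ).1
  have : Finite A := hAf.to_subtype
  have f2 : FiniteDimensional ℚ (IntermediateField.adjoin ℚ A) :=
    IntermediateField.finiteDimensional_adjoin fun z hz => by
      obtain ⟨u, -, hu⟩ := Set.mem_iUnion₂.1 hz
      exact (Field.root_integral hr u hu).2.tower_top
  have m1 : ∀ u ∈ insert 1 S, ∀ μ : ℂ, μ ^ r * algebraMap (𝓞 L₀) ℂ (u : (𝓞 L₀)ˣ) = 1 →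
      μ ∈ L₀ ⊔ IntermediateField.adjoin ℚ A := fun u hu μ hμ =>
    (le_sup_right : _ ≤ L₀ ⊔ IntermediateField.adjoin ℚ A)
      (IntermediateField.subset_adjoin _ _ (Set.mem_iUnion₂.2 ⟨u, hu, hμ⟩))
  refine ⟨L₀, L₀ ⊔ IntermediateField.adjoin ℚ A, le_sup_left, f0,
    IntermediateField.finiteDimensional_sup _ _, ?_, fun z hz => ?_, fun a => ?_, fun u μ h => ?_⟩
  · have hm := m0 _ (Set.mem_insert _ _)
    obtain ⟨u, hu⟩ := Field.unit (L := L₀) (add_mem hm (one_mem _)) (hsi.add isIntegral_one)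
      (sub_mem hm (one_mem _)) (hsi.sub isIntegral_one) (by linear_combination hs)
    refine ⟨u, fun k hk e => ?_⟩
    have h1 : (((√2 : ℝ) : ℂ) + 1) ^ k = 1 := by
      rw [← hu, ← map_pow, ← Units.val_pow_eq_pow_val, e, Units.val_one, map_one]
    have h2 : (√2 + 1 : ℝ) ^ k = 1 := by exact_mod_cast h1
    have h3 : (1 : ℝ) < √2 + 1 := by linarith [Real.sqrt_pos.2 (two_pos : (0 : ℝ) < 2)]
    exact (one_lt_pow₀ h3 hk.ne').ne' h2
  · obtain ⟨k, hk, e⟩ := hZ' z hz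
    have hm := m0 z (Set.mem_insert_of_mem _ hz)
    exact Field.unit hm (hZi z hz) (pow_mem hm (k - 1)) ((hZi z hz).pow _)
      (by rw [← pow_succ', Nat.sub_add_cancel hk, e])
  · exact Field.mem_range ((le_sup_left : L₀ ≤ _) (Field.integral a).1) (Field.integral a).2
  · refine Field.mem_range ?_ (Field.root_integral hr u h).2
    have hu : u ∈ Submonoid.closure S := hS ▸ Submonoid.mem_top u
    induction hu using Submonoid.closure_induction generalizing μ with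
    | mem u hu => exact m1 u (Set.mem_insert_of_mem _ hu) μ h
    | one => exact m1 1 (Set.mem_insert _ _) μ h
    | mul u v _ _ ihu ihv =>
      obtain ⟨ν, hν⟩ := IsAlgClosed.exists_pow_nat_eq
        (algebraMap (𝓞 L₀) ℂ (u⁻¹ : (𝓞 L₀)ˣ)) hr
      have h1 : ν ^ r * algebraMap (𝓞 L₀) ℂ u = 1 := by
        rw [hν, ← map_mul, Units.inv_mul, map_one]
      have h0 : ν ≠ 0 := by
        rintro rfl
        simp [hr.ne'] at h1
      have h2 : (μ / ν) ^ r * algebraMap (𝓞 L₀) ℂ v = 1 := by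
        rw [Units.val_mul, map_mul] at h
        rw [div_pow, div_mul_eq_mul_div, div_eq_one_iff_eq (pow_ne_zero _ h0)]
        linear_combination ν ^ r * h - μ ^ r * algebraMap (𝓞 L₀) ℂ v * h1
      have := mul_mem (ihv _ h2) (ihu _ h1)
      rwa [div_mul_cancel₀ _ h0] at this

end Vale.Agent.P002b
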