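import Vale.Agent.P002b.TI

/-! Foam systems: quadratic systems of equations in typed isomorphisms. -/

namespace Vale.Agent.P002b

open Matrix

/-- A half variable: a name, a sign, the target and the source coordinates. -/
structure Hf (ι : Type) where
  nm : ℕ × ℕ × ℕ
  sg : Bool
  t : Finset ι
  s : Finset ι

noncomputable instance instDecEqHf {ι : Type} : DecidableEq (Hf ι) := Classical.decEq _

/-- The inverse half variable. -/
def Hf.bar {ι : Type} (h : Hf ι) : Hf ι := ⟨h.nm, !h.sg, h.s, h.t⟩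

/-- A letter: a free variable, or a block triangular matrix `h` with diagonal blocks `y`, `z`. -/
inductive Lt (ι : Type) where
  | fr (h : Hf ι)
  | tri (h y z : Hf ι)

/-- A face: the product of the letters of `w`, a closed path at `p`, is the scalar `c`. -/
structure Fc (O ι : Type) [CommRing O] where
  c : Oˣ
  p : Finset ι
  w : List (Lt ι)

section comb

variable {ι : Type} {O : Type} [CommRing O]

@[simp] lemma Hf.bar_bar (h : Hf ι) : h.bar.bar = h := by cases h; simp [Hf.bar]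
@[simp] lemma Hf.bar_t (h : Hf ι) : h.bar.t = h.s := rfl
@[simp] lemma Hf.bar_s (h : Hf ι) : h.bar.s = h.t := rfl
@[simp] lemma Hf.bar_nm (h : Hf ι) : h.bar.nm = h.nm := rfl
@[simp] lemma Hf.bar_sg (h : Hf ι) : h.bar.sg = !h.sg := rfl
@[simp] lemma Hf.bar_ne (h : Hf ι) : h.bar ≠ h := fun e => by
  have := congrArg Hf.sg e; simp at this
@[simp] lemma Hf.ne_bar (h : Hf ι) : h ≠ h.bar := (Hf.bar_ne h).symm
@[simp] lemma Hf.bar_inj {h k : Hf ι} : h.bar = k.bar ↔ h = k :=
  ⟨fun e => by simpa using congrArg Hf.bar e, fun e => e ▸ rfl⟩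
lemma Hf.bar_eq_iff {h k : Hf ι} : h.bar = k ↔ h = k.bar :=
  ⟨fun e => by simp [← e], fun e => by simp [e]⟩

/-- The half variable holding the value of a letter. -/
def Lt.hd : Lt ι → Hf ι
  | .fr h => h
  | .tri h _ _ => h

@[simp] lemma Lt.hd_fr (h : Hf ι) : (Lt.fr h).hd = h := rfl
@[simp] lemma Lt.hd_tri (h y z : Hf ι) : (Lt.tri h y z).hd = h := rfl

/-- The half variables used by a letter. -/
def Lt.us : Lt ι → Multiset (Hf ι)
  | .fr h => {h}
  | .tri h y z => {h} + {h.bar} + {y} + {z}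

@[simp] lemma Lt.us_fr (h : Hf ι) : (Lt.fr h).us = {h} := rfl
@[simp] lemma Lt.us_tri (h y z : Hf ι) : (Lt.tri h y z).us = {h} + {h.bar} + {y} + {z} := rfl

def usW (w : List (Lt ι)) : Multiset (Hf ι) := (w.map Lt.us).sum

def usS (S : List (Fc O ι)) : Multiset (Hf ι) := (S.map fun φ => usW φ.w).sum

@[simp] lemma usW_nil : usW ([] : List (Lt ι)) = 0 := rfl
@[simp] lemma usW_cons (l : Lt ι) (w) : usW (l :: w) = l.us + usW w := by simp [usW]
@[simp] lemma usW_append (v w : List (Lt ι)) : usW (v ++ w) = usW v + usW w := by simp [usW]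
@[simp] lemma usS_nil : usS ([] : List (Fc O ι)) = 0 := rfl
@[simp] lemma usS_cons (φ : Fc O ι) (S) : usS (φ :: S) = usW φ.w + usS S := by simp [usS]
@[simp] lemma usS_append (S T : List (Fc O ι)) : usS (S ++ T) = usS S + usS T := by simp [usS]

lemma mem_usW {h : Hf ι} {w : List (Lt ι)} : h ∈ usW w ↔ ∃ l ∈ w, h ∈ l.us := by
  induction w with
  | nil => simp
  | cons l w ih => simp [ih]

lemma mem_usS {h : Hf ι} {S : List (Fc O ι)} : h ∈ usS S ↔ ∃ φ ∈ S, h ∈ usW φ.w := by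
  induction S with
  | nil => simp
  | cons l w ih => simp [ih]

lemma usS_perm {S T : List (Fc O ι)} (h : S.Perm T) : usS S = usS T := (h.map _).sum_eq

lemma Lt.hd_mem_us (l : Lt ι) : l.hd ∈ l.us := by cases l <;> simp

/-- Every half variable is used at most once, and together with its inverse. -/
def Q (m : Multiset (Hf ι)) : Prop := m.Nodup ∧ ∀ h ∈ m, h.bar ∈ m

lemma Q.not_mem {A D : Multiset (Hf ι)} (hQ : Q (A + D)) (hD : ∀ h ∈ D, h.bar ∈ D) {h : Hf ι}
    (hA : h ∈ A) : h ∉ D ∧ h.bar ∉ D := by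
  have : h ∈ A → h ∉ D := fun e => Multiset.disjoint_left.1 (Multiset.nodup_add.1 hQ.1).2.2 e
  exact ⟨this hA, fun e => this hA (by simpa using hD _ e)⟩

lemma Q.left {A D : Multiset (Hf ι)} (hQ : Q (A + D)) (hD : ∀ h ∈ D, h.bar ∈ D) : Q A :=
  ⟨(Multiset.nodup_add.1 hQ.1).1, fun h hA =>
    (Multiset.mem_add.1 (hQ.2 h (Multiset.mem_add.2 (Or.inl hA)))).resolve_right
      (hQ.not_mem hD hA).2⟩

lemma Q.add {A F : Multiset (Hf ι)} (hA : Q A) (hF : Q F) (h : ∀ h ∈ F, h ∉ A) : Q (A + F) :=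
  ⟨Multiset.nodup_add.2 ⟨hA.1, hF.1, Multiset.disjoint_right.2 fun {a} => h a⟩, fun k hk => by
    rw [Multiset.mem_add] at hk ⊢
    exact hk.imp (hA.2 k) (hF.2 k)⟩

lemma exists_bound (m : Multiset (Hf ι)) (N₀ : ℕ) : ∃ N, N₀ ≤ N ∧ ∀ h ∈ m, h.nm.1 < N := by
  refine ⟨max N₀ ((m.map fun h => h.nm.1).sup + 1), le_max_left _ _, fun h hh => ?_⟩
  have := Multiset.le_sup (Multiset.mem_map_of_mem (fun h : Hf ι => h.nm.1) hh)
  exact lt_of_lt_of_le (Nat.lt_succ_of_le this) (le_max_right _ _)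

/-- The new half variable number `j` at level `N`. -/
def nw (N j : ℕ) (t s : Finset ι) : Hf ι := ⟨(N, j, 0), true, t, s⟩

@[simp] lemma nw_t (N j : ℕ) (t s : Finset ι) : (nw N j t s).t = t := rfl
@[simp] lemma nw_s (N j : ℕ) (t s : Finset ι) : (nw N j t s).s = s := rfl
@[simp] lemma nw_nm (N j : ℕ) (t s : Finset ι) : (nw N j t s).nm = (N, j, 0) := rfl
@[simp] lemma nw_sg (N j : ℕ) (t s : Finset ι) : (nw N j t s).sg = true := rfl

/-- New half variables with distinct numbers, together with their inverses. -/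
def nws (N : ℕ) (L : List (ℕ × Finset ι × Finset ι)) : Multiset (Hf ι) :=
  (L.map fun a => ({nw N a.1 a.2.1 a.2.2} + {(nw N a.1 a.2.1 a.2.2).bar} : Multiset (Hf ι))).sum

@[simp] lemma nws_nil (N : ℕ) : nws N ([] : List (ℕ × Finset ι × Finset ι)) = 0 := rfl
@[simp] lemma nws_cons (N : ℕ) (a : ℕ × Finset ι × Finset ι) (L) : nws N (a :: L) =
    {nw N a.1 a.2.1 a.2.2} + {(nw N a.1 a.2.1 a.2.2).bar} + nws N L := by simp [nws]

lemma mem_nws {N : ℕ} {L : List (ℕ × Finset ι × Finset ι)} {h : Hf ι} (hh : h ∈ nws N L) :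
    h.nm.1 = N ∧ h.nm.2.1 ∈ L.map Prod.fst := by
  induction L with
  | nil => simp at hh
  | cons a L ih =>
    simp only [nws_cons, Multiset.mem_add, Multiset.mem_singleton] at hh
    rcases hh with (rfl | rfl) | hh
    · simp
    · simp
    · exact ⟨(ih hh).1, by simp only [List.map_cons, List.mem_cons]; exact Or.inr (ih hh).2⟩

lemma q_nws (N : ℕ) {L : List (ℕ × Finset ι × Finset ι)} (hL : (L.map Prod.fst).Nodup) :
    Q (nws N L) := by
  induction L with
  | nil => exact ⟨by simp, by simp⟩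
  | cons a L ih =>
    rw [List.map_cons, List.nodup_cons] at hL
    rw [nws_cons]
    refine Q.add ⟨by simp, by simp⟩ (ih hL.2) fun h hh e => ?_
    have := (mem_nws hh).2
    simp only [Multiset.mem_add, Multiset.mem_singleton] at e
    rcases e with rfl | rfl <;> exact hL.1 this

/-- Replace the inverse closed part `D` by new variables. -/
lemma Q.step {A D : Multiset (Hf ι)} (hQ : Q (A + D)) (hD : ∀ h ∈ D, h.bar ∈ D) {N : ℕ}
    (hN : ∀ h ∈ A, h.nm.1 < N) {L : List (ℕ × Finset ι × Finset ι)}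
    (hL : (L.map Prod.fst).Nodup) : Q (A + nws N L) :=
  (hQ.left hD).add (q_nws N hL) fun h hh e => by
    have := hN h e; rw [(mem_nws hh).1] at this; exact lt_irrefl _ this

/-- `w` is a path from `s` to `t`. -/
def Ty : Finset ι → List (Lt ι) → Finset ι → Prop
  | t, [], s => t = s
  | t, l :: w, s => l.hd.t = t ∧ Ty l.hd.s w s

@[simp] lemma ty_nil {t s : Finset ι} : Ty t [] s ↔ t = s := Iff.rfl
@[simp] lemma ty_cons {t s : Finset ι} {l : Lt ι} {w} :
    Ty t (l :: w) s ↔ l.hd.t = t ∧ Ty l.hd.s w s := Iff.rfl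

lemma ty_append {t s : Finset ι} {v w : List (Lt ι)} :
    Ty t (v ++ w) s ↔ ∃ q, Ty t v q ∧ Ty q w s := by
  induction v generalizing t with
  | nil => simp
  | cons l v ih => simp [ih, and_assoc]

lemma Ty.append {t q s : Finset ι} {v w : List (Lt ι)} (h : Ty t v q) (h' : Ty q w s) :
    Ty t (v ++ w) s := ty_append.2 ⟨q, h, h'⟩

lemma Ty.src_unique {t q q' : Finset ι} {v : List (Lt ι)} (h : Ty t v q) (h' : Ty t v q') :
    q = q' := by
  induction v generalizing t with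
  | nil => exact h.symm.trans h'
  | cons l v ih => exact ih h.2 h'.2

lemma Ty.tgt_unique {t t' q : Finset ι} {v : List (Lt ι)} (h : Ty t v q) (h' : Ty t' v q) :
    t = t' := by
  cases v with
  | nil => exact h.trans h'.symm
  | cons l v => exact h.1.symm.trans h'.1

/-- All faces are thinner than `d`. -/
def Thin (d : ℕ) (S : List (Fc O ι)) : Prop := ∀ φ ∈ S, φ.p.card < d

/-- A triangular letter with two nonzero blocks (no condition on free letters). -/
def Lt.Proper : Lt ι → Prop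
  | .fr _ => True
  | .tri _ y z => y.t.Nonempty ∧ z.t.Nonempty

def Lt.IsTri : Lt ι → Prop
  | .fr _ => False
  | .tri _ _ _ => True

end comb

variable {O K : Type} [CommRing O] [Field K] [Algebra O K] {ι : Type} [Fintype ι] [DecidableEq ι]

/-- Assignments of matrices to half variables. -/
abbrev Asg (K ι : Type) := Hf ι → Matrix ι ι K

/-- The condition imposed by a letter. -/
def Lt.Ok (X : Asg K ι) : Lt ι → Prop
  | .fr h => TI h.t h.s (X h) (X h.bar)
  | .tri h y z => TM h.t h.s y.t y.s z.t z.s (X h) (X h.bar) (X y) (X y.bar) (X z) (X z.bar)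

@[simp] lemma Lt.ok_fr {X : Asg K ι} {h : Hf ι} :
    (Lt.fr h).Ok X ↔ TI h.t h.s (X h) (X h.bar) := Iff.rfl
@[simp] lemma Lt.ok_tri {X : Asg K ι} {h y z : Hf ι} : (Lt.tri h y z).Ok X ↔
    TM h.t h.s y.t y.s z.t z.s (X h) (X h.bar) (X y) (X y.bar) (X z) (X z.bar) := Iff.rfl

lemma Lt.Ok.iso {X : Asg K ι} {l : Lt ι} (h : l.Ok X) :
    TI l.hd.t l.hd.s (X l.hd) (X l.hd.bar) := by
  cases l with
  | fr _ => exact h
  | tri _ _ _ => exact TM.iso h

/-- The value of a path with source `s`. -/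
def pv (X : Asg K ι) : List (Lt ι) → Finset ι → Matrix ι ι K
  | [], s => E K s
  | l :: w, s => X l.hd * pv X w s

/-- The value of the inverse path. -/
def pw (X : Asg K ι) : List (Lt ι) → Finset ι → Matrix ι ι K
  | [], s => E K s
  | l :: w, s => pw X w s * X l.hd.bar

@[simp] lemma pv_nil (X : Asg K ι) (s) : pv X [] s = E K s := rfl
@[simp] lemma pv_cons (X : Asg K ι) (l w s) : pv X (l :: w) s = X l.hd * pv X w s := rfl
@[simp] lemma pw_nil (X : Asg K ι) (s) : pw X [] s = E K s := rfl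
@[simp] lemma pw_cons (X : Asg K ι) (l w s) : pw X (l :: w) s = pw X w s * X l.hd.bar := rfl

lemma ti_pv {X : Asg K ι} {t s : Finset ι} {w : List (Lt ι)} (h : Ty t w s)
    (ho : ∀ l ∈ w, l.Ok X) : TI t s (pv X w s) (pw X w s) := by
  induction w generalizing t with
  | nil => rw [ty_nil] at h; subst h; exact TI.refl _
  | cons l w ih =>
    have := (ho l (by simp)).iso.trans (ih h.2 fun k hk => ho k (by simp [hk]))
    rwa [h.1] at this

lemma pv_append {X : Asg K ι} {q s : Finset ι} (v : List (Lt ι)) {w : List (Lt ι)}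
    (h : Ty q w s) (ho : ∀ l ∈ w, l.Ok X) : pv X (v ++ w) s = pv X v q * pv X w s := by
  induction v with
  | nil => simp [(ti_pv h ho).sup.l]
  | cons l v ih => simp [ih, Matrix.mul_assoc]

lemma pw_append {X : Asg K ι} {q s : Finset ι} (v : List (Lt ι)) {w : List (Lt ι)}
    (h : Ty q w s) (ho : ∀ l ∈ w, l.Ok X) : pw X (v ++ w) s = pw X w s * pw X v q := by
  induction v with
  | nil => simp [(ti_pv h ho).sup'.r]
  | cons l v ih => simp [ih, Matrix.mul_assoc]

@[fun_prop] lemma PM.pv {Y : Type} [Aff K Y] {f : Y → Asg K ι} (hf : PM O K f)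
    (w : List (Lt ι)) (s : Finset ι) : PM O K (fun y => pv (f y) w s) := by
  induction w with
  | nil => exact PM.const (E K s)
  | cons l w ih => exact ((PM.apply l.hd).comp hf).mmul ih

@[fun_prop] lemma PM.pw {Y : Type} [Aff K Y] {f : Y → Asg K ι} (hf : PM O K f)
    (w : List (Lt ι)) (s : Finset ι) : PM O K (fun y => pw (f y) w s) := by
  induction w with
  | nil => exact PM.const (E K s)
  | cons l w ih => exact ih.mmul ((PM.apply l.hd.bar).comp hf)

/-- Two assignments agree on `m` and on the inverses. -/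
def Agree (m : Multiset (Hf ι)) (X Y : Asg K ι) : Prop := ∀ h ∈ m, X h = Y h ∧ X h.bar = Y h.bar

omit [Field K] [Fintype ι] [DecidableEq ι] in
lemma Agree.mono {m m' : Multiset (Hf ι)} {X Y : Asg K ι} (h : Agree m X Y)
    (hm : ∀ k ∈ m', k ∈ m) : Agree m' X Y := fun k hk => h k (hm k hk)

omit [Field K] [Fintype ι] [DecidableEq ι] in
lemma Agree.symm {m : Multiset (Hf ι)} {X Y : Asg K ι} (h : Agree m X Y) : Agree m Y X :=
  fun k hk => ⟨(h k hk).1.symm, (h k hk).2.symm⟩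

omit [Field K] [Fintype ι] [DecidableEq ι] in
lemma Agree.trans {m : Multiset (Hf ι)} {X Y Z : Asg K ι} (h : Agree m X Y) (h' : Agree m Y Z) :
    Agree m X Z := fun k hk => ⟨(h k hk).1.trans (h' k hk).1, (h k hk).2.trans (h' k hk).2⟩

lemma Lt.Ok.congr {X Y : Asg K ι} {l : Lt ι} (h : l.Ok X) (e : Agree l.us X Y) : l.Ok Y := by
  cases l with
  | fr k => rw [Lt.ok_fr, ← (e k (by simp)).1, ← (e k (by simp)).2]; exact h
  | tri k y z =>
    rw [Lt.ok_tri, ← (e k (by simp)).1, ← (e k (by simp)).2, ← (e y (by simp)).1,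
      ← (e y (by simp)).2, ← (e z (by simp)).1, ← (e z (by simp)).2]
    exact h

lemma ok_congr {X Y : Asg K ι} {w : List (Lt ι)} (h : ∀ l ∈ w, l.Ok X) (e : Agree (usW w) X Y) :
    ∀ l ∈ w, l.Ok Y :=
  fun l hl => (h l hl).congr (e.mono fun _ hk => mem_usW.2 ⟨l, hl, hk⟩)

lemma pv_congr {X Y : Asg K ι} {w : List (Lt ι)} (e : Agree (usW w) X Y) (s : Finset ι) :
    pv X w s = pv Y w s := by
  induction w with
  | nil => rfl
  | cons l w ih =>
    rw [pv_cons, pv_cons, ih (e.mono fun k hk => by simp [hk]),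
      (e l.hd (by simp [l.hd_mem_us])).1]

lemma pw_congr {X Y : Asg K ι} {w : List (Lt ι)} (e : Agree (usW w) X Y) (s : Finset ι) :
    pw X w s = pw Y w s := by
  induction w with
  | nil => rfl
  | cons l w ih =>
    rw [pw_cons, pw_cons, ih (e.mono fun k hk => by simp [hk]),
      (e l.hd (by simp [l.hd_mem_us])).2]

/-- The condition imposed by a face. -/
structure Fc.Sat (X : Asg K ι) (φ : Fc O ι) : Prop where
  ty : Ty φ.p φ.w φ.p
  ok : ∀ l ∈ φ.w, l.Ok X
  eq : pv X φ.w φ.p = algebraMap O K φ.c • E K φ.p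

/-- The solutions of a system. -/
def Sol (K : Type) [Field K] [Algebra O K] (S : List (Fc O ι)) : Set (Asg K ι) :=
  {X | ∀ φ ∈ S, φ.Sat X}

@[simp] lemma mem_sol_nil {X : Asg K ι} : X ∈ Sol K ([] : List (Fc O ι)) := by simp [Sol]
@[simp] lemma mem_sol_cons {X : Asg K ι} {φ : Fc O ι} {S} :
    X ∈ Sol K (φ :: S) ↔ φ.Sat X ∧ X ∈ Sol K S := by simp [Sol]
@[simp] lemma mem_sol_append {X : Asg K ι} {S T : List (Fc O ι)} :
    X ∈ Sol K (S ++ T) ↔ X ∈ Sol K S ∧ X ∈ Sol K T := by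
  simp only [Sol, Set.mem_ofPred_eq, List.mem_append]
  exact ⟨fun h => ⟨fun φ hφ => h φ (Or.inl hφ), fun φ hφ => h φ (Or.inr hφ)⟩,
    fun h φ hφ => hφ.elim (h.1 φ) (h.2 φ)⟩

lemma sol_perm {S T : List (Fc O ι)} (h : S.Perm T) : Sol K S = Sol K T := by
  ext X; simp only [Sol, Set.mem_ofPred_eq, h.mem_iff]

lemma Fc.Sat.congr {X Y : Asg K ι} {φ : Fc O ι} (h : φ.Sat X) (e : Agree (usW φ.w) X Y) :
    φ.Sat Y := ⟨h.ty, ok_congr h.ok e, by rw [← pv_congr e, h.eq]⟩

lemma sol_congr {X Y : Asg K ι} {S : List (Fc O ι)} (h : X ∈ Sol K S) (e : Agree (usS S) X Y) :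
    Y ∈ Sol K S :=
  fun φ hφ => (h φ hφ).congr (e.mono fun _ hk => mem_usS.2 ⟨φ, hφ, hk⟩)

lemma Ty.card_eq [CharZero K] {X : Asg K ι} {t s : Finset ι} {w : List (Lt ι)} (h : Ty t w s)
    (ho : ∀ l ∈ w, l.Ok X) : t.card = s.card := (ti_pv h ho).card_eq

lemma unit_mul_inv (c : Oˣ) : algebraMap O K c * algebraMap O K (c⁻¹ : Oˣ) = 1 := by
  rw [← map_mul, Units.mul_inv, map_one]

lemma unit_inv_mul (c : Oˣ) : algebraMap O K (c⁻¹ : Oˣ) * algebraMap O K c = 1 := by
  rw [← map_mul, Units.inv_mul, map_one]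

/-- Give values to the new variables of level `N`. -/
def ext (x : Asg K ι) (N : ℕ) (V V' : ℕ → Matrix ι ι K) : Asg K ι :=
  fun h => if h.nm.1 = N then (if h.sg then V h.nm.2.1 else V' h.nm.2.1) else x h

omit [Field K] [Fintype ι] [DecidableEq ι] in
@[simp] lemma ext_nw (x : Asg K ι) (N j : ℕ) (V V' t s) : ext x N V V' (nw N j t s) = V j := by
  simp [ext]

omit [Field K] [Fintype ι] [DecidableEq ι] in
@[simp] lemma ext_nw_bar (x : Asg K ι) (N j : ℕ) (V V' t s) :
    ext x N V V' (nw N j t s).bar = V' j := by simp [ext]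

omit [Field K] [Fintype ι] [DecidableEq ι] in
lemma ext_of_lt (x : Asg K ι) {N : ℕ} (V V') {h : Hf ι} (hh : h.nm.1 < N) :
    ext x N V V' h = x h := by simp [ext, hh.ne]

omit [Field K] [Fintype ι] [DecidableEq ι] in
lemma agree_ext (x : Asg K ι) {N : ℕ} (V V') {m : Multiset (Hf ι)} (hm : ∀ h ∈ m, h.nm.1 < N) :
    Agree m x (ext x N V V') :=
  fun h hh => ⟨(ext_of_lt x V V' (hm h hh)).symm, (ext_of_lt x V V' (h := h.bar) (hm h hh)).symm⟩

omit [Fintype ι] [DecidableEq ι] in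
/-- The general form of a move with new variables. -/
lemma gd_of_move {T : Set (Asg K ι)} {x : Asg K ι}
    (H : ∀ N : ℕ, ∃ (S : Set (Asg K ι)) (x' : Asg K ι) (Φ : Asg K ι → Asg K ι), PM O K Φ ∧
      (∀ y ∈ S, Φ y ∈ T) ∧ (∀ h : Hf ι, h.nm.1 < N → Φ x' h = x h) ∧ Gd O K S x') :
    Gd O K T x := by
  intro f hf h0
  obtain ⟨W, hW⟩ := pol_pi_finite hf
  obtain ⟨N, -, hN⟩ := exists_bound W.val 0
  obtain ⟨S, x', Φ, hΦ, hS, hx, hg⟩ := H N
  rw [← hW (Φ x') x fun h hh => hx h (hN h hh)]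
  exact hg.map hΦ hS f hf h0

/-- Integral points are dense for every quadratic system thinner than `d`. -/
def PFoam (O K ι : Type) [CommRing O] [Field K] [Algebra O K] [Fintype ι] [DecidableEq ι]
    (d : ℕ) : Prop :=
  ∀ S : List (Fc O ι), Q (usS S) → Thin d S → Dn O K (Sol K S)

/-- The face `φ` can be traded for faces thinner than `d`. -/
def Elim (K : Type) [Field K] [Algebra O K] (d : ℕ) (φ : Fc O ι) : Prop :=
  ∀ R : List (Fc O ι), Q (usS (φ :: R)) →
    (∀ T : List (Fc O ι), Thin d T → Q (usS (T ++ R)) → Dn O K (Sol K (T ++ R))) →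
    Dn O K (Sol K (φ :: R))

end Vale.Agent.P002b
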