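import Vale.Agent.P002b.Comm

/-! The closed surface of genus one. -/

namespace Vale.Agent.P002b

open Matrix

variable {O K : Type} [CommRing O] [Field K] [IsAlgClosed K] [CharZero K] [Algebra O K]
  [FaithfulSMul O K] {n : Type} [Fintype n] [DecidableEq n]

section lin

omit [IsAlgClosed K] [CharZero K] in
lemma Torus.exists_reps {c : K} {k : ℕ} (hc : orderOf c = k + 1) : ∃ R : Set K,
    (∀ μ : K, μ ≠ 0 → ∃ i : Fin (k + 1), ∃ r ∈ R, μ = c ^ (i : ℕ) * r) ∧
    ∀ i j : Fin (k + 1), ∀ r ∈ R, ∀ r' ∈ R, c ^ (i : ℕ) * r = c ^ (j : ℕ) * r' → i = j := by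
  classical
  have h1 : c ^ (k + 1) = 1 := hc ▸ pow_orderOf_eq_one c
  let u : Kˣ := Units.mk0 c fun e => by simp [e] at h1
  have hu : orderOf u = k + 1 := by rw [← orderOf_units]; exact hc
  have hf : IsOfFinOrder u := orderOf_pos_iff.1 (by omega)
  refine ⟨Set.range fun q : Kˣ ⧸ Subgroup.zpowers u => ((q.out : Kˣ) : K), fun μ hμ => ?_, ?_⟩
  · obtain ⟨h, hh⟩ := QuotientGroup.mk_out_eq_mul (Subgroup.zpowers u) (Units.mk0 μ hμ)
    obtain ⟨i, hi, e⟩ := Finset.mem_image.1 (hf.mem_zpowers_iff_mem_range_orderOf.1 (inv_mem h.2))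
    rw [Finset.mem_range, hu] at hi
    refine ⟨⟨i, hi⟩, _, ⟨QuotientGroup.mk (Units.mk0 μ hμ), rfl⟩, ?_⟩
    have e2 : Units.mk0 μ hμ = u ^ i * (Units.mk0 μ hμ * h) := by
      rw [e, mul_comm, mul_inv_cancel_right]
    simp only [hh]
    exact congrArg Units.val e2
  · rintro i j _ ⟨q, rfl⟩ _ ⟨q', rfl⟩ e
    have e1 : u ^ (i : ℕ) * q.out = u ^ (j : ℕ) * q'.out := Units.ext e
    have e2 : ∀ (m : ℕ) (q : Kˣ ⧸ Subgroup.zpowers u),
        (QuotientGroup.mk (u ^ m * q.out) : Kˣ ⧸ Subgroup.zpowers u) = q := fun m q => by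
      rw [mul_comm, QuotientGroup.mk_mul_of_mem _ (Subgroup.npow_mem_zpowers u m),
        QuotientGroup.out_eq']
    have e3 : q = q' := by rw [← e2 i q, e1, e2]
    rw [e3, mul_left_inj] at e1
    exact Fin.ext (pow_injOn_Iio_orderOf (by rw [hu]; exact i.2) (by rw [hu]; exact j.2) e1)

variable {V : Type} [AddCommGroup V] [Module K V]

omit [IsAlgClosed K] [CharZero K] in
lemma Torus.map_mem {A B : Module.End K V} {c μ : K} (h : A * B = c • (B * A)) {v : V}
    (hv : v ∈ A.maxGenEigenspace μ) : B v ∈ A.maxGenEigenspace (c * μ) := by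
  rw [Module.End.mem_maxGenEigenspace] at hv ⊢
  obtain ⟨m, hm⟩ := hv
  have h1 : (A - (c * μ) • 1) * B = c • (B * (A - μ • 1)) := by
    simp [sub_mul, mul_sub, smul_sub, h, smul_smul]
  have h2 : ∀ m : ℕ, (A - (c * μ) • 1) ^ m * B = c ^ m • (B * (A - μ • 1) ^ m) := by
    intro m
    induction m with
    | zero => simp
    | succ m ih =>
      rw [pow_succ', mul_assoc, ih, mul_smul_comm, ← mul_assoc, h1, smul_mul_assoc, smul_smul,
        mul_assoc, ← pow_succ', ← pow_succ]
  refine ⟨m, ?_⟩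
  rw [← Module.End.mul_apply, h2, LinearMap.smul_apply, Module.End.mul_apply, hm, map_zero,
    smul_zero]

omit [IsAlgClosed K] [CharZero K] in
lemma Torus.pow_rel {M : Type} [Ring M] [Algebra K M] {A B : M} {c : K}
    (h : A * B = c • (B * A)) (m : ℕ) : A * B ^ m = c ^ m • (B ^ m * A) := by
  induction m with
  | zero => simp
  | succ m ih =>
    rw [pow_succ, ← mul_assoc, ih, smul_mul_assoc, mul_assoc, h, mul_smul_comm, smul_smul,
      ← pow_succ, ← mul_assoc]

omit [IsAlgClosed K] [CharZero K] in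
lemma Torus.map_sup {A B : Module.End K V} {c : K} (h : A * B = c • (B * A)) {R S : Set K}
    (hRS : ∀ r ∈ R, c * r ∈ S) {v : V} (hv : v ∈ ⨆ μ ∈ R, A.maxGenEigenspace μ) :
    B v ∈ ⨆ μ ∈ S, A.maxGenEigenspace μ := by
  have : (⨆ μ ∈ R, A.maxGenEigenspace μ) ≤ (⨆ μ ∈ S, A.maxGenEigenspace μ).comap B :=
    iSup₂_le fun r hr w hw =>
      le_iSup₂ (f := fun μ (_ : μ ∈ S) => A.maxGenEigenspace μ) _ (hRS r hr) (Torus.map_mem h hw)
  exact this hv

omit [CharZero K] in
lemma Torus.exists_sub [FiniteDimensional K V] {A B B' : Module.End K V} {c : K} {k : ℕ}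
    (hc : orderOf c = k + 1) (hA : Function.Injective A) (hB : B * B' = 1)
    (h : A * B = c • (B * A)) : ∃ W : Submodule K V, (∀ v ∈ W, A v ∈ W) ∧
      (∀ v ∈ W, (B ^ (k + 1)) v ∈ W) ∧
      (∀ v, ∃ w : Fin (k + 1) → V, (∀ i, w i ∈ W) ∧ v = ∑ i : Fin (k + 1), (B ^ (i : ℕ)) (w i)) ∧
      ∀ w : Fin (k + 1) → V, (∀ i, w i ∈ W) → ∑ i : Fin (k + 1), (B ^ (i : ℕ)) (w i) = 0 →
        ∀ i, w i = 0 := by
  classical
  have h1 : c ^ (k + 1) = 1 := hc ▸ pow_orderOf_eq_one c
  have hc0 : c ≠ 0 := fun e => by simp [e] at h1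
  have hB' : B' * B = 1 := mul_eq_one_comm.1 hB
  have hBB : ∀ m : ℕ, B ^ m * B' ^ m = 1 := fun m => by
    rw [← (show Commute B B' from hB.trans hB'.symm).mul_pow, hB, one_pow]
  have h' : A * B' = c⁻¹ • (B' * A) := by
    have : B' * A = c • (A * B') := by
      calc B' * A = B' * (A * B) * B' := by rw [mul_assoc, mul_assoc, hB, mul_one]
        _ = c • (A * B') := by rw [h, mul_smul_comm, ← mul_assoc, hB', one_mul, smul_mul_assoc]
    rw [this, inv_smul_smul₀ hc0]
  obtain ⟨R, hR1, hR2⟩ := Torus.exists_reps hc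
  refine ⟨⨆ μ ∈ R, A.maxGenEigenspace μ, fun v hv => ?_, fun v hv => ?_, fun v => ?_, ?_⟩
  · exact Torus.map_sup (c := 1) (by simp) (by simp) hv
  · exact Torus.map_sup (Torus.pow_rel h (k + 1)) (by simp [h1]) hv
  · have hv : v ∈ ⨆ μ, A.maxGenEigenspace μ := by
      rw [Module.End.iSup_maxGenEigenspace_eq_top]; trivial
    induction hv using Submodule.iSup_induction' with
    | mem μ v hv =>
      by_cases hμ : μ = 0
      · obtain ⟨m, hm⟩ := (Module.End.mem_maxGenEigenspace _ _ _).1 hv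
        rw [hμ, zero_smul, sub_zero, ← map_zero (A ^ m), Module.End.coe_pow] at hm
        exact ⟨0, fun _ => zero_mem _, by simp [hA.iterate m hm]⟩
      · obtain ⟨i, r, hr, rfl⟩ := hR1 μ hμ
        have h2 := Torus.map_mem (Torus.pow_rel h' i) hv
        rw [inv_pow, inv_mul_cancel_left₀ (pow_ne_zero _ hc0)] at h2
        refine ⟨Pi.single i ((B' ^ (i : ℕ)) v), fun j => ?_, ?_⟩
        · rw [Pi.single_apply]
          split_ifs
          · exact le_iSup₂ (f := fun μ (_ : μ ∈ R) => A.maxGenEigenspace μ) _ hr h2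
          · exact zero_mem _
        · rw [Finset.sum_eq_single i (fun j _ hj => by simp [hj]) (by simp), Pi.single_eq_same,
            ← Module.End.mul_apply, hBB, Module.End.one_apply]
    | zero => exact ⟨0, fun _ => zero_mem _, by simp⟩
    | add x y _ _ hx hy =>
      obtain ⟨w, hw, rfl⟩ := hx
      obtain ⟨w', hw', rfl⟩ := hy
      exact ⟨w + w', fun i => add_mem (hw i) (hw' i), by simp [Finset.sum_add_distrib]⟩
  · intro w hw h0 i
    let S : Set K := {μ | ∃ r ∈ R, μ = c ^ (i : ℕ) * r}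
    have hd := A.independent_maxGenEigenspace.disjoint_biSup_biSup (disjoint_compl_right (a := S))
    have h2 : (B ^ (i : ℕ)) (w i) ∈ ⨆ μ ∈ S, A.maxGenEigenspace μ :=
      Torus.map_sup (Torus.pow_rel h i) (S := S) (fun r hr => ⟨r, hr, rfl⟩) (hw i)
    have h3 : (B ^ (i : ℕ)) (w i) ∈ ⨆ μ ∈ Sᶜ, A.maxGenEigenspace μ := by
      rw [← Finset.add_sum_erase _ _ (Finset.mem_univ i), add_eq_zero_iff_eq_neg] at h0
      rw [h0]
      refine neg_mem (sum_mem fun j hj => Torus.map_sup (Torus.pow_rel h j) ?_ (hw j))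
      rintro r hr ⟨r', hr', e⟩
      exact Finset.ne_of_mem_erase hj (hR2 j i r hr r' hr' e)
    have h4 := Submodule.disjoint_def.1 hd _ h2 h3
    rw [← Module.End.one_apply (R := K) (w i), ← mul_eq_one_comm.1 (hBB i), Module.End.mul_apply,
      h4, map_zero]

end lin

section model

variable {κ o : Type} [Fintype κ] [DecidableEq κ] [Fintype o] [DecidableEq o]

/-- Matrices placed side by side. -/
def Torus.cat (F : o → Matrix n κ K) : Matrix n (κ × o) K := Matrix.of fun r p => F p.2 r p.1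

omit [IsAlgClosed K] [CharZero K] [Fintype n] [DecidableEq n] [DecidableEq κ] in
lemma Torus.cat_mul (F : o → Matrix n κ K) (M : o → Matrix κ κ K) :
    Torus.cat F * blockDiagonal M = Torus.cat fun i => F i * M i := by
  ext r ⟨j, i⟩
  simp [Torus.cat, Matrix.mul_apply, Fintype.sum_prod_type, blockDiagonal_apply]

omit [IsAlgClosed K] [CharZero K] [Fintype n] [DecidableEq n] [DecidableEq κ] [DecidableEq o] in
lemma Torus.cat_mulVec (F : o → Matrix n κ K) (y : κ × o → K) :
    Torus.cat F *ᵥ y = ∑ i, F i *ᵥ fun j => y (j, i) := by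
  ext r
  simp [Torus.cat, Matrix.mulVec, dotProduct, Fintype.sum_prod_type_right]

/-- The standard twisted commuting pair built from a commuting pair. -/
def Torus.model (e : n ≃ κ × o) (ρ : o ≃ o) (l : o) (s s' : o → K) (q : Qd κ K) : Qd n K :=
  ((blockDiagonal fun i => s i • q.1).submatrix e e,
    (blockDiagonal fun i => s' i • q.2.1).submatrix e e,
    (blockDiagonal fun i => if i = l then q.2.2.1 else 1).submatrix
      (e.trans ((Equiv.refl κ).prodCongr ρ.symm)) e,
    (blockDiagonal fun i => if i = l then q.2.2.2 else 1).submatrix e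
      (e.trans ((Equiv.refl κ).prodCongr ρ.symm)))

omit [IsAlgClosed K] [CharZero K] [FaithfulSMul O K] [Fintype κ] [DecidableEq κ] [Fintype o] in
lemma Torus.pm_block {X : Type} [Aff K X] {f : o → X → Matrix κ κ K} (hf : ∀ i, PM O K (f i)) :
    PM O K fun x => blockDiagonal fun i => f i x :=
  pm_mat.2 fun p q => by
    simp only [blockDiagonal_apply]
    exact PM.ite _ ((hf p.2).entry _ _) (PM.const _)

omit [IsAlgClosed K] [CharZero K] [FaithfulSMul O K] [Fintype κ] [Fintype o] [Fintype n]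
  [DecidableEq n] in
lemma Torus.pm_model (e : n ≃ κ × o) (ρ : o ≃ o) (l : o) (s s' : o → O) :
    PM O K (Torus.model e ρ l (fun i => algebraMap O K (s i)) fun i => algebraMap O K (s' i)) := by
  unfold Torus.model
  refine PM.prodMk (PM.submatrix (Torus.pm_block fun i => ?_) _ _)
    (PM.prodMk (PM.submatrix (Torus.pm_block fun i => ?_) _ _)
      (PM.prodMk (PM.submatrix (Torus.pm_block fun i => PM.ite _ ?_ (PM.const _)) _ _)
        (PM.submatrix (Torus.pm_block fun i => PM.ite _ ?_ (PM.const _)) _ _))) <;> fun_prop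

omit [IsAlgClosed K] [CharZero K] in
lemma Torus.mem_surf {c : K} {x : Fin 1 → Qd n K} : x ∈ Surf n K 1 c ↔
    QInv (x 0) ∧ (x 0).1 * (x 0).2.2.1 = c • ((x 0).2.2.1 * (x 0).1) := by
  have key : ∀ q : Qd n K, QInv q → (cm q = c • 1 ↔ q.1 * q.2.2.1 = c • (q.2.2.1 * q.1)) := by
    rintro ⟨a, a', b, b'⟩ ⟨ha, hb⟩
    simp only [cm] at ha hb ⊢
    constructor
    · intro h
      have : a * b = a * b * a' * b' * (b * a) := by
        simp only [Matrix.mul_assoc]
        rw [← Matrix.mul_assoc b' b, mul_eq_one_comm.1 hb, Matrix.one_mul, mul_eq_one_comm.1 ha,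
          Matrix.mul_one]
      rw [this, h, Matrix.smul_mul, Matrix.one_mul]
    · intro h
      rw [h, Matrix.smul_mul, Matrix.smul_mul, Matrix.mul_assoc b a, ha, Matrix.mul_one, hb]
  simp only [Surf, Set.mem_ofPred_eq, List.ofFn_succ, List.ofFn_zero, List.prod_cons,
    List.prod_nil, Matrix.mul_one, Fin.forall_fin_one]
  exact and_congr_right (key _)

omit [IsAlgClosed K] [CharZero K] in
lemma Torus.model_mem (e : n ≃ κ × o) (ρ : o ≃ o) (l : o) {s s' : o → K} {c : K}
    (hs : ∀ i, s i * s' i = 1) (hρ : ∀ i, s (ρ i) = c * s i) {q : Qd κ K} (hq : q ∈ Com κ K) :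
    (fun _ => Torus.model e ρ l s s' q) ∈ Surf n K 1 c := by
  have one : (blockDiagonal fun _ : o => (1 : Matrix κ κ K)) = 1 := blockDiagonal_one
  refine Torus.mem_surf.2 ⟨⟨?_, ?_⟩, ?_⟩ <;> simp only [Torus.model]
  · rw [submatrix_mul_equiv, ← blockDiagonal_mul]
    simp only [Matrix.smul_mul, Matrix.mul_smul, smul_smul, hq.1.1, mul_comm (s' _), hs,
      one_smul, one, submatrix_one_equiv]
  · rw [submatrix_mul_equiv, ← blockDiagonal_mul]
    have : ∀ i, ((if i = l then q.2.2.1 else 1) * if i = l then q.2.2.2 else 1) = 1 := fun i => by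
      split_ifs
      exacts [hq.1.2, Matrix.mul_one _]
    simp only [this, one, submatrix_one_equiv]
  · set τ := e.trans ((Equiv.refl κ).prodCongr ρ.symm) with hτ
    have h1 : (blockDiagonal fun i => s i • q.1).submatrix e e =
        c • (blockDiagonal fun i => s i • q.1).submatrix τ τ := by
      ext r t
      have := hρ (ρ.symm (e r).2)
      rw [Equiv.apply_symm_apply] at this
      simp only [hτ, submatrix_apply, blockDiagonal_apply, Matrix.smul_apply, smul_eq_mul,
        Equiv.trans_apply, Equiv.prodCongr_apply, Prod.map_snd, Prod.map_fst, Equiv.coe_refl,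
        id, EmbeddingLike.apply_eq_iff_eq]
      split_ifs
      · rw [this, mul_assoc]
      · rw [mul_zero]
    rw [submatrix_mul_equiv, h1, Matrix.smul_mul, submatrix_mul_equiv, ← blockDiagonal_mul,
      ← blockDiagonal_mul]
    have : ∀ i, (s i • q.1 * if i = l then q.2.2.1 else 1) =
        (if i = l then q.2.2.1 else 1) * s i • q.1 := fun i => by
      split_ifs
      · rw [Matrix.smul_mul, Matrix.mul_smul, hq.2]
      · rw [Matrix.mul_one, Matrix.one_mul]
    simp only [this]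

end model

omit [IsAlgClosed K] [CharZero K] [DecidableEq n] in
lemma Torus.exists_basis (W : Submodule K (n → K)) :
    ∃ P : Matrix n (Fin (Module.finrank K W)) K, Function.Injective P.mulVec ∧
      (∀ v, v ∈ W ↔ ∃ y, P *ᵥ y = v) := by
  let b := Module.finBasis K W
  have h : ∀ y, (Matrix.of fun r j => (b j : n → K) r) *ᵥ y = (b.equivFun.symm y : W) := by
    intro y
    ext r
    simp [Matrix.mulVec, dotProduct, mul_comm]
  refine ⟨Matrix.of fun r j => (b j : n → K) r, fun y y' e => ?_, fun v => ⟨fun hv => ?_, ?_⟩⟩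
  · rw [h, h] at e
    exact b.equivFun.symm.injective (Subtype.val_injective e)
  · exact ⟨b.equivFun ⟨v, hv⟩, by rw [h, LinearEquiv.symm_apply_apply]⟩
  · rintro ⟨y, rfl⟩
    rw [h]
    exact Submodule.coe_mem _

omit [IsAlgClosed K] [CharZero K] [DecidableEq n] in
lemma Torus.exists_restrict {κ : Type} [Fintype κ] [DecidableEq κ] {P : Matrix n κ K}
    (hP : Function.Injective P.mulVec) {M : Matrix n n K} (hM : Function.Injective M.mulVec)
    (h : ∀ y, ∃ y', P *ᵥ y' = M *ᵥ (P *ᵥ y)) :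
    ∃ M₀ M₀' : Matrix κ κ K, M₀ * M₀' = 1 ∧ M * P = P * M₀ := by
  choose y hy using fun j => h (Pi.single j 1)
  have e : M * P = P * (Matrix.of y)ᵀ := by
    ext r j
    have := congrFun (hy j) r
    rw [mulVec_mulVec, mulVec_single_one] at this
    exact this.symm
  have hi : Function.Injective (Matrix.of y)ᵀ.mulVec := fun v v' hv => by
    refine hP (hM ?_)
    rw [mulVec_mulVec, mulVec_mulVec, e, ← mulVec_mulVec, ← mulVec_mulVec, hv]
  exact ⟨_, _, Matrix.mul_nonsing_inv _
    ((Matrix.isUnit_iff_isUnit_det _).1 (Matrix.mulVec_injective_iff_isUnit.1 hi)), e⟩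

omit [IsAlgClosed K] [CharZero K] in
lemma Torus.inj {a a' : Matrix n n K} (h : a * a' = 1) : Function.Injective a.mulVec :=
  Matrix.mulVec_injective_iff_isUnit.2 (IsUnit.of_mul_eq_one _ h)

omit [CharZero K] in
lemma Torus.normal_form {c : K} {k : ℕ} (hc : orderOf c = k + 1) {a a' b b' : Matrix n n K}
    (ha : a * a' = 1) (hb : b * b' = 1) (h : a * b = c • (b * a)) :
    ∃ (m : ℕ) (e : n ≃ Fin m × Fin (k + 1)) (q : Qd (Fin m) K) (g g' : Matrix n n K),
      q ∈ Com (Fin m) K ∧ g * g' = 1 ∧ ∀ s' : Fin (k + 1) → K,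
        a * g = g * (Torus.model e (Equiv.addRight 1) (Fin.last k) (fun i => c ^ (i : ℕ)) s' q).1 ∧
        b * g = g * (Torus.model e (Equiv.addRight 1) (Fin.last k)
          (fun i => c ^ (i : ℕ)) s' q).2.2.1 := by
  have h1 : c ^ (k + 1) = 1 := hc ▸ pow_orderOf_eq_one c
  obtain ⟨W, hWa, hWb, hsp, hind⟩ := Torus.exists_sub (A := toLin' a) (B := toLin' b)
    (B' := toLin' b') hc (Torus.inj ha)
    (by rw [Module.End.mul_eq_comp, ← toLin'_mul, hb, toLin'_one]; rfl)
    (by rw [Module.End.mul_eq_comp, Module.End.mul_eq_comp, ← toLin'_mul, ← toLin'_mul, h,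
      map_smul])
  simp only [← toLin'_pow, toLin'_apply] at hWa hWb hsp hind
  obtain ⟨P, hP, hW⟩ := Torus.exists_basis W
  have hbk : Function.Injective (b ^ (k + 1)).mulVec :=
    Matrix.mulVec_injective_iff_isUnit.2 ((IsUnit.of_mul_eq_one _ hb).pow _)
  obtain ⟨a₀, a₀', ha₀, ea⟩ := Torus.exists_restrict hP (Torus.inj ha)
    fun y => (hW _).1 (hWa _ ((hW _).2 ⟨y, rfl⟩))
  obtain ⟨β, β', hβ, eb⟩ := Torus.exists_restrict hP hbk
    fun y => (hW _).1 (hWb _ ((hW _).2 ⟨y, rfl⟩))
  have hcom : a₀ * β = β * a₀ := by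
    have h2 : P * (a₀ * β) = P * (β * a₀) := by
      rw [← Matrix.mul_assoc, ← ea, Matrix.mul_assoc, ← eb, ← Matrix.mul_assoc,
        Torus.pow_rel h, h1, one_smul, Matrix.mul_assoc, ea, ← Matrix.mul_assoc, eb,
        Matrix.mul_assoc]
    refine Matrix.toLin'.injective (LinearMap.ext fun y => hP ?_)
    simp only [toLin'_apply, mulVec_mulVec, h2]
  set G := Torus.cat fun i : Fin (k + 1) => b ^ (i : ℕ) * P with hG
  have hGv : ∀ y, G *ᵥ y = ∑ i : Fin (k + 1), b ^ (i : ℕ) *ᵥ (P *ᵥ fun j => y (j, i)) := fun y => by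
    simp only [hG, Torus.cat_mulVec, mulVec_mulVec]
  have hGi : Function.Injective (toLin' G) := by
    refine (injective_iff_map_eq_zero _).2 fun y hy => ?_
    rw [toLin'_apply, hGv] at hy
    funext ⟨j, i⟩
    have h2 := hind _ (fun i => (hW _).2 ⟨_, rfl⟩) hy i
    rw [← mulVec_zero P] at h2
    exact congrFun (hP h2) j
  have hGs : Function.Surjective (toLin' G) := fun v => by
    obtain ⟨w, hw, rfl⟩ := hsp v
    choose y hy using fun i => (hW _).1 (hw i)
    exact ⟨fun p => y p.2 p.1, by simp only [toLin'_apply, hGv, hy]⟩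
  have hcard := (LinearEquiv.ofBijective _ ⟨hGi, hGs⟩).finrank_eq
  rw [Module.finrank_fintype_fun_eq_card, Module.finrank_fintype_fun_eq_card] at hcard
  let e := Fintype.equivOfCardEq hcard.symm
  have hgi : Function.Injective (G.submatrix id e).mulVec := fun v v' hv => by
    rw [submatrix_mulVec_equiv, submatrix_mulVec_equiv] at hv
    exact e.symm.surjective.injective_comp_right (hGi hv)
  refine ⟨_, e, (a₀, a₀', β, β'), G.submatrix id e, _, ⟨⟨ha₀, hβ⟩, hcom⟩, Matrix.mul_nonsing_inv _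
    ((Matrix.isUnit_iff_isUnit_det _).1 (Matrix.mulVec_injective_iff_isUnit.1 hgi)),
    fun s' => ⟨?_, ?_⟩⟩ <;> simp only [Torus.model]
  · rw [submatrix_mul_equiv, hG, Torus.cat_mul]
    have : ∀ i : Fin (k + 1), b ^ (i : ℕ) * P * c ^ (i : ℕ) • a₀ = a * (b ^ (i : ℕ) * P) := by
      intro i
      rw [← Matrix.mul_assoc a, Torus.pow_rel h, Matrix.smul_mul, Matrix.mul_assoc _ a, ea,
        Matrix.mul_smul, Matrix.mul_assoc]
    simp only [this]
    rfl
  · have h2 : G.submatrix id e = (Torus.cat fun i : Fin (k + 1) =>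
        b ^ ((i + 1 : Fin (k + 1)) : ℕ) * P).submatrix id
          (e.trans ((Equiv.refl _).prodCongr (Equiv.addRight 1).symm)) := by
      ext r t
      simp [hG, Torus.cat]
    conv_rhs => rw [h2]
    rw [submatrix_mul_equiv, Torus.cat_mul]
    have : ∀ i : Fin (k + 1), (b ^ ((i + 1 : Fin (k + 1)) : ℕ) * P *
        if i = Fin.last k then β else 1) = b * (b ^ (i : ℕ) * P) := by
      intro i
      rw [Fin.val_add_one, ← Matrix.mul_assoc b, ← pow_succ']
      split_ifs with hi
      · rw [pow_zero, Matrix.one_mul, hi, Fin.val_last, eb]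
      · rw [Matrix.mul_one]
    simp only [this]
    rfl

theorem dn_surf_one (hU : HasUnit O) (c : Oˣ) : Dn O K (Surf n K 1 (algebraMap O K c)) := by
  cases isEmpty_or_nonempty n with
  | inl h => exact dn_surf_small hU (by simp) _ _
  | inr h =>
    intro x hx
    obtain ⟨⟨ha, hb⟩, hab⟩ := Torus.mem_surf.1 hx
    have h1 : algebraMap O K c ^ Fintype.card n = 1 := by
      have h2 := congrArg det hab
      rw [det_smul, det_mul, det_mul, mul_comm (x 0).2.2.1.det] at h2
      exact ((mul_left_eq_self₀.1 h2.symm).resolve_right (mul_ne_zero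
        (Matrix.det_ne_zero_of_right_inverse ha) (Matrix.det_ne_zero_of_right_inverse hb)))
    obtain ⟨k, hk⟩ := Nat.exists_eq_succ_of_ne_zero
      (isOfFinOrder_iff_pow_eq_one.2 ⟨_, Fintype.card_pos, h1⟩).orderOf_pos.ne'
    have h3 : algebraMap O K c ^ (k + 1) = 1 := by
      rw [← Nat.succ_eq_add_one, ← hk]; exact pow_orderOf_eq_one _
    obtain ⟨m, e, q, g, g', hq, hg, H⟩ := Torus.normal_form hk ha hb hab
    have hs : (fun i : Fin (k + 1) => algebraMap O K c ^ (i : ℕ)) =
        fun i : Fin (k + 1) => algebraMap O K ((c ^ (i : ℕ) : Oˣ) : O) := by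
      funext i
      simp
    have hmem : ∀ q ∈ Com (Fin m) K, (fun _ => Torus.model e (Equiv.addRight 1) (Fin.last k)
        (fun i : Fin (k + 1) => algebraMap O K ((c ^ (i : ℕ) : Oˣ) : O))
        (fun i : Fin (k + 1) => algebraMap O K (((c ^ (i : ℕ))⁻¹ : Oˣ) : O)) q) ∈
          Surf n K 1 (algebraMap O K c) := by
      refine fun q hq => Torus.model_mem e _ _ (fun i => unit_mul_inv _) (fun i => ?_) hq
      simp only [Equiv.coe_addRight, Fin.val_add_one, Units.val_pow_eq_pow_val, map_pow]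
      split_ifs with hi
      · rw [hi, Fin.val_last, ← pow_succ', h3, pow_zero]
      · rw [pow_succ']
    have h4 := gd_surf_conj hU ((dn_com hU _ q hq).map
      (PM.pi fun _ => Torus.pm_model e _ _ _ _) hmem) hg
    have h5 := (Torus.mem_surf.1 (qconj_mem_surf (hmem q hq) hg)).1
    obtain ⟨e1, e2⟩ := H fun i : Fin (k + 1) => algebraMap O K (((c ^ (i : ℕ))⁻¹ : Oˣ) : O)
    rw [hs] at e1 e2
    have key : ∀ y : Qd n K, QInv (qconj g g' y) → (x 0).1 * g = g * y.1 →
        (x 0).2.2.1 * g = g * y.2.2.1 → x = fun _ => qconj g g' y := by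
      intro y hy f1 f2
      have f3 : g * y.1 * g' = (x 0).1 := by rw [← f1, Matrix.mul_assoc, hg, Matrix.mul_one]
      have f4 : g * y.2.2.1 * g' = (x 0).2.2.1 := by
        rw [← f2, Matrix.mul_assoc, hg, Matrix.mul_one]
      simp only [QInv, qconj, f3, f4] at hy
      funext i
      rw [Subsingleton.elim i 0, qconj, f3, f4, Matrix.right_inv_eq_right_inv hy.1 ha,
        Matrix.right_inv_eq_right_inv hy.2 hb]
    rw [key _ h5 e1 e2]
    exact h4

end Vale.Agent.P002b
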