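import Vale.Agent.P002b.ClosedNF
import Vale.Agent.P002b.Torus

/-! The induction on the thickness. -/

namespace Vale.Agent.P002b

open Matrix

variable {O K : Type} [CommRing O] [Field K] [IsAlgClosed K] [CharZero K] [Algebra O K]
  [FaithfulSMul O K] {r : ℕ}

theorem closedS_of (hU : HasUnit O) (hB : BigS O K r) {m : ℕ} (hm : m ≤ r) : ClosedS O K m := by
  intro n _ _ hn γ c
  by_cases h : Fintype.card n ≤ 1
  · exact dn_surf_small hU h γ _
  rcases γ with _ | _ | γ
  · exact dn_surf_zero _
  · exact dn_surf_one hU c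
  · exact hB n (by omega) (by omega) γ _

theorem pfoam_all (hU : HasUnit O) (hB : BigS O K r) (n : Type) [Fintype n] [DecidableEq n]
    {d : ℕ} (hd : d ≤ r + 1) : PFoam O K n d := by
  induction d with
  | zero => exact foam_zero hU
  | succ d ih =>
    exact foam_step hU (ih (by omega)) fun φ h1 h2 h3 =>
      dn_closed_face hU (closedS_of hU hB (by omega)) φ h1 h2 h3

end Vale.Agent.P002b
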