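import Vale.Agent.P002b.Defs

/-! From the general to the special linear group. -/

namespace Vale.Agent.P002b

open Matrix

variable {O O' K : Type} [CommRing O] [CommRing O'] [Field K] [IsAlgClosed K] [CharZero K]
  [Algebra O K] [FaithfulSMul O K] [Algebra O' K] {n : Type} [Fintype n] [DecidableEq n]


section aux

variable {R : Type} [CommRing R]

lemma SL.ofFn_smul {k : ℕ} (l : Fin k → R) (M : Fin k → Matrix n n R) :
    (List.ofFn fun j => l j • M j).prod = (∏ j, l j) • (List.ofFn M).prod := by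
  induction k with
  | zero => simp
  | succ k ih =>
    rw [List.ofFn_succ, List.ofFn_succ, List.prod_cons, List.prod_cons, ih, Fin.prod_univ_succ,
      smul_mul_smul_comm]

lemma SL.det_ofFn {k : ℕ} (M : Fin k → Matrix n n R) :
    (List.ofFn M).prod.det = ∏ j, (M j).det := by
  induction k with
  | zero => simp
  | succ k ih => rw [List.ofFn_succ, List.prod_cons, det_mul, ih, Fin.prod_univ_succ]

lemma SL.det_rel {g s : ℕ} {x : Tup (Gen g s) n R} (h : ∀ γ, (x γ).1 * (x γ).2 = 1) :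
    (rel x).det = ∏ j, (x (.inr (.inr j))).1.det := by
  have h1 : ∀ γ, (x γ).1.det * (x γ).2.det = 1 := fun γ => by rw [← det_mul, h γ, det_one]
  rw [rel, det_mul, SL.det_ofFn, SL.det_ofFn, Finset.prod_eq_one, one_mul]
  intro i _
  simp only [det_mul]
  linear_combination (x (.inr (.inl i))).1.det * (x (.inr (.inl i))).2.det * h1 (.inl i) +
    h1 (.inr (.inl i))

/-- Scaling of a tuple. -/
def SL.sc {σ : Type} (x : Tup σ n R) (l l' : σ → R) : Tup σ n R :=
  fun γ => (l γ • (x γ).1, l' γ • (x γ).2)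

lemma SL.inv_sc {σ : Type} {x : Tup σ n R} {l l' : σ → R} (h : ∀ γ, l γ * l' γ = 1)
    (W : Submodule R (n → R)) : Inv (SL.sc x l l') W ↔ Inv x W := by
  constructor
  · intro hW γ v hv
    have := W.smul_mem (l' γ) (hW γ v hv)
    rwa [SL.sc, smul_mulVec, smul_smul, mul_comm, h γ, one_smul] at this
  · intro hW γ v hv
    rw [SL.sc, smul_mulVec]
    exact W.smul_mem _ (hW γ v hv)

lemma SL.mem_sc {g s : ℕ} {T : Set (Fin s)} {C : Fin s → Matrix n n R} {x : Tup (Gen g s) n R}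
    (hx : x ∈ Cls g T C ∧ SS x) {l l' : Gen g s → R} (h : ∀ γ, l γ * l' γ = 1)
    (hT : ∀ j ∈ T, l (.inr (.inr j)) = 1) (hp : ∏ j, l (.inr (.inr j)) = 1) :
    SL.sc x l l' ∈ Cls g T C ∧ SS (SL.sc x l l') := by
  obtain ⟨⟨h1, h2, h3⟩, h4⟩ := hx
  refine ⟨⟨fun γ => ?_, ?_, fun j hj => ?_⟩, fun W hW => ?_⟩
  · simp only [SL.sc]
    rw [smul_mul_smul_comm, h γ, h1 γ, one_smul]
  · rw [← h2]
    simp only [rel, SL.sc, smul_mul_smul_comm]
    rw [SL.ofFn_smul, SL.ofFn_smul, hp, one_smul, Finset.prod_eq_one, one_smul]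
    intro i _
    linear_combination l (.inr (.inl i)) * l' (.inr (.inl i)) * h (.inl i) + h (.inr (.inl i))
  · simp only [SL.sc, hT j hj, one_smul]
    exact h3 j hj
  · obtain ⟨W', hW', hc⟩ := h4 W ((SL.inv_sc h W).1 hW)
    exact ⟨W', (SL.inv_sc h W').2 hW', hc⟩

end aux

lemma SL.roots {σ : Type} {r : ℕ} (hr : 0 < r) {S : Set (Tup σ n K)} {x : Tup σ n K}
    (hx : x ∈ cl K S) (h1 : ∀ γ, (x γ).1.det = 1) (A : Finset σ) :
    (x, fun _ : σ => (1 : K)) ∈ cl K {p : Tup σ n K × (σ → K) |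
      p.1 ∈ S ∧ ∀ γ ∈ A, p.2 γ ^ r * (p.1 γ).1.det = 1} := by
  classical
  induction A using Finset.induction_on with
  | empty =>
    refine IsP.mem_cl (f := fun y : Tup σ n K => (y, fun _ : σ => (1 : K))) (by fun_prop)
      (fun y hy => mem_cl_of_mem ?_) hx
    exact ⟨hy, by simp⟩
  | insert a A ha ih =>
    have h2 := mem_cl_root (u := fun p : Tup σ n K × (σ → K) => (p.1 a).1.det) (by fun_prop) hr
      ih (μ := 1) (by simp [h1])
    have h3 := IsP.mem_cl (f := fun q : (Tup σ n K × (σ → K)) × K =>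
      (q.1.1, Function.update q.1.2 a q.2)) (by fun_prop)
      (T := {p : Tup σ n K × (σ → K) | p.1 ∈ S ∧ ∀ γ ∈ insert a A, p.2 γ ^ r * (p.1 γ).1.det = 1})
      (fun q hq => mem_cl_of_mem ⟨hq.1.1, fun γ hγ => by
        by_cases e : γ = a
        · subst e
          simpa using hq.2
        · simpa [Function.update_of_ne e] using
            hq.1.2 γ ((Finset.mem_insert.1 hγ).resolve_left e)⟩) h2
    simpa using h3

omit [IsAlgClosed K] [CharZero K] in
lemma SL.unit_det {A B : Matrix n n K} (h : A * B = 1) (hA : IsInt O K A) (hB : IsInt O K B) :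
    ∃ u : Oˣ, algebraMap O K u = A.det := by
  obtain ⟨A, rfl⟩ := isInt_mat_iff_map.1 hA
  obtain ⟨B, rfl⟩ := isInt_mat_iff_map.1 hB
  have e : ∀ M : Matrix n n O, algebraMap O K M.det = (M.map (algebraMap O K)).det :=
    fun M => RingHom.map_det _ M
  have h1 : A.det * B.det = 1 := FaithfulSMul.algebraMap_injective O K (by
    rw [map_mul, e, e, ← det_mul, h, det_one, map_one])
  exact ⟨Units.mkOfMulEqOne _ _ h1, e A⟩



theorem dn_sl (hn : 0 < Fintype.card n)
    (hO : ∀ a : O, algebraMap O K a ∈ (algebraMap O' K).range)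
    (hr : ∀ (u : Oˣ) (μ : K), μ ^ Fintype.card n * algebraMap O K u = 1 →
      μ ∈ (algebraMap O' K).range)
    {g s : ℕ} {T : Set (Fin s)} {C : Fin s → Matrix n n K} (hC : ∀ j ∈ T, (C j).det = 1)
    (h : Dn O K {x | x ∈ Cls g T C ∧ SS x}) :
    Dn O' K {x | (x ∈ Cls g T C ∧ SS x) ∧ ∀ γ, (x γ).1.det = 1} := by
  classical
  intro x hx
  set r := Fintype.card n with hrn
  have h1 := SL.roots hn (h x hx.1) hx.2 Finset.univ
  have h2 : Gd O' K {p : Tup (Gen g s) n K × (Gen g s → K) | (p.1 ∈ Cls g T C ∧ SS p.1) ∧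
      ∀ γ, p.2 γ ^ r * (p.1 γ).1.det = 1} (x, fun _ => 1) := by
    refine cl_mono (fun p hp => ?_) h1
    obtain ⟨⟨hp1, hp2⟩, hp3⟩ := hp
    refine ⟨⟨hp1, fun γ => hp3 γ (Finset.mem_univ γ)⟩, isInt_prod.2 ⟨fun i => ?_,
      isInt_pi.2 fun γ => isInt_K.2 ?_⟩⟩
    · obtain ⟨a, ha⟩ := hp2 i
      exact ha ▸ hO a
    · have hi := isInt_prod.1 (isInt_pi.1 hp2 γ)
      obtain ⟨u, hu⟩ := SL.unit_det (hp1.1.1 γ) hi.1 hi.2
      exact hr u _ (by rw [hu]; exact hp3 γ (Finset.mem_univ γ))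
  obtain ⟨d, hd0, hd1⟩ : ∃ d : Fin s → ℕ, (∀ j ∈ T, d j = 0) ∧ (∑ j, d j = 1 ∨ ∀ j, j ∈ T) := by
    by_cases hT : ∀ j, j ∈ T
    · exact ⟨0, fun _ _ => rfl, Or.inr hT⟩
    · obtain ⟨j0, hj0⟩ := not_forall.1 hT
      refine ⟨Pi.single j0 1, fun j hj => Pi.single_eq_of_ne ?_ _, Or.inl (by simp)⟩
      rintro rfl
      exact hj0 hj
  let ν' : Tup (Gen g s) n K × (Gen g s → K) → Gen g s → K := fun p γ =>
    p.2 γ ^ (r - 1) * (p.1 γ).1.det
  let m : Tup (Gen g s) n K × (Gen g s → K) → Fin s → K := fun p j =>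
    if j ∈ T then 1 else p.2 (.inr (.inr j))
  let m' : Tup (Gen g s) n K × (Gen g s → K) → Fin s → K := fun p j =>
    if j ∈ T then 1 else ν' p (.inr (.inr j))
  let l : Tup (Gen g s) n K × (Gen g s → K) → Gen g s → K := fun p =>
    Sum.elim (fun i => p.2 (.inl i)) (Sum.elim (fun i => p.2 (.inr (.inl i)))
      fun j => m p j * (∏ k, m' p k) ^ d j)
  let l' : Tup (Gen g s) n K × (Gen g s → K) → Gen g s → K := fun p =>
    Sum.elim (fun i => ν' p (.inl i)) (Sum.elim (fun i => ν' p (.inr (.inl i)))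
      fun j => m' p j * (∏ k, m p k) ^ d j)
  have pν : ∀ γ, PM O' K fun p => ν' p γ := fun γ => by simp only [ν']; fun_prop
  have pm : ∀ j, PM O' K fun p => m p j := fun j => PM.ite _ (by fun_prop) (by fun_prop)
  have pm' : ∀ j, PM O' K fun p => m' p j := fun j => PM.ite _ (by fun_prop) (pν _)
  have pl : ∀ γ, PM O' K fun p => l p γ := by
    rintro (i | i | j)
    · simp only [l, Sum.elim_inl]; fun_prop
    · simp only [l, Sum.elim_inl, Sum.elim_inr]; fun_prop
    · exact (pm j).mul ((PM.prod _ pm').pow _)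
  have pl' : ∀ γ, PM O' K fun p => l' p γ := by
    rintro (i | i | j)
    · exact pν _
    · exact pν _
    · exact (pm' j).mul ((PM.prod _ pm).pow _)
  have h3 := h2.map (f := fun p => SL.sc p.1 (l p) (l' p))
    (T := {x | (x ∈ Cls g T C ∧ SS x) ∧ ∀ γ, (x γ).1.det = 1})
    (PM.pi fun γ => ((pl γ).msmul (by fun_prop)).prodMk ((pl' γ).msmul (by fun_prop))) (by
      rintro p ⟨hp1, hp2⟩
      have e1 : ∀ γ, p.2 γ * ν' p γ = 1 := fun γ => by
        rw [← hp2 γ, ← mul_assoc, ← pow_succ', Nat.sub_add_cancel hn]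
      have e2 : ∀ j, m p j * m' p j = 1 := fun j => by
        by_cases hj : j ∈ T
        · simp [m, m', hj]
        · simpa [m, m', hj] using e1 _
      have e3 : (∏ k, m p k) * ∏ k, m' p k = 1 := by
        rw [← Finset.prod_mul_distrib]
        exact Finset.prod_eq_one fun k _ => e2 k
      have e4 : ∀ j, m p j ^ r * (p.1 (.inr (.inr j))).1.det = 1 := fun j => by
        by_cases hj : j ∈ T
        · obtain ⟨a, a', ha, hb⟩ := hp1.1.2.2 j hj
          have : a.det * a'.det = 1 := by rw [← det_mul, ha, det_one]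
          simp [m, hj, hb, hC j hj, this]
        · simpa [m, hj] using hp2 _
      have e5 : (∏ k, m p k) ^ r = 1 := by
        have a1 := SL.det_rel hp1.1.1
        rw [hp1.1.2.1, det_one] at a1
        have a2 : ∏ j, (m p j ^ r * (p.1 (.inr (.inr j))).1.det) = 1 :=
          Finset.prod_eq_one fun j _ => e4 j
        rwa [Finset.prod_mul_distrib, ← a1, mul_one, Finset.prod_pow] at a2
      have e6 : (∏ k, m' p k) ^ r = 1 := by
        have := congrArg (· ^ r) e3
        simpa only [mul_pow, e5, one_mul, one_pow] using this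
      refine ⟨SL.mem_sc hp1 ?_ (fun j hj => by simp [l, m, hj, hd0 j hj]) ?_, ?_⟩
      · rintro (i | i | j)
        · exact e1 _
        · exact e1 _
        · change m p j * (∏ k, m' p k) ^ d j * (m' p j * (∏ k, m p k) ^ d j) = 1
          rw [mul_mul_mul_comm, e2, ← mul_pow, mul_comm (∏ k, m' p k), e3, one_pow, one_mul]
      · change ∏ j, m p j * (∏ k, m' p k) ^ d j = 1
        rw [Finset.prod_mul_distrib, Finset.prod_pow_eq_pow_sum]
        rcases hd1 with hd | hd
        · rw [hd, pow_one, e3]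
        · simp [m, m', hd]
      · rintro (i | i | j)
        · exact (det_smul _ _).trans (hp2 _)
        · exact (det_smul _ _).trans (hp2 _)
        · refine (det_smul _ _).trans ?_
          change (m p j * (∏ k, m' p k) ^ d j) ^ r * _ = 1
          rw [mul_pow, ← pow_mul, mul_comm (d j), pow_mul, e6, one_pow, mul_one, e4])
  have e : SL.sc x (l (x, fun _ => 1)) (l' (x, fun _ => 1)) = x := by
    ext1 γ
    rcases γ with i | i | j <;> simp [SL.sc, l, l', m, m', ν', hx.2]
  rwa [e] at h3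

end Vale.Agent.P002b
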