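import Vale.Agent.P002b.Cls
import Vale.Agent.P002b.Block

/-! Semisimple representations. -/

namespace Vale.Agent.P002b

open Matrix

variable {O K : Type} [CommRing O] [Field K] [IsAlgClosed K] [CharZero K] [Algebra O K]
  [FaithfulSMul O K]

section aux

variable {σ n k l : Type} [Fintype n] [DecidableEq n] [Fintype k] [DecidableEq k] [Fintype l]
  [DecidableEq l]

/-- value of a word -/
def SS.word {R : Type} [CommRing R] (x : Tup σ n R) (L : List σ) : Matrix n n R :=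
  (L.map fun γ => (x γ).1).prod

omit [IsAlgClosed K] [CharZero K] in
lemma SS.inv_word {x : Tup σ n K} {W : Submodule K (n → K)} (h : Inv x W) (L : List σ) :
    ∀ v ∈ W, SS.word x L *ᵥ v ∈ W := by
  induction L with
  | nil => intro v hv; simpa [SS.word] using hv
  | cons γ L ih =>
    intro v hv
    have := h γ _ (ih v hv)
    simpa [SS.word, Matrix.mulVec_mulVec] using this

omit [CharZero K] in
lemma SS.burnside [Nonempty n] {x : Tup σ n K} (h : Irr x) :
    Submodule.span K (Set.range (SS.word x)) = ⊤ := by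
  set A : Subalgebra K (Module.End K (n → K)) :=
    Algebra.adjoin K (Set.range fun γ => Matrix.toLin' (x γ).1) with hA
  have hs : IsSimpleModule A (n → K) := by
    rw [isSimpleModule_iff]
    refine { eq_bot_or_eq_top := fun W => ?_ }
    rcases h (W.restrictScalars K) (fun γ v hv => W.smul_mem
      (⟨Matrix.toLin' (x γ).1, Algebra.subset_adjoin ⟨γ, rfl⟩⟩ : A) hv) with e | e
    · exact Or.inl ((Submodule.restrictScalars_eq_bot_iff K A _).1 e)
    · exact Or.inr ((Submodule.restrictScalars_eq_top_iff K A _).1 e)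
  have hb := IsSimpleModule.algebraMap_end_bijective_of_isAlgClosed (k := K) (A := A) (V := n → K)
  have hf : Module.Finite (Module.End A (n → K)) (n → K) :=
    Module.Finite.of_restrictScalars_finite K _ _
  have htop : ∀ f : Module.End K (n → K), f ∈ A := by
    intro f
    obtain ⟨a, ha⟩ := Module.Finite.toModuleEnd_moduleEnd_surjective (R := A) (M := n → K)
      { toFun := f
        map_add' := f.map_add
        map_smul' := fun φ v => by
          obtain ⟨c, rfl⟩ := hb.2 φ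
          simp }
    have : f = a := LinearMap.ext fun v => (LinearMap.congr_fun ha v).symm
    rw [this]
    exact a.2
  rw [eq_top_iff]
  intro B _
  have key : ∀ f ∈ A, LinearMap.toMatrix' f ∈ Submodule.span K (Set.range (SS.word x)) := by
    intro f hf
    have hf' : f ∈ Subalgebra.toSubmodule A := hf
    rw [hA, Algebra.adjoin_eq_span] at hf'
    induction hf' using Submodule.span_induction with
    | mem f hf' =>
      refine Submodule.subset_span ?_
      induction hf' using Submonoid.closure_induction with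
      | mem f hf' =>
        obtain ⟨γ, rfl⟩ := hf'
        exact ⟨[γ], by simp [SS.word]⟩
      | one => exact ⟨[], by simp [SS.word]⟩
      | mul f f' h1 h2 a b =>
        obtain ⟨L, hL⟩ := a (htop _)
        obtain ⟨L', hL'⟩ := b (htop _)
        refine ⟨L ++ L', ?_⟩
        rw [LinearMap.toMatrix'_mul, ← hL, ← hL']
        simp [SS.word]
    | zero => simp
    | add f f' _ _ a b => rw [map_add]; exact add_mem (a (htop _)) (b (htop _))
    | smul c f _ a => rw [map_smul]; exact Submodule.smul_mem _ c (a (htop _))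
  simpa using key _ (htop (Matrix.toLin' B))

omit [IsAlgClosed K] [CharZero K] [DecidableEq n] [DecidableEq k] in
lemma SS.of_inj {x : Tup σ n K} {y : Tup σ k K} (f : (k → K) →ₗ[K] (n → K))
    (hf : Function.Injective f) (hi : ∀ γ v, (x γ).1 *ᵥ f v = f ((y γ).1 *ᵥ v)) (h : SS x) :
    SS y := by
  intro W hW
  obtain ⟨W', hW', hc⟩ := h (W.map f) (by
    rintro γ _ ⟨v, hv, rfl⟩
    exact ⟨_, hW γ v hv, (hi γ v).symm⟩)
  refine ⟨W'.comap f, fun γ v hv => ?_, ?_, ?_⟩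
  · change f _ ∈ W'
    rw [← hi]
    exact hW' γ _ hv
  · rw [Submodule.disjoint_def]
    intro v hv hv'
    exact hf ((Submodule.disjoint_def.1 hc.disjoint _ ⟨v, hv, rfl⟩ hv').trans (map_zero f).symm)
  · rw [codisjoint_iff, eq_top_iff]
    intro v _
    have : f v ∈ W.map f ⊔ W' := by rw [hc.sup_eq_top]; trivial
    obtain ⟨_, ⟨w, hw, rfl⟩, w', hw', e⟩ := Submodule.mem_sup.1 this
    refine Submodule.mem_sup.2 ⟨w, hw, v - w, ?_, by simp⟩
    change f _ ∈ W'
    rw [map_sub, ← e, add_sub_cancel_left]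
    exact hw'

omit [IsAlgClosed K] [CharZero K] [DecidableEq n] [DecidableEq k] [DecidableEq l] in
lemma SS.of_sum {x : Tup σ n K} {y : Tup σ k K} {z : Tup σ l K} (f : (k → K) →ₗ[K] (n → K))
    (f' : (l → K) →ₗ[K] (n → K)) (hi : ∀ γ v, (x γ).1 *ᵥ f v = f ((y γ).1 *ᵥ v))
    (hi' : ∀ γ v, (x γ).1 *ᵥ f' v = f' ((z γ).1 *ᵥ v)) (hs : ∀ v, ∃ a b, v = f a + f' b)
    (hy : SS y) (hz : SS z) : SS x := by
  intro W hW
  obtain ⟨U, hU, hc⟩ := hy (W.comap f) fun γ v hv => by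
    change f _ ∈ W
    rw [← hi]
    exact hW γ _ hv
  obtain ⟨U', hU', hc'⟩ := hz ((W ⊔ LinearMap.range f).comap f') fun γ v hv => by
    change f' _ ∈ W ⊔ LinearMap.range f
    obtain ⟨w, hw, _, ⟨a, rfl⟩, e⟩ := Submodule.mem_sup.1 hv
    rw [← hi', ← e, Matrix.mulVec_add, hi]
    exact Submodule.add_mem_sup (hW γ w hw) ⟨_, rfl⟩
  refine ⟨U.map f ⊔ U'.map f', fun γ v hv => ?_, ?_, ?_⟩
  · obtain ⟨_, ⟨a, ha, rfl⟩, _, ⟨b, hb, rfl⟩, rfl⟩ := Submodule.mem_sup.1 hv
    rw [Matrix.mulVec_add, hi, hi']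
    exact Submodule.add_mem_sup ⟨_, hU γ a ha, rfl⟩ ⟨_, hU' γ b hb, rfl⟩
  · rw [Submodule.disjoint_def]
    intro v hv hv'
    obtain ⟨_, ⟨a, ha, rfl⟩, _, ⟨b, hb, rfl⟩, rfl⟩ := Submodule.mem_sup.1 hv'
    have hb0 : b = 0 := Submodule.disjoint_def.1 hc'.disjoint b
      (Submodule.mem_sup.2 ⟨_, hv, -f a, ⟨-a, map_neg f a⟩, by simp⟩) hb
    rw [hb0, map_zero, add_zero] at hv ⊢
    rw [Submodule.disjoint_def.1 hc.disjoint a hv ha, map_zero]
  · have h1 : ∀ a, f a ∈ W ⊔ (U.map f ⊔ U'.map f') := fun a => by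
      have : a ∈ W.comap f ⊔ U := by rw [hc.sup_eq_top]; trivial
      obtain ⟨w, hw, u, hu, rfl⟩ := Submodule.mem_sup.1 this
      rw [map_add]
      exact Submodule.add_mem_sup hw (Submodule.mem_sup_left ⟨u, hu, rfl⟩)
    rw [codisjoint_iff, eq_top_iff]
    intro v _
    obtain ⟨a, b, rfl⟩ := hs v
    refine add_mem (h1 a) ?_
    have : b ∈ (W ⊔ LinearMap.range f).comap f' ⊔ U' := by rw [hc'.sup_eq_top]; trivial
    obtain ⟨w, hw, u, hu, rfl⟩ := Submodule.mem_sup.1 this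
    obtain ⟨w', hw', _, ⟨a', rfl⟩, e⟩ := Submodule.mem_sup.1 hw
    rw [map_add, ← e]
    exact add_mem (add_mem (Submodule.mem_sup_left hw') (h1 a'))
      (Submodule.mem_sup_right (Submodule.mem_sup_right ⟨u, hu, rfl⟩))

/-- the conjugated block sum -/
def SS.glue {R : Type} [CommRing R] (e : k ⊕ l ≃ n) (y : Tup σ k R) (z : Tup σ l R)
    (h h' : Matrix n n R) : Tup σ n R :=
  fun γ => (h * bd e (y γ).1 (z γ).1 * h', h * bd e (y γ).2 (z γ).2 * h')

/-- first inclusion -/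
def SS.in1 (e : k ⊕ l ≃ n) (h : Matrix n n K) : (k → K) →ₗ[K] (n → K) :=
  Matrix.toLin' h ∘ₗ LinearMap.funLeft K K e.symm ∘ₗ
    (LinearEquiv.sumArrowLequivProdArrow k l K K).symm.toLinearMap ∘ₗ LinearMap.inl K _ _

/-- second inclusion -/
def SS.in2 (e : k ⊕ l ≃ n) (h : Matrix n n K) : (l → K) →ₗ[K] (n → K) :=
  Matrix.toLin' h ∘ₗ LinearMap.funLeft K K e.symm ∘ₗ
    (LinearEquiv.sumArrowLequivProdArrow k l K K).symm.toLinearMap ∘ₗ LinearMap.inr K _ _

omit [IsAlgClosed K] [CharZero K] [Fintype k] [DecidableEq k] [Fintype l] [DecidableEq l] in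
lemma SS.in1_apply (e : k ⊕ l ≃ n) (h : Matrix n n K) (v : k → K) :
    SS.in1 e h v = h *ᵥ (Sum.elim v 0 ∘ e.symm) := rfl

omit [IsAlgClosed K] [CharZero K] [Fintype k] [DecidableEq k] [Fintype l] [DecidableEq l] in
lemma SS.in2_apply (e : k ⊕ l ≃ n) (h : Matrix n n K) (v : l → K) :
    SS.in2 e h v = h *ᵥ (Sum.elim 0 v ∘ e.symm) := rfl

omit [IsAlgClosed K] [CharZero K] [DecidableEq k] [DecidableEq l] in
lemma SS.ss_glue (e : k ⊕ l ≃ n) (y : Tup σ k K) (z : Tup σ l K) {h h' : Matrix n n K}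
    (hh : h * h' = 1) : SS (SS.glue e y z h h') ↔ SS y ∧ SS z := by
  have hh' : h' * h = 1 := mul_eq_one_comm.1 hh
  have c : ∀ (M : Matrix n n K) v, (h * M * h') *ᵥ (h *ᵥ v) = h *ᵥ (M *ᵥ v) := fun M v => by
    rw [Matrix.mulVec_mulVec, Matrix.mulVec_mulVec, Matrix.mul_assoc, hh', Matrix.mul_one]
  have i1 : ∀ γ v, (SS.glue e y z h h' γ).1 *ᵥ SS.in1 e h v = SS.in1 e h ((y γ).1 *ᵥ v) := by
    intro γ v
    rw [SS.in1_apply, SS.in1_apply, SS.glue, c, bd_mulVec]
    simp [← Pi.zero_def]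
  have i2 : ∀ γ v, (SS.glue e y z h h' γ).1 *ᵥ SS.in2 e h v = SS.in2 e h ((z γ).1 *ᵥ v) := by
    intro γ v
    rw [SS.in2_apply, SS.in2_apply, SS.glue, c, bd_mulVec]
    simp [← Pi.zero_def]
  have hinj : ∀ u v : n → K, h *ᵥ u = h *ᵥ v → u = v := fun u v huv => by
    have := congrArg (h' *ᵥ ·) huv
    simpa [Matrix.mulVec_mulVec, hh'] using this
  refine ⟨fun hs => ⟨SS.of_inj _ (fun u v huv => funext fun i => ?_) i1 hs,
    SS.of_inj _ (fun u v huv => funext fun i => ?_) i2 hs⟩,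
    fun hs => SS.of_sum _ _ i1 i2 (fun v => ?_) hs.1 hs.2⟩
  · simpa using congrFun (hinj _ _ huv) (e (.inl i))
  · simpa using congrFun (hinj _ _ huv) (e (.inr i))
  · refine ⟨fun i => (h' *ᵥ v) (e (.inl i)), fun j => (h' *ᵥ v) (e (.inr j)), ?_⟩
    rw [SS.in1_apply, SS.in2_apply, ← Matrix.mulVec_add]
    have : (Sum.elim (fun i => (h' *ᵥ v) (e (.inl i))) (0 : l → K) ∘ e.symm +
        Sum.elim (0 : k → K) (fun j => (h' *ᵥ v) (e (.inr j))) ∘ e.symm : n → K) = h' *ᵥ v := by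
      funext i
      obtain ⟨i, rfl⟩ := e.surjective i
      rcases i with i | i <;> simp
    rw [this, Matrix.mulVec_mulVec, hh, Matrix.one_mulVec]

omit [IsAlgClosed K] [CharZero K] [DecidableEq k] [DecidableEq l] in
lemma SS.conj_mul (e : k ⊕ l ≃ n) {h h' : Matrix n n K} (hh : h * h' = 1)
    (A A' : Matrix k k K) (B B' : Matrix l l K) :
    h * bd e A B * h' * (h * bd e A' B' * h') = h * bd e (A * A') (B * B') * h' := by
  have hh' : h' * h = 1 := mul_eq_one_comm.1 hh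
  simp only [← bd_mul, Matrix.mul_assoc]
  rw [← Matrix.mul_assoc h' h, hh', Matrix.one_mul]

omit [IsAlgClosed K] [CharZero K] in
lemma SS.conj_prod {α : Type} (e : k ⊕ l ≃ n) {h h' : Matrix n n K} (hh : h * h' = 1)
    (L : List α) (A : α → Matrix k k K) (B : α → Matrix l l K) :
    (L.map fun a => h * bd e (A a) (B a) * h').prod =
      h * bd e (L.map A).prod (L.map B).prod * h' := by
  induction L with
  | nil => simp [hh]
  | cons a L ih =>
    rw [List.map_cons, List.prod_cons, ih, SS.conj_mul e hh, List.map_cons, List.map_cons,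
      List.prod_cons, List.prod_cons]

omit [IsAlgClosed K] [CharZero K] in
lemma SS.rel_glue {g s : ℕ} (e : k ⊕ l ≃ n) (y : Tup (Gen g s) k K) (z : Tup (Gen g s) l K)
    {h h' : Matrix n n K} (hh : h * h' = 1) :
    rel (SS.glue e y z h h') = h * bd e (rel y) (rel z) * h' := by
  simp only [rel, SS.glue, List.ofFn_eq_map, SS.conj_mul e hh, SS.conj_prod e hh]

omit [IsAlgClosed K] [CharZero K] [Fintype k] [Fintype l] in
lemma SS.conj_eq_one (e : k ⊕ l ≃ n) {h h' : Matrix n n K} (hh : h * h' = 1)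
    {A : Matrix k k K} {B : Matrix l l K} (h1 : h * bd e A B * h' = 1) : A = 1 ∧ B = 1 := by
  have hh' : h' * h = 1 := mul_eq_one_comm.1 hh
  refine bd_inj e ?_
  have := congrArg (fun M => h' * M * h) h1
  simp only [← Matrix.mul_assoc, hh', Matrix.one_mul, Matrix.mul_one] at this
  rw [Matrix.mul_assoc, hh', Matrix.mul_one] at this
  rw [this, bd_one]

omit [IsAlgClosed K] [CharZero K] in
lemma SS.charpoly_conj {h h' : Matrix n n K} (hh : h * h' = 1) (A : Matrix n n K) :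
    (h * A * h').charpoly = A.charpoly := by
  have hh' : h' * h = 1 := mul_eq_one_comm.1 hh
  rw [Matrix.charpoly_mul_comm, ← Matrix.mul_assoc, hh', Matrix.one_mul]

omit [IsAlgClosed K] [CharZero K] [FaithfulSMul O K] [DecidableEq n] [Fintype k] [DecidableEq k]
  [Fintype l] [DecidableEq l] in
lemma SS.pm_glue (e : k ⊕ l ≃ n) :
    PM O K fun p : (Tup σ k K × Tup σ l K) × Matrix n n K × Matrix n n K =>
      SS.glue e p.1.1 p.1.2 p.2.1 p.2.2 := by
  refine PM.pi fun γ => PM.prodMk ?_ ?_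
  · exact ((PM.id.snd.fst).mmul (PM.bd e ((PM.apply γ).comp PM.id.fst.fst).fst
      ((PM.apply γ).comp PM.id.fst.snd).fst)).mmul PM.id.snd.snd
  · exact ((PM.id.snd.fst).mmul (PM.bd e ((PM.apply γ).comp PM.id.fst.fst).snd
      ((PM.apply γ).comp PM.id.fst.snd).snd)).mmul PM.id.snd.snd

omit [IsAlgClosed K] [CharZero K] in
lemma SS.glue_mem {g s : ℕ} {T : Set (Fin s)} {C : Fin s → Matrix n n K} (e : k ⊕ l ≃ n)
    {C₁ : Fin s → Matrix k k K} {C₂ : Fin s → Matrix l l K}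
    (hC : ∀ j ∈ T, Conj (C j) (bd e (C₁ j) (C₂ j))) {y : Tup (Gen g s) k K}
    {z : Tup (Gen g s) l K} (hy : y ∈ Cls g T C₁) (hz : z ∈ Cls g T C₂) {u u' : Matrix n n K}
    (hu : u * u' = 1) : SS.glue e y z u u' ∈ Cls g T C := by
  refine ⟨fun γ => ?_, ?_, fun j hj => ?_⟩
  · rw [SS.glue, SS.conj_mul e hu, hy.1, hz.1, bd_one, Matrix.mul_one, hu]
  · rw [SS.rel_glue e y z hu, hy.2.1, hz.2.1, bd_one, Matrix.mul_one, hu]
  · obtain ⟨a, a', ha, e1⟩ := hy.2.2 j hj
    obtain ⟨b, b', hb', e2⟩ := hz.2.2 j hj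
    obtain ⟨c, c', hc', e3⟩ := hC j hj
    refine ⟨u * bd e a b * c, c' * bd e a' b' * u', ?_, ?_⟩
    · simp only [Matrix.mul_assoc]
      rw [← Matrix.mul_assoc c c', hc', Matrix.one_mul, ← Matrix.mul_assoc (bd e a b), bd_mul, ha,
        hb', bd_one, Matrix.one_mul, hu]
    · change u * bd e (y _).1 (z _).1 * u' = _
      rw [e1, e2, ← bd_mul, ← bd_mul, e3]
      simp only [Matrix.mul_assoc]

omit [IsAlgClosed K] [CharZero K] in
lemma SS.split {g s : ℕ} {T : Set (Fin s)} {C : Fin s → Matrix n n K} (e : k ⊕ l ≃ n)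
    {x : Tup (Gen g s) n K} (hx : x ∈ Cls g T C) (hs : SS x) {h h' : Matrix n n K}
    (hh : h * h' = 1) (hA : ∀ γ, ∃ A₁ A₂, (x γ).1 = h * bd e A₁ A₂ * h') :
    ∃ (y : Tup (Gen g s) k K) (z : Tup (Gen g s) l K), x = SS.glue e y z h h' ∧
      (y ∈ Cls g T (fun j => (y (.inr (.inr j))).1) ∧ SS y) ∧
      (z ∈ Cls g T (fun j => (z (.inr (.inr j))).1) ∧ SS z) ∧
      ∀ j ∈ T, Conj (C j) (bd e (y (.inr (.inr j))).1 (z (.inr (.inr j))).1) := by
  have hh' : h' * h = 1 := mul_eq_one_comm.1 hh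
  choose A₁ A₂ hA using hA
  have hdet : ∀ γ, IsUnit (A₁ γ).det ∧ IsUnit (A₂ γ).det := fun γ => by
    have h1 : IsUnit (x γ).1.det := Matrix.isUnit_det_of_right_inverse (hx.1 γ)
    rw [hA, Matrix.det_mul, Matrix.det_mul, bd, Matrix.det_submatrix_equiv_self,
      Matrix.det_fromBlocks_zero₂₁] at h1
    exact IsUnit.mul_iff.1 (IsUnit.mul_iff.1 (IsUnit.mul_iff.1 h1).1).2
  let y : Tup (Gen g s) k K := fun γ => (A₁ γ, (A₁ γ)⁻¹)
  let z : Tup (Gen g s) l K := fun γ => (A₂ γ, (A₂ γ)⁻¹)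
  have hxe : x = SS.glue e y z h h' := funext fun γ => Prod.ext (hA γ) (by
    refine (Matrix.inv_eq_right_inv (hx.1 γ)).symm.trans (Matrix.inv_eq_right_inv ?_)
    rw [hA, SS.glue, SS.conj_mul e hh, Matrix.mul_nonsing_inv _ (hdet γ).1,
      Matrix.mul_nonsing_inv _ (hdet γ).2, bd_one, Matrix.mul_one, hh])
  have hr := SS.conj_eq_one e hh ((SS.rel_glue e y z hh).symm.trans (hxe ▸ hx.2.1))
  have hss := (SS.ss_glue e y z hh).1 (hxe ▸ hs)
  refine ⟨y, z, hxe, ⟨⟨fun γ => Matrix.mul_nonsing_inv _ (hdet γ).1, hr.1,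
    fun j _ => ⟨1, 1, by simp, by simp⟩⟩, hss.1⟩, ⟨⟨fun γ => Matrix.mul_nonsing_inv _ (hdet γ).2,
    hr.2, fun j _ => ⟨1, 1, by simp, by simp⟩⟩, hss.2⟩, fun j hj => ?_⟩
  obtain ⟨c, c', hc', e3⟩ := hx.2.2 j hj
  refine ⟨h' * c, c' * h, ?_, ?_⟩
  · rw [Matrix.mul_assoc, ← Matrix.mul_assoc c, hc', Matrix.one_mul, hh']
  · have e4 : h' * (x (.inr (.inr j))).1 * h = bd e (A₁ (.inr (.inr j))) (A₂ (.inr (.inr j))) := by
      rw [hA]
      simp only [← Matrix.mul_assoc, hh', Matrix.one_mul]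
      rw [Matrix.mul_assoc, hh', Matrix.mul_one]
    change bd e (A₁ _) (A₂ _) = _
    rw [← e4, e3]
    simp only [Matrix.mul_assoc]

omit [IsAlgClosed K] [CharZero K] [FaithfulSMul O K] in
lemma SS.eigU (e : k ⊕ l ≃ n) {C : Matrix n n K} {A : Matrix k k K} {B : Matrix l l K}
    (h : Conj C (bd e A B)) (hC : EigU O C) : EigU O A ∧ EigU O B := by
  obtain ⟨c, c', hc, e1⟩ := h
  have : C.charpoly = A.charpoly * B.charpoly := by
    rw [← charpoly_bd e, e1, SS.charpoly_conj hc]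
  exact ⟨fun μ hμ => hC μ (by rw [this]; exact Polynomial.root_mul.2 (Or.inl hμ)),
    fun μ hμ => hC μ (by rw [this]; exact Polynomial.root_mul.2 (Or.inr hμ))⟩

end aux

omit [CharZero K] in
/-- Irreducibility is an open condition (Burnside). -/
theorem irr_open {σ n : Type} [Fintype n] [DecidableEq n] {x₀ : Tup σ n K} (h : Irr x₀) :
    ∃ δ : Tup σ n K → K, IsP K δ ∧ δ x₀ ≠ 0 ∧ ∀ x, δ x ≠ 0 → Irr x := by
  rcases isEmpty_or_nonempty n with hn | hn
  · exact ⟨fun _ => 1, IsP.const _, one_ne_zero, fun x _ W _ => Or.inl (Subsingleton.elim _ _)⟩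
  obtain ⟨κ, a, -, hsp, hli⟩ := exists_linearIndependent' K (SS.word x₀)
  rw [SS.burnside h] at hsp
  let b := Module.Basis.mk hli hsp.ge
  let e : κ ≃ n × n := b.indexEquiv (Matrix.stdBasis K n n)
  let M : Tup σ n K → Matrix (n × n) (n × n) K :=
    fun x => Matrix.of fun p q => SS.word x (a (e.symm p)) q.1 q.2
  refine ⟨fun x => (M x).det, IsP.det (isP_mat.2 fun p q => IsP.entry
    (IsP.list_prod (a (e.symm p)) fun γ _ => by fun_prop) q.1 q.2), ?_, fun x hx W hW => ?_⟩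
  · refine ((Matrix.isUnit_iff_isUnit_det _).1
      (Matrix.linearIndependent_rows_iff_isUnit.1 ?_)).ne_zero
    have := (hli.comp e.symm e.symm.injective).map' ((LinearEquiv.curry K K n n).symm.toLinearMap ∘ₗ
      (Matrix.ofLinearEquiv K).symm.toLinearMap) (by simp)
    exact this
  · have hu : IsUnit (M x) := (Matrix.isUnit_iff_isUnit_det _).2 (Ne.isUnit hx)
    have hall : ∀ B : Matrix n n K, ∀ v ∈ W, B *ᵥ v ∈ W := by
      intro B v hv
      obtain ⟨c, hc⟩ := Matrix.vecMul_surjective_iff_isUnit.2 hu fun q => B q.1 q.2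
      have : B = ∑ p, c p • SS.word x (a (e.symm p)) := by
        ext i j
        simpa [Matrix.vecMul, dotProduct, M, Matrix.sum_apply] using (congrFun hc (i, j)).symm
      rw [this, Matrix.sum_mulVec]
      exact W.sum_mem fun p _ => by
        rw [Matrix.smul_mulVec]
        exact W.smul_mem _ (SS.inv_word hW _ v hv)
    rw [or_iff_not_imp_left]
    intro hne
    obtain ⟨w, hw, hw0⟩ := Submodule.exists_mem_ne_zero_of_ne_bot hne
    obtain ⟨i, hi⟩ := Function.ne_iff.1 hw0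
    rw [eq_top_iff]
    intro v _
    have := hall (Matrix.vecMulVec v (Pi.single i (w i)⁻¹)) w hw
    rw [Matrix.vecMulVec_mulVec, single_dotProduct, inv_mul_cancel₀ hi] at this
    simpa using this

theorem dn_ss (hU : HasUnit O) {r : ℕ}
    (hP : ∀ (n : Type) [Fintype n] [DecidableEq n], Fintype.card n ≤ r →
      PFoam O K n (Fintype.card n + 1))
    (g : ℕ) {s : ℕ} (T : Set (Fin s)) (n : Type) [Fintype n] [DecidableEq n]
    (hn : Fintype.card n ≤ r) (C : Fin s → Matrix n n K) (hC : ∀ j ∈ T, EigU O (C j)) :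
    Dn O K {x | x ∈ Cls g T C ∧ SS x} := by
  induction hm : Fintype.card n using Nat.strong_induction_on generalizing n with
  | _ m ih =>
  rintro x ⟨hx, hs⟩
  by_cases hi : Irr x
  · obtain ⟨δ, hδ, h0, h⟩ := irr_open hi
    refine Gd.mono (fun y hy => And.intro hy.1 fun W hW => ?_)
      ((dn_cls hU (hP n hn) g T C hC x hx).open hδ h0)
    rcases h y hy.2 W hW with rfl | rfl
    · exact ⟨⊤, fun _ _ _ => trivial, isCompl_bot_top⟩
    · exact ⟨⊥, fun _ v hv => by simp [(Submodule.mem_bot K).1 hv], isCompl_top_bot⟩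
  simp only [Irr, not_forall, not_or] at hi
  obtain ⟨W, hW, hb, ht⟩ := hi
  obtain ⟨W', hW', hc⟩ := hs W hW
  obtain ⟨e, h, h', hh, -, -, hA⟩ := exists_blocks hc
  have hp1 : 0 < Module.finrank K W := Nat.pos_of_ne_zero fun h0 =>
    hb (Submodule.finrank_eq_zero.1 h0)
  have hp2 : 0 < Module.finrank K W' := Nat.pos_of_ne_zero fun h0 => ht (by
    have := hc.sup_eq_top
    rwa [Submodule.finrank_eq_zero.1 h0, sup_bot_eq] at this)
  have hA' := fun γ => hA (x γ).1 (hW γ) (hW' γ)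
  clear hA
  generalize Module.finrank K W = a at e hA' hp1
  generalize Module.finrank K W' = b at e hA' hp2
  have hcard : a + b = m := by
    rw [← hm, ← Fintype.card_congr e]; simp
  obtain ⟨y, z, hxe, hy, hz, hcj⟩ := SS.split e hx hs hh hA'
  have g1 := ih a (by omega) (Fin a) (by simp; omega) _
    (fun j hj => (SS.eigU e (hcj j hj) (hC j hj)).1) (Fintype.card_fin _) y hy
  have g2 := ih b (by omega) (Fin b) (by simp; omega) _
    (fun j hj => (SS.eigU e (hcj j hj) (hC j hj)).2) (Fintype.card_fin _) z hz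
  have g3 := Gd.map (T := {x | x ∈ Cls g T C ∧ SS x}) (SS.pm_glue e) (by
    rintro ⟨⟨y', z'⟩, u, u'⟩ ⟨⟨hy', hz'⟩, hu⟩
    exact ⟨SS.glue_mem e hcj hy'.1 hz'.1 hu, (SS.ss_glue e y' z' hu).2 ⟨hy'.2, hz'.2⟩⟩)
    ((g1.prod g2).prod (dn_GL hU (h, h') hh))
  rw [hxe]
  exact g3

end Vale.Agent.P002b
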