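import Mathlib

/-! The objects in the statement: fundamental groups of curves and their representations. -/

namespace Vale.Agent.P002b.Stmt

open Matrix

/-- Generators `a_i`, `b_i` (`i < g`) and `c_j` (`j < s`). -/
abbrev Generator (g s : ℕ) := Fin g ⊕ Fin g ⊕ Fin s

/-- The relator `[a_1, b_1] ⋯ [a_g, b_g] c_1 ⋯ c_s`. -/
def relator (g s : ℕ) : FreeGroup (Generator g s) :=
  (List.ofFn fun i : Fin g =>
      FreeGroup.of (Sum.inl i) * FreeGroup.of (Sum.inr (Sum.inl i)) *
        (FreeGroup.of (Sum.inl i))⁻¹ * (FreeGroup.of (Sum.inr (Sum.inl i)))⁻¹).prod *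
    (List.ofFn fun j : Fin s => FreeGroup.of (Sum.inr (Sum.inr j))).prod

/-- The fundamental group of a smooth projective curve of genus `g` with `s` points removed. -/
abbrev CurveGroup (g s : ℕ) := PresentedGroup ({relator g s} : Set (FreeGroup (Generator g s)))

/-- The loop around the `j`-th puncture. -/
def meridian (g s : ℕ) (j : Fin s) : CurveGroup g s := PresentedGroup.of (Sum.inr (Sum.inr j))

/-- Representations into `SL_r(ℂ)`. -/
abbrev SLRep (G : Type) [Group G] (r : ℕ) := G →* SpecialLinearGroup (Fin r) ℂ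

/-- A subspace of `ℂ^r` stable under the representation. -/
def Stable {G : Type} [Group G] {r : ℕ} (ρ : SLRep G r) (W : Submodule ℂ (Fin r → ℂ)) : Prop :=
  ∀ γ : G, ∀ v ∈ W, (ρ γ : Matrix (Fin r) (Fin r) ℂ) *ᵥ v ∈ W

/-- Every stable subspace has a stable complement. -/
def Semisimple {G : Type} [Group G] {r : ℕ} (ρ : SLRep G r) : Prop :=
  ∀ W, Stable ρ W → ∃ W', Stable ρ W' ∧ IsCompl W W'

/-- All eigenvalues are roots of unity. -/
def QuasiUnipotent {r : ℕ} (A : SpecialLinearGroup (Fin r) ℂ) : Prop :=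
  ∀ μ : ℂ, (A : Matrix (Fin r) (Fin r) ℂ).charpoly.IsRoot μ → ∃ k : ℕ, 0 < k ∧ μ ^ k = 1

/-- The regular functions on the representation variety: polynomials in matrix entries. -/
def regularFunctions (G : Type) [Group G] (r : ℕ) : Subalgebra ℂ (SLRep G r → ℂ) :=
  Algebra.adjoin ℂ {f | ∃ (γ : G) (i j : Fin r), f = fun ρ => (ρ γ : Matrix (Fin r) (Fin r) ℂ) i j}

/-- The representation takes values in `SL_r` of the ring of integers of `L`. -/
def IntegralOver {G : Type} [Group G] {r : ℕ} (L : IntermediateField ℚ ℂ) (ρ : SLRep G r) :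
    Prop :=
  ∀ (γ : G) (i j : Fin r), (ρ γ : Matrix (Fin r) (Fin r) ℂ) i j ∈ L ∧
    IsIntegral ℤ ((ρ γ : Matrix (Fin r) (Fin r) ℂ) i j)

/-- Semisimple representations whose monodromy at each puncture `j ∈ T` is conjugate to `C j`. -/
def Locus (g s r : ℕ) (T : Set (Fin s)) (C : Fin s → SpecialLinearGroup (Fin r) ℂ) :
    Set (SLRep (CurveGroup g s) r) :=
  {ρ | Semisimple ρ ∧ ∀ j ∈ T, IsConj (C j) (ρ (meridian g s j))}

end Vale.Agent.P002b.Stmt
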