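import Vale.Agent.P002b.Induct
import Vale.Agent.P002b.SS
import Vale.Agent.P002b.SL
import Vale.Agent.P002b.Field
import Vale.Agent.P002b.Big
import Vale.Agent.P002b.Stmt

/-! The main theorem. -/

namespace Vale.Agent.P002b

open Matrix Stmt NumberField

namespace Main

variable {g s r : ℕ}

/-- The underlying matrix. -/
def mt : SpecialLinearGroup (Fin r) ℂ →* Matrix (Fin r) (Fin r) ℂ := SpecialLinearGroup.coeMonoidHom

lemma mt_inj {A B : SpecialLinearGroup (Fin r) ℂ} (h : mt A = mt B) : A = B := Subtype.ext h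

lemma mt_mul_inv (A : SpecialLinearGroup (Fin r) ℂ) : mt A * mt A⁻¹ = 1 := by
  rw [← map_mul, mul_inv_cancel, map_one]

/-- The values of a representation on the generators, with their inverses. -/
def tup (ρ : SLRep (CurveGroup g s) r) : Tup (Gen g s) (Fin r) ℂ := fun γ =>
  (mt (ρ (PresentedGroup.of γ)), mt (ρ (PresentedGroup.of γ))⁻¹)

lemma exists_pm (O : Type) [CommRing O] [Algebra O ℂ] (γ : CurveGroup g s) :
    ∃ P P' : Tup (Gen g s) (Fin r) ℂ → Matrix (Fin r) (Fin r) ℂ, PM O ℂ P ∧ PM O ℂ P' ∧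
      ∀ ρ : SLRep (CurveGroup g s) r, mt (ρ γ) = P (tup ρ) ∧ mt (ρ γ)⁻¹ = P' (tup ρ) := by
  induction γ using PresentedGroup.induction_on with
  | _ w =>
  induction w using FreeGroup.induction_on with
  | C1 => exact ⟨fun _ => 1, fun _ => 1, by fun_prop, by fun_prop, fun ρ => by simp⟩
  | of a =>
    exact ⟨fun x => (x a).1, fun x => (x a).2, by fun_prop, by fun_prop, fun ρ => ⟨rfl, rfl⟩⟩
  | inv_of a ih =>
    obtain ⟨P, P', h, h', e⟩ := ih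
    exact ⟨P', P, h', h, fun ρ => by rw [map_inv, map_inv, inv_inv]; exact (e ρ).symm⟩
  | mul a b iha ihb =>
    obtain ⟨P, P', h, h', e⟩ := iha
    obtain ⟨Q, Q', k, k', f⟩ := ihb
    refine ⟨fun x => P x * Q x, fun x => Q' x * P' x, by fun_prop, by fun_prop, fun ρ => ?_⟩
    rw [map_mul, map_mul, _root_.mul_inv_rev, map_mul, map_mul, (e ρ).1, (e ρ).2, (f ρ).1, (f ρ).2]
    exact ⟨rfl, rfl⟩

lemma exists_pol {f : SLRep (CurveGroup g s) r → ℂ} (hf : f ∈ regularFunctions _ r) :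
    ∃ F ∈ pol ℂ (Tup (Gen g s) (Fin r) ℂ), ∀ ρ, f ρ = F (tup ρ) := by
  induction hf using Algebra.adjoin_induction with
  | mem f hf =>
    obtain ⟨γ, i, j, rfl⟩ := hf
    obtain ⟨P, P', h, -, e⟩ := exists_pm (r := r) ℤ γ
    exact ⟨fun x => P x i j, isP_iff.1 (h.1.entry i j), fun ρ => congrFun₂ (e ρ).1 i j⟩
  | algebraMap a => exact ⟨_, Subalgebra.algebraMap_mem _ a, fun ρ => rfl⟩
  | add f₁ f₂ _ _ h₁ h₂ =>
    obtain ⟨F₁, a₁, e₁⟩ := h₁
    obtain ⟨F₂, a₂, e₂⟩ := h₂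
    exact ⟨_, add_mem a₁ a₂, fun ρ => by simp [e₁, e₂]⟩
  | mul f₁ f₂ _ _ h₁ h₂ =>
    obtain ⟨F₁, a₁, e₁⟩ := h₁
    obtain ⟨F₂, a₂, e₂⟩ := h₂
    exact ⟨_, mul_mem a₁ a₂, fun ρ => by simp [e₁, e₂]⟩

lemma rel_eq (φ : FreeGroup (Generator g s) →* SpecialLinearGroup (Fin r) ℂ)
    {x : Tup (Gen g s) (Fin r) ℂ} (h : ∀ γ, (x γ).1 = mt (φ (.of γ)))
    (h' : ∀ γ, (x γ).2 = mt (φ (.of γ))⁻¹) : rel x = mt (φ (relator g s)) := by
  rw [← MonoidHom.comp_apply, relator, map_mul, map_list_prod, map_list_prod, List.map_ofFn,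
    List.map_ofFn, rel]
  congr 3
  · funext i
    simp [h, h']
  · funext j
    simp [h]

lemma exists_tup {x : Tup (Gen g s) (Fin r) ℂ} (h1 : ∀ γ, (x γ).1 * (x γ).2 = 1) (h2 : rel x = 1)
    (h3 : ∀ γ, (x γ).1.det = 1) : ∃ ρ, tup ρ = x := by
  obtain ⟨f, hf⟩ : ∃ f : Generator g s → SpecialLinearGroup (Fin r) ℂ, ∀ γ, (x γ).1 = mt (f γ) :=
    ⟨fun γ => ⟨(x γ).1, h3 γ⟩, fun _ => rfl⟩
  have hi : ∀ γ, (x γ).2 = mt (f γ)⁻¹ := fun γ =>
    left_inv_eq_right_inv (mul_eq_one_comm.1 (h1 γ)) (hf γ ▸ mt_mul_inv _)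
  have hr : ∀ w ∈ ({relator g s} : Set (FreeGroup (Generator g s))), FreeGroup.lift f w = 1 := by
    rintro w rfl
    refine mt_inj ?_
    rw [← rel_eq (FreeGroup.lift f) (x := x) (fun γ => by simp [hf]) (fun γ => by simp [hi]), h2,
      map_one]
  refine ⟨PresentedGroup.toGroup hr, funext fun γ => Prod.ext ?_ ?_⟩
  · simp only [tup, PresentedGroup.toGroup.of, hf]
  · simp only [tup, PresentedGroup.toGroup.of, hi]

lemma rel_tup (ρ : SLRep (CurveGroup g s) r) : rel (tup ρ) = 1 := by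
  rw [rel_eq (ρ.comp (PresentedGroup.mk _)) (fun γ => rfl) (fun γ => rfl), MonoidHom.comp_apply,
    PresentedGroup.one_of_mem (Set.mem_singleton _), map_one, map_one]

lemma inv_stable {A A' : Matrix (Fin r) (Fin r) ℂ} (h : A' * A = 1)
    {W : Submodule ℂ (Fin r → ℂ)} (hA : ∀ v ∈ W, A *ᵥ v ∈ W) : ∀ v ∈ W, A' *ᵥ v ∈ W := by
  intro v hv
  have inj : Function.Injective ((Matrix.toLin' A).restrict (p := W) (q := W) hA) := by
    intro a b e
    have e' : A *ᵥ (a : Fin r → ℂ) = A *ᵥ (b : Fin r → ℂ) := congrArg Subtype.val e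
    have := congrArg (fun w => A' *ᵥ w) e'
    simpa [Matrix.mulVec_mulVec, h] using this
  obtain ⟨w, hw⟩ := LinearMap.injective_iff_surjective.1 inj ⟨v, hv⟩
  have : A *ᵥ (w : Fin r → ℂ) = v := congrArg Subtype.val hw
  rw [← this, Matrix.mulVec_mulVec, h, Matrix.one_mulVec]
  exact w.2

lemma stable_iff (ρ : SLRep (CurveGroup g s) r) (W : Submodule ℂ (Fin r → ℂ)) :
    Stable ρ W ↔ Inv (tup ρ) W := by
  refine ⟨fun h γ => h _, fun h γ => ?_⟩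
  change ∀ v ∈ W, mt (ρ γ) *ᵥ v ∈ W
  induction γ using PresentedGroup.induction_on with
  | _ w =>
  induction w using FreeGroup.induction_on with
  | C1 => simp
  | of a => exact h a
  | inv_of a ih =>
    rw [map_inv, map_inv]
    exact inv_stable (mul_eq_one_comm.1 (mt_mul_inv _)) ih
  | mul a b iha ihb =>
    intro v hv
    rw [map_mul, map_mul, map_mul, ← Matrix.mulVec_mulVec]
    exact iha _ (ihb v hv)

lemma conj_iff (hr : 0 < r) (A B : SpecialLinearGroup (Fin r) ℂ) :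
    IsConj A B ↔ Conj (mt A) (mt B) := by
  rw [isConj_iff]
  constructor
  · rintro ⟨c, rfl⟩
    exact ⟨mt c, mt c⁻¹, mt_mul_inv c, by rw [map_mul, map_mul]⟩
  · rintro ⟨h, h', e, hB⟩
    obtain ⟨μ, hμ⟩ := IsAlgClosed.exists_pow_nat_eq h'.det hr
    obtain ⟨c, hc⟩ : ∃ c : SpecialLinearGroup (Fin r) ℂ, mt c = μ • h :=
      ⟨⟨μ • h, by rw [det_smul, Fintype.card_fin, hμ, mul_comm, ← det_mul, e, det_one]⟩, rfl⟩
    refine ⟨c, ?_⟩
    rw [mul_inv_eq_iff_eq_mul]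
    refine mt_inj ?_
    simp only [map_mul, hB, hc, Matrix.smul_mul, Matrix.mul_smul, Matrix.mul_assoc,
      mul_eq_one_comm.1 e, Matrix.mul_one]

lemma mem_locus (hr : 0 < r) {T : Set (Fin s)} {C : Fin s → SpecialLinearGroup (Fin r) ℂ}
    (ρ : SLRep (CurveGroup g s) r) : ρ ∈ Locus g s r T C ↔
      (tup ρ ∈ Cls g T (fun j => mt (C j)) ∧ SS (tup ρ)) ∧ ∀ γ, (tup ρ γ).1.det = 1 := by
  have e : Semisimple ρ ↔ SS (tup ρ) := by simp only [Semisimple, SS, stable_iff]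
  simp only [Locus, Cls, Set.mem_ofPred_eq, e, conj_iff hr]
  exact ⟨fun h => ⟨⟨⟨fun γ => mt_mul_inv _, rel_tup ρ, h.2⟩, h.1⟩, fun γ => (ρ _).2⟩,
    fun h => ⟨h.1.2, h.1.1.2.2⟩⟩

lemma integral_of {L : IntermediateField ℚ ℂ} {ρ : SLRep (CurveGroup g s) r}
    (h : IsInt (𝓞 L) ℂ (tup ρ)) : IntegralOver L ρ := by
  intro γ i j
  obtain ⟨P, P', hP, -, e⟩ := exists_pm (r := r) (𝓞 L) γ
  obtain ⟨a, ha⟩ := isInt_K.1 (isInt_mat.1 (hP.2 _ h) i j)
  change mt (ρ γ) i j ∈ L ∧ IsIntegral ℤ (mt (ρ γ) i j)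
  rw [(e ρ).1, ← ha]
  exact ⟨(a : L).2, (RingOfIntegers.isIntegral_coe a).map (IsScalarTower.toAlgHom ℤ L ℂ)⟩

end Main

theorem main (g s r : ℕ) (T : Set (Fin s)) (C : Fin s → SpecialLinearGroup (Fin r) ℂ)
    (hC : ∀ j ∈ T, QuasiUnipotent (C j)) :
    ∃ L : IntermediateField ℚ ℂ, FiniteDimensional ℚ L ∧
      ∀ f ∈ regularFunctions (CurveGroup g s) r,
        (∀ ρ ∈ Locus g s r T C, IntegralOver L ρ → f ρ = 0) → ∀ ρ ∈ Locus g s r T C, f ρ = 0 := by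
  rcases Nat.eq_zero_or_pos r with rfl | hr
  · exact ⟨⊥, inferInstance, fun f _ h ρ hρ => h ρ hρ fun _ i => i.elim0⟩
  obtain ⟨L₁, h₁, hB⟩ := exists_big r
  obtain ⟨L₀, L, hle, f₀, fL, hU, hZ, hO, hroot⟩ := exists_fields r hr
    (⋃ j ∈ T, {μ | (C j : Matrix (Fin r) (Fin r) ℂ).charpoly.IsRoot μ})
    (T.toFinite.biUnion fun j _ => Polynomial.finite_setOfPred_isRoot (charpoly_monic _).ne_zero)
    (fun z hz => by
      simp only [Set.mem_iUnion] at hz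
      obtain ⟨j, hj, hz⟩ := hz
      exact hC j hj z hz) L₁ h₁
  have hD := dn_sl (O' := 𝓞 L) (by simpa using hr) hO (by simpa using hroot)
    (C := fun j => Main.mt (C j)) (fun j _ => (C j).2)
    (dn_ss hU (r := r) (fun n _ _ hn => pfoam_all hU (hB L₀ hle f₀) n (by omega)) g T (Fin r) (by simp) _
      fun j hj μ hμ => hZ μ (Set.mem_biUnion hj hμ))
  refine ⟨L, fL, fun f hf h0 ρ hρ => ?_⟩
  obtain ⟨F, hF, e⟩ := Main.exists_pol hf
  rw [e]
  refine hD _ ((Main.mem_locus hr ρ).1 hρ) F hF fun y hy => ?_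
  obtain ⟨ρ', rfl⟩ := Main.exists_tup hy.1.1.1.1 hy.1.1.1.2.1 hy.1.2
  rw [← e]
  exact h0 ρ' ((Main.mem_locus hr ρ').2 hy.1) (Main.integral_of hy.2)

end Vale.Agent.P002b
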