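import Vale.Agent.P002b.Defs

/-! Elementary moves on foam systems. -/

namespace Vale.Agent.P002b

open Matrix

variable {O K : Type} [CommRing O] [Field K] [Algebra O K] {ι : Type} [Fintype ι] [DecidableEq ι]
variable {c c₁ c₂ : Oˣ} {p q p₁ p₂ : Finset ι} {A B M P P₁ P₂ R₁ R₂ : List (Lt ι)}
  {R : List (Fc O ι)} {x : Asg K ι} {h y z : Hf ι}

/-- Change the values of a half variable and of its inverse. -/
noncomputable def upd (Y : Asg K ι) (h : Hf ι) (V V' : Matrix ι ι K) : Asg K ι :=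
  Function.update (Function.update Y h V) h.bar V'

omit [Field K] [Fintype ι] [DecidableEq ι] in
@[simp] lemma upd_fst (Y : Asg K ι) (h : Hf ι) (V V' : Matrix ι ι K) : upd Y h V V' h = V := by
  simp [upd]

omit [Field K] [Fintype ι] [DecidableEq ι] in
@[simp] lemma upd_snd (Y : Asg K ι) (h : Hf ι) (V V' : Matrix ι ι K) :
    upd Y h V V' h.bar = V' := by simp [upd]

omit [Field K] [Fintype ι] [DecidableEq ι] in
lemma upd_of_ne (Y : Asg K ι) {h k : Hf ι} (V V' : Matrix ι ι K) (h1 : k ≠ h) (h2 : k ≠ h.bar) :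
    upd Y h V V' k = Y k := by simp [upd, h1, h2]

omit [Field K] [Fintype ι] [DecidableEq ι] in
lemma upd_self {Y : Asg K ι} {h : Hf ι} {V V' : Matrix ι ι K} (h1 : V = Y h) (h2 : V' = Y h.bar) :
    upd Y h V V' = Y := by simp [upd, h1, h2]

omit [Fintype ι] [DecidableEq ι] in
@[fun_prop] lemma PM.upd {X : Type} [Aff K X] {f : X → Asg K ι} {V V' : X → Matrix ι ι K}
    (h : Hf ι) (hf : PM O K f) (hV : PM O K V) (hV' : PM O K V') :
    PM O K (fun x => upd (f x) h (V x) (V' x)) := (hf.update h hV).update h.bar hV'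

omit [Field K] [Fintype ι] [DecidableEq ι] in
lemma agree_upd_of {m : Multiset (Hf ι)} {h : Hf ι} (h1 : h ∉ m) (h2 : h.bar ∉ m) (Y : Asg K ι)
    (V V' : Matrix ι ι K) : Agree m Y (upd Y h V V') := fun k hk =>
  ⟨(upd_of_ne Y V V' (fun e => h1 (by rwa [← e])) fun e => h2 (by rwa [← e])).symm,
    (upd_of_ne Y V V' (fun e => h2 (by rw [← e]; simpa using hk))
      fun e => h1 (by rwa [← Hf.bar_inj.1 e])).symm⟩

omit [Field K] [Fintype ι] [DecidableEq ι] in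
lemma agree_upd {m : Multiset (Hf ι)} {h : Hf ι} (hQ : Q (m + ({h} + {h.bar}))) (Y : Asg K ι)
    (V V' : Matrix ι ι K) : Agree m Y (upd Y h V V') :=
  agree_upd_of (fun e => (hQ.not_mem (by simp) e).1 (by simp))
    (fun e => (hQ.not_mem (by simp) e).1 (by simp)) Y V V'

omit [Fintype ι] [DecidableEq ι] in
lemma nw_ne {N j : ℕ} {t s : Finset ι} {k : Hf ι} (hk : k.nm.1 < N) : nw N j t s ≠ k := fun e => by
  rw [← e] at hk; simp at hk

/-- Cyclic rotation of a face. -/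
lemma sat_rot (hA : Ty p A q) (hx : Fc.Sat x (⟨c, p, A ++ B⟩ : Fc O ι)) :
    Fc.Sat x (⟨c, q, B ++ A⟩ : Fc O ι) := by
  obtain ⟨hty, ok, e⟩ := hx
  obtain ⟨q', hA', hB⟩ := ty_append.1 hty
  obtain rfl := hA.src_unique hA'
  have okA : ∀ l ∈ A, l.Ok x := fun l hl => ok l (by simp [hl])
  have okB : ∀ l ∈ B, l.Ok x := fun l hl => ok l (by simp [hl])
  have iA := ti_pv hA okA
  have iB := ti_pv hB okB
  refine ⟨hB.append hA, fun l hl => ok l (by simpa [or_comm] using hl), ?_⟩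
  dsimp only at e ⊢
  rw [pv_append _ hB okB] at e
  rw [pv_append _ hA okA, ← iB.sup.l, ← iA.mul', Matrix.mul_assoc (pw x A q), e]
  simp [iA.sup'.r, iA.mul']

lemma sol_rot (hA : Ty p A q) (hB : Ty q B p) :
    Sol K ((⟨c, p, A ++ B⟩ : Fc O ι) :: R) = Sol K ((⟨c, q, B ++ A⟩ : Fc O ι) :: R) := by
  ext X
  simp only [mem_sol_cons]
  exact and_congr_left fun _ => ⟨sat_rot hA, sat_rot hB⟩

/-- A closed subword with trivial value at `x` is split off. -/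
lemma sol_pinch (hP : Ty p P q) (hA : Ty q A q)
    (hx : x ∈ Sol K ((⟨c, p, P ++ A ++ B⟩ : Fc O ι) :: R)) (e : pv x A q = E K q) :
    x ∈ Sol K ((⟨1, q, A⟩ : Fc O ι) :: ⟨c, p, P ++ B⟩ :: R) ∧
      Sol K ((⟨1, q, A⟩ : Fc O ι) :: ⟨c, p, P ++ B⟩ :: R) ⊆
        Sol K ((⟨c, p, P ++ A ++ B⟩ : Fc O ι) :: R) := by
  rw [mem_sol_cons] at hx
  obtain ⟨⟨hty, ok, he⟩, hR⟩ := hx
  obtain ⟨q', h1, hB⟩ := ty_append.1 hty
  obtain rfl := (hP.append hA).src_unique h1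
  have key : ∀ X : Asg K ι, (∀ l ∈ P, l.Ok X) → (∀ l ∈ A, l.Ok X) → (∀ l ∈ B, l.Ok X) →
      pv X A q = E K q → pv X (P ++ A ++ B) p = pv X (P ++ B) p := by
    intro X oP oA oB e
    rw [pv_append _ hB oB, pv_append _ hA oA, pv_append _ hB oB, e, (ti_pv hP oP).sup.r]
  constructor
  · have oP : ∀ l ∈ P, l.Ok x := fun l hl => ok l (by simp [hl])
    have oA : ∀ l ∈ A, l.Ok x := fun l hl => ok l (by simp [hl])
    have oB : ∀ l ∈ B, l.Ok x := fun l hl => ok l (by simp [hl])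
    refine mem_sol_cons.2 ⟨⟨hA, oA, by simpa using e⟩, mem_sol_cons.2 ⟨⟨hP.append hB, ?_, ?_⟩, hR⟩⟩
    · exact fun l hl => (List.mem_append.1 hl).elim (oP l) (oB l)
    · exact (key x oP oA oB e).symm.trans he
  · intro X hX
    simp only [mem_sol_cons] at hX ⊢
    obtain ⟨⟨-, oA, eA⟩, ⟨-, ok', e'⟩, hR'⟩ := hX
    have oP : ∀ l ∈ P, l.Ok X := fun l hl => ok' l (by simp [hl])
    have oB : ∀ l ∈ B, l.Ok X := fun l hl => ok' l (by simp [hl])
    refine ⟨⟨hty, fun l hl => ?_, (key X oP oA oB (by simpa using eA)).trans e'⟩, hR'⟩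
    simp only [List.mem_append] at hl
    rcases hl with (hl | hl) | hl
    exacts [oP l hl, oA l hl, oB l hl]

/-- Two faces sharing a variable are glued. -/
lemma gd_merge
    (hQ : Q (usS ((⟨c₁, p₁, P₁ ++ .fr h :: R₁⟩ : Fc O ι) :: ⟨c₂, p₂, P₂ ++ .fr h.bar :: R₂⟩ :: R)))
    (hx : x ∈ Sol K ((⟨c₁, p₁, P₁ ++ .fr h :: R₁⟩ : Fc O ι) ::
      ⟨c₂, p₂, P₂ ++ .fr h.bar :: R₂⟩ :: R)) :
    Q (usS ((⟨c₁ * c₂, p₁, P₁ ++ R₂ ++ P₂ ++ R₁⟩ : Fc O ι) :: R)) ∧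
    x ∈ Sol K ((⟨c₁ * c₂, p₁, P₁ ++ R₂ ++ P₂ ++ R₁⟩ : Fc O ι) :: R) ∧
    (Gd O K (Sol K ((⟨c₁ * c₂, p₁, P₁ ++ R₂ ++ P₂ ++ R₁⟩ : Fc O ι) :: R)) x →
      Gd O K (Sol K ((⟨c₁, p₁, P₁ ++ .fr h :: R₁⟩ : Fc O ι) ::
        ⟨c₂, p₂, P₂ ++ .fr h.bar :: R₂⟩ :: R)) x) := by
  have hu : usS ((⟨c₁, p₁, P₁ ++ .fr h :: R₁⟩ : Fc O ι) :: ⟨c₂, p₂, P₂ ++ .fr h.bar :: R₂⟩ :: R) =
      usS ((⟨c₁ * c₂, p₁, P₁ ++ R₂ ++ P₂ ++ R₁⟩ : Fc O ι) :: R) + ({h} + {h.bar}) := by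
    simp only [usS_cons, usW_append, usW_cons, Lt.us_fr]; abel
  rw [hu] at hQ
  simp only [mem_sol_cons] at hx
  obtain ⟨⟨t₁, o₁, e₁⟩, ⟨t₂, o₂, e₂⟩, hR⟩ := hx
  obtain ⟨_, tP₁, rfl, tR₁⟩ := ty_append.1 t₁
  obtain ⟨_, tP₂, rfl, tR₂⟩ := ty_append.1 t₂
  simp only [Lt.hd_fr, Hf.bar_t, Hf.bar_s] at tP₁ tR₁ tP₂ tR₂
  have tM := tR₂.append tP₂
  have val : ∀ X : Asg K ι, (∀ l ∈ P₁ ++ R₂ ++ P₂ ++ R₁, l.Ok X) →
      pv X (P₁ ++ R₂ ++ P₂ ++ R₁) p₁ = pv X P₁ h.t * (pv X (R₂ ++ P₂) h.s * pv X R₁ p₁) := by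
    intro X o
    rw [pv_append _ tR₁ fun l hl => o l (by simp [hl]), List.append_assoc,
      pv_append _ tM fun l hl => o l (by simp only [List.mem_append] at hl ⊢; tauto),
      Matrix.mul_assoc]
  have oh : TI h.t h.s (x h) (x h.bar) := o₁ (.fr h) (by simp)
  have o : ∀ l ∈ P₁ ++ R₂ ++ P₂ ++ R₁, l.Ok x := fun l hl => by
    simp only [List.mem_append] at hl
    rcases hl with ((hl | hl) | hl) | hl
    exacts [o₁ l (by simp [hl]), o₂ l (by simp [hl]), o₂ l (by simp [hl]), o₁ l (by simp [hl])]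
  have iM := ti_pv tM (X := x) fun l hl => o l (by simp only [List.mem_append] at hl ⊢; tauto)
  have hv : pv x (R₂ ++ P₂) h.s = algebraMap O K c₂ • x h := by
    have := (sat_rot (A := P₂ ++ [.fr h.bar]) (B := R₂) (q := h.t) (tP₂.append (by simp))
      (⟨by simpa using t₂, by simpa using o₂, by simpa using e₂⟩ :
        Fc.Sat x (⟨c₂, p₂, P₂ ++ [.fr h.bar] ++ R₂⟩ : Fc O ι))).eq
    dsimp only at this
    rw [← List.append_assoc, pv_append (q := h.s) _ (by simp) (by simpa using oh.symm)] at this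
    simp only [pv_cons, pv_nil, Lt.hd_fr, oh.sup'.r] at this
    rw [← iM.sup.r, ← oh.mul', ← Matrix.mul_assoc, this]
    simp [oh.sup.l]
  refine ⟨hQ.left (by simp), mem_sol_cons.2 ⟨⟨(tP₁.append tR₂).append tP₂ |>.append tR₁, o, ?_⟩,
    hR⟩, fun hg => ?_⟩
  · dsimp only at e₁ ⊢
    rw [pv_append (q := h.t) _ (by simpa using tR₁) fun l hl => o₁ l (by
      simp only [List.mem_append]; exact Or.inr hl)] at e₁
    rw [val x o, hv]
    simp only [pv_cons, Lt.hd_fr] at e₁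
    rw [Matrix.smul_mul, Matrix.mul_smul, e₁, smul_smul, Units.val_mul, map_mul, mul_comm]
  · have := hg.map (T := Sol K ((⟨c₁, p₁, P₁ ++ .fr h :: R₁⟩ : Fc O ι) ::
        ⟨c₂, p₂, P₂ ++ .fr h.bar :: R₂⟩ :: R))
      (f := fun Y => upd Y h (algebraMap O K (c₂⁻¹ : Oˣ) • pv Y (R₂ ++ P₂) h.s)
        (algebraMap O K c₂ • pw Y (R₂ ++ P₂) h.s)) (by fun_prop) fun Y hY => ?_
    · rwa [upd_self] at this
      · rw [hv, smul_smul, unit_inv_mul, one_smul]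
      · have := iM.smul (unit_inv_mul (K := K) c₂)
        rw [hv, smul_smul, unit_inv_mul, one_smul] at this
        exact oh.unique this
    have ag := agree_upd hQ Y (algebraMap O K (c₂⁻¹ : Oˣ) • pv Y (R₂ ++ P₂) h.s)
      (algebraMap O K c₂ • pw Y (R₂ ++ P₂) h.s)
    have hY' := sol_congr hY ag
    set Z := upd Y h (algebraMap O K (c₂⁻¹ : Oˣ) • pv Y (R₂ ++ P₂) h.s)
      (algebraMap O K c₂ • pw Y (R₂ ++ P₂) h.s) with hZ
    have agM : Agree (usW (R₂ ++ P₂)) Y Z := ag.mono fun k hk => by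
      simp only [usS_cons, usW_append, Multiset.mem_add] at hk ⊢; tauto
    have z1 : Z h = algebraMap O K (c₂⁻¹ : Oˣ) • pv Z (R₂ ++ P₂) h.s := by
      rw [← pv_congr agM, hZ, upd_fst]
    have z2 : Z h.bar = algebraMap O K c₂ • pw Z (R₂ ++ P₂) h.s := by
      rw [← pw_congr agM, hZ, upd_snd]
    clear_value Z
    rw [mem_sol_cons] at hY'
    obtain ⟨⟨-, o', e'⟩, hR'⟩ := hY'
    dsimp only at o' e'
    have oP₁ : ∀ l ∈ P₁, l.Ok Z := fun l hl => o' l (by simp [hl])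
    have oP₂ : ∀ l ∈ P₂, l.Ok Z := fun l hl => o' l (by simp [hl])
    have oR₁ : ∀ l ∈ R₁, l.Ok Z := fun l hl => o' l (by simp [hl])
    have oR₂ : ∀ l ∈ R₂, l.Ok Z := fun l hl => o' l (by simp [hl])
    have iZ : TI h.t h.s (Z h) (Z h.bar) := by
      rw [z1, z2]
      exact (ti_pv tM fun l hl => (List.mem_append.1 hl).elim (oR₂ l) (oP₂ l)).smul
        (unit_inv_mul c₂)
    have c1 : ∀ l ∈ Lt.fr h :: R₁, l.Ok Z := by simpa using ⟨iZ, oR₁⟩
    have c2 : ∀ l ∈ Lt.fr h.bar :: R₂, l.Ok Z := by simpa using ⟨iZ.symm, oR₂⟩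
    simp only [mem_sol_cons]
    refine ⟨⟨t₁, fun l hl => (List.mem_append.1 hl).elim (oP₁ l) (c1 l), ?_⟩,
      ⟨t₂, fun l hl => (List.mem_append.1 hl).elim (oP₂ l) (c2 l), ?_⟩, hR'⟩
    · dsimp only
      rw [val Z o'] at e'
      rw [pv_append (q := h.t) _ (by simpa using tR₁) c1, pv_cons, Lt.hd_fr, z1]
      rw [Matrix.smul_mul, Matrix.mul_smul, e', smul_smul, Units.val_mul, map_mul, mul_left_comm,
        unit_inv_mul, mul_one]
    · dsimp only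
      rw [pv_append (q := h.s) _ (by simpa using tR₂) c2, pv_cons, Lt.hd_fr, z2,
        pw_append _ tP₂ oP₂]
      simp only [Matrix.smul_mul, Matrix.mul_smul, Matrix.mul_assoc, (ti_pv tR₂ oR₂).mul',
        (ti_pv tP₂ oP₂).sup'.r, (ti_pv tP₂ oP₂).mul]

lemma dn_slide_aux
    (hQ : Q (usS ((⟨c, p, P ++ A ++ .fr y :: (M ++ .fr y.bar :: B)⟩ : Fc O ι) :: R)))
    (H : ∀ y' : Hf ι, y'.s = y.s →
      Q (usS ((⟨c, p, P ++ .fr y' :: (M ++ .fr y'.bar :: (A ++ B))⟩ : Fc O ι) :: R)) →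
      Dn O K (Sol K ((⟨c, p, P ++ .fr y' :: (M ++ .fr y'.bar :: (A ++ B))⟩ : Fc O ι) :: R))) :
    Dn O K (Sol K ((⟨c, p, P ++ A ++ .fr y :: (M ++ .fr y.bar :: B)⟩ : Fc O ι) :: R)) := by
  intro x hx
  have hu : usS ((⟨c, p, P ++ A ++ .fr y :: (M ++ .fr y.bar :: B)⟩ : Fc O ι) :: R) =
      (usW P + usW A + usW M + usW B + usS R) + ({y} + {y.bar}) := by
    simp only [usS_cons, usW_append, usW_cons, Lt.us_fr]; abel
  rw [hu] at hQ
  rw [mem_sol_cons] at hx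
  obtain ⟨⟨t, o, e⟩, hR⟩ := hx
  dsimp only at t o e
  obtain ⟨_, t1, rfl, t2⟩ := ty_append.1 t
  obtain ⟨q, tP, tA⟩ := ty_append.1 t1
  obtain ⟨_, tM, rfl, tB⟩ := ty_append.1 t2
  simp only [Lt.hd_fr, Hf.bar_t, Hf.bar_s] at tA tM tB
  have val : ∀ (X : Asg K ι) (y' : Hf ι), y'.t = q → y'.s = y.s → (∀ l ∈ P, l.Ok X) →
      (∀ l ∈ A, l.Ok X) → (∀ l ∈ M, l.Ok X) → (∀ l ∈ B, l.Ok X) →
      TI y.t y.s (X y) (X y.bar) → X y' = pv X A y.t * X y → X y'.bar = X y.bar * pw X A y.t →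
      (Fc.Sat X (⟨c, p, P ++ A ++ .fr y :: (M ++ .fr y.bar :: B)⟩ : Fc O ι) ↔
        Fc.Sat X (⟨c, p, P ++ .fr y' :: (M ++ .fr y'.bar :: (A ++ B))⟩ : Fc O ι)) := by
    intro X y' h1 h2 oP oA oM oB oy e1 e2
    have oy' : TI y'.t y'.s (X y') (X y'.bar) := by
      rw [h1, h2, e1, e2]; exact (ti_pv tA oA).trans oy
    have c1 : ∀ l ∈ Lt.fr y.bar :: B, l.Ok X := by simpa using ⟨oy.symm, oB⟩
    have c2 : ∀ l ∈ Lt.fr y :: (M ++ .fr y.bar :: B), l.Ok X := by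
      simpa [or_imp, forall_and] using ⟨oy, oM, oy.symm, oB⟩
    have c3 : ∀ l ∈ Lt.fr y'.bar :: (A ++ B), l.Ok X := by
      simpa [or_imp, forall_and] using ⟨oy'.symm, oA, oB⟩
    have c4 : ∀ l ∈ Lt.fr y' :: (M ++ .fr y'.bar :: (A ++ B)), l.Ok X := by
      simpa [or_imp, forall_and] using ⟨oy', oM, oy'.symm, oA, oB⟩
    have s3 : Ty y.s (.fr y'.bar :: (A ++ B)) p := ⟨h2, by simpa [h1] using tA.append tB⟩
    have s4 : Ty q (.fr y' :: (M ++ .fr y'.bar :: (A ++ B))) p :=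
      ⟨h1, by simpa [h2] using tM.append s3⟩
    have ev : pv X (P ++ A ++ .fr y :: (M ++ .fr y.bar :: B)) p =
        pv X (P ++ .fr y' :: (M ++ .fr y'.bar :: (A ++ B))) p := by
      rw [pv_append (q := y.t) _ (ty_cons.2 ⟨rfl, t2⟩) c2, pv_append _ tA oA, pv_cons,
        pv_append (q := y.s) _ (by simpa using tB) c1, pv_append _ s4 c4, pv_cons,
        pv_cons, pv_append _ s3 c3, pv_cons, pv_append _ tB oB]
      simp only [Lt.hd_fr, e1, e2, Matrix.mul_assoc]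
      rw [← Matrix.mul_assoc (pw X A y.t), (ti_pv tA oA).mul', (ti_pv tB oB).sup.l]
    exact ⟨fun h => ⟨tP.append s4, fun l hl => (List.mem_append.1 hl).elim (oP l) (c4 l),
      ev.symm.trans h.eq⟩, fun h => ⟨t, fun l hl => (List.mem_append.1 hl).elim
        (fun hl => (List.mem_append.1 hl).elim (oP l) (oA l)) (c2 l), ev.trans h.eq⟩⟩
  refine gd_of_move fun N₀ => ?_
  obtain ⟨N, hN₀, hN⟩ := exists_bound (usW P + usW A + usW M + usW B + usS R + ({y} + {y.bar})) N₀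
  have hu' : usS ((⟨c, p, P ++ .fr (nw N 0 q y.s) :: (M ++ .fr (nw N 0 q y.s).bar :: (A ++ B))⟩ :
      Fc O ι) :: R) = (usW P + usW A + usW M + usW B + usS R) + nws N [(0, q, y.s)] := by
    simp only [usS_cons, usW_append, usW_cons, Lt.us_fr, nws_cons, nws_nil]; abel
  have hQ' := hQ.step (by simp) (fun k hk => hN k (Multiset.mem_add.2 (Or.inl hk)))
    (L := [(0, q, y.s)]) (by simp)
  have n1 : nw N 0 q y.s ≠ y := nw_ne (hN y (by simp))
  have n2 : nw N 0 q y.s ≠ y.bar := nw_ne (hN y.bar (by simp))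
  have ag := agree_ext x (fun _ => pv x A y.t * x y) (fun _ => x y.bar * pw x A y.t) hN
  set x' := ext x N (fun _ => pv x A y.t * x y) (fun _ => x y.bar * pw x A y.t) with hx'
  have agA : Agree (usW A) x x' := ag.mono fun k hk => by simp [hk]
  have o' := ok_congr o (ag.mono fun k hk => by
    simp only [usW_append, usW_cons, Lt.us_fr, Multiset.mem_add] at hk ⊢; tauto)
  have oA : ∀ l ∈ A, l.Ok x' := fun l hl => o' l (by simp [hl])
  have oy : TI y.t y.s (x' y) (x' y.bar) := o' (.fr y) (by simp)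
  have v1 : x' (nw N 0 q y.s) = pv x' A y.t * x' y := by
    rw [← pv_congr agA, ← (ag y (by simp)).1, hx', ext_nw]
  have v2 : x' (nw N 0 q y.s).bar = x' y.bar * pw x' A y.t := by
    rw [← pw_congr agA, ← (ag y (by simp)).2, hx', ext_nw_bar]
  refine ⟨_, x', fun Y => upd Y y (pw Y A y.t * Y (nw N 0 q y.s))
    (Y (nw N 0 q y.s).bar * pv Y A y.t), by fun_prop, fun Y hY => ?_, fun k hk => ?_,
    H (nw N 0 q y.s) rfl (hu' ▸ hQ') x' ?_⟩
  · have agY := agree_upd hQ Y (pw Y A y.t * Y (nw N 0 q y.s)) (Y (nw N 0 q y.s).bar * pv Y A y.t)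
    have w1 := upd_of_ne Y (pw Y A y.t * Y (nw N 0 q y.s)) (Y (nw N 0 q y.s).bar * pv Y A y.t) n1 n2
    have w2 := upd_of_ne Y (pw Y A y.t * Y (nw N 0 q y.s)) (Y (nw N 0 q y.s).bar * pv Y A y.t)
      (k := (nw N 0 q y.s).bar) (fun e => n2 (Hf.bar_eq_iff.1 e)) (by simpa using n1)
    have w3 := upd_fst Y y (pw Y A y.t * Y (nw N 0 q y.s)) (Y (nw N 0 q y.s).bar * pv Y A y.t)
    have w4 := upd_snd Y y (pw Y A y.t * Y (nw N 0 q y.s)) (Y (nw N 0 q y.s).bar * pv Y A y.t)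
    dsimp only
    generalize upd Y y (pw Y A y.t * Y (nw N 0 q y.s)) (Y (nw N 0 q y.s).bar * pv Y A y.t) = Z
      at agY w1 w2 w3 w4 ⊢
    have hZ := sol_congr (Y := Z) hY (by
      rw [hu']
      intro k hk
      simp only [nws_cons, nws_nil, add_zero, Multiset.mem_add (s := _ + usS R),
        Multiset.mem_add (s := {nw N 0 q y.s}), Multiset.mem_singleton] at hk
      rcases hk with hk | rfl | rfl
      exacts [agY k hk, ⟨w1.symm, w2.symm⟩, ⟨w2.symm, by simpa using w1.symm⟩])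
    have agA' : Agree (usW A) Y Z := agY.mono fun k hk => by simp [hk]
    rw [pw_congr agA', ← w1] at w3
    rw [pv_congr agA', ← w2] at w4
    rw [mem_sol_cons] at hZ ⊢
    have oZ := hZ.1.ok
    have iA := ti_pv tA (X := Z) fun l hl => oZ l (by simp [hl])
    have iy : TI q y.s (Z (nw N 0 q y.s)) (Z (nw N 0 q y.s).bar) :=
      oZ (.fr (nw N 0 q y.s)) (by simp)
    refine ⟨(val Z (nw N 0 q y.s) rfl rfl (fun l hl => oZ l (by simp [hl]))
      (fun l hl => oZ l (by simp [hl])) (fun l hl => oZ l (by simp [hl]))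
      (fun l hl => oZ l (by simp [hl])) ?_ ?_ ?_).2 hZ.1, hZ.2⟩
    · rw [w3, w4]; exact iA.symm.trans iy
    · rw [w3, ← Matrix.mul_assoc, iA.mul, iy.sup.l]
    · rw [w4, Matrix.mul_assoc, iA.mul, iy.sup'.r]
  · have iA := ti_pv tA oA
    dsimp only
    rw [upd_self, hx', ext_of_lt _ _ _ (hk.trans_le hN₀)]
    · rw [v1, ← Matrix.mul_assoc, iA.mul', oy.sup.l]
    · rw [v2, Matrix.mul_assoc, iA.mul', oy.sup'.r]
  · refine mem_sol_cons.2 ⟨(val x' (nw N 0 q y.s) rfl rfl (fun l hl => o' l (by simp [hl])) oA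
      (fun l hl => o' l (by simp [hl])) (fun l hl => o' l (by simp [hl])) oy v1 v2).1
      (Fc.Sat.congr ⟨t, o, e⟩ (ag.mono fun k hk => ?_)), sol_congr hR (ag.mono fun k hk => ?_)⟩
    · simp only [usW_append, usW_cons, Lt.us_fr, Multiset.mem_add] at hk ⊢; tauto
    · simp [hk]

/-- The subword in front of `y` is moved behind the inverse of `y`. -/
lemma dn_slide₁
    (hQ : Q (usS ((⟨c, p, P ++ A ++ .fr y :: (M ++ .fr y.bar :: B)⟩ : Fc O ι) :: R)))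
    (H : ∀ y' : Hf ι,
      Q (usS ((⟨c, p, P ++ .fr y' :: (M ++ .fr y'.bar :: (A ++ B))⟩ : Fc O ι) :: R)) →
      Dn O K (Sol K ((⟨c, p, P ++ .fr y' :: (M ++ .fr y'.bar :: (A ++ B))⟩ : Fc O ι) :: R))) :
    Dn O K (Sol K ((⟨c, p, P ++ A ++ .fr y :: (M ++ .fr y.bar :: B)⟩ : Fc O ι) :: R)) :=
  dn_slide_aux hQ fun y' _ => H y'

/-- The subword in front of the inverse of `y` is moved behind `y`. -/
lemma dn_slide₂
    (hQ : Q (usS ((⟨c, p, P ++ .fr y :: (M ++ A ++ .fr y.bar :: B)⟩ : Fc O ι) :: R)))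
    (H : ∀ y' : Hf ι,
      Q (usS ((⟨c, p, P ++ .fr y' :: (A ++ M ++ .fr y'.bar :: B)⟩ : Fc O ι) :: R)) →
      Dn O K (Sol K ((⟨c, p, P ++ .fr y' :: (A ++ M ++ .fr y'.bar :: B)⟩ : Fc O ι) :: R))) :
    Dn O K (Sol K ((⟨c, p, P ++ .fr y :: (M ++ A ++ .fr y.bar :: B)⟩ : Fc O ι) :: R)) := by
  intro x hx
  have t := (mem_sol_cons.1 hx).1.ty
  obtain ⟨_, tP, rfl, t2⟩ := ty_append.1 t
  obtain ⟨_, t3, rfl, tB⟩ := ty_append.1 t2
  obtain ⟨q, tM, tA⟩ := ty_append.1 t3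
  simp only [Lt.hd_fr, Hf.bar_t, Hf.bar_s] at tP tA tM tB
  have e1 := sol_rot (K := K) (c := c) (R := R) (A := P ++ [.fr y])
    (B := M ++ A ++ .fr y.bar :: B) (tP.append (by simp)) t2
  simp only [List.append_assoc, List.cons_append, List.nil_append] at e1 hx ⊢
  rw [e1] at hx ⊢
  have := dn_slide_aux (K := K) (c := c) (p := y.s) (P := M) (A := A) (y := y.bar) (M := B ++ P)
    (B := []) (R := R) (by
      convert hQ using 1
      simp only [usS_cons, usW_append, usW_cons, Lt.us_fr, Hf.bar_bar, usW_nil]; abel) ?_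
  · simpa using this x (by simpa using hx)
  intro y' hy' hQ' x' hx'
  have t' := (mem_sol_cons.1 hx').1.ty
  simp only [List.append_nil] at t' hx' hQ' ⊢
  have e : M ++ Lt.fr y' :: (B ++ P ++ Lt.fr y'.bar :: A) =
      (M ++ Lt.fr y' :: B) ++ (P ++ Lt.fr y'.bar :: A) := by simp
  rw [e] at t' hx' ⊢
  obtain ⟨p', s1, s2⟩ := ty_append.1 t'
  obtain rfl : p' = p := by
    obtain ⟨_, -, -, s3⟩ := ty_append.1 s1
    rw [Lt.hd_fr, hy'] at s3
    exact s3.src_unique tB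
  rw [sol_rot s1 s2] at hx' ⊢
  have := H y'.bar (by
    convert hQ' using 1
    simp only [usS_cons, usW_append, usW_cons, Lt.us_fr, Hf.bar_bar]; abel) x'
    (by simpa using hx')
  simpa using this

/-- A triangular letter with empty first block. -/
lemma gd_deg₁ [CharZero K] (hy : y.t = ∅)
    (hQ : Q (usS ((⟨c, p, P ++ .tri h y z :: B⟩ : Fc O ι) :: R)))
    (hx : x ∈ Sol K ((⟨c, p, P ++ .tri h y z :: B⟩ : Fc O ι) :: R)) :
    Q (usS ((⟨c, p, P ++ .fr z :: B⟩ : Fc O ι) :: ⟨1, ∅, [.fr y]⟩ :: R)) ∧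
    x ∈ Sol K ((⟨c, p, P ++ .fr z :: B⟩ : Fc O ι) :: ⟨1, ∅, [.fr y]⟩ :: R) ∧
    (Gd O K (Sol K ((⟨c, p, P ++ .fr z :: B⟩ : Fc O ι) :: ⟨1, ∅, [.fr y]⟩ :: R)) x →
      Gd O K (Sol K ((⟨c, p, P ++ .tri h y z :: B⟩ : Fc O ι) :: R)) x) := by
  have hu : usS ((⟨c, p, P ++ .tri h y z :: B⟩ : Fc O ι) :: R) =
      usS ((⟨c, p, P ++ .fr z :: B⟩ : Fc O ι) :: ⟨1, ∅, [.fr y]⟩ :: R) + ({h} + {h.bar}) := by
    simp only [usS_cons, usW_append, usW_cons, Lt.us_fr, Lt.us_tri, usW_nil]; abel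
  rw [hu] at hQ
  rw [mem_sol_cons] at hx
  obtain ⟨⟨t, o, e⟩, hR⟩ := hx
  dsimp only at t o e
  have oh : TM h.t h.s y.t y.s z.t z.s (x h) (x h.bar) (x y) (x y.bar) (x z) (x z.bar) :=
    o (.tri h y z) (by simp)
  have hs : y.s = ∅ := Finset.card_eq_zero.1 (by rw [← oh.isoy.card_eq, hy, Finset.card_empty])
  have ht : h.t = z.t := by rw [oh.ut, hy]; simp
  have hs' : h.s = z.s := by rw [oh.us, hs]; simp
  have val : ∀ X : Asg K ι, X h = X z → X h.bar = X z.bar → TI y.t y.s (X y) (X y.bar) →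
      (Fc.Sat X (⟨c, p, P ++ .tri h y z :: B⟩ : Fc O ι) ↔
        Fc.Sat X (⟨c, p, P ++ .fr z :: B⟩ : Fc O ι)) := by
    intro X e1 e2 ib
    have ety : Ty p (P ++ .tri h y z :: B) p ↔ Ty p (P ++ .fr z :: B) p := by
      simp [ty_append, ht, hs']
    have ev : ∀ P : List (Lt ι), pv X (P ++ .tri h y z :: B) p = pv X (P ++ .fr z :: B) p := by
      intro P
      induction P with
      | nil => simp [e1]
      | cons l P ih => simp [ih]
    have eo : (Lt.tri h y z).Ok X ↔ (Lt.fr z).Ok X := by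
      refine ⟨fun a => TM.isoz a, fun a => ?_⟩
      have b0 : X y = 0 := by rw [← ib.sup.l, hy]; simp
      have := TM.mk' ib a (by simp [hy]) (by simp [hs]) (N := 0) fun _ _ _ => rfl
      rw [← oh.ut, ← oh.us] at this
      refine ⟨by rw [e1, e2, ht, hs']; exact a, this.isoy, this.isoz, oh.ut, oh.dt, oh.us, oh.ds,
        ?_, ?_, ?_⟩
      · simpa [b0, e1] using this.mp
      · simpa [b0, e1] using this.by'
      · simpa [b0, e1] using this.bz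
    exact ⟨fun a => ⟨ety.1 a.ty, by simpa [or_imp, forall_and, eo] using a.ok,
      (ev P).symm.trans a.eq⟩, fun a => ⟨ety.2 a.ty, by simpa [or_imp, forall_and, eo] using a.ok,
      (ev P).trans a.eq⟩⟩
  have v1 : x h = x z := by rw [← oh.bz, ← ht, ← hs', oh.iso.sup.blk_eq]
  have v2 : x h.bar = x z.bar := by rw [← oh.symm.bz, ← ht, ← hs', oh.iso.sup'.blk_eq]
  refine ⟨hQ.left (by simp), ?_, fun hg => ?_⟩
  · simp only [mem_sol_cons]
    refine ⟨(val x v1 v2 oh.isoy).1 ⟨t, o, e⟩, ⟨by simp [hy, hs], by simpa using oh.isoy, ?_⟩, hR⟩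
    simp
  · have := hg.map (T := Sol K ((⟨c, p, P ++ .tri h y z :: B⟩ : Fc O ι) :: R))
      (f := fun Y => upd Y h (Y z) (Y z.bar)) (by fun_prop) fun Y hY => ?_
    · rwa [upd_self v1.symm v2.symm] at this
    have ag := agree_upd hQ Y (Y z) (Y z.bar)
    have hZ := sol_congr hY ag
    simp only [mem_sol_cons] at hZ ⊢
    refine ⟨(val _ ?_ ?_ (by simpa using hZ.2.1.ok)).2 hZ.1, hZ.2.2⟩
    · rw [upd_fst, ← (ag z (by simp)).1]
    · rw [upd_snd, ← (ag z (by simp)).2]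

/-- A triangular letter with empty second block. -/
lemma gd_deg₂ [CharZero K] (hz : z.t = ∅)
    (hQ : Q (usS ((⟨c, p, P ++ .tri h y z :: B⟩ : Fc O ι) :: R)))
    (hx : x ∈ Sol K ((⟨c, p, P ++ .tri h y z :: B⟩ : Fc O ι) :: R)) :
    Q (usS ((⟨c, p, P ++ .fr y :: B⟩ : Fc O ι) :: ⟨1, ∅, [.fr z]⟩ :: R)) ∧
    x ∈ Sol K ((⟨c, p, P ++ .fr y :: B⟩ : Fc O ι) :: ⟨1, ∅, [.fr z]⟩ :: R) ∧
    (Gd O K (Sol K ((⟨c, p, P ++ .fr y :: B⟩ : Fc O ι) :: ⟨1, ∅, [.fr z]⟩ :: R)) x →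
      Gd O K (Sol K ((⟨c, p, P ++ .tri h y z :: B⟩ : Fc O ι) :: R)) x) := by
  have hu : usS ((⟨c, p, P ++ .tri h y z :: B⟩ : Fc O ι) :: R) =
      usS ((⟨c, p, P ++ .fr y :: B⟩ : Fc O ι) :: ⟨1, ∅, [.fr z]⟩ :: R) + ({h} + {h.bar}) := by
    simp only [usS_cons, usW_append, usW_cons, Lt.us_fr, Lt.us_tri, usW_nil]; abel
  rw [hu] at hQ
  rw [mem_sol_cons] at hx
  obtain ⟨⟨t, o, e⟩, hR⟩ := hx
  dsimp only at t o e
  have oh : TM h.t h.s y.t y.s z.t z.s (x h) (x h.bar) (x y) (x y.bar) (x z) (x z.bar) :=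
    o (.tri h y z) (by simp)
  have hs : z.s = ∅ := Finset.card_eq_zero.1 (by rw [← oh.isoz.card_eq, hz, Finset.card_empty])
  have ht : h.t = y.t := by rw [oh.ut, hz]; simp
  have hs' : h.s = y.s := by rw [oh.us, hs]; simp
  have val : ∀ X : Asg K ι, X h = X y → X h.bar = X y.bar → TI z.t z.s (X z) (X z.bar) →
      (Fc.Sat X (⟨c, p, P ++ .tri h y z :: B⟩ : Fc O ι) ↔
        Fc.Sat X (⟨c, p, P ++ .fr y :: B⟩ : Fc O ι)) := by
    intro X e1 e2 ib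
    have ety : Ty p (P ++ .tri h y z :: B) p ↔ Ty p (P ++ .fr y :: B) p := by
      simp [ty_append, ht, hs']
    have ev : ∀ P : List (Lt ι), pv X (P ++ .tri h y z :: B) p = pv X (P ++ .fr y :: B) p := by
      intro P
      induction P with
      | nil => simp [e1]
      | cons l P ih => simp [ih]
    have eo : (Lt.tri h y z).Ok X ↔ (Lt.fr y).Ok X := by
      refine ⟨fun a => TM.isoy a, fun a => ?_⟩
      have b0 : X z = 0 := by rw [← ib.sup.l, hz]; simp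
      have := TM.mk' a ib (by simp [hz]) (by simp [hs]) (N := 0) fun _ _ _ => rfl
      rw [← oh.ut, ← oh.us] at this
      refine ⟨by rw [e1, e2, ht, hs']; exact a, this.isoy, this.isoz, oh.ut, oh.dt, oh.us, oh.ds,
        ?_, ?_, ?_⟩
      · simpa [b0, e1] using this.mp
      · simpa [b0, e1] using this.by'
      · simpa [b0, e1] using this.bz
    exact ⟨fun a => ⟨ety.1 a.ty, by simpa [or_imp, forall_and, eo] using a.ok,
      (ev P).symm.trans a.eq⟩, fun a => ⟨ety.2 a.ty, by simpa [or_imp, forall_and, eo] using a.ok,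
      (ev P).trans a.eq⟩⟩
  have v1 : x h = x y := by rw [← oh.by', ← ht, ← hs', oh.iso.sup.blk_eq]
  have v2 : x h.bar = x y.bar := by rw [← oh.symm.by', ← ht, ← hs', oh.iso.sup'.blk_eq]
  refine ⟨hQ.left (by simp), ?_, fun hg => ?_⟩
  · simp only [mem_sol_cons]
    refine ⟨(val x v1 v2 oh.isoz).1 ⟨t, o, e⟩, ⟨by simp [hz, hs], by simpa using oh.isoz, ?_⟩, hR⟩
    simp
  · have := hg.map (T := Sol K ((⟨c, p, P ++ .tri h y z :: B⟩ : Fc O ι) :: R))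
      (f := fun Y => upd Y h (Y y) (Y y.bar)) (by fun_prop) fun Y hY => ?_
    · rwa [upd_self v1.symm v2.symm] at this
    have ag := agree_upd hQ Y (Y y) (Y y.bar)
    have hZ := sol_congr hY ag
    simp only [mem_sol_cons] at hZ ⊢
    refine ⟨(val _ ?_ ?_ (by simpa using hZ.2.1.ok)).2 hZ.1, hZ.2.2⟩
    · rw [upd_fst, ← (ag y (by simp)).1]
    · rw [upd_snd, ← (ag y (by simp)).2]

/-- Independent subsystems. -/
lemma dn_append {S : List (Fc O ι)} (hQ : Q (usS (S ++ R))) (hS : ∀ k ∈ usS S, k.bar ∈ usS S)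
    (h₁ : Dn O K (Sol K S)) (h₂ : Dn O K (Sol K R)) : Dn O K (Sol K (S ++ R)) := by
  intro x hx
  rw [usS_append, add_comm] at hQ
  have e : Sol K (S ++ R) = Sol K S ∩ Sol K R := by ext X; simp
  rw [e] at hx ⊢
  refine Gd.inter {k | k ∈ usS S} (fun X Y hXY hX => sol_congr hX fun k hk => ?_)
    (fun X Y hXY hX => sol_congr hX fun k hk => ?_) (h₁ x hx.1) (h₂ x hx.2)
  · exact ⟨hXY k hk, hXY _ (hS k hk)⟩
  · exact ⟨hXY k (hQ.not_mem hS hk).1, hXY _ (hQ.not_mem hS hk).2⟩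

end Vale.Agent.P002b
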