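import Vale.Agent.P002b.Defs

/-! Punctured surfaces with flagged boundary monodromy as foam systems. -/

namespace Vale.Agent.P002b

open Matrix

namespace PuncA

section comb

variable {ι : Type}

/-- A half variable together with its inverse. -/
def pr (h : Hf ι) : Multiset (Hf ι) := {h} + {h.bar}

lemma q_sum {I : Type} (T : Finset I) (v : I → Hf ι)
    (hv : Function.Injective fun i => (v i).nm) : Q (∑ i ∈ T, pr (v i)) := by
  classical
  induction T using Finset.induction_on with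
  | empty => exact ⟨by simp, by simp⟩
  | insert a T ha ih =>
    rw [Finset.sum_insert ha]
    refine Q.add ⟨by simp [pr], by simp [pr]⟩ ih fun h hh e => ?_
    obtain ⟨i, hi, hh⟩ := Multiset.mem_sum.1 hh
    have h1 : h.nm = (v i).nm := by
      simp only [pr, Multiset.mem_add, Multiset.mem_singleton] at hh
      rcases hh with rfl | rfl <;> rfl
    have h2 : h.nm = (v a).nm := by
      simp only [pr, Multiset.mem_add, Multiset.mem_singleton] at e
      rcases e with rfl | rfl <;> rfl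
    exact ha (hv (h1.symm.trans h2) ▸ hi)

lemma usW_flatMap {α : Type} (L : List α) (f : α → List (Lt ι)) :
    usW (L.flatMap f) = (L.map fun a => usW (f a)).sum := by
  induction L with
  | nil => rfl
  | cons a L ih => simp [ih]

lemma usS_flatMap {O α : Type} [CommRing O] (L : List α) (f : α → List (Fc O ι)) :
    usS (L.flatMap f) = (L.map fun a => usS (f a)).sum := by
  induction L with
  | nil => rfl
  | cons a L ih => simp [ih]

lemma ty_of_forall {p : Finset ι} {w : List (Lt ι)} (h : ∀ l ∈ w, l.hd.t = p ∧ l.hd.s = p) :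
    Ty p w p := by
  induction w with
  | nil => rfl
  | cons l w ih =>
    refine ⟨(h l (by simp)).1, ?_⟩
    rw [(h l (by simp)).2]
    exact ih fun k hk => h k (by simp [hk])

lemma prod_flatMap {M α β : Type} [Monoid M] (L : List α) (f : α → List β) (u : β → M) :
    ((L.flatMap f).map u).prod = (L.map fun a => ((f a).map u).prod).prod := by
  induction L with
  | nil => rfl
  | cons a L ih => simp [ih]

end comb

variable {O K : Type} [CommRing O] [Field K] [Algebra O K] {n : Type} [Fintype n] [DecidableEq n]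

lemma pv_eq (X : Asg K n) (w : List (Lt n)) (p : Finset n) :
    pv X w p = (w.map fun l => X l.hd).prod * E K p := by
  induction w with
  | nil => simp
  | cons l w ih => simp [ih, Matrix.mul_assoc]

/-- The coordinates of level `k`. -/
def Pl (ℓ : n → ℕ) (k : ℕ) : Finset n := Finset.univ.filter fun i => ℓ i = k

/-- The coordinates of level at least `k`. -/
def Zl (ℓ : n → ℕ) (k : ℕ) : Finset n := Finset.univ.filter fun i => k ≤ ℓ i

omit [DecidableEq n] in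
@[simp] lemma mem_Pl {ℓ : n → ℕ} {k : ℕ} {i : n} : i ∈ Pl ℓ k ↔ ℓ i = k := by simp [Pl]

omit [DecidableEq n] in
@[simp] lemma mem_Zl {ℓ : n → ℕ} {k : ℕ} {i : n} : i ∈ Zl ℓ k ↔ k ≤ ℓ i := by simp [Zl]

omit [DecidableEq n] in
lemma Zl_zero (ℓ : n → ℕ) : Zl ℓ 0 = Finset.univ := by ext i; simp

/-- Half variables on the whole space. -/
def hu (n : Type) [Fintype n] (a i : ℕ) : Hf n := ⟨(a, i, 0), true, Finset.univ, Finset.univ⟩

variable {s : ℕ} (ℓ : Fin s → n → ℕ) (ν : Fin s → ℕ → Oˣ)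

def hh (j : Fin s) (k : ℕ) : Hf n := ⟨(3, j, k), true, Zl (ℓ j) k, Zl (ℓ j) k⟩
def hy (j : Fin s) (k : ℕ) : Hf n := ⟨(4, j, k), true, Pl (ℓ j) k, Pl (ℓ j) k⟩
def hz (j : Fin s) (k : ℕ) : Hf n := ⟨(5, j, k), true, Zl (ℓ j) k, Zl (ℓ j) k⟩

def wA (n : Type) [Fintype n] (i : ℕ) : List (Lt n) :=
  [.fr (hu n 0 i), .fr (hu n 1 i), .fr (hu n 0 i).bar, .fr (hu n 1 i).bar]

def wC (j : Fin s) : List (Lt n) := [.fr (hu n 2 j), .fr (hz ℓ j 0), .fr (hu n 2 j).bar]

def fM (g : ℕ) (c : Oˣ) : Fc O n :=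
  ⟨c, Finset.univ,
    (List.finRange g).flatMap (fun i : Fin g => wA n i) ++ (List.finRange s).flatMap (wC ℓ)⟩

def fY (j : Fin s) (k : ℕ) : Fc O n := ⟨(ν j k)⁻¹, Pl (ℓ j) k, [.fr (hy ℓ j k).bar]⟩

def fZ (j : Fin s) (k : ℕ) : Fc O n :=
  ⟨1, Zl (ℓ j) k, [.fr (hz ℓ j k).bar, .tri (hh ℓ j k) (hy ℓ j k) (hz ℓ j (k + 1))]⟩

def fL (j : Fin s) (k : ℕ) : Fc O n := ⟨1, Zl (ℓ j) k, [.fr (hz ℓ j k).bar]⟩

/-- The system of a punctured surface. -/
def sys (g B : ℕ) (c : Oˣ) : List (Fc O n) :=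
  fM ℓ g c :: (List.finRange s).flatMap fun j =>
    fL ℓ j B :: (List.range B).flatMap fun k => [fY ℓ ν j k, fZ ℓ j k]

/-- All the variables. -/
def vr (g B : ℕ) : Fin g ⊕ Fin g ⊕ Fin s ⊕ (Fin s × Fin B) ⊕ (Fin s × Fin B) ⊕
    (Fin s × Fin (B + 1)) → Hf n
  | .inl i => hu n 0 i
  | .inr (.inl i) => hu n 1 i
  | .inr (.inr (.inl j)) => hu n 2 j
  | .inr (.inr (.inr (.inl p))) => hh ℓ p.1 p.2
  | .inr (.inr (.inr (.inr (.inl p)))) => hy ℓ p.1 p.2
  | .inr (.inr (.inr (.inr (.inr p)))) => hz ℓ p.1 p.2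

omit [DecidableEq n] in
lemma vr_inj (g B : ℕ) : Function.Injective fun i => (vr ℓ g B i).nm := by
  rintro (a | a | a | a | a | a) (b | b | b | b | b | b) h <;>
    simp only [vr, hu, hh, hy, hz, Prod.mk.injEq] at h <;>
    first
      | omega
      | (congr; ext <;> omega)

omit [DecidableEq n] in
lemma us_sys (g B : ℕ) (c : Oˣ) : usS (sys ℓ ν g B c) = ∑ i, pr (vr ℓ g B i) := by
  have h1 : ∀ j : Fin s, usW (wC ℓ j) + usS (fL (O := O) ℓ j B ::
      (List.range B).flatMap fun k => [fY ℓ ν j k, fZ ℓ j k]) =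
      pr (hu n 2 j) + (∑ k : Fin B, pr (hh ℓ j k) + (∑ k : Fin B, pr (hy ℓ j k) +
        ∑ k : Fin (B + 1), pr (hz ℓ j k))) := by
    intro j
    rw [Fin.sum_univ_eq_sum_range (fun k => pr (hh ℓ j k)),
      Fin.sum_univ_eq_sum_range (fun k => pr (hy ℓ j k)),
      Fin.sum_univ_eq_sum_range (fun k => pr (hz ℓ j k))]
    have e : ∀ f : ℕ → Multiset (Hf n), ((List.range B).map f).sum = ∑ k ∈ Finset.range B, f k :=
      fun f => rfl
    simp only [pr, Finset.sum_add_distrib]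
    rw [Finset.sum_range_succ' (fun k => ({hz ℓ j k} : Multiset (Hf n))), Finset.sum_range_succ,
      usS_cons, usS_flatMap, e]
    simp only [wC, fL, fY, fZ, usS_cons, usS_nil, usW_cons, usW_nil, Lt.us_fr, Lt.us_tri,
      Finset.sum_add_distrib, add_zero]
    abel
  simp only [Fintype.sum_sum_type, Fintype.sum_prod_type, vr, ← Finset.sum_add_distrib, ← h1]
  rw [sys, usS_cons, usS_flatMap, fM, usW_append, usW_flatMap, usW_flatMap, ← Fin.sum_univ_def,
    ← Fin.sum_univ_def, ← Fin.sum_univ_def, Finset.sum_add_distrib, ← add_assoc,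
    ← Finset.sum_add_distrib]
  have h2 : ∀ i : Fin g, usW (wA n i) = pr (hu n 0 i) + pr (hu n 1 i) := fun i => by
    simp only [wA, pr, usW_cons, usW_nil, Lt.us_fr]; abel
  simp only [h2, Finset.sum_add_distrib]
  abel

omit [DecidableEq n] in
lemma q_sys (g B : ℕ) (c : Oˣ) : Q (usS (sys ℓ ν g B c)) :=
  us_sys ℓ ν g B c ▸ q_sum _ _ (vr_inj ℓ g B)

lemma mem_sys {g B : ℕ} {c : Oˣ} {X : Asg K n} : X ∈ Sol K (sys ℓ ν g B c) ↔
    (fM ℓ g c).Sat X ∧ ∀ j, (fL (O := O) ℓ j B).Sat X ∧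
      ∀ k < B, (fY ℓ ν j k).Sat X ∧ (fZ (O := O) ℓ j k).Sat X := by
  rw [sys, mem_sol_cons]
  refine and_congr_right fun _ => ⟨fun h j => ⟨h _ ?_, fun k hk => ⟨h _ ?_, h _ ?_⟩⟩, ?_⟩
  · exact List.mem_flatMap.2 ⟨j, List.mem_finRange j, List.mem_cons_self⟩
  · exact List.mem_flatMap.2 ⟨j, List.mem_finRange j, List.mem_cons_of_mem _
      (List.mem_flatMap.2 ⟨k, List.mem_range.2 hk, List.mem_cons_self⟩)⟩
  · exact List.mem_flatMap.2 ⟨j, List.mem_finRange j, List.mem_cons_of_mem _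
      (List.mem_flatMap.2 ⟨k, List.mem_range.2 hk, List.mem_cons_of_mem _ List.mem_cons_self⟩)⟩
  · intro h φ hφ
    obtain ⟨j, -, hφ⟩ := List.mem_flatMap.1 hφ
    rcases List.mem_cons.1 hφ with rfl | hφ
    · exact (h j).1
    obtain ⟨k, hk, hφ⟩ := List.mem_flatMap.1 hφ
    rcases List.mem_pair.1 hφ with rfl | rfl
    exacts [((h j).2 k (List.mem_range.1 hk)).1, ((h j).2 k (List.mem_range.1 hk)).2]

/-- Reading off a representation. -/
def dec (g : ℕ) (X : Asg K n) : (Fin g → Qd n K) × (Fin s → Qd n K) :=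
  (fun i => (X (hu n 0 i), X (hu n 0 i).bar, X (hu n 1 i), X (hu n 1 i).bar),
    fun j => (X (hu n 2 j), X (hu n 2 j).bar, X (hz ℓ j 0), X (hz ℓ j 0).bar))

omit [DecidableEq n] in
lemma pm_dec (g : ℕ) : PM O K (dec (K := K) ℓ g) := by
  unfold dec; fun_prop

lemma ti_univ {A A' : Matrix n n K} : TI Finset.univ Finset.univ A A' ↔ A * A' = 1 :=
  ⟨fun h => h.mul.trans E_univ, fun h => ⟨fun _ _ h => by simp at h, fun _ _ h => by simp at h,
    h.trans E_univ.symm, (mul_eq_one_comm.1 h).trans E_univ.symm⟩⟩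

lemma sat_fM {g : ℕ} {c : Oˣ} {X : Asg K n} : (fM ℓ g c).Sat X ↔
    (∀ i, QInv ((dec ℓ g X).1 i)) ∧ (∀ j, QInv ((dec ℓ g X).2 j)) ∧
      (List.ofFn fun i => cm ((dec ℓ g X).1 i)).prod *
        (List.ofFn fun j => pc ((dec ℓ g X).2 j)).prod = algebraMap O K c • (1 : Matrix n n K) := by
  have h1 : pv X (fM ℓ g c).w Finset.univ = (List.ofFn fun i => cm ((dec ℓ g X).1 i)).prod *
      (List.ofFn fun j => pc ((dec ℓ g X).2 j)).prod := by
    rw [pv_eq, E_univ, Matrix.mul_one, fM, List.map_append, List.prod_append, prod_flatMap,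
      prod_flatMap, List.ofFn_eq_map, List.ofFn_eq_map]
    simp [wA, wC, cm, pc, dec, Matrix.mul_assoc]
  have h2 : (∀ l ∈ (fM ℓ g c).w, l.Ok X) ↔
      (∀ i, QInv ((dec ℓ g X).1 i)) ∧ (∀ j, QInv ((dec ℓ g X).2 j)) := by
    have e1 : ∀ a i, (Lt.fr (hu n a i)).Ok X ↔ X (hu n a i) * X (hu n a i).bar = 1 :=
      fun a i => ti_univ
    have e2 : ∀ a i, (Lt.fr (hu n a i).bar).Ok X ↔ X (hu n a i) * X (hu n a i).bar = 1 :=
      fun a i => (ti_univ (A := X (hu n a i).bar) (A' := X (hu n a i))).trans mul_eq_one_comm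
    have e3 : ∀ j, (Lt.fr (hz ℓ j 0)).Ok X ↔ X (hz ℓ j 0) * X (hz ℓ j 0).bar = 1 := fun j => by
      rw [← ti_univ, ← Zl_zero (ℓ j)]; rfl
    simp only [fM, List.forall_mem_append, List.forall_mem_flatMap, wA, wC, List.forall_mem_cons,
      e1, e2, e3, List.mem_finRange, QInv, dec]
    simp only [List.not_mem_nil, IsEmpty.forall_iff, implies_true, and_true, forall_const]
    exact and_congr (forall_congr' fun _ => by tauto) (forall_congr' fun _ => by tauto)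
  have h3 : Ty Finset.univ (fM ℓ g c).w Finset.univ := by
    refine ty_of_forall ?_
    simp only [fM, List.forall_mem_append, List.forall_mem_flatMap, wA, wC, List.forall_mem_cons]
    simp [hu, hz, Zl_zero]
  constructor
  · intro h
    exact ⟨(h2.1 h.ok).1, (h2.1 h.ok).2, by rw [← h1, ← E_univ]; exact h.eq⟩
  · intro h
    exact ⟨h3, h2.2 ⟨h.1, h.2.1⟩, h1.trans (h.2.2.trans (by rw [← E_univ]; rfl))⟩

lemma ti_scalar (p : Finset n) (u : Oˣ) :
    TI p p (algebraMap O K u • E K p) (algebraMap O K (u⁻¹ : Oˣ) • E K p) :=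
  (TI.refl p).smul (unit_mul_inv u)

lemma flag_of_sat {B : ℕ} {X : Asg K n} {j : Fin s} (hB : ∀ i, ℓ j i < B)
    (h : ∀ k < B, (fY ℓ ν j k).Sat X ∧ (fZ (O := O) ℓ j k).Sat X) :
    X (hz ℓ j 0) ∈ Flag (ℓ j) (fun k => algebraMap O K (ν j k)) := by
  have hT : ∀ k < B, TM (Zl (ℓ j) k) (Zl (ℓ j) k) (Pl (ℓ j) k) (Pl (ℓ j) k) (Zl (ℓ j) (k + 1))
      (Zl (ℓ j) (k + 1)) (X (hh ℓ j k)) (X (hh ℓ j k).bar) (X (hy ℓ j k)) (X (hy ℓ j k).bar)
      (X (hz ℓ j (k + 1))) (X (hz ℓ j (k + 1)).bar) := fun k hk =>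
    (h k hk).2.ok _ (List.mem_cons_of_mem _ List.mem_cons_self)
  have hZ : ∀ k < B, X (hh ℓ j k) = X (hz ℓ j k) := fun k hk => by
    have a1 : TI (Zl (ℓ j) k) (Zl (ℓ j) k) (X (hz ℓ j k).bar) (X (hz ℓ j k)) :=
      (h k hk).2.ok _ List.mem_cons_self
    have a2 : X (hz ℓ j k).bar * (X (hh ℓ j k) * E K (Zl (ℓ j) k)) =
        algebraMap O K (1 : Oˣ) • E K (Zl (ℓ j) k) := (h k hk).2.eq
    rw [(hT k hk).iso.sup.r, Units.val_one, map_one, one_smul] at a2
    exact a1.eq_inv (hT k hk).iso.sup.l a2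
  have hY : ∀ k < B, X (hy ℓ j k) = algebraMap O K (ν j k) • E K (Pl (ℓ j) k) := fun k hk => by
    have a2 : X (hy ℓ j k).bar * E K (Pl (ℓ j) k) =
        algebraMap O K ((ν j k)⁻¹ : Oˣ) • E K (Pl (ℓ j) k) := (h k hk).1.eq
    have a1 := (hT k hk).isoy.symm
    rw [a1.sup.r] at a2
    rw [a2] at a1
    exact (ti_scalar _ _).symm.unique a1
  have hk : ∀ k ≤ B, ∀ a b, k ≤ ℓ j a → k ≤ ℓ j b → X (hz ℓ j 0) a b = X (hz ℓ j k) a b := by
    intro k
    induction k with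
    | zero => intros; rfl
    | succ k ih =>
      intro hk a b ha hb
      rw [ih (by omega) a b (by omega) (by omega), ← (hT k hk).bz, blk_apply, hZ k hk,
        if_pos ⟨mem_Zl.2 ha, mem_Zl.2 hb⟩]
  intro a b hab
  rw [hk _ (hB b).le a b hab le_rfl, ← hZ _ (hB b)]
  by_cases e : ℓ j a = ℓ j b
  · have := congrFun (congrFun ((hT _ (hB b)).by'.trans (hY _ (hB b))) a) b
    rw [blk_apply, if_pos ⟨mem_Pl.2 e, mem_Pl.2 rfl⟩] at this
    rw [this, Matrix.smul_apply, E_apply]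
    by_cases e' : a = b <;> simp [e', e]
  · rw [(hT _ (hB b)).mp a b (by simpa using e) (mem_Pl.2 rfl), if_neg (by rintro rfl; exact e rfl)]

/-- The full matrix attached to a name. -/
def fullM (xa xb : ℕ → Qd n K) : ℕ → ℕ → Bool → Matrix n n K
  | 0, i, true => (xa i).1
  | 0, i, false => (xa i).2.1
  | 1, i, true => (xa i).2.2.1
  | 1, i, false => (xa i).2.2.2
  | 2, i, true => (xb i).1
  | 2, i, false => (xb i).2.1
  | _ + 3, i, true => (xb i).2.2.1
  | _ + 3, i, false => (xb i).2.2.2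

/-- The assignment attached to a representation. -/
def enc (xa xb : ℕ → Qd n K) : Asg K n := fun h => blk h.t h.s (fullM xa xb h.nm.1 h.nm.2.1 h.sg)

lemma blk_univ (A : Matrix n n K) : blk Finset.univ Finset.univ A = A := by simp [blk]

section flag

variable {l : n → ℕ} {μ : ℕ → K} {τ τ' : Matrix n n K} (hτ : τ ∈ Flag l μ) (hi : τ * τ' = 1)
include hτ

omit [Fintype n] in
lemma flag_tri : τ.BlockTriangular l := fun a b h => by
  rw [hτ a b h.le, if_neg (by rintro rfl; exact lt_irrefl _ h)]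

include hi

lemma flag_tri' : τ'.BlockTriangular l := by
  have := invertibleOfRightInverse τ τ' hi
  rw [← Matrix.inv_eq_right_inv hi]
  exact blockTriangular_inv_of_blockTriangular (flag_tri hτ)

lemma ti_graded (p : Finset n) (k m : ℕ) (hp : ∀ i, i ∈ p ↔ k ≤ l i ∧ l i < m) :
    TI p p (blk p p τ) (blk p p τ') := by
  have key : ∀ {A : Matrix n n K}, A.BlockTriangular l → ∀ r : ℕ,
      Mp (Finset.univ.filter fun i => l i < r) (Finset.univ.filter fun i => l i < r) A :=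
    fun hA r a b ha hb => hA (by simp at ha hb; omega)
  have := (ti_univ.2 hi).graded (Finset.subset_univ _) (Finset.subset_univ _)
    (key (flag_tri hτ) k) (key (flag_tri hτ) m) (key (flag_tri' hτ hi) k) (key (flag_tri' hτ hi) m)
  have e : (Finset.univ.filter fun i => l i < m) \ (Finset.univ.filter fun i => l i < k) = p := by
    ext i; simp [hp]; tauto
  rwa [e] at this

lemma ti_Z (k : ℕ) : TI (Zl l k) (Zl l k) (blk (Zl l k) (Zl l k) τ) (blk (Zl l k) (Zl l k) τ') :=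
  ti_graded hτ hi _ k (Finset.univ.sup l + 1) fun i => by
    have : l i ≤ Finset.univ.sup l := Finset.le_sup (Finset.mem_univ i)
    simp; omega

lemma ti_P (k : ℕ) : TI (Pl l k) (Pl l k) (blk (Pl l k) (Pl l k) τ) (blk (Pl l k) (Pl l k) τ') :=
  ti_graded hτ hi _ k (k + 1) fun i => by simp; omega

lemma tm_Z (k : ℕ) : TM (Zl l k) (Zl l k) (Pl l k) (Pl l k) (Zl l (k + 1)) (Zl l (k + 1))
    (blk (Zl l k) (Zl l k) τ) (blk (Zl l k) (Zl l k) τ') (blk (Pl l k) (Pl l k) τ)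
    (blk (Pl l k) (Pl l k) τ') (blk (Zl l (k + 1)) (Zl l (k + 1)) τ)
    (blk (Zl l (k + 1)) (Zl l (k + 1)) τ') := by
  have h1 : Zl l k = Pl l k ∪ Zl l (k + 1) := by ext i; simp; omega
  have h2 : Disjoint (Pl l k) (Zl l (k + 1)) := Finset.disjoint_left.2 fun i => by simp; omega
  refine ⟨ti_Z hτ hi k, ti_P hτ hi k, ti_Z hτ hi _, h1, h2, h1, h2, fun a b ha hb => ?_, ?_, ?_⟩
  · rw [blk_apply]
    split_ifs with e
    · exact flag_tri hτ (by simp at e ha hb; omega)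
    · rfl
  · ext a b
    simp only [blk_apply, mem_Pl, mem_Zl]
    split_ifs <;> first | rfl | omega
  · ext a b
    simp only [blk_apply, mem_Zl]
    split_ifs <;> first | rfl | omega

omit hi in
lemma blk_P (k : ℕ) : blk (Pl l k) (Pl l k) τ = μ k • E K (Pl l k) := by
  ext a b
  rw [blk_apply, Matrix.smul_apply, E_apply]
  split_ifs with h h' h'
  · simp only [mem_Pl] at h
    rw [hτ a b (by omega), if_pos h'.1, h.2]; simp
  · simp only [mem_Pl] at h h'
    rw [hτ a b (by omega), if_neg (by tauto)]; simp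
  · exact absurd ⟨h'.2, h'.1 ▸ h'.2⟩ h
  · simp

end flag

lemma exists_enc {g B : ℕ} {c : Oˣ} (hB : ∀ j i, ℓ j i < B)
    {x : (Fin g → Qd n K) × (Fin s → Qd n K)}
    (hx : x ∈ Punc g s ℓ (fun j k => algebraMap O K (ν j k)) (algebraMap O K c)) :
    ∃ X ∈ Sol K (sys ℓ ν g B c), dec ℓ g X = x := by
  let X := enc (fun i => if e : i < g then x.1 ⟨i, e⟩ else 0)
    (fun j => if e : j < s then x.2 ⟨j, e⟩ else 0)
  have hd : dec ℓ g X = x := by
    refine Prod.ext (funext fun i => ?_) (funext fun j => ?_) <;>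
      simp [dec, X, enc, hu, hz, Hf.bar, fullM, blk_univ, Zl_zero]
  refine ⟨X, (mem_sys ℓ ν).2 ⟨(sat_fM ℓ).2 ?_, fun j => ?_⟩, hd⟩
  · rw [hd]; exact ⟨hx.1, fun j => (hx.2.1 j).1, hx.2.2⟩
  have hτ := (hx.2.1 j).2
  have hi := (hx.2.1 j).1.2
  have e1 : ∀ a k t u, X ⟨(a + 3, j, k), true, t, u⟩ = blk t u (x.2 j).2.2.1 := fun a k t u => by
    simp [X, enc, fullM]
  have e2 : ∀ a k t u, X (Hf.bar ⟨(a + 3, j, k), true, t, u⟩) = blk u t (x.2 j).2.2.2 :=
    fun a k t u => by simp [X, enc, fullM, Hf.bar]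
  have hz' : ∀ k, (Lt.fr (hz ℓ j k).bar).Ok X := fun k => by
    have := (ti_Z hτ hi k).symm
    rwa [← e1 2 k, ← e2 2 k] at this
  refine ⟨⟨⟨rfl, rfl⟩, List.forall_mem_singleton.2 (hz' B), ?_⟩, fun k _ =>
    ⟨⟨⟨rfl, rfl⟩, List.forall_mem_singleton.2 ?_, ?_⟩, ⟨⟨rfl, rfl, rfl⟩, ?_, ?_⟩⟩⟩
  · have : Zl (ℓ j) B = ∅ := by ext i; simp [hB j i]
    simp [fL, this]
  · have := (ti_P hτ hi k).symm
    rwa [← e1 1 k, ← e2 1 k] at this
  · have h1 := ti_P hτ hi k
    change X (hy ℓ j k).bar * E K (Pl (ℓ j) k) = _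
    rw [hy, e2 1 k, h1.sup'.r]
    rw [blk_P hτ k] at h1
    exact (ti_scalar _ _).unique h1
  · refine List.forall_mem_cons.2 ⟨hz' k, List.forall_mem_singleton.2 ?_⟩
    have := tm_Z hτ hi k
    rwa [← e1 0 k, ← e2 0 k, ← e1 1 k, ← e2 1 k, ← e1 2 (k + 1), ← e2 2 (k + 1)] at this
  · have h1 := ti_Z hτ hi k
    change X (hz ℓ j k).bar * (X (hh ℓ j k) * E K (Zl (ℓ j) k)) = _
    rw [hz, hh, e2 2 k, e1 0 k, h1.sup.r, h1.mul']
    simp [fZ]

end PuncA

variable {O K : Type} [CommRing O] [Field K] [CharZero K] [Algebra O K] [FaithfulSMul O K]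
  {n : Type} [Fintype n] [DecidableEq n]

theorem dn_punc (hP : PFoam O K n (Fintype.card n + 1)) (g s : ℕ) (ℓ : Fin s → n → ℕ)
    (ν : Fin s → ℕ → Oˣ) (c : Oˣ) :
    Dn O K (Punc g s ℓ (fun j k => algebraMap O K (ν j k)) (algebraMap O K c)) := by
  obtain ⟨B, hB⟩ : ∃ B, ∀ j i, ℓ j i < B :=
    ⟨Finset.univ.sup (fun p : Fin s × n => ℓ p.1 p.2) + 1, fun j i => Nat.lt_succ_of_le
      (Finset.le_sup (f := fun p : Fin s × n => ℓ p.1 p.2) (Finset.mem_univ (j, i)))⟩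
  refine Dn.of_surj (PuncA.pm_dec ℓ g) (hP _ (PuncA.q_sys ℓ ν g B c) fun φ _ =>
    Nat.lt_succ_of_le (Finset.card_le_univ _)) (fun X hX => ?_)
    fun x hx => PuncA.exists_enc ℓ ν hB hx
  obtain ⟨h1, h2⟩ := (PuncA.mem_sys ℓ ν).1 hX
  obtain ⟨h3, h4, h5⟩ := (PuncA.sat_fM ℓ).1 h1
  exact ⟨h3, fun j => ⟨h4 j, PuncA.flag_of_sat ℓ ν (hB j) (h2 j).2⟩, h5⟩

end Vale.Agent.P002b
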