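import Vale.Agent.P002b.Moves

/-! Subdividing triangular letters and cutting a face along a diagonal. -/

namespace Vale.Agent.P002b

open Matrix

variable {O K : Type} [CommRing O] [Field K] [CharZero K] [Algebra O K] {ι : Type} [Fintype ι]
  [DecidableEq ι]
variable {c : Oˣ} {p : Finset ι} {A B P : List (Lt ι)} {R : List (Fc O ι)} {x : Asg K ι}
  {h y z h' y' z' : Hf ι}

omit [CharZero K] in
lemma TM.card_lt {t s ty sy tz sz : Finset ι} {T T' a a' b b' : Matrix ι ι K}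
    (h : TM t s ty sy tz sz T T' a a' b b') (h1 : ty.Nonempty) (h2 : tz.Nonempty) :
    ty.card < t.card ∧ tz.card < t.card := by
  rw [h.ut, Finset.card_union_of_disjoint h.dt]
  have := h1.card_pos
  have := h2.card_pos
  omega

omit [Fintype ι] [DecidableEq ι] in
lemma not_mem_step {A D : Multiset (Hf ι)} (hQ : Q (A + D)) (hD : ∀ h ∈ D, h.bar ∈ D) {k : Hf ι}
    (hk : k ∈ D) {N : ℕ} (hN : k.nm.1 < N) {L : List (ℕ × Finset ι × Finset ι)} :
    k ∉ A + nws N L := fun e => by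
  rcases Multiset.mem_add.1 e with e | e
  · exact (hQ.not_mem hD e).1 hk
  · rw [(mem_nws e).1] at hN; exact lt_irrefl _ hN

lemma gd_sub_aux (m₀ : Multiset (Hf ι)) (hp : (Lt.tri h y z).Proper)
    (hQ : Q (usS ((⟨c, p, P ++ .tri h y z :: B⟩ : Fc O ι) :: R)))
    (hx : x ∈ Sol K ((⟨c, p, P ++ .tri h y z :: B⟩ : Fc O ι) :: R))
    {m S : Finset ι} {G G' : Matrix ι ι K} (hG : TI h.s m G G') (hS : S ⊆ m)
    (h1 : Mp y.s S G) (h2 : Mp S y.s G')
    (H : ∀ (ha ya za hb yb zb : Hf ι) (T : List (Fc O ι)) (x' : Asg K ι),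
      ha.t = h.t → ya.t = y.t → ha.s = m → ya.s = S → hb.t = m → yb.t = S → hb.s = h.s →
      yb.s = y.s → (Lt.tri ha ya za).Proper → (Lt.tri hb yb zb).Proper → Thin p.card T →
      Q (usS ((⟨c, p, P ++ .tri ha ya za :: .tri hb yb zb :: B⟩ : Fc O ι) :: (T ++ R))) →
      x' ∈ Sol K ((⟨c, p, P ++ .tri ha ya za :: .tri hb yb zb :: B⟩ : Fc O ι) :: (T ++ R)) →
      Agree (usS ((⟨c, p, P ++ .tri h y z :: B⟩ : Fc O ι) :: R)) x x' → Agree m₀ x x' →
      x' ha = x h * G → x' ha.bar = G' * x h.bar → x' hb = G' → x' hb.bar = G →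
      Gd O K (Sol K ((⟨c, p, P ++ .tri ha ya za :: .tri hb yb zb :: B⟩ : Fc O ι) :: (T ++ R)))
        x') :
    Gd O K (Sol K ((⟨c, p, P ++ .tri h y z :: B⟩ : Fc O ι) :: R)) x := by
  have hu : usS ((⟨c, p, P ++ .tri h y z :: B⟩ : Fc O ι) :: R) =
      (usW P + usW B + usS R + {y} + {z}) + ({h} + {h.bar}) := by
    simp only [usS_cons, usW_append, usW_cons, Lt.us_tri]; abel
  have hx0 := hx
  rw [mem_sol_cons] at hx
  obtain ⟨⟨t, o, e⟩, hR⟩ := hx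
  dsimp only at t o e
  obtain ⟨_, tP, rfl, tB⟩ := ty_append.1 t
  simp only [Lt.hd_tri] at tP tB
  have oh : TM h.t h.s y.t y.s z.t z.s (x h) (x h.bar) (x y) (x y.bar) (x z) (x z.bar) :=
    o (.tri h y z) (by simp)
  have tG := TM.of_TI hG oh.suby' hS h1 h2
  rw [← oh.sz_eq] at tG
  have cp : p.card = h.t.card := tP.card_eq (X := x) fun l hl => o l (by simp [hl])
  have thin := oh.card_lt hp.1 hp.2
  refine gd_of_move fun N₀ => ?_
  obtain ⟨N₁, hN₁, hm₀⟩ := exists_bound m₀ N₀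
  obtain ⟨N, hN₂, hN⟩ := exists_bound (usS ((⟨c, p, P ++ .tri h y z :: B⟩ : Fc O ι) :: R)) N₁
  have hN₀ := hN₁.trans hN₂
  obtain ⟨ha, eha⟩ : ∃ k, k = nw N 0 h.t m := ⟨_, rfl⟩
  obtain ⟨ya, eya⟩ : ∃ k, k = nw N 1 y.t S := ⟨_, rfl⟩
  obtain ⟨za, eza⟩ : ∃ k, k = nw N 2 z.t (m \ S) := ⟨_, rfl⟩
  obtain ⟨hb, ehb⟩ : ∃ k, k = nw N 3 m h.s := ⟨_, rfl⟩
  obtain ⟨yb, eyb⟩ : ∃ k, k = nw N 4 S y.s := ⟨_, rfl⟩
  obtain ⟨zb, ezb⟩ : ∃ k, k = nw N 5 (m \ S) z.s := ⟨_, rfl⟩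
  let T : List (Fc O ι) := [⟨1, y.t, [.fr y, .fr yb.bar, .fr ya.bar]⟩,
    ⟨1, z.t, [.fr z, .fr zb.bar, .fr za.bar]⟩]
  have hu' : usS ((⟨c, p, P ++ .tri ha ya za :: .tri hb yb zb :: B⟩ : Fc O ι) :: (T ++ R)) =
      (usW P + usW B + usS R + {y} + {z}) + nws N [(0, h.t, m), (1, y.t, S), (2, z.t, m \ S),
        (3, m, h.s), (4, S, y.s), (5, m \ S, z.s)] := by
    simp only [T, usS_cons, usS_append, usS_nil, usW_append, usW_cons, usW_nil, Lt.us_tri,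
      Lt.us_fr, nws_cons, nws_nil, ← eha, ← eya, ← eza, ← ehb, ← eyb, ← ezb]
    abel
  rw [hu] at hQ
  have hQ' : Q (usS ((⟨c, p, P ++ .tri ha ya za :: .tri hb yb zb :: B⟩ : Fc O ι) :: (T ++ R))) := by
    rw [hu']
    exact hQ.step (by simp) (fun k hk => hN k (hu ▸ Multiset.mem_add.2 (Or.inl hk))) (by simp)
  let V : ℕ → Matrix ι ι K := fun j => match j with
    | 0 => x h * G | 1 => x y * blk y.s S G | 2 => x z * blk z.s (m \ S) G | 3 => G'
    | 4 => blk S y.s G' | _ => blk (m \ S) z.s G'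
  let V' : ℕ → Matrix ι ι K := fun j => match j with
    | 0 => G' * x h.bar | 1 => blk S y.s G' * x y.bar | 2 => blk (m \ S) z.s G' * x z.bar | 3 => G
    | 4 => blk y.s S G | _ => blk z.s (m \ S) G
  have ag := agree_ext x V V' hN
  have ag₀ := agree_ext x V V' (m := m₀) fun k hk => (hm₀ k hk).trans_le hN₂
  have a0 : ext x N V V' ha = x h * G := by rw [eha, ext_nw]; rfl
  have a0' : ext x N V V' ha.bar = G' * x h.bar := by rw [eha, ext_nw_bar]; rfl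
  have a1 : ext x N V V' ya = x y * blk y.s S G := by rw [eya, ext_nw]; rfl
  have a1' : ext x N V V' ya.bar = blk S y.s G' * x y.bar := by rw [eya, ext_nw_bar]; rfl
  have a2 : ext x N V V' za = x z * blk z.s (m \ S) G := by rw [eza, ext_nw]; rfl
  have a2' : ext x N V V' za.bar = blk (m \ S) z.s G' * x z.bar := by rw [eza, ext_nw_bar]; rfl
  have a3 : ext x N V V' hb = G' := by rw [ehb, ext_nw]; rfl
  have a3' : ext x N V V' hb.bar = G := by rw [ehb, ext_nw_bar]; rfl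
  have a4 : ext x N V V' yb = blk S y.s G' := by rw [eyb, ext_nw]; rfl
  have a4' : ext x N V V' yb.bar = blk y.s S G := by rw [eyb, ext_nw_bar]; rfl
  have a5 : ext x N V V' zb = blk (m \ S) z.s G' := by rw [ezb, ext_nw]; rfl
  have a5' : ext x N V V' zb.bar = blk z.s (m \ S) G := by rw [ezb, ext_nw_bar]; rfl
  have lt : ∀ k : Hf ι, k.nm.1 < N₀ → ext x N V V' k = x k := fun k hk =>
    ext_of_lt _ _ _ (hk.trans_le hN₀)
  generalize ext x N V V' = x' at ag ag₀ a0 a0' a1 a1' a2 a2' a3 a3' a4 a4' a5 a5' lt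
  have t0 : ha.t = h.t := by rw [eha, nw_t]
  have s0 : ha.s = m := by rw [eha, nw_s]
  have t1 : ya.t = y.t := by rw [eya, nw_t]
  have s1 : ya.s = S := by rw [eya, nw_s]
  have t2 : za.t = z.t := by rw [eza, nw_t]
  have s2 : za.s = m \ S := by rw [eza, nw_s]
  have t3 : hb.t = m := by rw [ehb, nw_t]
  have s3 : hb.s = h.s := by rw [ehb, nw_s]
  have t4 : yb.t = S := by rw [eyb, nw_t]
  have s4 : yb.s = y.s := by rw [eyb, nw_s]
  have t5 : zb.t = m \ S := by rw [ezb, nw_t]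
  have s5 : zb.s = z.s := by rw [ezb, nw_s]
  have tB' : Ty h.t (.tri ha ya za :: .tri hb yb zb :: B) p := by simp [t0, s0, t3, s3, tB]
  have ev : ∀ X : Asg K ι, X h = X ha * X hb → ∀ P : List (Lt ι),
      pv X (P ++ .tri h y z :: B) p = pv X (P ++ .tri ha ya za :: .tri hb yb zb :: B) p := by
    intro X e P
    induction P with
    | nil => simp [e, Matrix.mul_assoc]
    | cons l P ih => simp [ih]
  have hx' := sol_congr hx0 ag
  have gh := ag h (by simp)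
  have gy := ag y (by simp)
  have gz := ag z (by simp)
  have v1 : x' ha * x' hb = x' h := by
    rw [a0, a3, ← gh.1, Matrix.mul_assoc, hG.mul, oh.iso.sup.r]
  have v2 : x' hb.bar * x' ha.bar = x' h.bar := by
    rw [a0', a3', ← gh.2, ← Matrix.mul_assoc, hG.mul, oh.iso.sup'.l]
  refine ⟨_, x', fun Y => upd Y h (Y ha * Y hb) (Y hb.bar * Y ha.bar), by fun_prop,
    fun Y hY => ?_, fun k hk => ?_, H ha ya za hb yb zb T x' t0 t1 s0 s1 t3 t4 s3 s4 ?_ ?_ ?_ hQ' ?_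
      ag ag₀ a0 a0' a3 a3'⟩
  · have n1 : h ∉ usS ((⟨c, p, P ++ .tri ha ya za :: .tri hb yb zb :: B⟩ : Fc O ι) :: (T ++ R)) :=
      hu' ▸ not_mem_step hQ (by simp) (by simp) (hN h (by simp))
    have n2 : h.bar ∉
        usS ((⟨c, p, P ++ .tri ha ya za :: .tri hb yb zb :: B⟩ : Fc O ι) :: (T ++ R)) :=
      hu' ▸ not_mem_step hQ (by simp) (by simp) (hN h.bar (by simp))
    have agY := agree_upd_of n1 n2 Y (Y ha * Y hb) (Y hb.bar * Y ha.bar)
    have w1 := upd_fst Y h (Y ha * Y hb) (Y hb.bar * Y ha.bar)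
    have w2 := upd_snd Y h (Y ha * Y hb) (Y hb.bar * Y ha.bar)
    dsimp only
    generalize upd Y h (Y ha * Y hb) (Y hb.bar * Y ha.bar) = Z at agY w1 w2 ⊢
    have hZ := sol_congr hY agY
    rw [(agY ha (by simp)).1, (agY hb (by simp)).1] at w1
    rw [(agY ha (by simp)).2, (agY hb (by simp)).2] at w2
    simp only [T, List.cons_append, List.nil_append, mem_sol_cons] at hZ ⊢
    obtain ⟨⟨-, o', e'⟩, ⟨-, oy, ey⟩, ⟨-, oz, ez⟩, hR'⟩ := hZ
    have oa := o' (.tri ha ya za) (by simp)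
    have ob := o' (.tri hb yb zb) (by simp)
    simp only [Lt.ok_tri, t0, s0, t1, s1, t2, s2, t3, s3, t4, s4, t5, s5] at oa ob
    have iy : TI y.t y.s (Z y) (Z y.bar) := oy (.fr y) (by simp)
    have iz : TI z.t z.s (Z z) (Z z.bar) := oz (.fr z) (by simp)
    have m := oa.trans ob
    simp only [pv_cons, pv_nil, Lt.hd_fr, Units.val_one, map_one, one_smul, oa.isoy.sup'.r,
      oa.isoz.sup'.r] at ey ez
    have y2 : Z yb.bar * Z ya.bar = Z y.bar := iy.eq_inv m.isoy.sup'.l ey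
    have z2 : Z zb.bar * Z za.bar = Z z.bar := iz.eq_inv m.isoz.sup'.l ez
    rw [y2, z2, ← w1, ← w2] at m
    rw [iy.symm.unique m.isoy.symm, iz.symm.unique m.isoz.symm] at m
    refine ⟨⟨t, fun l hl => ?_, (ev Z w1 P).trans e'⟩, hR'⟩
    simp only [List.mem_append, List.mem_cons] at hl
    rcases hl with hl | rfl | hl
    exacts [o' l (by simp [hl]), m, o' l (by simp [hl])]
  · dsimp only
    rw [upd_self v1 v2, lt k hk]
  · simpa [Lt.Proper, t1, t2] using hp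
  · refine ⟨?_, ?_⟩
    · rw [t4, ← Finset.card_pos, ← tG.isoy.card_eq, ← oh.isoy.card_eq, Finset.card_pos]
      exact hp.1
    · rw [t5, ← Finset.card_pos, ← tG.isoz.card_eq, ← oh.isoz.card_eq, Finset.card_pos]
      exact hp.2
  · intro φ hφ
    simp only [T, List.mem_cons, List.not_mem_nil, or_false] at hφ
    rw [cp]
    rcases hφ with rfl | rfl
    exacts [thin.1, thin.2]
  · rw [mem_sol_cons] at hx'
    have oa : (Lt.tri ha ya za).Ok x' := by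
      simp only [Lt.ok_tri, t0, s0, t1, s1, t2, s2, a0, a0', a1, a1', a2, a2']
      exact oh.trans tG
    have ob : (Lt.tri hb yb zb).Ok x' := by
      simp only [Lt.ok_tri, t3, s3, t4, s4, t5, s5, a3, a3', a4, a4', a5, a5']
      exact tG.symm
    simp only [T, List.cons_append, List.nil_append, mem_sol_cons]
    refine ⟨⟨tP.append tB', fun l hl => ?_, (ev x' v1.symm P).symm.trans hx'.1.eq⟩,
      ⟨by simp [s4, t4, s1, t1], ?_, ?_⟩, ⟨by simp [s5, t5, s2, t2], ?_, ?_⟩, hx'.2⟩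
    · simp only [List.mem_append, List.mem_cons] at hl
      rcases hl with hl | rfl | rfl | hl
      exacts [hx'.1.ok l (by simp [hl]), oa, ob, hx'.1.ok l (by simp [hl])]
    · simpa [← gy.1, ← gy.2] using ⟨oh.isoy, (TM.isoy ob).symm, (TM.isoy oa).symm⟩
    · simp only [pv_cons, pv_nil, Lt.hd_fr, Units.val_one, map_one, one_smul, a4', a1', ← gy.1]
      rw [Matrix.mul_assoc, oh.isoy.sup'.r, ← Matrix.mul_assoc (blk _ _ _), tG.isoy.mul,
        oh.isoy.sup'.l, oh.isoy.mul]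
    · simpa [← gz.1, ← gz.2] using ⟨oh.isoz, (TM.isoz ob).symm, (TM.isoz oa).symm⟩
    · simp only [pv_cons, pv_nil, Lt.hd_fr, Units.val_one, map_one, one_smul, a5', a2', ← gz.1]
      rw [Matrix.mul_assoc, oh.isoz.sup'.r, ← Matrix.mul_assoc (blk _ _ _), tG.isoz.mul,
        oh.isoz.sup'.l, oh.isoz.mul]

/-- A proper triangular letter `T` is written as `(T G) G'`. -/
lemma gd_sub (hp : (Lt.tri h y z).Proper)
    (hQ : Q (usS ((⟨c, p, P ++ .tri h y z :: B⟩ : Fc O ι) :: R)))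
    (hx : x ∈ Sol K ((⟨c, p, P ++ .tri h y z :: B⟩ : Fc O ι) :: R))
    {m S : Finset ι} {G G' : Matrix ι ι K} (hG : TI h.s m G G') (hS : S ⊆ m)
    (h1 : Mp y.s S G) (h2 : Mp S y.s G')
    (H : ∀ (ha ya za hb yb zb : Hf ι) (T : List (Fc O ι)) (x' : Asg K ι),
      ha.t = h.t → ya.t = y.t → ha.s = m → ya.s = S → hb.t = m → yb.t = S → hb.s = h.s →
      yb.s = y.s → (Lt.tri ha ya za).Proper → (Lt.tri hb yb zb).Proper → Thin p.card T →
      Q (usS ((⟨c, p, P ++ .tri ha ya za :: .tri hb yb zb :: B⟩ : Fc O ι) :: (T ++ R))) →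
      x' ∈ Sol K ((⟨c, p, P ++ .tri ha ya za :: .tri hb yb zb :: B⟩ : Fc O ι) :: (T ++ R)) →
      Agree (usS ((⟨c, p, P ++ .tri h y z :: B⟩ : Fc O ι) :: R)) x x' →
      x' ha = x h * G → x' ha.bar = G' * x h.bar → x' hb = G' → x' hb.bar = G →
      Gd O K (Sol K ((⟨c, p, P ++ .tri ha ya za :: .tri hb yb zb :: B⟩ : Fc O ι) :: (T ++ R)))
        x') :
    Gd O K (Sol K ((⟨c, p, P ++ .tri h y z :: B⟩ : Fc O ι) :: R)) x :=
  gd_sub_aux 0 hp hQ hx hG hS h1 h2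
    fun ha ya za hb yb zb T x' e1 e2 e3 e4 e5 e6 e7 e8 e9 e10 e11 e12 e13 e14 _ =>
      H ha ya za hb yb zb T x' e1 e2 e3 e4 e5 e6 e7 e8 e9 e10 e11 e12 e13 e14

/-- A face is cut along a diagonal joining two proper triangular letters. -/
lemma gd_cut (hp : (Lt.tri h y z).Proper) (hp' : (Lt.tri h' y' z').Proper)
    (hQ : Q (usS ((⟨c, p, P ++ .tri h y z :: (A ++ .tri h' y' z' :: B)⟩ : Fc O ι) :: R)))
    (hx : x ∈ Sol K ((⟨c, p, P ++ .tri h y z :: (A ++ .tri h' y' z' :: B)⟩ : Fc O ι) :: R))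
    {S' : Finset ι} {g g' : Matrix ι ι K} (hg : TI h.s h.s g g') (h1 : Mp y.s y.s g)
    (h2 : Mp y.s y.s g') (hS : S' ⊆ h.s) (h3 : Mp y'.t S' (pw x A h'.t * g))
    (h4 : Mp S' y'.t (g' * pv x A h'.t))
    (H : ∀ (ha ya za hb yb zb ha' ya' za' hb' yb' zb' : Hf ι) (T : List (Fc O ι)) (x' : Asg K ι),
      ha.t = h.t → ya.t = y.t → ha.s = h.s → ya.s = y.s → hb'.t = h.s → yb'.t = S' →
      hb'.s = h'.s → yb'.s = y'.s → (Lt.tri ha ya za).Proper → (Lt.tri hb yb zb).Proper →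
      (Lt.tri ha' ya' za').Proper → (Lt.tri hb' yb' zb').Proper → Thin p.card T →
      h.s.card = p.card →
      Q (usS ((⟨c, p, P ++ .tri ha ya za :: .tri hb' yb' zb' :: B⟩ : Fc O ι) ::
        ⟨1, h.s, .tri hb yb zb :: (A ++ [.tri ha' ya' za'])⟩ :: (T ++ R))) →
      x' ∈ Sol K ((⟨c, p, P ++ .tri ha ya za :: .tri hb' yb' zb' :: B⟩ : Fc O ι) ::
        ⟨1, h.s, .tri hb yb zb :: (A ++ [.tri ha' ya' za'])⟩ :: (T ++ R)) →
      Agree (usS ((⟨c, p, P ++ .tri h y z :: (A ++ .tri h' y' z' :: B)⟩ : Fc O ι) :: R)) x x' →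
      x' ha = x h * g → x' ha.bar = g' * x h.bar → x' hb' = g' * pv x A h'.t * x h' →
      x' hb'.bar = x h'.bar * pw x A h'.t * g →
      Gd O K (Sol K ((⟨c, p, P ++ .tri ha ya za :: .tri hb' yb' zb' :: B⟩ : Fc O ι) ::
        ⟨1, h.s, .tri hb yb zb :: (A ++ [.tri ha' ya' za'])⟩ :: (T ++ R))) x') :
    Gd O K (Sol K ((⟨c, p, P ++ .tri h y z :: (A ++ .tri h' y' z' :: B)⟩ : Fc O ι) :: R)) x := by
  have hx1 := (mem_sol_cons.1 hx).1
  obtain ⟨_, tP, rfl, t2⟩ := ty_append.1 hx1.ty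
  obtain ⟨_, tA, rfl, tB⟩ := ty_append.1 t2
  simp only [Lt.hd_tri] at tP tA tB
  have oA : ∀ l ∈ A, l.Ok x := fun l hl => hx1.ok l (by simp [hl])
  have oh : TM h.t h.s y.t y.s z.t z.s (x h) (x h.bar) (x y) (x y.bar) (x z) (x z.bar) :=
    hx1.ok (.tri h y z) (by simp)
  have oh' : TM h'.t h'.s y'.t y'.s z'.t z'.s (x h') (x h'.bar) (x y') (x y'.bar) (x z')
      (x z'.bar) := hx1.ok (.tri h' y' z') (by simp)
  have iA := ti_pv tA oA
  have cp : h.s.card = p.card := by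
    rw [← oh.iso.card_eq, tP.card_eq (X := x) fun l hl => hx1.ok l (by simp [hl])]
  refine gd_sub hp hQ hx hg oh.suby' h1 h2 ?_
  intro ha ya za hb yb zb T₁ x₁ t0 t1 s0 s1 t3 t4 s3 s4 pa pb th₁ hQ₁ hx₁ ag₁ a0 a0' a3 a3'
  have e₁ : P ++ Lt.tri ha ya za :: Lt.tri hb yb zb :: (A ++ Lt.tri h' y' z' :: B) =
      (P ++ Lt.tri ha ya za :: Lt.tri hb yb zb :: A) ++ Lt.tri h' y' z' :: B := by simp
  rw [e₁] at hQ₁ hx₁ ⊢
  have g1 := ag₁ h' (by simp)
  have iG : TI h'.s h.s (x h'.bar * (pw x A h'.t * g)) (g' * pv x A h'.t * x h') :=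
    oh'.iso.symm.trans (iA.symm.trans hg)
  refine gd_sub_aux (usS ((⟨c, p, P ++ .tri h y z :: (A ++ .tri h' y' z' :: B)⟩ : Fc O ι) :: R))
    hp' hQ₁ hx₁ iG hS (oh'.symm.mp.mul h3) (h4.mul oh'.mp) ?_
  intro ha' ya' za' hb' yb' zb' T₂ x₂ u0 u1 v0 v1 u3 u4 v3 v4 pa' pb' th₂ hQ₂ hx₂ ag₂ ag₃ b0 b0'
    b3 b3'
  have e₂ : (P ++ Lt.tri ha ya za :: Lt.tri hb yb zb :: A) ++ Lt.tri ha' ya' za' ::
      Lt.tri hb' yb' zb' :: B = (P ++ [Lt.tri ha ya za]) ++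
        (Lt.tri hb yb zb :: (A ++ [Lt.tri ha' ya' za'])) ++ (Lt.tri hb' yb' zb' :: B) := by simp
  rw [e₂] at hQ₂ hx₂ ⊢
  have agA : Agree (usW A) x x₂ :=
    (ag₁.mono fun k hk => by simp [hk]).trans (ag₂.mono fun k hk => by simp [hk])
  have tA' : Ty h'.t [Lt.tri ha' ya' za'] h.s := by simp [u0, v0]
  have pin := sol_pinch (q := h.s) (tP.append (by simp [t0, s0]))
    (by simpa [t3, s3] using tA.append tA') hx₂ (by
      rw [pv_cons, pv_append _ tA' fun l hl => (mem_sol_cons.1 hx₂).1.ok l (by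
        simp only [List.mem_singleton] at hl; simp [hl]), ← pv_congr agA, Lt.hd_tri,
        ← (ag₂ hb (by simp)).1, a3, pv_cons, pv_nil, Lt.hd_tri, b0, ← g1.1]
      simp only [Matrix.mul_assoc]
      rw [← Matrix.mul_assoc (x h'), oh'.iso.mul, ← Matrix.mul_assoc (E K _), iA.sup'.l,
        ← Matrix.mul_assoc (pv _ _ _), iA.mul, hg.sup.r, hg.sup.l, hg.mul'])
  have pm : ((⟨1, h.s, .tri hb yb zb :: (A ++ [.tri ha' ya' za'])⟩ : Fc O ι) ::
      ⟨c, p, P ++ [.tri ha ya za] ++ .tri hb' yb' zb' :: B⟩ :: (T₂ ++ (T₁ ++ R))).Perm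
      (⟨c, p, P ++ .tri ha ya za :: .tri hb' yb' zb' :: B⟩ ::
        ⟨1, h.s, .tri hb yb zb :: (A ++ [.tri ha' ya' za'])⟩ :: (T₂ ++ T₁ ++ R)) := by
    simpa using List.Perm.swap _ _ _
  rw [sol_perm pm] at pin
  refine (H ha ya za hb yb zb ha' ya' za' hb' yb' zb' (T₂ ++ T₁) x₂ t0 t1 s0 s1 u3 u4 v3 v4 pa pb
    pa' pb' (fun φ hφ => (List.mem_append.1 hφ).elim (th₂ φ) (th₁ φ)) cp ?_ pin.1 ?_ ?_ ?_ b3
      ?_).mono pin.2
  · refine (congrArg Q ?_).mp hQ₂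
    simp only [usS_cons, usS_append, usW_append, usW_cons, usW_nil]; abel
  · exact ag₁.trans ag₃
  · rw [← (ag₂ ha (by simp)).1, a0]
  · rw [← (ag₂ ha (by simp)).2, a0']
  · rw [b3', Matrix.mul_assoc]

end Vale.Agent.P002b
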