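import Vale.Agent.P002b.Zar

/-! Typed isomorphisms between coordinate subspaces, inside one matrix ring. -/

namespace Vale.Agent.P002b

open Matrix

variable {K : Type} [Field K] {ι : Type} [Fintype ι] [DecidableEq ι]

/-- The projector onto the coordinates in `s`. -/
def E (K : Type) [Field K] (s : Finset ι) : Matrix ι ι K :=
  Matrix.diagonal fun i => if i ∈ s then 1 else 0

omit [Fintype ι] in
lemma E_apply (s : Finset ι) (i j : ι) : E K s i j = if i = j ∧ i ∈ s then 1 else 0 := by
  by_cases h : i = j <;> simp [E, h]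

lemma E_mul_apply {κ : Type} (s : Finset ι) (A : Matrix ι κ K) (i : ι) (j : κ) :
    (E K s * A) i j = if i ∈ s then A i j else 0 := by
  simp [E, Matrix.diagonal_mul]

lemma mul_E_apply {κ : Type} (s : Finset ι) (A : Matrix κ ι K) (i : κ) (j : ι) :
    (A * E K s) i j = if j ∈ s then A i j else 0 := by
  simp [E, Matrix.mul_diagonal]

lemma E_mul_E (s t : Finset ι) : E K s * E K t = E K (s ∩ t) := by
  ext i j; rw [E_mul_apply, E_apply, E_apply]
  by_cases h : i ∈ s <;> simp [h]

@[simp] lemma E_mul_self (s : Finset ι) : E K s * E K s = E K s := by simp [E_mul_E]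

omit [Fintype ι] in
@[simp] lemma E_empty : E K (∅ : Finset ι) = 0 := by ext i j; simp [E_apply]

@[simp] lemma E_univ : E K (Finset.univ : Finset ι) = 1 := by
  ext i j; simp [E_apply, Matrix.one_apply]

omit [Fintype ι] in
lemma E_union {s t : Finset ι} (h : Disjoint s t) : E K (s ∪ t) = E K s + E K t := by
  ext i j
  have : i ∈ s → i ∉ t := fun e => Finset.disjoint_left.1 h e
  simp only [E_apply, Matrix.add_apply, Finset.mem_union]
  by_cases h1 : i = j <;> by_cases h2 : i ∈ s <;> by_cases h3 : i ∈ t <;> simp_all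

lemma E_mul_E_of_disjoint {s t : Finset ι} (h : Disjoint s t) : E K s * E K t = 0 := by
  rw [E_mul_E, Finset.disjoint_iff_inter_eq_empty.1 h, E_empty]

lemma trace_E (s : Finset ι) : (E K s).trace = s.card := by
  simp [E, Matrix.trace]

omit [Fintype ι] in
instance intC_E {O : Type} [CommRing O] [Algebra O K] (s : Finset ι) : IntC O K (E K s) :=
  ⟨isInt_mat.2 fun i j => by
    rw [E_apply]; split_ifs
    exacts [intC_one.out, intC_zero.out]⟩

/-- `A` is supported in rows `t` and columns `s`. -/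
def Sup (t s : Finset ι) (A : Matrix ι ι K) : Prop := ∀ i j, (i ∉ t ∨ j ∉ s) → A i j = 0

/-- `A` maps the coordinate subspace of `s` into that of `t`. -/
def Mp (t s : Finset ι) (A : Matrix ι ι K) : Prop := ∀ i j, i ∉ t → j ∈ s → A i j = 0

/-- The block with rows `t` and columns `s`. -/
def blk (t s : Finset ι) (A : Matrix ι ι K) : Matrix ι ι K := E K t * A * E K s

lemma blk_apply (t s : Finset ι) (A : Matrix ι ι K) (i j : ι) :
    blk t s A i j = if i ∈ t ∧ j ∈ s then A i j else 0 := by
  rw [blk, mul_E_apply, E_mul_apply]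
  by_cases h : i ∈ t <;> by_cases h' : j ∈ s <;> simp [h, h']

@[fun_prop] lemma IsP.blk {X : Type} [Aff K X] (t s : Finset ι) {f : X → Matrix ι ι K}
    (hf : IsP K f) : IsP K (fun x => blk t s (f x)) := by
  unfold P002b.blk; fun_prop

@[fun_prop] lemma PM.blk {O X : Type} [CommRing O] [Algebra O K] [Aff K X] (t s : Finset ι)
    {f : X → Matrix ι ι K} (hf : PM O K f) : PM O K (fun x => blk t s (f x)) := by
  unfold P002b.blk; fun_prop

variable {t s m a b c d : Finset ι} {A A' B B' : Matrix ι ι K}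

lemma Sup.l (h : Sup t s A) : E K t * A = A := by
  ext i j; rw [E_mul_apply]; split_ifs with e
  exacts [rfl, (h i j (Or.inl e)).symm]

lemma Sup.r (h : Sup t s A) : A * E K s = A := by
  ext i j; rw [mul_E_apply]; split_ifs with e
  exacts [rfl, (h i j (Or.inr e)).symm]

lemma sup_of_eq (h : E K t * A = A) (h' : A * E K s = A) : Sup t s A := by
  rintro i j (e | e)
  · rw [← h, E_mul_apply, if_neg e]
  · rw [← h', mul_E_apply, if_neg e]

lemma sup_blk : Sup t s (blk t s A) := fun i j h => by
  rw [blk_apply, if_neg (by tauto)]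

lemma Sup.blk_eq (h : Sup t s A) : blk t s A = A := by rw [blk, h.l, h.r]

omit [Fintype ι] in
lemma sup_E : Sup s s (E K s) := fun i j h => by
  rw [E_apply, if_neg]; rintro ⟨rfl, e⟩; tauto

omit [Fintype ι] [DecidableEq ι] in
lemma Sup.mono (h : Sup t s A) (ht : t ⊆ a) (hs : s ⊆ b) : Sup a b A :=
  fun i j e => h i j (e.imp (fun e h => e (ht h)) fun e h => e (hs h))

lemma Sup.mul (h : Sup t a A) (h' : Sup b s B) : Sup t s (A * B) :=
  sup_of_eq (by rw [← Matrix.mul_assoc, h.l]) (by rw [Matrix.mul_assoc, h'.r])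

omit [Fintype ι] [DecidableEq ι] in
lemma Sup.add (h : Sup t s A) (h' : Sup t s B) : Sup t s (A + B) :=
  fun i j e => by simp [h i j e, h' i j e]

omit [Fintype ι] [DecidableEq ι] in
lemma Sup.sub (h : Sup t s A) (h' : Sup t s B) : Sup t s (A - B) :=
  fun i j e => by simp [h i j e, h' i j e]

omit [Fintype ι] [DecidableEq ι] in
lemma Sup.smul (h : Sup t s A) (x : K) : Sup t s (x • A) := fun i j e => by simp [h i j e]

lemma Sup.mul_eq_zero (h : Sup t a A) (h' : Sup b s B) (hd : Disjoint a b) : A * B = 0 := by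
  rw [← h.r, ← h'.l, Matrix.mul_assoc, ← Matrix.mul_assoc (E K a), E_mul_E_of_disjoint hd]; simp

lemma mp_iff : Mp t s A ↔ E K t * (A * E K s) = A * E K s := by
  constructor
  · intro h; ext i j; rw [E_mul_apply]; split_ifs with e
    · rfl
    · rw [mul_E_apply]; split_ifs with e'
      exacts [(h i j e e').symm, rfl]
  · intro h i j e e'
    have := congrFun (congrFun h i) j
    rwa [E_mul_apply, if_neg e, mul_E_apply, if_pos e', eq_comm] at this

lemma Mp.mul (h : Mp t m A) (h' : Mp m s B) : Mp t s (A * B) := fun i j e e' => by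
  rw [Matrix.mul_apply]
  refine Finset.sum_eq_zero fun k _ => ?_
  by_cases hk : k ∈ m
  · rw [h i k e hk, zero_mul]
  · rw [h' k j hk e', mul_zero]

omit [Fintype ι] in
lemma mp_E (h : a ∩ s ⊆ t) : Mp t s (E K a) := fun i j e e' => by
  rw [E_apply, if_neg]; rintro ⟨rfl, h'⟩; exact e (h (Finset.mem_inter.2 ⟨h', e'⟩))

omit [Fintype ι] [DecidableEq ι] in
lemma Mp.smul (h : Mp t s A) (x : K) : Mp t s (x • A) := fun i j e e' => by simp [h i j e e']

omit [Fintype ι] [DecidableEq ι] in
lemma Sup.mp (h : Sup t s A) : Mp t b A := fun i j e _ => h i j (Or.inl e)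

omit [Fintype ι] in
lemma Mp.inter (h : Mp a b A) (h' : Mp c d A) : Mp (a ∩ c) (b ∩ d) A := fun i j e e' => by
  rw [Finset.mem_inter] at e e'
  by_cases hi : i ∈ a
  · exact h' i j (fun h => e ⟨hi, h⟩) e'.2
  · exact h i j hi e'.1

omit [Fintype ι] in
lemma Mp.union (h : Mp a b A) (h' : Mp c d A) : Mp (a ∪ c) (b ∪ d) A := fun i j e e' => by
  rw [Finset.mem_union] at e e'
  rcases e' with e' | e'
  · exact h i j (fun h => e (Or.inl h)) e'
  · exact h' i j (fun h => e (Or.inr h)) e'

/-- `A` is an isomorphism from the coordinates `s` to the coordinates `t` with inverse `A'`. -/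
structure TI (t s : Finset ι) (A A' : Matrix ι ι K) : Prop where
  sup : Sup t s A
  sup' : Sup s t A'
  mul : A * A' = E K t
  mul' : A' * A = E K s

lemma TI.symm (h : TI t s A A') : TI s t A' A := ⟨h.sup', h.sup, h.mul', h.mul⟩

lemma TI.refl (s : Finset ι) : TI s s (E K s) (E K s) := ⟨sup_E, sup_E, by simp, by simp⟩

lemma TI.trans (h : TI t m A A') (h' : TI m s B B') : TI t s (A * B) (B' * A') where
  sup := h.sup.mul h'.sup
  sup' := h'.sup'.mul h.sup'
  mul := by rw [Matrix.mul_assoc, ← Matrix.mul_assoc B, h'.mul, h.sup'.l, h.mul]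
  mul' := by rw [Matrix.mul_assoc, ← Matrix.mul_assoc A', h.mul', h'.sup.l, h'.mul']

lemma TI.smul (h : TI t s A A') {x y : K} (hxy : x * y = 1) : TI t s (x • A) (y • A') where
  sup := h.sup.smul x
  sup' := h.sup'.smul y
  mul := by simp [smul_smul, h.mul, hxy, mul_comm y x]
  mul' := by simp [smul_smul, h.mul', hxy]

/-- A right inverse with the right support is the inverse. -/
lemma TI.eq_inv (h : TI t s A A') (hB : E K s * B = B) (e : A * B = E K t) : B = A' := by
  rw [← hB, ← h.mul', Matrix.mul_assoc, e, h.sup'.r]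

/-- A left inverse with the right support is the inverse. -/
lemma TI.eq_inv' (h : TI t s A A') (hB : B * E K t = B) (e : B * A = E K s) : B = A' := by
  rw [← hB, ← h.mul, ← Matrix.mul_assoc, e, h.sup'.l]

lemma TI.unique (h : TI t s A A') (h' : TI t s A B) : B = A' := h.eq_inv h'.sup'.l h'.mul

lemma TI.card_eq [CharZero K] (h : TI t s A A') : t.card = s.card := by
  have := Matrix.trace_mul_comm A A'
  rw [h.mul, h.mul', trace_E, trace_E] at this
  exact_mod_cast this

/-- A graded piece of a filtered isomorphism. -/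
lemma TI.graded (h : TI t s A A') {f g f' g' : Finset ι} (hg : g ⊆ t) (hg' : g' ⊆ s)
    (h1 : Mp f f' A) (h2 : Mp g g' A) (h3 : Mp f' f A') (h4 : Mp g' g A') :
    TI (g \ f) (g' \ f') (blk (g \ f) (g' \ f') A) (blk (g' \ f') (g \ f) A') := by
  have key : ∀ {t s f g f' g' : Finset ι} {A A' : Matrix ι ι K}, A * A' = E K t → g ⊆ t →
      Mp f f' A → Mp g' g A' →
      blk (g \ f) (g' \ f') A * blk (g' \ f') (g \ f) A' = E K (g \ f) := by
    intro t s f g f' g' A A' e hg h1 h4
    ext i j
    have e' := congrFun (congrFun e i) j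
    rw [Matrix.mul_apply] at e' ⊢
    by_cases hi : i ∈ g \ f
    · by_cases hj : j ∈ g \ f
      · have : E K (g \ f) i j = E K t i j := by
          simp only [E_apply, hi, hg (Finset.mem_sdiff.1 hi).1]
        rw [this, ← e']
        refine Finset.sum_congr rfl fun k _ => ?_
        rw [blk_apply, blk_apply]
        by_cases hk : k ∈ g' \ f'
        · simp [hi, hj, hk]
        · rw [if_neg (by tauto), zero_mul]
          rw [Finset.mem_sdiff] at hk hi hj
          by_cases hk' : k ∈ g'
          · rw [h1 i k hi.2 (by tauto), zero_mul]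
          · rw [h4 k j hk' hj.1, mul_zero]
      · rw [sup_E i j (Or.inr hj)]
        exact Finset.sum_eq_zero fun k _ => by rw [sup_blk k j (Or.inr hj), mul_zero]
    · rw [sup_E i j (Or.inl hi)]
      exact Finset.sum_eq_zero fun k _ => by rw [sup_blk i k (Or.inl hi), zero_mul]
  exact ⟨sup_blk, sup_blk, key (s := s) h.mul hg h1 h4, key (s := t) h.mul' hg' h3 h2⟩

/-- A block triangular isomorphism `T` with diagonal blocks `y` (on the subspace) and `z`. -/
structure TM (t s ty sy tz sz : Finset ι) (T T' y y' z z' : Matrix ι ι K) : Prop where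
  iso : TI t s T T'
  isoy : TI ty sy y y'
  isoz : TI tz sz z z'
  ut : t = ty ∪ tz
  dt : Disjoint ty tz
  us : s = sy ∪ sz
  ds : Disjoint sy sz
  mp : Mp ty sy T
  by' : blk ty sy T = y
  bz : blk tz sz T = z

variable {ty sy tz sz : Finset ι} {T T' y y' z z' N : Matrix ι ι K}

lemma TM.mk' (hy : TI ty sy y y') (hz : TI tz sz z z') (dt : Disjoint ty tz) (ds : Disjoint sy sz)
    (hN : Sup ty sz N) :
    TM (ty ∪ tz) (sy ∪ sz) ty sy tz sz (y + z + N) (y' + z' - y' * N * z') y y' z z' := by
  have dt' := Finset.disjoint_left.1 dt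
  have ds' := Finset.disjoint_left.1 ds
  have hM : Sup sy tz (y' * N * z') := (hy.sup'.mul hN).mul hz.sup'
  have a1 : y * z' = 0 := hy.sup.mul_eq_zero hz.sup' ds
  have a2 : z * y' = 0 := hz.sup.mul_eq_zero hy.sup' ds.symm
  have a3 : N * y' = 0 := hN.mul_eq_zero hy.sup' ds.symm
  have a4 : y' * z = 0 := hy.sup'.mul_eq_zero hz.sup dt
  have a5 : z' * y = 0 := hz.sup'.mul_eq_zero hy.sup dt.symm
  have a6 : z' * N = 0 := hz.sup'.mul_eq_zero hN dt.symm
  have b1 : y * (y' * N * z') = N * z' := by
    rw [← Matrix.mul_assoc, ← Matrix.mul_assoc, hy.mul, hN.l]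
  have b2 : z * (y' * N * z') = 0 := hz.sup.mul_eq_zero hM ds.symm
  have b3 : N * (y' * N * z') = 0 := hN.mul_eq_zero hM ds.symm
  have c1 : y' * N * z' * z = y' * N := by
    rw [Matrix.mul_assoc, hz.mul', Matrix.mul_assoc, hN.r]
  have c2 : y' * N * z' * y = 0 := hM.mul_eq_zero hy.sup dt.symm
  have c3 : y' * N * z' * N = 0 := hM.mul_eq_zero hN dt.symm
  refine ⟨⟨?_, ?_, ?_, ?_⟩, hy, hz, rfl, dt, rfl, ds, ?_, ?_, ?_⟩
  · exact ((hy.sup.mono Finset.subset_union_left Finset.subset_union_left).add
      (hz.sup.mono Finset.subset_union_right Finset.subset_union_right)).add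
      (hN.mono Finset.subset_union_left Finset.subset_union_right)
  · exact ((hy.sup'.mono Finset.subset_union_left Finset.subset_union_left).add
      (hz.sup'.mono Finset.subset_union_right Finset.subset_union_right)).sub
      (hM.mono Finset.subset_union_left Finset.subset_union_right)
  · simp only [Matrix.add_mul, Matrix.mul_add, Matrix.mul_sub, a1, a2, a3, b1, b2, b3, hy.mul,
      hz.mul, E_union dt]
    abel
  · simp only [Matrix.add_mul, Matrix.mul_add, Matrix.sub_mul, a4, a5, a6, c1, c2, c3, hy.mul',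
      hz.mul', E_union ds]
    abel
  · intro i j hi hj
    simp [hy.sup i j (Or.inl hi), hz.sup i j (Or.inr (ds' hj)), hN i j (Or.inl hi)]
  · ext i j; rw [blk_apply]; split_ifs with e
    · simp [hz.sup i j (Or.inl (dt' e.1)), hN i j (Or.inr (ds' e.2))]
    · exact (hy.sup i j (by tauto)).symm
  · ext i j; rw [blk_apply]; split_ifs with e
    · simp [hy.sup i j (Or.inl fun h => dt' h e.1), hN i j (Or.inl fun h => dt' h e.1)]
    · exact (hz.sup i j (by tauto)).symm

lemma TM.eq_add (h : TM t s ty sy tz sz T T' y y' z z') : T = y + z + blk ty sz T := by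
  have dt' := Finset.disjoint_left.1 h.dt
  have ds' := Finset.disjoint_left.1 h.ds
  rw [← h.by', ← h.bz]
  ext i j
  have h1 := h.iso.sup i j
  have h2 := h.mp i j
  rw [h.ut, h.us] at h1
  simp only [Matrix.add_apply, blk_apply, Finset.mem_union] at h1 ⊢
  by_cases a : i ∈ ty <;> by_cases b : i ∈ tz <;> by_cases c : j ∈ sy <;> by_cases d : j ∈ sz <;>
    simp_all

/-- The inverse of a block triangular isomorphism. -/
lemma TM.inv_eq (h : TM t s ty sy tz sz T T' y y' z z') :
    T' = y' + z' - y' * blk ty sz T * z' := by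
  have := (TM.mk' h.isoy h.isoz h.dt h.ds (sup_blk (A := T))).iso
  rw [← h.eq_add, ← h.ut, ← h.us] at this
  exact this.unique h.iso

lemma TM.symm (h : TM t s ty sy tz sz T T' y y' z z') : TM s t sy ty sz tz T' T y' y z' z := by
  have hM : Sup sy tz (-(y' * blk ty sz T * z')) := by
    have := ((h.isoy.sup'.mul (sup_blk (t := ty) (s := sz) (A := T))).mul h.isoz.sup').smul (-1)
    simpa using this
  have := TM.mk' h.isoy.symm h.isoz.symm h.ds h.dt hM
  rw [← sub_eq_add_neg, ← h.inv_eq, ← h.ut, ← h.us] at this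
  exact ⟨h.iso.symm, h.isoy.symm, h.isoz.symm, h.us, h.ds, h.ut, h.dt, this.mp, this.by', this.bz⟩

/-- An isomorphism that respects a pair of subspaces is block triangular. -/
lemma TM.of_TI (h : TI t s T T') (ha : a ⊆ t) (hb : b ⊆ s) (h1 : Mp a b T) (h2 : Mp b a T') :
    TM t s a b (t \ a) (s \ b) T T' (blk a b T) (blk b a T') (blk (t \ a) (s \ b) T)
      (blk (s \ b) (t \ a) T') where
  iso := h
  isoy := by
    simpa using h.graded (f := ∅) (f' := ∅) ha hb (fun _ _ _ h => by simp at h) h1
      (fun _ _ _ h => by simp at h) h2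
  isoz := h.graded le_rfl le_rfl h1 h.sup.mp h2 h.sup'.mp
  ut := (Finset.union_sdiff_of_subset ha).symm
  dt := Finset.disjoint_sdiff
  us := (Finset.union_sdiff_of_subset hb).symm
  ds := Finset.disjoint_sdiff
  mp := h1
  by' := rfl
  bz := rfl

lemma TM.suby (h : TM t s ty sy tz sz T T' y y' z z') : ty ⊆ t := by
  rw [h.ut]; exact Finset.subset_union_left

lemma TM.suby' (h : TM t s ty sy tz sz T T' y y' z z') : sy ⊆ s := by
  rw [h.us]; exact Finset.subset_union_left

lemma TM.tz_eq (h : TM t s ty sy tz sz T T' y y' z z') : tz = t \ ty := by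
  rw [h.ut, Finset.union_sdiff_cancel_left h.dt]

lemma TM.sz_eq (h : TM t s ty sy tz sz T T' y y' z z') : sz = s \ sy := by
  rw [h.us, Finset.union_sdiff_cancel_left h.ds]

lemma blk_mul_sub (h : Mp m s B) : blk t s (A * B) = blk t m A * blk m s B := by
  simp only [blk, Matrix.mul_assoc]
  rw [← Matrix.mul_assoc (E K m) (E K m), E_mul_self, mp_iff.1 h]

lemma blk_mul_quot {q : Finset ι} (hA : Sup a q A) (h : Mp b m A) (ht : Disjoint t b) :
    blk t s (A * B) = blk t (q \ m) A * blk (q \ m) s B := by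
  have : E K t * A = E K t * A * E K (q \ m) := by
    ext i j
    rw [mul_E_apply, E_mul_apply]
    by_cases hi : i ∈ t
    · by_cases hj : j ∈ q \ m
      · simp [hj]
      · rw [if_neg hj, if_pos hi]
        rw [Finset.mem_sdiff] at hj
        by_cases hq : j ∈ q
        · exact h i j (Finset.disjoint_left.1 ht hi) (by tauto)
        · exact hA i j (Or.inr hq)
    · simp [hi]
  simp only [blk, ← Matrix.mul_assoc]
  rw [Matrix.mul_assoc _ (E K (q \ m)) (E K (q \ m)), E_mul_self, ← this]

/-- Products of block triangular isomorphisms. -/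
lemma TM.trans {my mz : Finset ι} {U U' v v' w w' : Matrix ι ι K}
    (h : TM t m ty my tz mz T T' y y' z z') (h' : TM m s my sy mz sz U U' v v' w w') :
    TM t s ty sy tz sz (T * U) (U' * T') (y * v) (v' * y') (z * w) (w' * z') where
  iso := h.iso.trans h'.iso
  isoy := h.isoy.trans h'.isoy
  isoz := h.isoz.trans h'.isoz
  ut := h.ut
  dt := h.dt
  us := h'.us
  ds := h'.ds
  mp := h.mp.mul h'.mp
  by' := by rw [blk_mul_sub h'.mp, h.by', h'.by']
  bz := by rw [blk_mul_quot h.iso.sup h.mp h.dt.symm, ← h.sz_eq, h.bz, h'.bz]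

end Vale.Agent.P002b
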