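import Vale.Agent.P002b.Aff

/-! Basic facts on the Zariski closure and on density of integral points. -/

namespace Vale.Agent.P002b

open Matrix

variable {O K : Type} [CommRing O] [Field K] [Algebra O K]
variable {X Y Z : Type} [Aff K X] [Aff K Y] [Aff K Z]

lemma subset_cl {S : Set X} : S ⊆ cl K S := fun x hx _ _ h => h x hx

lemma mem_cl_of_mem {S : Set X} {x : X} (hx : x ∈ S) : x ∈ cl K S := subset_cl hx

lemma cl_mono {S T : Set X} (h : S ⊆ T) : cl K S ⊆ cl K T :=
  fun _ hx f hf hT => hx f hf fun y hy => hT y (h hy)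

lemma cl_subset_cl {S T : Set X} (h : S ⊆ cl K T) : cl K S ⊆ cl K T :=
  fun _ hx f hf hT => hx f hf fun _ hy => h hy f hf hT

lemma IsP.mem_cl {f : X → Y} (hf : IsP K f) {S : Set X} {T : Set Y}
    (h : ∀ y ∈ S, f y ∈ cl K T) {x : X} (hx : x ∈ cl K S) : f x ∈ cl K T :=
  fun g hg hT => hx (fun x => g (f x)) (hf.comp_pol hg) fun y hy => h y hy g hg hT

lemma IsP.eq_zero_of_cl {f : X → K} (hf : IsP K f) {S : Set X} (h : ∀ y ∈ S, f y = 0) {x : X}
    (hx : x ∈ cl K S) : f x = 0 := hx f (isP_iff.1 hf) h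

lemma mem_cl_iff {S : Set X} {x : X} :
    x ∈ cl K S ↔ ∀ f : X → K, IsP K f → (∀ y ∈ S, f y = 0) → f x = 0 :=
  ⟨fun hx _ hf h => hf.eq_zero_of_cl h hx, fun h f hf => h f (isP_iff.2 hf)⟩

/-- A polynomial identity between two maps passes to the closure. -/
lemma IsP.eq_of_cl_mat {m n : Type} {f g : X → Matrix m n K} (hf : IsP K f) (hg : IsP K g)
    {S : Set X} (h : ∀ y ∈ S, f y = g y) {x : X} (hx : x ∈ cl K S) : f x = g x := by
  ext i j
  have := ((hf.entry i j).sub (hg.entry i j)).eq_zero_of_cl (S := S)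
    (fun y hy => by simp [h y hy]) hx
  exact sub_eq_zero.1 this

lemma mem_cl_prod {S : Set X} {T : Set Y} {x : X} {y : Y} (hx : x ∈ cl K S) (hy : y ∈ cl K T) :
    (x, y) ∈ cl K (S ×ˢ T) := by
  refine IsP.mem_cl (f := fun x => (x, y)) (by fun_prop) (fun a ha => ?_) hx
  exact IsP.mem_cl (f := fun y => (a, y)) (by fun_prop) (fun b hb => mem_cl_of_mem (Set.mk_mem_prod ha hb)) hy

/-- Two-variable version of `IsP.mem_cl`. -/
lemma IsP.mem_cl₂ {f : X → Y → Z} (hf : IsP K fun p : X × Y => f p.1 p.2) {S : Set X} {T : Set Y}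
    {U : Set Z} (h : ∀ a ∈ S, ∀ b ∈ T, f a b ∈ cl K U) {x : X} {y : Y} (hx : x ∈ cl K S)
    (hy : y ∈ cl K T) : f x y ∈ cl K U :=
  hf.mem_cl (S := S ×ˢ T) (fun _ hp => h _ hp.1 _ hp.2) (mem_cl_prod hx hy)

lemma mem_cl_pi {σ : Type} [Finite σ] {S : σ → Set Y} {x : σ → Y} (hx : ∀ a, x a ∈ cl K (S a)) :
    x ∈ cl K (Set.pi Set.univ S) := by
  classical
  have key : ∀ s : Finset σ, ∀ x : σ → Y, (∀ a, x a ∈ cl K (S a)) → (∀ a, a ∉ s → x a ∈ S a) →
      x ∈ cl K (Set.pi Set.univ S) := by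
    intro s
    induction s using Finset.induction_on with
    | empty => exact fun x _ h => subset_cl fun a _ => h a (by simp)
    | insert a s ha ih =>
      intro x hx h
      have := IsP.mem_cl (f := fun y => Function.update x a y) (T := Set.pi Set.univ S)
        (by fun_prop) (S := S a) (fun y hy => ih _ (fun b => ?_) (fun b hb => ?_)) (hx a)
      · simpa using this
      · by_cases e : b = a
        · subst e; simpa using subset_cl hy
        · simpa [Function.update_of_ne e] using hx b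
      · by_cases e : b = a
        · subst e; simpa using hy
        · simpa [Function.update_of_ne e] using h b (by simp [e, hb])
  cases nonempty_fintype σ
  exact key Finset.univ x hx (by simp)

lemma mem_cl_open {S : Set X} {x : X} {δ : X → K} (hδ : IsP K δ) (hx : x ∈ cl K S)
    (h0 : δ x ≠ 0) : x ∈ cl K {y | y ∈ S ∧ δ y ≠ 0} := by
  rw [mem_cl_iff]
  intro f hf h
  have := (hδ.mul hf).eq_zero_of_cl (S := S) (fun y hy => by
    by_cases e : δ y = 0
    · simp [e]
    · simp [h y ⟨hy, e⟩]) hx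
  exact (mul_eq_zero.1 this).resolve_left h0

lemma isP_K_iff {f : K → K} : IsP K f ↔ ∃ p : Polynomial K, ∀ t, f t = p.eval t := by
  constructor
  · intro hf
    rw [isP_iff] at hf
    induction hf using Algebra.adjoin_induction with
    | mem g hg => obtain ⟨i, rfl⟩ := hg; exact ⟨Polynomial.X, fun t => by simp; rfl⟩
    | algebraMap r => exact ⟨Polynomial.C r, fun t => by simp⟩
    | add g h _ _ a b =>
      obtain ⟨p, hp⟩ := a; obtain ⟨q, hq⟩ := b
      exact ⟨p + q, fun t => by simp [hp, hq]⟩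
    | mul g h _ _ a b =>
      obtain ⟨p, hp⟩ := a; obtain ⟨q, hq⟩ := b
      exact ⟨p * q, fun t => by simp [hp, hq]⟩
  · rintro ⟨p, hp⟩
    have : f = fun t => ∑ i ∈ Finset.range (p.natDegree + 1), p.coeff i * t ^ i := by
      ext t; rw [hp, Polynomial.eval_eq_sum_range]
    rw [this]; fun_prop

lemma mem_cl_of_infinite {T : Set K} (hT : T.Infinite) (t : K) : t ∈ cl K T := by
  rw [mem_cl_iff]
  intro f hf h
  obtain ⟨p, hp⟩ := isP_K_iff.1 hf
  have : p = 0 := Polynomial.eq_zero_of_infinite_isRoot p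
    (hT.mono fun s hs => by simpa [← hp] using h s hs)
  simp [hp, this]

/-- A polynomial curve that meets a closed set infinitely often lies in it. -/
lemma IsP.mem_cl_line {γ : K → X} (hγ : IsP K γ) {T : Set K} (hT : T.Infinite) {S : Set X}
    (h : ∀ t ∈ T, γ t ∈ cl K S) (t : K) : γ t ∈ cl K S :=
  hγ.mem_cl h (mem_cl_of_infinite hT t)

/-- A nonzero polynomial function of one variable is nonzero at infinitely many points. -/
lemma IsP.infinite_ne [Infinite K] {f : K → K} (hf : IsP K f) {t₀ : K} (h : f t₀ ≠ 0) :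
    {t | f t ≠ 0}.Infinite := by
  obtain ⟨p, hp⟩ := isP_K_iff.1 hf
  have hp0 : p ≠ 0 := by rintro rfl; simp [hp] at h
  have : {t | f t ≠ 0} = {t | p.IsRoot t}ᶜ := by ext t; simp [hp]
  rw [this]
  exact (Polynomial.finite_setOfPred_isRoot hp0).infinite_compl

lemma pol_iff_mv {f : X → K} :
    f ∈ pol K X ↔ ∃ p : MvPolynomial (Aff.ι K X) K,
      ∀ x, f x = MvPolynomial.eval (fun i => Aff.co i x) p := by
  rw [pol, Algebra.adjoin_range_eq_range_aeval]
  have key : ∀ (p : MvPolynomial (Aff.ι K X) K) x, (MvPolynomial.aeval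
      (Aff.co : Aff.ι K X → X → K) p) x = MvPolynomial.eval (fun i => Aff.co i x) p := by
    intro p x
    induction p using MvPolynomial.induction_on with
    | C a => simp
    | add p q hp hq => simp [hp, hq]
    | mul_X p i hp => simp [hp]
  constructor
  · rintro ⟨p, rfl⟩; exact ⟨p, fun x => key p x⟩
  · rintro ⟨p, hp⟩; exact ⟨p, by ext x; rw [hp]; exact key p x⟩

lemma dn_univ [Infinite O] [FaithfulSMul O K]
    (h : Function.Surjective fun (x : X) (i : Aff.ι K X) => Aff.co i x) :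
    Dn O K (Set.univ : Set X) := by
  intro x _ f hf h0
  obtain ⟨p, hp⟩ := pol_iff_mv.1 hf
  have : p = 0 := by
    refine MvPolynomial.funext_set (fun _ => Set.range (algebraMap O K))
      (fun _ => Set.infinite_range_of_injective (FaithfulSMul.algebraMap_injective O K)) ?_
    intro v hv
    obtain ⟨y, rfl⟩ := h v
    rw [← hp, map_zero]
    exact h0 y ⟨trivial, fun i => hv i trivial⟩
  simp [hp, this]

lemma dn_univ_K [Infinite O] [FaithfulSMul O K] : Dn O K (Set.univ : Set K) :=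
  dn_univ fun v => ⟨v (), rfl⟩

lemma dn_univ_mat [Infinite O] [FaithfulSMul O K] {m n : Type} :
    Dn O K (Set.univ : Set (Matrix m n K)) :=
  dn_univ fun v => ⟨Matrix.of fun i j => v (i, j), rfl⟩

lemma dn_univ_pi_mat [Infinite O] [FaithfulSMul O K] {σ m n : Type} :
    Dn O K (Set.univ : Set (σ → Matrix m n K)) :=
  dn_univ fun v => ⟨fun a => Matrix.of fun i j => v (a, i, j), rfl⟩

/-- A polynomial function on a product depends on finitely many factors. -/
lemma pol_pi_finite {σ : Type} {f : (σ → Y) → K} (hf : f ∈ pol K (σ → Y)) :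
    ∃ W : Finset σ, ∀ x y : σ → Y, (∀ a ∈ W, x a = y a) → f x = f y := by
  classical
  induction hf using Algebra.adjoin_induction with
  | mem g hg =>
    obtain ⟨⟨a, i⟩, rfl⟩ := hg
    exact ⟨{a}, fun x y h => congrArg (Aff.co i) (h a (by simp))⟩
  | algebraMap r => exact ⟨∅, fun _ _ _ => rfl⟩
  | add g h _ _ a b =>
    obtain ⟨V, hV⟩ := a; obtain ⟨W, hW⟩ := b
    refine ⟨V ∪ W, fun x y e => ?_⟩
    simp only [Pi.add_apply]
    rw [hV x y fun a ha => e a (by simp [ha]), hW x y fun a ha => e a (by simp [ha])]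
  | mul g h _ _ a b =>
    obtain ⟨V, hV⟩ := a; obtain ⟨W, hW⟩ := b
    refine ⟨V ∪ W, fun x y e => ?_⟩
    simp only [Pi.mul_apply]
    rw [hV x y fun a ha => e a (by simp [ha]), hW x y fun a ha => e a (by simp [ha])]

/-! ### Good points -/

lemma Gd.of_int {S : Set X} {x : X} (hx : x ∈ S) (hi : IsInt O K x) : Gd O K S x :=
  mem_cl_of_mem ⟨hx, hi⟩

lemma Gd.mono {S T : Set X} (h : S ⊆ T) {x : X} (hx : Gd O K S x) : Gd O K T x :=
  cl_mono (S := {y | y ∈ S ∧ IsInt O K y}) (T := {y | y ∈ T ∧ IsInt O K y})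
    (fun _ hy => ⟨h hy.1, hy.2⟩) hx

lemma Gd.map {f : X → Y} (hf : PM O K f) {S : Set X} {T : Set Y} (h : ∀ y ∈ S, f y ∈ T) {x : X}
    (hx : Gd O K S x) : Gd O K T (f x) :=
  hf.1.mem_cl (T := {y | y ∈ T ∧ IsInt O K y})
    (fun y hy => mem_cl_of_mem ⟨h y hy.1, hf.2 y hy.2⟩) hx

lemma Gd.of_cl {S T : Set X} (h : ∀ y ∈ T, Gd O K S y) {x : X} (hx : x ∈ cl K T) : Gd O K S x :=
  cl_subset_cl h hx

lemma Gd.prod {S : Set X} {T : Set Y} {x : X} {y : Y} (hx : Gd O K S x) (hy : Gd O K T y) :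
    Gd O K (S ×ˢ T) (x, y) :=
  cl_mono (T := {y | y ∈ S ×ˢ T ∧ IsInt O K y})
    (fun _ h => ⟨⟨h.1.1, h.2.1⟩, isInt_prod.2 ⟨h.1.2, h.2.2⟩⟩) (mem_cl_prod hx hy)

lemma Gd.pi {σ : Type} [Finite σ] {S : σ → Set Y} {x : σ → Y} (hx : ∀ a, Gd O K (S a) (x a)) :
    Gd O K (Set.pi Set.univ S) x :=
  cl_mono (T := {y | y ∈ Set.pi Set.univ S ∧ IsInt O K y})
    (fun _ h => ⟨fun a ha => (h a ha).1, isInt_pi.2 fun a => (h a trivial).2⟩)
    (mem_cl_pi hx)

lemma Gd.open {S : Set X} {x : X} {δ : X → K} (hδ : IsP K δ) (hx : Gd O K S x) (h0 : δ x ≠ 0) :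
    Gd O K {y | y ∈ S ∧ δ y ≠ 0} x :=
  cl_mono (T := {y | y ∈ {y | y ∈ S ∧ δ y ≠ 0} ∧ IsInt O K y})
    (fun _ h => ⟨⟨h.1.1, h.2⟩, h.1.2⟩) (mem_cl_open hδ hx h0)

lemma Gd.line {γ : K → X} (hγ : IsP K γ) {T : Set K} (hT : T.Infinite) {S : Set X}
    (h : ∀ t ∈ T, Gd O K S (γ t)) (t : K) : Gd O K S (γ t) := hγ.mem_cl_line hT h t

lemma Dn.prod {S : Set X} {T : Set Y} (hS : Dn O K S) (hT : Dn O K T) : Dn O K (S ×ˢ T) :=
  fun _ hp => (hS _ hp.1).prod (hT _ hp.2)

lemma Dn.pi {σ : Type} [Finite σ] {S : σ → Set Y} (h : ∀ a, Dn O K (S a)) :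
    Dn O K (Set.pi Set.univ S) := fun _ hx => Gd.pi fun a => h a _ (hx a trivial)

/-- The image of a set with dense integral points under an integral polynomial map. -/
lemma Dn.of_surj {f : X → Y} (hf : PM O K f) {S : Set X} {T : Set Y} (hS : Dn O K S)
    (h : ∀ y ∈ S, f y ∈ T) (hs : ∀ z ∈ T, ∃ y ∈ S, f y = z) : Dn O K T := fun z hz => by
  obtain ⟨y, hy, rfl⟩ := hs z hz
  exact (hS y hy).map hf h

/-- Conditions on disjoint sets of variables. -/
lemma Gd.inter {σ : Type} (D : Set σ) {S T : Set (σ → Y)}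
    (hS : ∀ x y : σ → Y, (∀ a ∈ D, x a = y a) → x ∈ S → y ∈ S)
    (hT : ∀ x y : σ → Y, (∀ a, a ∉ D → x a = y a) → x ∈ T → y ∈ T)
    {x : σ → Y} (h₁ : Gd O K S x) (h₂ : Gd O K T x) : Gd O K (S ∩ T) x := by
  classical
  have := (h₁.prod h₂).map (T := S ∩ T)
    (f := fun p : (σ → Y) × (σ → Y) => fun a => if a ∈ D then p.1 a else p.2 a)
    (PM.pi fun a => PM.ite _ (by fun_prop) (by fun_prop))
    (fun p hp => ⟨hS p.1 _ (fun a ha => by simp [ha]) hp.1, hT p.2 _ (fun a ha => by simp [ha]) hp.2⟩)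
  simpa using this

/-! ### Adjoining a root -/

lemma pol_prod_K {F : X × K → K} (hF : F ∈ pol K (X × K)) :
    ∃ P : Polynomial (pol K X), ∀ y μ, F (y, μ) = P.sum fun e a => (a : X → K) y * μ ^ e := by
  have ev : ∀ (y : X) (μ : K) (P : Polynomial (pol K X)), (P.sum fun e a => (a : X → K) y * μ ^ e)
      = P.eval₂ ((Pi.evalRingHom (fun _ => K) y).comp (pol K X).val.toRingHom) μ :=
    fun y μ P => by rw [Polynomial.eval₂_eq_sum]; rfl
  simp only [ev]
  induction hF using Algebra.adjoin_induction with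
  | mem g hg =>
    obtain ⟨i, rfl⟩ := hg
    cases i with
    | inl i => exact ⟨Polynomial.C ⟨_, co_mem_pol i⟩, fun y μ => by simp; rfl⟩
    | inr i => exact ⟨Polynomial.X, fun y μ => by simp; rfl⟩
  | algebraMap r => exact ⟨Polynomial.C (algebraMap K _ r), fun y μ => by simp⟩
  | add g h _ _ a b =>
    obtain ⟨p, hp⟩ := a; obtain ⟨q, hq⟩ := b
    exact ⟨p + q, fun y μ => by rw [Polynomial.eval₂_add, ← hp, ← hq]; rfl⟩
  | mul g h _ _ a b =>
    obtain ⟨p, hp⟩ := a; obtain ⟨q, hq⟩ := b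
    exact ⟨p * q, fun y μ => by rw [Polynomial.eval₂_mul, ← hp, ← hq]; rfl⟩

lemma root_reduce {u : X → K} (hu : IsP K u) {r : ℕ} (hr : 0 < r) (P : Polynomial (pol K X)) :
    ∃ (k : ℕ) (q : ℕ → X → K), (∀ e, IsP K (q e)) ∧ ∀ y (μ : K), μ ^ r * u y = 1 →
      u y ^ k * (P.sum fun e a => (a : X → K) y * μ ^ e) = ∑ e ∈ Finset.range r, q e y * μ ^ e := by
  induction P using Polynomial.induction_on' with
  | add p p' hp hp' =>
    obtain ⟨k, q, hq, h⟩ := hp
    obtain ⟨k', q', hq', h'⟩ := hp'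
    refine ⟨k + k', fun e y => u y ^ k' * q e y + u y ^ k * q' e y, fun e => by fun_prop,
      fun y μ hμ => ?_⟩
    rw [Polynomial.sum_add_index _ _ _ (by simp) (by simp [add_mul])]
    have e1 := h y μ hμ
    have e2 := h' y μ hμ
    simp only [add_mul, Finset.sum_add_distrib, mul_assoc, ← Finset.mul_sum]
    rw [← e1, ← e2]; ring
  | monomial n a =>
    have ha : IsP K (a : X → K) := isP_iff.2 a.2
    refine ⟨n / r, fun e y => if e = n % r then (a : X → K) y else 0,
      fun e => IsP.ite _ ha (IsP.const _), fun y μ hμ => ?_⟩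
    rw [Polynomial.sum_monomial_index _ _ (by simp), Finset.sum_eq_single (n % r)
      (fun b _ hb => by simp [hb]) (fun h => absurd (Finset.mem_range.2 (Nat.mod_lt _ hr)) h)]
    have : μ ^ n = (μ ^ r) ^ (n / r) * μ ^ (n % r) := by
      rw [← pow_mul, ← pow_add, Nat.div_add_mod]
    rw [this]
    simp only [if_true]
    calc _ = (μ ^ r * u y) ^ (n / r) * ((a : X → K) y * μ ^ (n % r)) := by ring
      _ = _ := by rw [hμ]; simp

/-- Density passes to the cover obtained by adjoining an `r`-th root of `u⁻¹`. -/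
lemma mem_cl_root [IsAlgClosed K] [CharZero K] {u : X → K} (hu : IsP K u) {r : ℕ} (hr : 0 < r)
    {S : Set X} {x : X} (hx : x ∈ cl K S) {μ : K} (hμ : μ ^ r * u x = 1) :
    (x, μ) ∈ cl K {p : X × K | p.1 ∈ S ∧ p.2 ^ r * u p.1 = 1} := by
  classical
  intro F hF h0
  obtain ⟨P, hP⟩ := pol_prod_K hF
  obtain ⟨k, q, hq, h⟩ := root_reduce hu hr P
  have hux : u x ≠ 0 := by rintro e; simp [e] at hμ
  have key : ∀ e ∈ Finset.range r, u x * q e x = 0 := by
    intro e he
    refine (hu.mul (hq e)).eq_zero_of_cl (S := S) (fun y hy => ?_) hx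
    by_cases huy : u y = 0
    · simp [huy]
    have : NeZero r := ⟨hr.ne'⟩
    obtain ⟨ζ, hζ⟩ := HasEnoughRootsOfUnity.exists_primitiveRoot K r
    set p : Polynomial K := ∑ e ∈ Finset.range r, Polynomial.monomial e (q e y) with hp
    have hdeg : p.degree < r := by
      refine (Polynomial.degree_sum_le _ _).trans_lt ((Finset.sup_lt_iff ?_).2 fun e he => ?_)
      · exact WithBot.bot_lt_coe r
      · exact (Polynomial.degree_monomial_le _ _).trans_lt
          (by exact_mod_cast Finset.mem_range.1 he)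
    have hp0 : p = 0 := by
      obtain ⟨ν, hν⟩ := IsAlgClosed.exists_pow_nat_eq (u y)⁻¹ hr
      refine Polynomial.eq_zero_of_degree_lt_of_eval_finset_eq_zero
        (Polynomial.nthRootsFinset r (u y)⁻¹) ?_ fun μ hμ => ?_
      · have hc : (Polynomial.nthRootsFinset r (u y)⁻¹).card = r := by
          rw [Polynomial.nthRootsFinset_def, Multiset.toFinset_card_of_nodup
            (hζ.nthRoots_nodup (inv_ne_zero huy)), hζ.card_nthRoots, if_pos ⟨ν, hν⟩]
        rwa [hc]
      · have hμ' : μ ^ r * u y = 1 := by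
          rw [(Polynomial.mem_nthRootsFinset hr _).1 hμ, inv_mul_cancel₀ huy]
        have := h y μ hμ'
        rw [← hP, h0 (y, μ) ⟨hy, hμ'⟩, mul_zero] at this
        simpa [hp, Polynomial.eval_finsetSum] using this.symm
    have := congrArg (fun p => p.coeff e) hp0
    simp only [hp, Polynomial.finsetSum_coeff, Polynomial.coeff_monomial, Finset.sum_ite_eq',
      if_pos he, Polynomial.coeff_zero] at this
    simp [this]
  have := h x μ hμ
  rw [← hP, Finset.sum_eq_zero fun e he => by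
    rw [(mul_eq_zero.1 (key e he)).resolve_left hux, zero_mul]] at this
  exact (mul_eq_zero.1 this).resolve_left (pow_ne_zero _ hux)

/-- Adjoining the inverse of a polynomial function. -/
lemma mem_cl_inv [IsAlgClosed K] [CharZero K] {u : X → K} (hu : IsP K u)
    {S : Set X} {x : X} (hx : x ∈ cl K S) (h : u x ≠ 0) :
    (x, (u x)⁻¹) ∈ cl K {p : X × K | p.1 ∈ S ∧ p.2 * u p.1 = 1} := by
  simpa using mem_cl_root hu one_pos hx (μ := (u x)⁻¹) (by simp [h])

end Vale.Agent.P002b
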